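import Vale.Agent.P192.Sys

/-! The Capelli identity kills sums over exchange closed sets of words.

An entry of the word product is a sum over paths of indices. Two of the `m` segments have the same
pair of end indices, and exchanging them (in the word and in the path) is an involution without
fixed points that keeps the weight. -/

namespace Vale.Agent.P192

open Finset

theorem capelli_path {K ι : Type} [CommRing K] [Fintype ι] [DecidableEq ι] (a : ι) (L : ℕ) :
    ∃ P : Finset (ℕ → ι), (∀ γ, γ ∈ P ↔ γ 0 = a ∧ ∀ n, L < n → γ n = a) ∧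
      ∀ (f : ℕ → Matrix ι ι K) (b : ι), ((List.range L).map f).prod a b =
        ∑ γ ∈ P, if γ L = b then ∏ n ∈ range L, f n (γ n) (γ (n + 1)) else 0 := by
  classical
  induction L with
  | zero =>
    refine ⟨{fun _ => a}, fun γ => ?_, fun f b => by
      rw [sum_singleton]; simp [Matrix.one_apply]⟩
    rw [mem_singleton]
    refine ⟨fun h => by simp [h], fun h => funext fun n => ?_⟩
    rcases n.eq_zero_or_pos with rfl | hn
    · exact h.1
    · exact h.2 n hn
  | succ L ih =>
    obtain ⟨P, hP, hf⟩ := ih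
    refine ⟨(P ×ˢ univ).image fun x => Function.update x.1 (L + 1) x.2, fun γ => ?_, fun f b => ?_⟩
    · rw [mem_image]
      constructor
      · rintro ⟨⟨δ, c⟩, h, rfl⟩
        obtain ⟨h1, h2⟩ := (hP δ).1 (mem_product.1 h).1
        refine ⟨by simpa using h1, fun n hn => ?_⟩
        rw [Function.update_of_ne (by omega)]
        exact h2 n (by omega)
      · rintro ⟨h1, h2⟩
        refine ⟨(Function.update γ (L + 1) a, γ (L + 1)), mem_product.2 ⟨(hP _).2
          ⟨by simpa using h1, fun n hn => ?_⟩, mem_univ _⟩, by simp⟩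
        by_cases h : n = L + 1
        · simp [h]
        · exact (Function.update_of_ne h _ _).trans (h2 n (by omega))
    · rw [sum_image, sum_product, List.range_succ, List.map_append, List.prod_append,
        Matrix.mul_apply]
      · simp only [hf, sum_mul]
        rw [sum_comm]
        refine sum_congr rfl fun γ _ => ?_
        simp only [Function.update_self, sum_ite_eq', mem_univ, if_true, ite_mul, zero_mul,
          sum_ite_eq, prod_range_succ]
        congr 1
        · refine prod_congr rfl fun n hn => ?_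
          have := mem_range.1 hn
          rw [Function.update_of_ne (by omega), Function.update_of_ne (by omega)]
        · simp
      · rintro ⟨δ, c⟩ h ⟨δ', c'⟩ h' e
        have h1 := ((hP δ).1 (mem_product.1 h).1).2 (L + 1) (by omega)
        have h2 := ((hP δ').1 (mem_product.1 h').1).2 (L + 1) (by omega)
        refine Prod.ext (funext fun n => ?_) (by simpa using congrFun e (L + 1))
        by_cases hn : n = L + 1
        · rw [hn]; exact h1.trans h2.symm
        · simpa [Function.update_of_ne hn] using congrFun e n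

theorem capelli_invol {p q l : ℕ} (h : p + l ≤ q) (n : ℕ) :
    swapIdx p q l (swapIdx p q l n) = n := by
  unfold swapIdx
  split_ifs <;> omega

theorem capelli_lt {p q l L n : ℕ} (h : p + l ≤ q) (h' : q + l ≤ L) (hn : n < L) :
    swapIdx p q l n < L := by
  unfold swapIdx
  split_ifs <;> omega

theorem capelli_fix {ι : Type} {γ : ℕ → ι} {p q l n : ℕ} (h1 : γ p = γ q)
    (hn : n ≤ p ∨ (p + l ≤ n ∧ n ≤ q) ∨ q + l ≤ n) (h : p + l ≤ q) :
    γ (swapIdx p q l n) = γ n := by
  unfold swapIdx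
  split_ifs with a b
  · obtain rfl : n = p := by omega
    simpa using h1.symm
  · obtain rfl : n = q := by omega
    simpa using h1
  · rfl

theorem capelli_succ {ι : Type} {γ : ℕ → ι} {p q l : ℕ} (h1 : γ p = γ q)
    (h2 : γ (p + l) = γ (q + l)) (h : p + l ≤ q) (n : ℕ) :
    γ (swapIdx p q l (n + 1)) = γ (swapIdx p q l n + 1) := by
  by_cases hn : n + 1 ≤ p ∨ (p + l ≤ n + 1 ∧ n + 1 ≤ q) ∨ q + l ≤ n + 1
  · rw [capelli_fix h1 hn h]
    unfold swapIdx
    split_ifs with a b
    · rw [show n + 1 = p + l by omega, show n - p + q + 1 = q + l by omega, h2]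
    · rw [show n + 1 = q + l by omega, show n - q + p + 1 = p + l by omega, h2]
    · rfl
  · congr 1
    unfold swapIdx
    split_ifs <;> omega

theorem capelli {X K ι : Type} [CommRing K] [IsDomain K] (h2 : (2 : K) = 0) [Fintype ι]
    [DecidableEq ι] (μ : X → Matrix ι ι K) (L m : ℕ) (hm : Fintype.card ι ^ 2 < m)
    (C : Finset (ℕ → X)) (sel : (ℕ → X) → ℕ × (Fin m → ℕ))
    (hord : ∀ w ∈ C, ∀ i j : Fin m, i < j → (sel w).2 i + (sel w).1 ≤ (sel w).2 j)
    (hbd : ∀ w ∈ C, ∀ i, (sel w).2 i + (sel w).1 ≤ L)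
    (hsw : ∀ w ∈ C, ∀ i j : Fin m, i < j →
      w ∘ swapIdx ((sel w).2 i) ((sel w).2 j) (sel w).1 ∈ C ∧
      sel (w ∘ swapIdx ((sel w).2 i) ((sel w).2 j) (sel w).1) = sel w ∧
      w ∘ swapIdx ((sel w).2 i) ((sel w).2 j) (sel w).1 ≠ w) :
    ∑ w ∈ C, ((List.range L).map fun i => μ (w i)).prod = 0 := by
  have pig : ∀ β : Fin m → ι × ι, ∃ i j, i < j ∧ β i = β j := by
    intro β
    obtain ⟨i, j, h, e⟩ := Fintype.exists_ne_map_eq_of_card_lt β (by simpa [sq] using hm)
    rcases lt_or_gt_of_ne h with h | h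
    · exact ⟨i, j, h, e⟩
    · exact ⟨j, i, h, e.symm⟩
  choose I J hIJ hβ using pig
  ext a b
  obtain ⟨P, hP, hf⟩ := capelli_path (K := K) a L
  rw [Matrix.sum_apply, Matrix.zero_apply]
  simp only [hf]
  rw [← sum_product']
  let β : (ℕ → X) × (ℕ → ι) → Fin m → ι × ι := fun x k =>
    (x.2 ((sel x.1).2 k), x.2 ((sel x.1).2 k + (sel x.1).1))
  let τ : (ℕ → X) × (ℕ → ι) → ℕ → ℕ := fun x =>
    swapIdx ((sel x.1).2 (I (β x))) ((sel x.1).2 (J (β x))) (sel x.1).1
  have e1 : ∀ x : (ℕ → X) × (ℕ → ι), x.2 ((sel x.1).2 (I (β x))) =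
      x.2 ((sel x.1).2 (J (β x))) := fun x => congrArg Prod.fst (hβ (β x))
  have e2 : ∀ x : (ℕ → X) × (ℕ → ι), x.2 ((sel x.1).2 (I (β x)) + (sel x.1).1) =
      x.2 ((sel x.1).2 (J (β x)) + (sel x.1).1) := fun x => congrArg Prod.snd (hβ (β x))
  have o := fun x (hx : x ∈ C ×ˢ P) => hord x.1 (mem_product.1 hx).1 _ _ (hIJ (β x))
  have s := fun x (hx : x ∈ C ×ˢ P) => hsw x.1 (mem_product.1 hx).1 _ _ (hIJ (β x))
  have bd := fun x (hx : x ∈ C ×ˢ P) => hbd x.1 (mem_product.1 hx).1 (J (β x))
  refine sum_involution (fun x _ => (x.1 ∘ τ x, x.2 ∘ τ x)) (fun x hx => ?_)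
    (fun x hx _ h => (s x hx).2.2 (congrArg Prod.fst h)) (fun x hx => ?_) (fun x hx => ?_)
  · have a1 : (x.2 ∘ τ x) L = x.2 L := capelli_fix (e1 x) (Or.inr (Or.inr (bd x hx))) (o x hx)
    have a2 : ∏ n ∈ range L, μ ((x.1 ∘ τ x) n) ((x.2 ∘ τ x) n) ((x.2 ∘ τ x) (n + 1)) =
        ∏ n ∈ range L, μ (x.1 n) (x.2 n) (x.2 (n + 1)) := by
      refine prod_nbij' (τ x) (τ x)
        (fun n hn => mem_range.2 (capelli_lt (o x hx) (bd x hx) (mem_range.1 hn)))
        (fun n hn => mem_range.2 (capelli_lt (o x hx) (bd x hx) (mem_range.1 hn)))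
        (fun n _ => capelli_invol (o x hx) n) (fun n _ => capelli_invol (o x hx) n) fun n _ => ?_
      exact congrArg _ (capelli_succ (e1 x) (e2 x) (o x hx) n)
    dsimp only
    rw [if_congr (Eq.congr_left a1) a2 rfl, ← two_mul, h2, zero_mul]
  · obtain ⟨b1, b2⟩ := (hP _).1 (mem_product.1 hx).2
    refine mem_product.2 ⟨(s x hx).1, (hP _).2 ⟨?_, fun n hn => ?_⟩⟩
    · exact (capelli_fix (e1 x) (Or.inl (Nat.zero_le _)) (o x hx)).trans b1
    · exact (capelli_fix (e1 x) (Or.inr (Or.inr ((bd x hx).trans hn.le))) (o x hx)).trans (b2 n hn)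
  · have c1 : sel (x.1 ∘ τ x) = sel x.1 := (s x hx).2.1
    have c2 : β (x.1 ∘ τ x, x.2 ∘ τ x) = β x := by
      funext k
      have h1 := o x hx
      have h3 := hord x.1 (mem_product.1 hx).1
      have h4 : ∀ k k', k ≤ k' → (sel x.1).2 k ≤ (sel x.1).2 k' := fun k k' h => by
        rcases h.eq_or_lt with rfl | h
        · exact le_rfl
        · exact le_of_add_le_left (h3 k k' h)
      simp only [β, c1]
      refine Prod.ext (capelli_fix (e1 x) ?_ h1) (capelli_fix (e1 x) ?_ h1)
      · rcases le_or_gt k (I (β x)) with h | h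
        · exact Or.inl (h4 _ _ h)
        · rcases le_or_gt k (J (β x)) with h' | h'
          · exact Or.inr (Or.inl ⟨h3 _ _ h, h4 _ _ h'⟩)
          · exact Or.inr (Or.inr (h3 _ _ h'))
      · rcases lt_or_ge k (I (β x)) with h | h
        · exact Or.inl (h3 _ _ h)
        · rcases lt_or_ge k (J (β x)) with h' | h'
          · exact Or.inr (Or.inl ⟨Nat.add_le_add_right (h4 _ _ h) _, h3 _ _ h'⟩)
          · exact Or.inr (Or.inr (Nat.add_le_add_right (h4 _ _ h') _))
    have c3 : τ (x.1 ∘ τ x, x.2 ∘ τ x) = τ x := by simp only [τ, c1, c2]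
    dsimp only
    rw [c3]
    exact Prod.ext (funext fun n => congrArg x.1 (capelli_invol (o x hx) n))
      (funext fun n => congrArg x.2 (capelli_invol (o x hx) n))

end Vale.Agent.P192
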