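import Vale.Agent.P192.AlgAux
import Vale.Agent.P192.Capelli

/-! The semigroup algebra of a rewriting system with the exchange property.

Words act on invariant functions of words, so that nonzero words of different lengths are
different. Matrices with linear entries are nilpotent by the Capelli identity, and Higman's trick
gives the general case. -/

namespace Vale.Agent.P192

open Finset Polynomial

/-- The exchange property for `m` segments in words of length at least `L0`. -/
def HCap {X : Type} (S : Sys X) (m L0 : ℕ) : Prop :=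
  ∀ L, L0 ≤ L → ∃ sel : (ℕ → X) → ℕ × (Fin m → ℕ), ∀ w, ¬S.Zero 0 L w →
    (∀ i j : Fin m, i < j → (sel w).2 i + (sel w).1 ≤ (sel w).2 j) ∧
    (∀ i, (sel w).2 i + (sel w).1 ≤ L) ∧
    ∀ i j : Fin m, i < j →
      S.Eqv 0 L w (w ∘ swapIdx ((sel w).2 i) ((sel w).2 j) (sel w).1) ∧
      sel (w ∘ swapIdx ((sel w).2 i) ((sel w).2 j) (sel w).1) = sel w ∧
      w ∘ swapIdx ((sel w).2 i) ((sel w).2 j) (sel w).1 ≠ w

theorem alg_prod_congr {B : Type} [Ring B] {f f' : ℕ → B} {L : ℕ} (h : ∀ j < L, f j = f' j) :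
    ((List.range L).map f).prod = ((List.range L).map f').prod := by
  rw [List.map_congr_left fun j hj => h j (List.mem_range.1 hj)]

theorem alg_prod_two {B : Type} [Ring B] {f f' : ℕ → B} {i L : ℕ} (hi : i + 1 < L)
    (h : f i * f (i + 1) = f' i * f' (i + 1)) (ho : ∀ j, j ≠ i → j ≠ i + 1 → f j = f' j) :
    ((List.range L).map f).prod = ((List.range L).map f').prod := by
  induction L, hi using Nat.le_induction with
  | base =>
    simp only [List.prod_range_succ, mul_assoc]
    rw [h, alg_prod_congr fun j hj => ho j (by omega) (by omega)]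
  | succ L hL ih => rw [List.prod_range_succ, List.prod_range_succ, ih, ho L (by omega) (by omega)]

theorem alg_prod_zero {B : Type} [Ring B] {f : ℕ → B} {i L : ℕ} (hi : i + 1 < L)
    (h : f i * f (i + 1) = 0) : ((List.range L).map f).prod = 0 := by
  induction L, hi using Nat.le_induction with
  | base => simp only [List.prod_range_succ, mul_assoc, h, mul_zero]
  | succ L hL ih => rw [List.prod_range_succ, ih, zero_mul]

/-- The letters satisfy the relations of the system. -/
structure AlgSat {X B : Type} [Ring B] (S : Sys X) (g : X → B) : Prop where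
  s1 : ∀ x x', S.s1 x x' → g x = g x'
  s2 : ∀ x y x' y', S.s2 x y x' y' → g x * g y = g x' * g y'
  z1 : ∀ x, S.z1 x → g x = 0
  z2 : ∀ x y, S.z2 x y → g x * g y = 0

theorem AlgSat.eqv {X B : Type} [Ring B] {S : Sys X} {g : X → B} (h : AlgSat S g) {L : ℕ}
    {w w' : ℕ → X} (hw : S.Eqv 0 L w w') :
    ((List.range L).map fun i => g (w i)).prod = ((List.range L).map fun i => g (w' i)).prod := by
  induction hw with
  | rel a b hab =>
    rcases hab with ⟨i, -, -, c, d⟩ | ⟨i, -, hi, c, d⟩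
    · refine alg_prod_congr fun j _ => ?_
      by_cases hj : j = i
      · rw [hj]; exact h.s1 _ _ c
      · rw [d j hj]
    · exact alg_prod_two hi (h.s2 _ _ _ _ c) fun j h1 h2 => by rw [d j h1 h2]
  | refl => rfl
  | symm _ _ _ ih => exact ih.symm
  | trans _ _ _ _ _ ih1 ih2 => exact ih1.trans ih2

theorem AlgSat.zero {X B : Type} [Ring B] {S : Sys X} {g : X → B} (h : AlgSat S g) {L : ℕ}
    {w : ℕ → X} (hw : S.Zero 0 L w) : ((List.range L).map fun i => g (w i)).prod = 0 := by
  obtain ⟨w', a, ⟨i, -, hi, c⟩ | ⟨i, -, hi, c⟩⟩ := hw <;> rw [h.eqv a]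
  · exact List.prod_eq_zero (List.mem_map.2 ⟨i, List.mem_range.2 hi, h.z1 _ c⟩)
  · exact alg_prod_zero hi (h.z2 _ _ c)

theorem alg_mem {X : Type} {S : Sys X} {Y : Set X} (h1 : ∀ x x', S.s1 x x' → (x ∈ Y ↔ x' ∈ Y))
    (h2 : ∀ x y x' y', S.s2 x y x' y' → ((x ∈ Y ∧ y ∈ Y) ↔ (x' ∈ Y ∧ y' ∈ Y))) {L : ℕ}
    {w w' : ℕ → X} (hw : S.Eqv 0 L w w') : (∀ i < L, w i ∈ Y) ↔ ∀ i < L, w' i ∈ Y := by
  induction hw with
  | rel a b hab =>
    rcases hab with ⟨i, -, -, c, d⟩ | ⟨i, -, hi, c, d⟩
    · refine forall₂_congr fun j _ => ?_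
      by_cases hj : j = i
      · rw [hj]; exact h1 _ _ c
      · rw [d j hj]
    · have e := h2 _ _ _ _ c
      constructor <;> intro h j hj
      · have := e.1 ⟨h i (by omega), h _ hi⟩
        by_cases a1 : j = i
        · rw [a1]; exact this.1
        · by_cases a2 : j = i + 1
          · rw [a2]; exact this.2
          · rw [d j a1 a2]; exact h j hj
      · have := e.2 ⟨h i (by omega), h _ hi⟩
        by_cases a1 : j = i
        · rw [a1]; exact this.1
        · by_cases a2 : j = i + 1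
          · rw [a2]; exact this.2
          · rw [← d j a1 a2]; exact h j hj
  | refl => rfl
  | symm _ _ _ ih => exact ih.symm
  | trans _ _ _ _ _ ih1 ih2 => exact ih1.trans ih2

theorem alg_words {X : Type} (T : Finset X) (a : X) (L : ℕ) :
    ∃ W : Finset (ℕ → X), (∀ w, w ∈ W ↔ (∀ n < L, w n ∈ T) ∧ ∀ n, L ≤ n → w n = a) ∧
      ∀ (B : Type) [Ring B] (f : X → B), (∑ y ∈ T, f y) ^ L =
        ∑ w ∈ W, ((List.range L).map fun i => f (w i)).prod := by
  classical
  induction L with
  | zero =>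
    refine ⟨{fun _ => a}, fun w => ?_, fun B _ f => by simp⟩
    rw [mem_singleton]
    exact ⟨fun h => by simp [h], fun h => funext fun n => h.2 n n.zero_le⟩
  | succ L ih =>
    obtain ⟨W, hW, hf⟩ := ih
    refine ⟨(W ×ˢ T).image fun x => Function.update x.1 L x.2, fun w => ?_, fun B _ f => ?_⟩
    · rw [mem_image]
      constructor
      · rintro ⟨⟨v, c⟩, h, rfl⟩
        obtain ⟨h1, h2⟩ := (hW v).1 (mem_product.1 h).1
        refine ⟨fun n hn => ?_, fun n hn => ?_⟩
        · by_cases e : n = L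
          · simpa [e] using (mem_product.1 h).2
          · rw [Function.update_of_ne e]
            exact h1 n (by omega)
        · rw [Function.update_of_ne (by omega)]
          exact h2 n (by omega)
      · rintro ⟨h1, h2⟩
        refine ⟨(Function.update w L a, w L), mem_product.2 ⟨(hW _).2
          ⟨fun n hn => ?_, fun n hn => ?_⟩, h1 L (by omega)⟩, by simp⟩
        · simpa [Function.update_of_ne hn.ne] using h1 n (by omega)
        · by_cases h : n = L
          · simp [h]
          · exact (Function.update_of_ne h _ _).trans (h2 n (by omega))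
    · rw [sum_image, sum_product, pow_succ, hf, sum_mul_sum]
      · refine sum_congr rfl fun w _ => sum_congr rfl fun y _ => ?_
        rw [List.prod_range_succ, Function.update_self]
        congr 1
        exact alg_prod_congr fun j hj => by rw [Function.update_of_ne hj.ne]
      · rintro ⟨v, c⟩ h ⟨v', c'⟩ h' e
        have h1 := ((hW v).1 (mem_product.1 h).1).2 L le_rfl
        have h2 := ((hW v').1 (mem_product.1 h').1).2 L le_rfl
        refine Prod.ext (funext fun n => ?_) (by simpa using congrFun e L)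
        by_cases hn : n = L
        · rw [hn]; exact h1.trans h2.symm
        · simpa [Function.update_of_ne hn] using congrFun e n

theorem alg_nil {X K R B ι : Type} [CommRing K] [IsDomain K] (hK : (2 : K) = 0) [Ring R] [Ring B]
    [Fintype ι] [DecidableEq ι] {S : Sys X} (T : Finset X) (a : X)
    (h1 : ∀ x x', S.s1 x x' → (x ∈ (T : Set X) ↔ x' ∈ (T : Set X)))
    (h2 : ∀ x y x' y', S.s2 x y x' y' →
      ((x ∈ (T : Set X) ∧ y ∈ (T : Set X)) ↔ (x' ∈ (T : Set X) ∧ y' ∈ (T : Set X))))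
    (hcap : ∀ m, ∃ L0, HCap S m L0) {g : X → R} (hg : AlgSat S g) (ψ : Matrix ι ι K →+* B)
    (χ : R →+* B) (hc : ∀ M r, Commute (χ r) (ψ M)) (μ : X → Matrix ι ι K) :
    IsNilpotent (∑ y ∈ T, ψ (μ y) * χ (g y)) := by
  classical
  obtain ⟨L, hL⟩ := hcap (Fintype.card ι ^ 2 + 1)
  obtain ⟨sel, hsel⟩ := hL L le_rfl
  obtain ⟨W, hW, hf⟩ := alg_words T a L
  refine ⟨L, ?_⟩
  have e : ∀ (w : ℕ → X) (n : ℕ), ((List.range n).map fun i => ψ (μ (w i)) * χ (g (w i))).prod =
      ψ ((List.range n).map fun i => μ (w i)).prod *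
        χ ((List.range n).map fun i => g (w i)).prod := by
    intro w n
    induction n with
    | zero => simp
    | succ n ih =>
      simp only [List.prod_range_succ, ih, map_mul, mul_assoc]
      rw [← mul_assoc (χ _), (hc _ _).eq, mul_assoc]
  rw [hf]
  simp only [e]
  rw [← sum_filter_of_ne (p := fun w => ¬S.Zero 0 L w) fun w _ h hz => h (by
    rw [hg.zero hz, map_zero, mul_zero]),
    ← sum_fiberwise_of_maps_to (g := fun w => ((List.range L).map fun i => g (w i)).prod)
      fun w hw => mem_image_of_mem (fun w => ((List.range L).map fun i => g (w i)).prod) hw]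
  refine sum_eq_zero fun r _ => ?_
  rw [sum_congr rfl fun w hw => by rw [(mem_filter.1 hw).2], ← sum_mul, ← map_sum,
    capelli hK μ L _ (Nat.lt_succ_self _) _ sel
      (fun w hw => (hsel w (mem_filter.1 (mem_filter.1 hw).1).2).1)
      (fun w hw => (hsel w (mem_filter.1 (mem_filter.1 hw).1).2).2.1) fun w hw i j hij => ?_,
    map_zero, zero_mul]
  obtain ⟨a1, a2⟩ := mem_filter.1 hw
  obtain ⟨a3, a4⟩ := mem_filter.1 a1
  obtain ⟨b1, b2⟩ := (hsel w a4).2.2 i j hij
  obtain ⟨c1, c2⟩ := (hW w).1 a3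
  exact ⟨mem_filter.2 ⟨mem_filter.2 ⟨(hW _).2 ⟨(alg_mem h1 h2 b1).1 c1,
    fun n hn => (b1.frame (Or.inr hn)).trans (c2 n hn)⟩, fun hz => a4 (hz.of_eqv b1)⟩,
    (hg.eqv b1).symm.trans a2⟩, b2⟩

/-- Functions of words that are invariant under the rules and vanish on zero words. -/
def algV {X : Type} (S : Sys X) : AddSubgroup (ℕ → (ℕ → X) → ZMod 2) where
  carrier := {F | ∀ L w, (∀ w', S.Sim 0 L w w' → F L w = F L w') ∧ (S.Zero 0 L w → F L w = 0)}
  zero_mem' := fun _ _ => ⟨fun _ _ => rfl, fun _ => rfl⟩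
  add_mem' := fun ha hb L w => ⟨fun w' h => by
    simp only [Pi.add_apply, (ha L w).1 w' h, (hb L w).1 w' h], fun h => by
    simp only [Pi.add_apply, (ha L w).2 h, (hb L w).2 h, add_zero]⟩
  neg_mem' := fun ha L w => ⟨fun w' h => by
    simp only [Pi.neg_apply, (ha L w).1 w' h], fun h => by
    simp only [Pi.neg_apply, (ha L w).2 h, neg_zero]⟩

theorem alg_agree {X : Type} (w : ℕ → X) (L : ℕ) (y : X) : Agree 0 L w (Function.update w L y) :=
  fun _ _ h => (Function.update_of_ne h.ne y w).symm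

open Classical in
/-- Appending a letter. -/
noncomputable def algT {X : Type} (S : Sys X) (y : X) : AddMonoid.End (algV S) :=
  AddMonoidHom.mk' (fun F => ⟨fun L w => F.1 (L + 1) (Function.update w L y), fun L w =>
    ⟨fun w' h => (F.2 _ _).1 _ ((((Sys.Sim.of_agree (alg_agree w L y)).symm.trans h).trans
      (Sys.Sim.of_agree (alg_agree w' L y))).mono le_rfl L.le_succ fun j _ h1 h2 => by
        obtain rfl : j = L := by omega
        simp),
    fun h => (F.2 _ _).2 ((h.congr (alg_agree w L y)).mono le_rfl L.le_succ)⟩⟩) fun _ _ => rfl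

open Classical in
theorem algT_apply {X : Type} (S : Sys X) (y : X) (F : algV S) (L : ℕ) (w : ℕ → X) :
    (algT S y F).1 L w = F.1 (L + 1) (Function.update w L y) := rfl

theorem algT_sat {X : Type} (S : Sys X) : AlgSat S (algT S) := by
  classical
  refine ⟨fun x x' h => ?_, fun x y x' y' h => ?_, fun x h => ?_, fun x y h => ?_⟩ <;>
    refine AddMonoidHom.ext fun F => Subtype.ext (funext fun L => funext fun w => ?_)
  · refine (F.2 _ _).1 _ (Sys.Step.eqv (Or.inl ⟨L, L.zero_le, L.lt_succ_self, ?_,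
      fun j hj => ?_⟩)).sim
    · simpa using h
    · simp [hj]
  · refine (F.2 _ _).1 _ (Sys.Step.eqv (Or.inr ⟨L, L.zero_le, (L + 1).lt_succ_self, ?_,
      fun j hj hj' => ?_⟩)).sim
    · simpa using h
    · simp [hj, hj']
  · exact (F.2 _ _).2 (Sys.zero1 L.zero_le L.lt_succ_self (by simpa using h))
  · exact (F.2 _ _).2 (Sys.zero2 L.zero_le (L + 1).lt_succ_self (by simpa using h))

theorem algT_prod {X : Type} (S : Sys X) (w : ℕ → X) (L : ℕ) (F : algV S) :
    (((List.range L).map fun i => algT S (w i)).prod F).1 0 w = F.1 L w := by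
  induction L generalizing F with
  | zero => rfl
  | succ L ih =>
    rw [List.prod_range_succ]
    exact (ih (algT S (w L) F)).trans (by rw [algT_apply, Function.update_eq_self])

theorem exists_alg {X : Type} (S : Sys X) (Y : Set X) (hY : Y.Finite)
    (h1 : ∀ x x', S.s1 x x' → (x ∈ Y ↔ x' ∈ Y))
    (h2 : ∀ x y x' y', S.s2 x y x' y' → ((x ∈ Y ∧ y ∈ Y) ↔ (x' ∈ Y ∧ y' ∈ Y)))
    (hcap : ∀ m, ∃ L0, HCap S m L0)
    (hinf : ∀ L0, ∃ L, L0 ≤ L ∧ ∃ w, (∀ i < L, w i ∈ Y) ∧ ¬S.Zero 0 L w) :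
    ∃ (R : Type) (_ : Ring R) (P : Pres Y R) (Lc : Loc R),
      Infinite R ∧ ∀ x, Lc.ε (P.gen x) = 0 := by
  classical
  obtain ⟨T, rfl⟩ := hY.exists_finset_coe
  obtain ⟨R, _, P, hE, hZ⟩ := alg_pres (Y := (T : Set X))
    {p | (∃ x x', p = ([x], [x']) ∧ S.s1 x x') ∨
      ∃ x y x' y', p = ([x, y], [x', y']) ∧ S.s2 x y x' y'}
    {u | (∃ x, u = [x] ∧ S.z1 x) ∨ ∃ x y, u = [x, y] ∧ S.z2 x y}
    (((List.finite_length_le _ 2).prod (List.finite_length_le _ 2)).subset (by
      rintro _ (⟨x, x', rfl, -⟩ | ⟨x, y, x', y', rfl, -⟩) <;> simp))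
    ((List.finite_length_le _ 2).subset (by
      rintro _ (⟨x, rfl, -⟩ | ⟨x, y, rfl, -⟩) <;> simp))
    (by rintro _ (⟨x, x', rfl, -⟩ | ⟨x, y, x', y', rfl, -⟩) <;> rfl)
    (by rintro _ (⟨x, rfl, -⟩ | ⟨x, y, rfl, -⟩) <;> simp)
  have univ : ∀ (B : Type) [Ring B] (g : X → B), (2 : B) = 0 → AlgSat S g →
      ∃ f : R →+* B, ∀ x, f (P.gen x) = g x := by
    intro B _ g hB hg
    refine P.univ B (fun x => g x) hB ?_ ?_
    · rw [hE]
      rintro _ (⟨x, x', rfl, h⟩ | ⟨x, y, x', y', rfl, h⟩)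
      · simpa using hg.s1 _ _ h
      · simpa using hg.s2 _ _ _ _ h
    · rw [hZ]
      rintro _ (⟨x, rfl, h⟩ | ⟨x, y, rfl, h⟩)
      · simpa using hg.z1 _ h
      · simpa using hg.z2 _ _ h
  let g : X → R := fun x => if h : x ∈ (T : Set X) then P.gen ⟨x, h⟩ else 0
  have g1 : ∀ x (h : x ∈ (T : Set X)), g x = P.gen ⟨x, h⟩ := fun x h => dif_pos h
  have g0 : ∀ x, x ∉ (T : Set X) → g x = 0 := fun x h => dif_neg h
  have g2 : ∀ x y, ¬(x ∈ (T : Set X) ∧ y ∈ (T : Set X)) → g x * g y = 0 := fun x y h => by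
    rcases not_and_or.1 h with h | h <;> simp [g0 _ h]
  have hg : AlgSat S g := by
    refine ⟨fun x x' h => ?_, fun x y x' y' h => ?_, fun x h => ?_, fun x y h => ?_⟩
    · by_cases hx : x ∈ (T : Set X)
      · have hx' := (h1 _ _ h).1 hx
        simpa [g1 x hx, g1 x' hx'] using P.hE ([⟨x, hx⟩], [⟨x', hx'⟩])
          (hE ▸ Or.inl ⟨_, _, rfl, h⟩)
      · rw [g0 x hx, g0 x' fun h' => hx ((h1 _ _ h).2 h')]
    · by_cases hx : x ∈ (T : Set X) ∧ y ∈ (T : Set X)
      · have hx' := (h2 _ _ _ _ h).1 hx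
        simpa [g1 x hx.1, g1 y hx.2, g1 x' hx'.1, g1 y' hx'.2] using
          P.hE ([⟨x, hx.1⟩, ⟨y, hx.2⟩], [⟨x', hx'.1⟩, ⟨y', hx'.2⟩])
            (hE ▸ Or.inr ⟨_, _, _, _, rfl, h⟩)
      · rw [g2 x y hx, g2 x' y' fun h' => hx ((h2 _ _ _ _ h).2 h')]
    · by_cases hx : x ∈ (T : Set X)
      · simpa [g1 x hx] using P.hZ [⟨x, hx⟩] (hZ ▸ Or.inl ⟨_, rfl, h⟩)
      · exact g0 x hx
    · by_cases hx : x ∈ (T : Set X) ∧ y ∈ (T : Set X)
      · simpa [g1 x hx.1, g1 y hx.2] using
          P.hZ [⟨x, hx.1⟩, ⟨y, hx.2⟩] (hZ ▸ Or.inr ⟨_, _, rfl, h⟩)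
      · exact g2 x y hx
  obtain ⟨ε, hε⟩ := univ (ZMod 2) (fun _ => 0) rfl ⟨by simp, by simp, by simp, by simp⟩
  obtain ⟨-, -, w₀, -⟩ := hinf 0
  refine ⟨R, inferInstance, P, ⟨ε, P.two, fun ι _ _ M hM => ?_⟩, ?_, hε⟩
  · let φ : (ZMod 2)[X] →+* R[X] := mapRingHom (ZMod.castHom (ringChar.dvd (x := 2) P.two) R)
    have hφ : ∀ c s, Commute s (φ c) := by
      intro c s
      induction c using Polynomial.induction_on' with
      | add a b ha hb => rw [map_add]; exact ha.add_right hb
      | monomial n c =>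
        have : c = 0 ∨ c = 1 := by revert c; decide
        rcases this with rfl | rfl
        · simp
        · rw [monomial_one_right_eq_X_pow, map_pow]
          refine Commute.pow_right ?_ n
          simpa [φ] using (commute_X s).symm
    let L : AddSubmonoid R[X] :=
      { carrier := {s | ∃ c : X → (ZMod 2)[X], s = ∑ y ∈ T, φ (c y) * C (g y)}
        zero_mem' := ⟨0, by simp⟩
        add_mem' := by
          rintro _ _ ⟨c, rfl⟩ ⟨c', rfl⟩
          exact ⟨c + c', by simp only [Pi.add_apply, map_add, add_mul, sum_add_distrib]⟩ }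
    have hL : ∀ (c : (ZMod 2)[X]) y, φ c * C (P.gen y) ∈ L := fun c y =>
      ⟨Pi.single y c, by
        rw [sum_eq_single_of_mem y.1 y.2 fun b _ hb => by simp [hb], Pi.single_eq_same,
          g1 y y.2]⟩
    refine alg_higman P.gen L (fun y => by simpa using hL 1 y)
      (fun y => by simpa [φ] using hL Polynomial.X y) (fun κ _ _ Z hZ => ?_) M
      fun i j => alg_aug P ε hε (hM i j)
    choose c hc using hZ
    have h := alg_nil (K := (ZMod 2)[X]) (CharTwo.two_eq_zero) T (w₀ 0) h1 h2 hcap hg φ.mapMatrix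
      ((Matrix.scalar κ).comp C) (fun N r => ?_) fun y => Matrix.of fun i j => c i j y
    · refine Eq.subst (Matrix.ext fun i j => ?_) h
      simp [hc i j, Matrix.sum_apply]
    · ext1 i j
      simpa using (hφ (N i j) (C r)).eq
  · obtain ⟨ρ, hρ⟩ := univ _ (algT S) (one_add_one_eq_two.symm.trans (AddMonoidHom.ext fun F =>
      Subtype.ext (funext fun L => funext fun w => CharTwo.add_self_eq_zero _))) (algT_sat S)
    let A : Set ℕ := {L | ∃ w, (∀ i < L, w i ∈ (T : Set X)) ∧ ¬S.Zero 0 L w}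
    have hA : A.Infinite := Set.infinite_of_forall_exists_gt fun n => by
      obtain ⟨L, a, b⟩ := hinf (n + 1)
      exact ⟨L, b, a⟩
    have := hA.to_subtype
    choose w hw hw' using fun L : A => L.2
    have e : ∀ (L : A) (F : algV S), (ρ ((List.range L).map fun i => g (w L i)).prod F).1 0 w₀ =
        F.1 L (w L) := by
      intro L F
      rw [map_list_prod, List.map_map, ← algT_prod S (w L) L F, alg_prod_congr
        (f' := fun i => algT S (w L i)) fun j hj => by
          rw [Function.comp_apply, g1 _ (hw L j hj), hρ]]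
      exact ((Subtype.property (p := (· ∈ algV S)) _) 0 w₀).1 _
        (Sys.Sim.of_agree fun _ _ h => absurd h (Nat.not_lt_zero _))
    refine Infinite.of_injective (fun L : A => ((List.range L).map fun i => g (w L i)).prod)
      fun L L' h => ?_
    let F : algV S := ⟨fun n v => if n = L ∧ ¬S.Zero 0 n v then 1 else 0, fun n v =>
      ⟨fun v' hv => if_congr (and_congr_right fun _ =>
        not_congr ⟨Sys.Zero.of_sim hv.symm, Sys.Zero.of_sim hv⟩) rfl rfl,
      fun hv => if_neg fun h => h.2 hv⟩⟩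
    have a1 := e L F
    rw [show ((List.range L).map fun i => g (w L i)).prod = _ from h, e L' F] at a1
    by_contra hne
    have a2 : (L' : ℕ) ≠ L := fun h => hne (Subtype.ext h.symm)
    simp [F, a2, hw' L] at a1

end Vale.Agent.P192
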