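import Vale.Agent.P192.St

/-! Presentations exist, and Higman's linearization trick. -/

namespace Vale.Agent.P192

open Finset Polynomial

theorem alg_pres {Y : Type} (E : Set (List Y × List Y)) (Z : Set (List Y)) (finE : E.Finite)
    (finZ : Z.Finite) (lenE : ∀ p ∈ E, p.1.length = p.2.length) (neZ : ∀ u ∈ Z, u ≠ []) :
    ∃ (R : Type) (_ : Ring R) (P : Pres Y R), P.E = E ∧ P.Z = Z := by
  let r : FreeRing Y → FreeRing Y → Prop := fun a b => (a = 2 ∧ b = 0) ∨
    (∃ p ∈ E, a = (p.1.map FreeRing.of).prod ∧ b = (p.2.map FreeRing.of).prod) ∨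
    ∃ u ∈ Z, a = (u.map FreeRing.of).prod ∧ b = 0
  have hw : ∀ (S : Type) [Ring S] (f : FreeRing Y →+* S) (u : List Y),
      f (u.map FreeRing.of).prod = (u.map fun y => f (FreeRing.of y)).prod := by
    intro S _ f u
    rw [map_list_prod, List.map_map]
    rfl
  have two : (2 : RingQuot r) = 0 := by
    have := RingQuot.mkRingHom_rel (r := r) (Or.inl ⟨rfl, rfl⟩)
    rwa [map_ofNat, map_zero] at this
  refine ⟨RingQuot r, inferInstance, ⟨fun y => RingQuot.mkRingHom r (FreeRing.of y), E, Z, finE,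
    finZ, lenE, neZ, two, fun p hp => ?_, fun u hu => ?_, fun S _ φ h2 hE hZ => ?_,
    fun Q h0 h1 hg ha hm a => ?_⟩, rfl, rfl⟩
  · rw [← hw, ← hw]
    exact RingQuot.mkRingHom_rel (Or.inr (Or.inl ⟨p, hp, rfl, rfl⟩))
  · rw [← hw, ← map_zero (RingQuot.mkRingHom r)]
    exact RingQuot.mkRingHom_rel (Or.inr (Or.inr ⟨u, hu, rfl, rfl⟩))
  · refine ⟨RingQuot.lift ⟨FreeRing.lift φ, ?_⟩, fun x =>
      (RingQuot.lift_mkRingHom_apply _ _ _).trans (FreeRing.lift_of φ x)⟩
    rintro _ _ (⟨rfl, rfl⟩ | ⟨p, hp, rfl, rfl⟩ | ⟨u, hu, rfl, rfl⟩)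
    · rw [map_ofNat, map_zero, h2]
    · simpa only [hw, FreeRing.lift_of] using hE p hp
    · simpa only [hw, FreeRing.lift_of, map_zero] using hZ u hu
  · obtain ⟨b, rfl⟩ := RingQuot.mkRingHom_surjective r a
    induction b with
    | hn1 =>
      have : (-1 : RingQuot r) = 1 := by
        rw [neg_eq_iff_add_eq_zero, one_add_one_eq_two, two]
      rwa [map_neg, map_one, this]
    | hb y => exact hg y
    | ha x y hx hy => rw [map_add]; exact ha _ _ hx hy
    | hm x y hx hy => rw [map_mul]; exact hm _ _ hx hy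

section

variable {B : Type} [Ring B]

/-- `s` is a linear expression in the elements of `F`. -/
def AlgRep (L : AddSubmonoid B) (F : Finset B) (s : B) : Prop :=
  ∃ c ∈ L, ∃ D : B → B, (∀ y, D y ∈ L) ∧ s = c + ∑ y ∈ F, D y * y

/-- `s` is a linear expression in the elements of a closed family. -/
def AlgReal (L : AddSubmonoid B) (s : B) : Prop :=
  ∃ F : Finset B, (∀ x ∈ F, AlgRep L F x) ∧ AlgRep L F s

variable {L : AddSubmonoid B}

theorem AlgRep.mono {F F' : Finset B} {s : B} (h : AlgRep L F s) (hF : F ⊆ F') :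
    AlgRep L F' s := by
  classical
  obtain ⟨c, hc, D, hD, rfl⟩ := h
  refine ⟨c, hc, fun y => if y ∈ F then D y else 0, fun y => ?_, ?_⟩
  · dsimp only
    split_ifs
    · exact hD y
    · exact L.zero_mem
  · simp only [ite_mul, zero_mul, sum_ite_mem, inter_eq_right.2 hF]

theorem AlgReal.lin {s : B} (h : s ∈ L) : AlgReal L s :=
  ⟨∅, by simp, s, h, fun _ => 0, fun _ => L.zero_mem, by simp⟩

theorem AlgReal.add {s t : B} (hs : AlgReal L s) (ht : AlgReal L t) : AlgReal L (s + t) := by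
  classical
  obtain ⟨F, hF, h⟩ := hs
  obtain ⟨F', hF', h'⟩ := ht
  refine ⟨F ∪ F', fun x hx => ?_, ?_⟩
  · rcases mem_union.1 hx with hx | hx
    · exact (hF x hx).mono subset_union_left
    · exact (hF' x hx).mono subset_union_right
  · obtain ⟨c, hc, D, hD, rfl⟩ := h.mono (F' := F ∪ F') subset_union_left
    obtain ⟨c', hc', D', hD', rfl⟩ := h'.mono (F' := F ∪ F') subset_union_right
    refine ⟨c + c', add_mem hc hc', fun y => D y + D' y, fun y => add_mem (hD y) (hD' y), ?_⟩
    simp only [add_mul, sum_add_distrib]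
    abel

theorem AlgReal.mul {l s : B} (hl : l ∈ L) (hs : AlgReal L s) : AlgReal L (l * s) := by
  classical
  obtain ⟨F, hF, h⟩ := hs
  refine ⟨insert s F, fun x hx => ?_, 0, L.zero_mem, fun y => if y = s then l else 0, fun y => ?_,
    by simp⟩
  · rcases mem_insert.1 hx with rfl | hx
    · exact h.mono (subset_insert _ _)
    · exact (hF x hx).mono (subset_insert _ _)
  · dsimp only
    split_ifs
    · exact hl
    · exact L.zero_mem

theorem AlgReal.sum {ι : Type} (T : Finset ι) {s : ι → B} (h : ∀ i, AlgReal L (s i)) :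
    AlgReal L (∑ i ∈ T, s i) :=
  sum_induction s (AlgReal L) (fun _ _ => AlgReal.add) (AlgReal.lin L.zero_mem) fun i _ => h i

theorem AlgReal.left_inv {s : B} (hs : AlgReal L s)
    (hL : ∀ (κ : Type) [Fintype κ] [DecidableEq κ] (Z : Matrix κ κ B), (∀ i j, Z i j ∈ L) →
      IsNilpotent Z) : ∃ q, q * (1 - s) = 1 := by
  classical
  obtain ⟨F, hF, c₀, hc₀, D₀, hD₀, h₀⟩ := hs
  choose! c hc D hD h using hF
  let Z : Matrix (Option F) (Option F) B := fun i j =>
    i.elim (j.elim c₀ fun y => D₀ y) fun x => j.elim (c x) fun y => D x y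
  obtain ⟨Q, hQ⟩ := (hL _ Z (by
    rintro (_ | x) (_ | y)
    exacts [hc₀, hD₀ y, hc x x.2, hD x x.2 y])).isUnit_one_sub.exists_left_inv
  let W : Option F → B := fun i => i.elim 1 fun y => y
  have h1 : (1 - Z).mulVec W = Pi.single none (1 - s) := by
    rw [Matrix.sub_mulVec, Matrix.one_mulVec]
    funext i
    rw [Pi.sub_apply, Matrix.mulVec, dotProduct, Fintype.sum_option]
    rcases i with _ | x
    · simp only [Z, W, Option.elim, mul_one, Pi.single_eq_same]
      rw [sum_coe_sort F fun y => D₀ y * y, ← h₀]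
    · simp only [Z, W, Option.elim, mul_one]
      rw [sum_coe_sort F fun y => D x y * y, ← h x x.2]
      simp
  have h2 := congrFun (congrArg Q.mulVec h1) none
  rw [Matrix.mulVec_mulVec, hQ, Matrix.one_mulVec, Matrix.mulVec_single] at h2
  exact ⟨Q none none, h2.symm⟩

end

variable {Y R : Type} [Ring R]

/-- Sums of nonempty words. -/
inductive AlgAug (gen : Y → R) : R → Prop
  | zero : AlgAug gen 0
  | gen (y : Y) : AlgAug gen (gen y)
  | add {a b : R} : AlgAug gen a → AlgAug gen b → AlgAug gen (a + b)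
  | mul (y : Y) {a : R} : AlgAug gen a → AlgAug gen (gen y * a)

theorem AlgAug.mul' {gen : Y → R} {a b : R} (ha : AlgAug gen a) (hb : AlgAug gen b) :
    AlgAug gen (a * b) := by
  induction ha with
  | zero => rw [zero_mul]; exact .zero
  | gen y => exact .mul y hb
  | add _ _ h1 h2 => rw [add_mul]; exact h1.add h2
  | mul y _ h => rw [mul_assoc]; exact .mul y h

theorem alg_aug (P : Pres Y R) (ε : R →+* ZMod 2) (hε : ∀ y, ε (P.gen y) = 0) {r : R}
    (hr : ε r = 0) : AlgAug P.gen r := by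
  have h1 : ∀ a, AlgAug P.gen a → ε a = 0 := by
    intro a ha
    induction ha with
    | zero => exact map_zero ε
    | gen y => exact hε y
    | add _ _ h1 h2 => rw [map_add, h1, h2, add_zero]
    | mul y _ h => rw [map_mul, h, mul_zero]
  have h2 : ∃ a, AlgAug P.gen a ∧ (r = a ∨ r = a + 1) := by
    refine P.ind (fun r => ∃ a, AlgAug P.gen a ∧ (r = a ∨ r = a + 1)) ⟨0, .zero, Or.inl rfl⟩
      ⟨0, .zero, Or.inr (zero_add 1).symm⟩ (fun y => ⟨_, .gen y, Or.inl rfl⟩) ?_ ?_ r
    · rintro _ _ ⟨a, ha, rfl | rfl⟩ ⟨b, hb, rfl | rfl⟩ <;> refine ⟨_, ha.add hb, ?_⟩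
      · exact Or.inl rfl
      · exact Or.inr (add_assoc _ _ _).symm
      · exact Or.inr (add_right_comm _ _ _)
      · rw [add_add_add_comm, one_add_one_eq_two, P.two, add_zero]
        exact Or.inl rfl
    · rintro _ _ ⟨a, ha, rfl | rfl⟩ ⟨b, hb, rfl | rfl⟩
      · exact ⟨_, ha.mul' hb, Or.inl rfl⟩
      · exact ⟨_, (ha.mul' hb).add ha, Or.inl (by noncomm_ring)⟩
      · exact ⟨_, (ha.mul' hb).add hb, Or.inl (by noncomm_ring)⟩
      · exact ⟨_, ((ha.mul' hb).add ha).add hb, Or.inr (by noncomm_ring)⟩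
  obtain ⟨a, ha, rfl | rfl⟩ := h2
  · exact ha
  · rw [map_add, h1 a ha, map_one, zero_add] at hr
    exact absurd hr one_ne_zero

/-- Higman's trick. -/
theorem alg_higman (gen : Y → R) (L : AddSubmonoid R[X]) (h1 : ∀ y, C (gen y) ∈ L)
    (h2 : ∀ y, X * C (gen y) ∈ L)
    (hL : ∀ (κ : Type) [Fintype κ] [DecidableEq κ] (Z : Matrix κ κ R[X]), (∀ i j, Z i j ∈ L) →
      IsNilpotent Z) {ι : Type} [Fintype ι] [DecidableEq ι] (M : Matrix ι ι R)
    (hM : ∀ i j, AlgAug gen (M i j)) : IsNilpotent M := by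
  let L' : AddSubmonoid (Matrix ι ι R[X]) :=
    { carrier := {Z | ∀ i j, Z i j ∈ L}
      zero_mem' := fun _ _ => L.zero_mem
      add_mem' := fun ha hb i j => L.add_mem (ha i j) (hb i j) }
  have hs : ∀ i j, ∀ l ∈ L, Matrix.single i j l ∈ L' := by
    intro i j l hl i' j'
    rw [Matrix.single_apply]
    split_ifs
    · exact hl
    · exact L.zero_mem
  have key : ∀ a, AlgAug gen a → ∀ i j, AlgReal L' (Matrix.single i j (C a)) ∧
      AlgReal L' (Matrix.single i j (X * C a)) := by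
    intro a ha
    induction ha with
    | zero => exact fun i j => by simpa using AlgReal.lin L'.zero_mem
    | gen y => exact fun i j => ⟨.lin (hs i j _ (h1 y)), .lin (hs i j _ (h2 y))⟩
    | add _ _ a1 a2 =>
      intro i j
      simp only [map_add, mul_add, Matrix.single_add]
      exact ⟨(a1 i j).1.add (a2 i j).1, (a1 i j).2.add (a2 i j).2⟩
    | mul y _ a1 =>
      intro i j
      rw [map_mul, ← mul_assoc, ← Matrix.single_mul_single_same _ i i j,
        ← Matrix.single_mul_single_same _ i i j]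
      exact ⟨.mul (hs i i _ (h1 y)) (a1 i j).1, .mul (hs i i _ (h2 y)) (a1 i j).1⟩
  have hN : AlgReal L' (M.map fun a => X * C a) := by
    rw [Matrix.matrix_eq_sum_single (M.map fun a => X * C a)]
    exact .sum _ fun i => .sum _ fun j => (key _ (hM i j) i j).2
  obtain ⟨Q, hQ⟩ := hN.left_inv fun κ _ _ Z hZ =>
    (IsNilpotent.map_iff (Matrix.compRingEquiv κ ι R[X]).injective).1
      (hL _ _ fun i j => hZ _ _ _ _)
  rw [mul_sub, mul_one, sub_eq_iff_eq_add] at hQ
  have hc : ∀ n i j, (Q i j).coeff n = (M ^ n) i j := by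
    intro n
    induction n with
    | zero =>
      intro i j
      rw [hQ]
      simp [Matrix.mul_apply, X_mul, ← mul_assoc, Matrix.one_apply, apply_ite (coeff · 0)]
    | succ n ih =>
      intro i j
      rw [hQ, pow_succ]
      simp [Matrix.mul_apply, X_mul, ← mul_assoc, Matrix.one_apply, apply_ite (coeff · (n + 1)),
        ih, coeff_one]
  refine ⟨(univ.sup fun p : ι × ι => (Q p.1 p.2).natDegree) + 1, ?_⟩
  ext i j
  rw [← hc]
  exact coeff_eq_zero_of_natDegree_lt (Nat.lt_succ_of_le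
    (le_sup (f := fun p : ι × ι => (Q p.1 p.2).natDegree) (mem_univ (i, j))))

end Vale.Agent.P192
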