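import Vale.Agent.P192.Cocycle

/-! Uniqueness and existence of canonical cocycles from parabolic subgroups. -/

namespace Vale.Agent.P192

variable {Γ : Type} [Group Γ]

open CE

theorem can_unique {S Pa Pb Pc : Subgroup Γ} (ha : Pa ≤ S) (hb : Pb ≤ S) (hc : Pc ≤ S)
    (ht : ∀ x ∈ S, IsOfFinOrder x)
    (habc : ∀ g ∈ S, ∃ p ∈ Pa ⊓ Pb, ∃ q ∈ Pc, g = p * q)
    (hab : ∀ g ∈ S, ∃ p ∈ Pa, ∃ q ∈ Pb, g = p * q) {c : Γ → Γ → ℚ} (h : IsCan S c)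
    (h1 : ∀ x ∈ Pa, ∀ y ∈ Pa, c x y = 0) (h2 : ∀ x ∈ Pb, ∀ y ∈ Pb, c x y = 0)
    (h3 : ∀ x ∈ Pc, ∀ y ∈ Pc, c x y = 0) : ∀ x ∈ S, ∀ y ∈ S, c x y = 0 := by
  choose! p hp q hq hpq using habc
  let t : Γ → CE h.coc := fun g => sec h.coc (p g) * sec h.coc (q g)
  have hW : ∀ P : Subgroup Γ, P ≤ S → (∀ g ∈ S, p g ∈ P) → (∀ x ∈ P, ∀ y ∈ P, c x y = 0) →
      ∀ r ∈ P, ∀ g ∈ S, t (r * g) = sec h.coc r * t g := by
    intro P hP hpP h0 r hr g hg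
    have hrg : r * g ∈ S := S.mul_mem (hP hr) hg
    obtain ⟨y, hy⟩ : ∃ y, y = (p (r * g))⁻¹ * (r * p g) := ⟨_, rfl⟩
    have y1 : y ∈ P := hy ▸ P.mul_mem (P.inv_mem (hpP _ hrg)) (P.mul_mem hr (hpP g hg))
    have e1 : p (r * g) * y = r * p g := by rw [hy, mul_inv_cancel_left]
    have e2 : y * q g = q (r * g) := by
      apply mul_left_cancel (a := p (r * g))
      rw [← mul_assoc, e1, ← hpq _ hrg, mul_assoc, ← hpq g hg]
    have y2 : y ∈ Pc := by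
      rw [eq_mul_inv_of_mul_eq e2]
      exact Pc.mul_mem (hq _ hrg) (Pc.inv_mem (hq g hg))
    simp only [t]
    rw [← e2, ← sec_mul_of_zero (hc y2) (hc (hq g hg)) (h3 _ y2 _ (hq g hg)), ← mul_assoc,
      sec_mul_of_zero (hP (hpP _ hrg)) (hP y1) (h0 _ (hpP _ hrg) _ y1), e1,
      ← sec_mul_of_zero (hP hr) (hP (hpP g hg)) (h0 _ hr _ (hpP g hg)), mul_assoc]
  have hA := hW Pa ha (fun g hg => (hp g hg).1) h1
  have hB := hW Pb hb (fun g hg => (hp g hg).2) h2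
  have t1 : t 1 = 1 := by
    have e := hpq 1 S.one_mem
    have m : p 1 ∈ Pc := by
      rw [eq_inv_of_mul_eq_one_left e.symm]
      exact Pc.inv_mem (hq 1 S.one_mem)
    simp only [t]
    rw [sec_mul_of_zero (hc m) (hc (hq 1 S.one_mem)) (h3 _ m _ (hq 1 S.one_mem)), ← e, sec_one]
  have hmul : ∀ g ∈ S, ∀ g' ∈ S, t (g * g') = t g * t g' := by
    intro g hg g' hg'
    obtain ⟨a, ha', b, hb', rfl⟩ := hab g hg
    have e := hB b hb' 1 S.one_mem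
    rw [mul_one, t1, mul_one] at e
    rw [mul_assoc, hA a ha' _ (S.mul_mem (hb hb') hg'), hB b hb' g' hg', hA a ha' b (hb hb'), e,
      mul_assoc]
  have hg : ∀ g ∈ S, ((t g).g : Γ) = g := by
    intro g hg
    rw [← proj_apply, map_mul, sec_g (ha (hp g hg).1), sec_g (hc (hq g hg)), ← hpq g hg]
  refine h.cob ht (fun g => (t g).t) fun x hx y hy => ?_
  rw [hmul x hx y hy, mul_t, hg x hx, hg y hy]
  ring

theorem can_exists {A B : Type} [Nonempty A] [Nonempty B] {S : Subgroup Γ}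
    (Lf : A → Subgroup Γ) (Rt : B → Subgroup Γ) (hLS : ∀ i, Lf i ≤ S) (hRS : ∀ j, Rt j ≤ S)
    (ht : ∀ x ∈ S, IsOfFinOrder x) (cL : A → Γ → Γ → ℚ) (cR : B → Γ → Γ → ℚ)
    (hcL : ∀ i, IsCan (Lf i) (cL i)) (hcR : ∀ j, IsCan (Rt j) (cR j))
    (hLL : ∀ i i', ∀ x ∈ ⨅ i, Lf i, ∀ y ∈ ⨅ i, Lf i, cL i x y = cL i' x y)
    (hRR : ∀ j j', ∀ x ∈ ⨅ j, Rt j, ∀ y ∈ ⨅ j, Rt j, cR j x y = cR j' x y)
    (hLR : ∀ i j, ∀ x ∈ Lf i ⊓ Rt j, ∀ y ∈ Lf i ⊓ Rt j, cL i x y = cR j x y)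
    (hfac : ∀ g ∈ S, ∃ a ∈ ⨅ i, Lf i, ∃ b ∈ ⨅ j, Rt j, g = a * b)
    (hL : S ≤ ⨆ i, Lf i) (hR : S ≤ ⨆ j, Rt j) :
    ∃ c : Γ → Γ → ℚ, IsCan S c ∧ ∀ i, ∀ x ∈ Lf i, ∀ y ∈ Lf i, c x y = cL i x y := by
  choose! a ha b hb hab using hfac
  have ha' : ∀ g ∈ S, ∀ i, a g ∈ Lf i := fun g hg => Subgroup.mem_iInf.1 (ha g hg)
  have hb' : ∀ g ∈ S, ∀ j, b g ∈ Rt j := fun g hg => Subgroup.mem_iInf.1 (hb g hg)
  obtain ⟨i₀⟩ := ‹Nonempty A›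
  obtain ⟨j₀⟩ := ‹Nonempty B›
  obtain ⟨F, hF⟩ : ∃ F : A → B → Γ → Γ → ℚ, ∀ i j p q, F i j p q =
      cR j ((a (p * q))⁻¹ * p) q - cL i (a (p * q)) ((a (p * q))⁻¹ * p) := ⟨_, fun _ _ _ _ => rfl⟩
  have hy : ∀ p q, p * q ∈ S → (a (p * q))⁻¹ * p = b (p * q) * q⁻¹ := by
    intro p q hpq
    rw [inv_mul_eq_iff_eq_mul, ← mul_assoc, ← hab _ hpq, mul_inv_cancel_right]
  have F1 : ∀ i j, ∀ g ∈ S, F i j (a g) (b g) = 0 := by
    intro i j g hg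
    rw [hF, ← hab g hg, inv_mul_cancel, (hcR j).one_left (hb' g hg j),
      (hcL i).one_right (ha' g hg i), sub_zero]
  have F2 : ∀ i j, ∀ p ∈ Lf i, ∀ q ∈ Rt j, ∀ y ∈ Lf i, y ∈ Rt j →
      F i j (p * y) q + cL i p y = F i j p (y * q) + cR j y q := by
    intro i j p hp q hq y hy1 hy2
    have hg : p * (y * q) ∈ S := S.mul_mem (hLS i hp) (S.mul_mem (hLS i hy1) (hRS j hq))
    have m1 : (a (p * (y * q)))⁻¹ * p ∈ Lf i := (Lf i).mul_mem ((Lf i).inv_mem (ha' _ hg i)) hp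
    have m2 : (a (p * (y * q)))⁻¹ * p ∈ Rt j := by
      rw [hy _ _ hg]
      exact (Rt j).mul_mem (hb' _ hg j) ((Rt j).inv_mem ((Rt j).mul_mem hy2 hq))
    have c1 := (hcR j).1 _ m2 y hy2 q hq
    have c2 := (hcL i).1 _ (ha' _ hg i) _ m1 y hy1
    have c3 := hLR i j _ ⟨m1, m2⟩ y ⟨hy1, hy2⟩
    rw [mul_inv_cancel_left] at c2
    rw [hF, hF, mul_assoc p y q, ← mul_assoc _ p y]
    linarith
  have F3 : ∀ i j j', ∀ p ∈ Lf i, ∀ g ∈ S, F i j p (b g) = F i j' p (b g) := by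
    intro i j j' p hp g hg
    have hg' : p * b g ∈ S := S.mul_mem (hLS i hp) (hRS j (hb' g hg j))
    rw [hF, hF, hRR j j' _ _ _ (hb g hg)]
    rw [hy _ _ hg']
    exact Subgroup.mul_mem _ (hb _ hg') (Subgroup.inv_mem _ (hb g hg))
  have F4 : ∀ i i' j, ∀ q ∈ Rt j, ∀ g ∈ S, F i j (a g) q = F i' j (a g) q := by
    intro i i' j q hq g hg
    have hg' : a g * q ∈ S := S.mul_mem (hLS i (ha' g hg i)) (hRS j hq)
    rw [hF, hF, hLL i i' _ (ha _ hg') _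
      (Subgroup.mul_mem _ (Subgroup.inv_mem _ (ha _ hg')) (ha g hg))]
  obtain ⟨lm, hlm⟩ : ∃ lm : A → Γ → Γ → ℚ, ∀ i p g, lm i p g =
      cL i p (a g) + F i j₀ (p * a g) (b g) := ⟨_, fun _ _ _ => rfl⟩
  obtain ⟨rh, hrh⟩ : ∃ rh : B → Γ → Γ → ℚ, ∀ j q g, rh j q g =
      cR j (b g) q + F i₀ j (a g) (b g * q) := ⟨_, fun _ _ _ => rfl⟩
  have L1 : ∀ i j, ∀ p ∈ Lf i, ∀ p₀ ∈ Lf i, ∀ q₀ ∈ Rt j,
      F i j p₀ q₀ + lm i p (p₀ * q₀) = cL i p p₀ + F i j (p * p₀) q₀ := by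
    intro i j p hp p₀ hp₀ q₀ hq₀
    have hg : p₀ * q₀ ∈ S := S.mul_mem (hLS i hp₀) (hRS j hq₀)
    have m0 := ha' _ hg i
    have m1 : (a (p₀ * q₀))⁻¹ * p₀ ∈ Lf i := (Lf i).mul_mem ((Lf i).inv_mem m0) hp₀
    have m2 : (a (p₀ * q₀))⁻¹ * p₀ ∈ Rt j := by
      rw [hy _ _ hg]
      exact (Rt j).mul_mem (hb' _ hg j) ((Rt j).inv_mem hq₀)
    have e1 : (a (p₀ * q₀))⁻¹ * p₀ * q₀ = b (p₀ * q₀) := by rw [hy _ _ hg, inv_mul_cancel_right]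
    have c1 := F2 i j _ ((Lf i).mul_mem hp m0) q₀ hq₀ _ m1 m2
    have c2 := (hcL i).1 p hp _ m0 _ m1
    rw [mul_inv_cancel_left] at c2
    rw [e1, mul_assoc, mul_inv_cancel_left] at c1
    rw [hlm, F3 i j₀ j _ ((Lf i).mul_mem hp m0) _ hg, hF i j p₀ q₀]
    linarith
  have R1 : ∀ i j, ∀ q ∈ Rt j, ∀ p₀ ∈ Lf i, ∀ q₀ ∈ Rt j,
      F i j p₀ q₀ + rh j q (p₀ * q₀) = cR j q₀ q + F i j p₀ (q₀ * q) := by
    intro i j q hq p₀ hp₀ q₀ hq₀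
    have hg : p₀ * q₀ ∈ S := S.mul_mem (hLS i hp₀) (hRS j hq₀)
    have m0 := ha' _ hg i
    have m1 : (a (p₀ * q₀))⁻¹ * p₀ ∈ Lf i := (Lf i).mul_mem ((Lf i).inv_mem m0) hp₀
    have m2 : (a (p₀ * q₀))⁻¹ * p₀ ∈ Rt j := by
      rw [hy _ _ hg]
      exact (Rt j).mul_mem (hb' _ hg j) ((Rt j).inv_mem hq₀)
    have e1 : (a (p₀ * q₀))⁻¹ * p₀ * q₀ = b (p₀ * q₀) := by rw [hy _ _ hg, inv_mul_cancel_right]
    have c1 := F2 i j _ m0 _ ((Rt j).mul_mem hq₀ hq) _ m1 m2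
    have c2 := (hcR j).1 _ m2 q₀ hq₀ q hq
    rw [e1] at c2
    rw [mul_inv_cancel_left, ← mul_assoc _ q₀ q, e1] at c1
    rw [hrh, F4 i₀ i j _ ((Rt j).mul_mem (hb' _ hg j) hq) _ hg, hF i j p₀ q₀]
    linarith
  have hcomm : ∀ i j, ∀ p ∈ Lf i, ∀ q ∈ Rt j, ∀ g ∈ S,
      lm i p g + rh j q (p * g) = rh j q g + lm i p (g * q) := by
    intro i j p hp q hq g hg
    have m0 := ha' g hg i
    have m1 := hb' g hg j
    have c1 := L1 i j p hp _ m0 _ m1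
    have c2 := R1 i j q hq _ ((Lf i).mul_mem hp m0) _ m1
    have c3 := R1 i j q hq _ m0 _ m1
    have c4 := L1 i j p hp _ m0 _ ((Rt j).mul_mem m1 hq)
    rw [← hab g hg] at c1 c3
    rw [mul_assoc, ← hab g hg] at c2
    rw [← mul_assoc, ← hab g hg] at c4
    linarith
  have hlc : ∀ i, ∀ p ∈ Lf i, ∀ p' ∈ Lf i,
      lm i p' 1 + lm i p p' = cL i p p' + lm i (p * p') 1 := by
    intro i p hp p' hp'
    have m1 := (Rt j₀).one_mem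
    have c1 := L1 i j₀ p' hp' 1 (Lf i).one_mem 1 m1
    have c2 := L1 i j₀ p hp p' hp' 1 m1
    have c3 := L1 i j₀ _ ((Lf i).mul_mem hp hp') 1 (Lf i).one_mem 1 m1
    simp only [mul_one] at c1 c2 c3
    rw [(hcL i).one_right hp'] at c1
    rw [(hcL i).one_right ((Lf i).mul_mem hp hp')] at c3
    linarith
  let Q : (Γ → ℚ) → Γ → Prop := fun u g =>
    ∀ j, ∀ q ∈ Rt j, ∀ h ∈ S, u h + rh j q (g * h) = rh j q h + u (h * q)
  have Qmul : ∀ u g u' g', g' ∈ S → Q u g → Q u' g' →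
      Q (fun h => u' h + u (g' * h)) (g * g') := by
    intro u g u' g' hg' h1 h2 j q hq h hh
    have c1 := h1 j q hq _ (S.mul_mem hg' hh)
    have c2 := h2 j q hq h hh
    simp only [mul_assoc] at c1 c2 ⊢
    linarith
  have Qex : ∀ g ∈ S, ∃ u, Q u g ∧ u 1 = 0 := by
    intro g hg
    have : g ∈ S ∧ ∃ u, Q u g := by
      refine Subgroup.iSup_induction Lf (C := fun g => g ∈ S ∧ ∃ u, Q u g) (hL hg) ?_ ?_ ?_
      · exact fun i p hp => ⟨hLS i hp, lm i p, fun j q hq h hh => hcomm i j p hp q hq h hh⟩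
      · exact ⟨S.one_mem, 0, fun j q hq h hh => by simp⟩
      · rintro x y ⟨hx, u, hu⟩ ⟨hy, u', hu'⟩
        exact ⟨S.mul_mem hx hy, _, Qmul u x u' y hy hu hu'⟩
    obtain ⟨-, u, hu⟩ := this
    refine ⟨fun h => u h - u 1, fun j q hq h hh => ?_, sub_self _⟩
    have := hu j q hq h hh
    simp only
    linarith
  have Quniq : ∀ u u' g, Q u g → Q u' g → ∀ h ∈ S, u h - u' h = u 1 - u' 1 := by
    intro u u' g h1 h2 q hq
    have : q ∈ S ∧ ∀ h ∈ S, u (h * q) - u' (h * q) = u h - u' h := by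
      refine Subgroup.iSup_induction Rt
        (C := fun q => q ∈ S ∧ ∀ h ∈ S, u (h * q) - u' (h * q) = u h - u' h) (hR hq) ?_ ?_ ?_
      · refine fun j q hq => ⟨hRS j hq, fun h hh => ?_⟩
        have c1 := h1 j q hq h hh
        have c2 := h2 j q hq h hh
        linarith
      · exact ⟨S.one_mem, fun h _ => by rw [mul_one]⟩
      · rintro x y ⟨hx, e1⟩ ⟨hy, e2⟩
        refine ⟨S.mul_mem hx hy, fun h hh => ?_⟩
        rw [← mul_assoc, e2 _ (S.mul_mem hh hx), e1 h hh]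
    simpa using this.2 1 S.one_mem
  choose! u hu hu1 using Qex
  have hcoc : IsCoc S u := by
    refine ⟨fun x hx y hy z hz => ?_, hu1 1 S.one_mem⟩
    have := Quniq _ _ _ (Qmul _ _ _ _ hy (hu x hx) (hu y hy)) (hu _ (S.mul_mem hx hy)) z hz
    simp only [mul_one] at this
    rw [hu1 y hy, hu1 _ (S.mul_mem hx hy)] at this
    linarith
  obtain ⟨c, f, hc, hcf⟩ := hcoc.exists_can ht
  refine ⟨c, hc, fun i x hx y hy => ?_⟩
  have := ((hc.mono (hLS i)).sub (hcL i)).cob (fun x hx => ht x (hLS i hx))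
    (fun p => f p + lm i p 1) (fun p hp p' hp' => by
      have c1 := Quniq _ _ _ (hu p (hLS i hp))
        (fun j q hq h hh => hcomm i j p hp q hq h hh : Q (lm i p) p) p' (hLS i hp')
      have c2 := hlc i p hp p' hp'
      have c3 := hcf p (hLS i hp) p' (hLS i hp')
      rw [hu1 p (hLS i hp)] at c1
      linarith) x hx y hy
  linarith

end Vale.Agent.P192
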