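import Vale.Agent.P192.Gauss

/-! The kernel of the matrix representation on the relative subgroup is central.

PROOF PLAN. `tri_diag`: images of `Uup` are upper unitriangular for `rk`, of `Ulo` lower
unitriangular; from `u * diagU d * v = diagU e` get `diagU d * v * (diagU e)⁻¹ = u⁻¹`, both upper and
lower triangular with unit diagonal, so `u = 1`, `d = e`, `v = 1`.
`π` is injective on `Uup`: induct on `m` for the subgroup generated by the `x k l a` with
`rk k < rk l ≤ m`; each element is `c * u'` with `c` in the commutative group generated by the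
`x k l r` (`rk l = m`, `rk k < m`) and `u'` in the group for `m - 1` (which normalises the column
group); column `l` of `π (c * u')` is that of `π c`, and `π` is injective on the column group
(induct on the finite set of rows: `c = x k l r * c'`, read off the entry `(k, l)`).
Same for `Ulo` (or apply the result to the reversed rank). Then `gauss`, `hd_map`, `hd_conj`. -/

namespace Vale.Agent.P192

open Matrix

variable {ι R G : Type} [Fintype ι] [DecidableEq ι] [Ring R] [Group G]

theorem ce_tri (ε : R →+* ZMod 2) {r : ι → ι → Prop} (htr : ∀ i j k, r i j → r j k → r i k)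
    (hirr : ∀ i j, r i j → i ≠ j) {g : (Matrix ι ι R)ˣ}
    (hg : g ∈ Subgroup.closure {g | ∃ i j a, r i j ∧ ε a = 0 ∧ g = el (ι := ι) (R := R) i j a}) :
    ∀ i j, ¬ r i j → (g : Matrix ι ι R) i j = (1 : Matrix ι ι R) i j := by
  have hel : ∀ k l a, r k l → ∀ i j, ¬ r i j →
      ((el k l a : (Matrix ι ι R)ˣ) : Matrix ι ι R) i j = (1 : Matrix ι ι R) i j := by
    intro k l a h i j hij
    rw [el_val (hirr k l h), Matrix.add_apply, single_apply_of_ne, add_zero]
    rintro ⟨rfl, rfl⟩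
    exact hij h
  induction hg using Subgroup.closure_induction'' with
  | mem g hg =>
    obtain ⟨k, l, a, h, -, rfl⟩ := hg
    exact hel k l a h
  | inv_mem g hg =>
    obtain ⟨k, l, a, h, -, rfl⟩ := hg
    have : (el k l a : (Matrix ι ι R)ˣ)⁻¹ = el k l (-a) := by
      refine inv_eq_of_mul_eq_one_right ?_
      rw [← el_isSt.add k l (hirr k l h), add_neg_cancel, el_isSt.zero (hirr k l h)]
    rw [this]
    exact hel k l _ h
  | one => exact fun _ _ _ => rfl
  | mul g h _ _ hg hh =>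
    intro i j hij
    have e : ((g * h : (Matrix ι ι R)ˣ) : Matrix ι ι R) =
        ((g : Matrix ι ι R) - 1) * ((h : Matrix ι ι R) - 1) + g + h - 1 := by
      rw [Units.val_mul]
      noncomm_ring
    have e2 : (((g : Matrix ι ι R) - 1) * ((h : Matrix ι ι R) - 1)) i j = 0 := by
      rw [mul_apply]
      refine Finset.sum_eq_zero fun k _ => ?_
      by_cases h1 : r i k
      · rw [Matrix.sub_apply (h : Matrix ι ι R), hh k j fun h2 => hij (htr i k j h1 h2), sub_self,
          mul_zero]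
      · rw [Matrix.sub_apply, hg i k h1, sub_self, zero_mul]
    rw [e, Matrix.sub_apply, Matrix.add_apply, Matrix.add_apply, e2, hg i j hij, hh i j hij,
      zero_add, add_sub_cancel_right]

theorem tri_diag (ε : R →+* ZMod 2) (rk : ι → ℕ) (hrk : Function.Injective rk)
    {u v : (Matrix ι ι R)ˣ} (hu : u ∈ Uup rk ε (el (ι := ι) (R := R)))
    (hv : v ∈ Ulo rk ε (el (ι := ι) (R := R))) {d e : ι → Rˣ}
    (h : u * diagU d * v = diagU e) : u = 1 ∧ d = e ∧ v = 1 := by
  have h1 := ce_tri ε (r := fun i j => rk i < rk j) (fun _ _ _ => lt_trans)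
    (fun i j h h' => by rw [h'] at h; exact lt_irrefl _ h) (inv_mem hu)
  have h2 := ce_tri ε (r := fun i j => rk j < rk i) (fun _ _ _ a b => lt_trans b a)
    (fun i j h h' => by rw [h'] at h; exact lt_irrefl _ h) hv
  have h3 : diagU d * v = u⁻¹ * diagU e := by rw [← h]; group
  have h4 : ∀ i j, (d i : R) * (v : Matrix ι ι R) i j =
      ((u⁻¹ : (Matrix ι ι R)ˣ) : Matrix ι ι R) i j * e j := fun i j => by
    have := congrArg (fun g : (Matrix ι ι R)ˣ => (g : Matrix ι ι R) i j) h3
    rwa [Units.val_mul, Units.val_mul, diagU_val, diagU_val, diagonal_mul, mul_diagonal] at this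
  have h5 : u⁻¹ = 1 := by
    refine Units.ext (Matrix.ext fun i j => ?_)
    by_cases hij : rk i < rk j
    · have hne : i ≠ j := fun h' => by rw [h'] at hij; exact lt_irrefl _ hij
      have := h4 i j
      rw [h2 i j (not_lt.2 hij.le), one_apply_ne hne, mul_zero] at this
      rw [Units.val_one, one_apply_ne hne]
      exact (Units.mul_left_eq_zero _).1 this.symm
    · exact h1 i j hij
  have h6 : d = e := funext fun i => Units.ext (by
    have := h4 i i
    rwa [h2 i i (lt_irrefl _), h1 i i (lt_irrefl _), one_apply_eq, mul_one, one_mul] at this)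
  rw [h5, h6, one_mul] at h3
  exact ⟨inv_eq_one.1 h5, h6, mul_eq_left.1 h3⟩

theorem ce_col (L : Loc R) {x : ι → ι → R → G} (hx : IsSt x) (π : G →* (Matrix ι ι R)ˣ)
    (hπ : ∀ i j r, i ≠ j → π (x i j r) = el i j r) (l : ι) (S : Finset ι) (hl : l ∉ S) {c : G}
    (hc : c ∈ Subgroup.closure {g | ∃ k ∈ S, ∃ r, g = x k l r})
    (h : ∀ k, (π c : Matrix ι ι R) k l = (1 : Matrix ι ι R) k l) : c = 1 := by
  induction S using Finset.induction_on generalizing c with
  | empty => simpa using hc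
  | insert k S hk ih =>
    have hl' : l ∉ S := fun h => hl (Finset.mem_insert_of_mem h)
    have hkl : k ≠ l := fun h => hl (h ▸ Finset.mem_insert_self _ _)
    have hne : ∀ m ∈ S, m ≠ l := fun m hm h => hl' (h ▸ hm)
    have hcomm : ∀ r, ∀ c ∈ Subgroup.closure {g | ∃ k ∈ S, ∃ r, g = x k l r},
        Commute (x k l r) c := fun r c hc => by
      refine ga_clo_ind (P := fun c => Commute (x k l r) c) ?_ (Commute.one_right _) ?_
        (fun a b => Commute.mul_right) hc
      · rintro g ⟨m, hm, a, rfl⟩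
        exact hx.inv L (hne m hm) a
      · rintro g ⟨m, hm, a, rfl⟩
        exact hx.comm k l m l hkl (hne m hm) (hne m hm).symm hkl r a
    have hrow : ∀ c ∈ Subgroup.closure {g | ∃ k ∈ S, ∃ r, g = x k l r}, ∀ m, m ∉ S → ∀ j,
        (π c : Matrix ι ι R) m j = (1 : Matrix ι ι R) m j := fun c hc => by
      refine ga_clo_ind (P := fun c => ∀ m, m ∉ S → ∀ j,
        (π c : Matrix ι ι R) m j = (1 : Matrix ι ι R) m j) ?_ (by simp) ?_ ?_ hc
      · rintro g ⟨m, hm, a, rfl⟩
        exact hx.inv L (hne m hm) a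
      · rintro g ⟨m, hm, a, rfl⟩ i hi j
        rw [hπ _ _ _ (hne m hm), el_val (hne m hm), Matrix.add_apply, single_apply_of_ne, add_zero]
        rintro ⟨rfl, -⟩
        exact hi hm
      · intro a b ha hb m hm j
        rw [map_mul, Units.val_mul, mul_apply]
        simp only [ha m hm]
        rw [← mul_apply, Matrix.one_mul, hb m hm]
    obtain ⟨r, c', hc', rfl⟩ : ∃ r, ∃ c' ∈ Subgroup.closure {g | ∃ k ∈ S, ∃ r, g = x k l r},
        c = x k l r * c' := by
      refine ga_clo_ind (P := fun c => ∃ r, ∃ c' ∈ Subgroup.closure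
        {g | ∃ k ∈ S, ∃ r, g = x k l r}, c = x k l r * c') ?_
        ⟨0, 1, one_mem _, by rw [hx.zero hkl, mul_one]⟩ ?_ ?_ hc
      · rintro g ⟨m, hm, a, rfl⟩
        exact hx.inv L (fun h : m = l => hl (h ▸ hm)) a
      · rintro g ⟨m, hm, a, rfl⟩
        rcases Finset.mem_insert.1 hm with rfl | hm
        · exact ⟨a, 1, one_mem _, (mul_one _).symm⟩
        · exact ⟨0, _, Subgroup.subset_closure ⟨m, hm, a, rfl⟩, by rw [hx.zero hkl, one_mul]⟩
      · rintro _ _ ⟨a, c, hc, rfl⟩ ⟨b, c', hc', rfl⟩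
        refine ⟨a + b, _, mul_mem hc hc', ?_⟩
        rw [hx.add k l hkl, mul_assoc, mul_assoc, ← mul_assoc c, ← (hcomm b c hc).eq, mul_assoc]
    have h1 := h k
    rw [map_mul, Units.val_mul, hπ _ _ _ hkl, ga_el_mul hkl, if_pos rfl, hrow c' hc' k hk,
      hrow c' hc' l hl', one_apply_eq, mul_one, add_eq_left] at h1
    rw [h1, hx.zero hkl, one_mul] at h ⊢
    exact ih hl' hc' h

theorem ce_inj (L : Loc R) {x : ι → ι → R → G} (hx : IsSt x) (π : G →* (Matrix ι ι R)ˣ)
    (hπ : ∀ i j r, i ≠ j → π (x i j r) = el i j r) {ρ : ι → ℕ} (hρ : Function.Injective ρ)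
    (m : ℕ) {u : G} (hu : u ∈ Subgroup.closure {g | ∃ k l a, ρ k < ρ l ∧ ρ l < m ∧ g = x k l a})
    (h : π u = 1) : u = 1 := by
  have ne : ∀ {i j}, ρ i < ρ j → i ≠ j := fun h h' => by rw [h'] at h; exact lt_irrefl _ h
  induction m generalizing u with
  | zero => simpa using hu
  | succ m ih =>
    by_cases hm : ∃ l, ρ l = m
    swap
    · refine ih (Subgroup.closure_mono ?_ hu) h
      rintro g ⟨k, l, a, h1, h2, rfl⟩
      exact ⟨k, l, a, h1, lt_of_le_of_ne (by omega) fun e => hm ⟨l, e⟩, rfl⟩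
    obtain ⟨l, rfl⟩ := hm
    obtain ⟨C, hC⟩ : ∃ C, C = Subgroup.closure
      {g | ∃ k ∈ Finset.univ.filter fun k => ρ k < ρ l, ∃ r, g = x k l r} := ⟨_, rfl⟩
    obtain ⟨U, hU⟩ : ∃ U, U = Subgroup.closure
      {g | ∃ k j a, ρ k < ρ j ∧ ρ j < ρ l ∧ g = x k j a} := ⟨_, rfl⟩
    have memC : ∀ {k} r, ρ k < ρ l → x k l r ∈ C := fun r h =>
      hC ▸ Subgroup.subset_closure ⟨_, by simpa using h, r, rfl⟩
    have hn : ∀ w ∈ U, ∀ c ∈ C, w * c * w⁻¹ ∈ C := fun w hw => by
      rw [hU] at hw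
      refine ga_clo_ind (P := fun w => ∀ c ∈ C, w * c * w⁻¹ ∈ C) ?_ (by simp) ?_ ?_ hw
      · rintro g ⟨k, j, a, h1, -, rfl⟩
        exact hx.inv L (ne h1) a
      · rintro g ⟨k, j, a, h1, h2, rfl⟩ c hc
        rw [hC] at hc
        refine ga_conj ?_ hc
        rintro g ⟨i, hi, r, rfl⟩
        have hi' : ρ i < ρ l := by simpa using hi
        by_cases hj : j = i
        · subst hj
          rw [hx.conjL (ne h1) (ne h2) (ne (h1.trans h2))]
          exact mul_mem (memC _ (h1.trans h2)) (memC _ h2)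
        · rw [hx.conjC (ne h1) (ne hi') hj (ne (h1.trans h2))]
          exact memC _ hi'
      · intro a b ha hb c hc
        rw [ga_mul_conj]
        exact ha _ (hb c hc)
    obtain ⟨c, hc, w, hw, rfl⟩ : ∃ c ∈ C, ∃ w ∈ U, u = c * w := by
      refine ga_clo_ind (P := fun u => ∃ c ∈ C, ∃ w ∈ U, u = c * w) ?_
        ⟨1, one_mem _, 1, one_mem _, by simp⟩ ?_ ?_ hu
      · rintro g ⟨k, j, a, h1, -, rfl⟩
        exact hx.inv L (ne h1) a
      · rintro g ⟨k, j, a, h1, h2, rfl⟩
        by_cases hj : j = l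
        · subst hj
          exact ⟨_, memC a h1, 1, one_mem _, (mul_one _).symm⟩
        · exact ⟨1, one_mem _, _, hU ▸ Subgroup.subset_closure ⟨k, j, a, h1,
            lt_of_le_of_ne (by omega) (hρ.ne hj), rfl⟩, (one_mul _).symm⟩
      · rintro _ _ ⟨c, hc, w, hw, rfl⟩ ⟨c', hc', w', hw', rfl⟩
        exact ⟨_, mul_mem hc (hn w hw c' hc'), _, mul_mem hw hw', by group⟩
    have hfix : π w ∈ Fix R {l} := by
      rw [hU] at hw
      refine (Subgroup.closure_le ((Fix R {l}).comap π)).2 ?_ hw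
      rintro g ⟨k, j, a, h1, h2, rfl⟩ i j' hj'
      rw [Finset.mem_singleton.1 hj', hπ _ _ _ (ne h1), el_val (ne h1), Matrix.add_apply,
        single_apply_of_ne, add_zero]
      exact fun h => ne h2 h.2
    have hc1 : c = 1 := by
      refine ce_col L hx π hπ l _ (by simp) (hC ▸ hc) fun k => ?_
      have h1 := congrArg (fun g : (Matrix ι ι R)ˣ => (g : Matrix ι ι R) k l) h
      rw [map_mul, Units.val_mul, mul_apply] at h1
      simp only [fun i => hfix i l (Finset.mem_singleton_self l)] at h1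
      rwa [← mul_apply, Matrix.mul_one] at h1
    rw [hc1, one_mul] at h ⊢
    exact ih (hU ▸ hw) h

theorem central (L : Loc R) (h3 : 3 ≤ Fintype.card ι) {x : ι → ι → R → G} (hx : IsSt x)
    (π : G →* (Matrix ι ι R)ˣ) (hπ : ∀ i j r, i ≠ j → π (x i j r) = el i j r)
    {g : G} (hg : g ∈ relN L.ε x) (h1 : π g = 1) {h : G} (hh : h ∈ allX x) : Commute h g := by
  obtain ⟨u, hu, z, hz, v, hv, rfl⟩ := gauss L h3 (Fintype.equivFin ι) hx hg
  obtain ⟨ρ, hρ⟩ : ∃ ρ : ι → ℕ, ρ = fun i => (Fintype.equivFin ι i : ℕ) := ⟨_, rfl⟩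
  rw [← hρ] at hu hv
  have hinj : Function.Injective ρ := hρ ▸ Fin.val_injective.comp (Fintype.equivFin ι).injective
  have hlt : ∀ i, ρ i < Fintype.card ι := fun i => by rw [hρ]; exact (Fintype.equivFin ι i).2
  have ne : ∀ {i j}, ρ i < ρ j → i ≠ j := fun h h' => by rw [h'] at h; exact lt_irrefl _ h
  have hu' : π u ∈ Uup ρ L.ε (el (ι := ι) (R := R)) := by
    refine (Subgroup.closure_le ((Uup ρ L.ε el).comap π)).2 ?_ hu
    rintro g ⟨i, j, a, h2, ha, rfl⟩
    exact Subgroup.subset_closure ⟨i, j, a, h2, ha, hπ _ _ _ (ne h2)⟩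
  have hv' : π v ∈ Ulo ρ L.ε (el (ι := ι) (R := R)) := by
    refine (Subgroup.closure_le ((Ulo ρ L.ε el).comap π)).2 ?_ hv
    rintro g ⟨i, j, a, h2, ha, rfl⟩
    exact Subgroup.subset_closure ⟨i, j, a, h2, ha, hπ _ _ _ (ne h2).symm⟩
  rw [map_mul, map_mul, hd_map L π hπ hz, ← map_one diagU] at h1
  obtain ⟨e1, e2, e3⟩ := tri_diag L.ε ρ hinj hu' hv' h1
  have hu1 : u = 1 := by
    refine ce_inj L hx π hπ hinj (Fintype.card ι) (Subgroup.closure_mono ?_ hu) e1
    rintro g ⟨i, j, a, h2, -, rfl⟩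
    exact ⟨i, j, a, h2, hlt j, rfl⟩
  have hv1 : v = 1 := by
    refine ce_inj L hx π hπ (ρ := fun i => Fintype.card ι - ρ i) (fun i j h => hinj ?_)
      (Fintype.card ι + 1) (Subgroup.closure_mono ?_ hv) e3
    · have := hlt i
      have := hlt j
      simp only at h
      omega
    · rintro g ⟨i, j, a, h2, -, rfl⟩
      have := hlt i
      exact ⟨i, j, a, by omega, by omega, rfl⟩
  rw [hu1, hv1, one_mul, mul_one]
  refine ga_clo_ind (P := fun h => Commute h z.1) ?_ (Commute.one_left _) ?_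
    (fun a b => Commute.mul_left) hh
  · rintro g ⟨i, j, r, hij, rfl⟩
    exact hx.inv L hij r
  · rintro g ⟨i, j, r, hij, rfl⟩
    have := hd_conj L h3 hx hz i j hij r
    rw [e2, mul_inv_eq_iff_eq_mul] at this
    simpa [Commute, SemiconjBy] using this.symm

end Vale.Agent.P192
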