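import Vale.Agent.P192.CleanAAux

/-! Cleaning a single cell, and the link classes of adjacent cells.

PROOF PLAN. Everything is under `¬Zero`, which is preserved along `Eqv`.
`go_home`: induct on `k`; the backward move (`mv_one`, `mv_fu`) is always possible, and the source
`src t q` is not doomed since the word is nonzero. Only `kf, d, b, u` change.
`home_core`: `¬ZA` at position `0`. `no_u`: key at home not in `opnL, ful, wrk`: an upper bit at
`j > 0` can be moved to `0` (`lane_cell`), contradicting `uok.ku`. `no_hole`: same with a hole and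
`uok.kt`. `unlock`: key at home with both classes `0`: `idle`, or undo `s2, s7, s9, s10`, do `s8`
for `ret`, undo `l3` then `s10` for `fu (tr ..)`. `clean1`: `go_home`, `unlock`, `norm_tok`,
`no_u`, `no_hole`, middle `oc = none` by `¬ZA`; the result is `lift` of the letter read off
(`bval`, `testBit_bval`, `bval_lt`). `to_opn`: from class `clsL = 2` at home get `opnL` (undo `s4`,
`s5`, `l1`). `clean_cls`: bring the right key home. If the left key can be brought to `N - 1` with the
same `clsL`, conclude by `nz_compat`. Left `clsL = 0 = clsR`: unlock to `idle` first; left keys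
`half, got, acc, opnR, dresp, fu ..` move freely; left `clsL = 2`: `to_opn`; if the upper lane is
empty move to `N - 1`; otherwise push a bit to `N - 1`, then `compatS` forces
`opent ≠ none` for the right key, so `clsR = 2`. -/

namespace Vale.Agent.P192

variable {N : ℕ}

theorem go_home {C : Wd} {k : ℕ} (hz : ¬(sys N).Zero 0 N C) (h : Shp N C k) :
    ∃ C', (sys N).Eqv 0 N C C' ∧ Shp N C' 0 ∧ (C' 0).q.kf = (C k).q.kf ∧
      ∀ j, (C' j).oc = (C j).oc := by
  induction k generalizing C with
  | zero => exact ⟨C, Sys.Eqv.refl _, h, rfl, fun _ => rfl⟩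
  | succ k ih =>
    have hk := h.hk
    have hK := h.kK
    have hself := ca_place_self h
    cases hm : (C (k + 1)).q.kf with
    | R => rw [hm] at hK; exact hK.elim
    | L => rw [hm] at hK; exact hK.elim
    | fu pt p =>
      have e := mv_fu (M := N) (k := k + 1) (k' := 0) h.fl hk (by omega) pt p
      rw [hm] at hself
      rw [hself, Nat.zero_add] at e
      refine ⟨_, e, ca_place_shp h.fl (by omega) trivial, ca_place_kf C (by omega) _, fun j => ?_⟩
      unfold place; split_ifs <;> rfl
    | sm t =>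
      have e := (mv_one (M := N) h.fl hk t).eqv.symm
      rw [hm] at hself
      rw [hself] at e
      simp only [Nat.zero_add] at e
      have hz1 := ca_nz hz e
      have hd := (ca_uok hz1 (i := k) (Nat.zero_le _) (by omega)).doom
      simp only [Function.update_self] at hd
      have hkf := ca_src_kf hd
      have hp := ca_place_shp (k := k) h.fl (by omega) (m := .sm t) trivial
      have hs : Shp N (Function.update (place 0 N k (.sm t) C) k
          { C k with q := src t { (C k).q with kf := .R } }) k := by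
        have hk' : k < N := by omega
        refine ca_upd_shp hp ?_ ?_ ?_
        · simp [place, hk']
        · simp [place, hk']
        · simp only [hkf]; trivial
      obtain ⟨C', a, b, c, d⟩ := ih hz1 hs
      refine ⟨C', e.trans a, b, ?_, fun j => ?_⟩
      · rw [c]; simpa using hkf
      · rw [d]
        by_cases ej : j = k
        · subst ej; simp
        · rw [Function.update_of_ne ej]
          unfold place; split_ifs <;> rfl

theorem home_core (hN : 2 ≤ N) {C : Wd} (hz : ¬(sys N).Zero 0 N C) (h : Shp N C 0) :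
    ∃ c, (C 0).oc = some c ∧ compatA (C 0).q.kf c := by
  have h0 := nz_uok hz (i := 0) le_rfl (by omega)
  by_contra hc
  refine h0 (Or.inr (Or.inr (Or.inr (Or.inr (Or.inl (Or.inl ⟨ca_first0 h, fun c hc' => ?_⟩))))))
  refine Or.inl fun hca => hc ⟨c, hc', ?_⟩
  simpa using hca

theorem no_u {C : Wd} (hz : ¬(sys N).Zero 0 N C) (h : Shp N C 0) (h1 : ¬(C 0).q.kf.isF)
    (h2 : (C 0).q.kf ≠ .sm .opnL) : ∀ j < N, (C j).q.u = none := by
  have hN := h.hk
  have e := ca_lane h .u 0 (by simpa using filterMap_length_le N _)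
  have hu := (ca_uok (ca_nz hz e) (i := 0) le_rfl hN).ku
  simp only [ca_putL_kf] at hu
  have h3 := hu h.kK h1 h2
  rw [← RegG.lane_u, ca_putL_lane _ _ _ hN] at h3
  have h4 : ((List.range N).filterMap fun p => (C p).q.lane .u) = [] := by
    unfold caPack at h3
    rw [if_neg (by omega), List.getElem?_eq_none_iff] at h3
    exact List.eq_nil_of_length_eq_zero (by omega)
  exact filterMap_eq_nil.1 h4

theorem no_hole {C : Wd} (hz : ¬(sys N).Zero 0 N C) (h : Shp N C 0) (t : Trk)
    (h1 : (C 0).q.kf.opent ≠ some t) : ∀ j < N, (C j).q.lane t.lane ≠ none := by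
  have hN := h.hk
  apply full_of_length
  by_contra hc
  have hle := filterMap_length_le N fun p => (C p).q.lane t.lane
  have e := ca_lane h t.lane 1 (by omega)
  have hu := (ca_uok (ca_nz hz e) (i := 0) le_rfl hN).kt
  simp only [ca_putL_kf] at hu
  have h3 := hu h.kK t h1
  rw [ca_putL_lane _ _ _ hN] at h3
  exact h3 (by simp [caPack])

theorem to_opn (hN : 2 ≤ N) {C : Wd} (hz : ¬(sys N).Zero 0 N C) (h : Shp N C 0)
    (h1 : (C 0).q.kf.clsL = 2) :
    ∃ c, (sys N).Eqv 0 N C
      (Function.update C 0 { C 0 with q := (C 0).q.key .opnL, oc := some c }) := by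
  obtain ⟨c, hc, ha⟩ := home_core hN hz h
  cases hm : (C 0).q.kf with
  | R => rw [hm] at h1; simp [KF.clsL] at h1
  | L => rw [hm] at h1; simp [KF.clsL] at h1
  | fu pt p =>
    rw [hm] at h1 ha
    cases pt with
    | respL =>
      obtain ⟨κ, q, rfl, h2, h3⟩ := ha
      exact ⟨_, ca_load h (t := .opnL) rfl hm hc (Act.l1 h2 h3)⟩
    | respR => simp [KF.clsL] at h1
    | tr => simp [KF.clsL] at h1
  | sm t =>
    rw [hm] at h1 ha
    cases t with
    | opnL =>
      refine ⟨c, ?_⟩
      have : (C 0).q.key .opnL = (C 0).q := by unfold RegG.key; rw [← hm]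
      rw [this, ← hc]
      simpa using Sys.Eqv.refl _
    | ful =>
      obtain ⟨κ, ph, q, rfl, _⟩ := ha
      exact ⟨_, ca_small h hm hc (Or.inr Act.s4)⟩
    | wrk w =>
      obtain ⟨κ, q, rfl, h2, h3⟩ := ha
      exact ⟨_, ca_small h hm hc (Or.inr (Act.s5 h2 h3))⟩
    | _ => simp [KF.clsL] at h1

theorem ca_unlock (hN : 2 ≤ N) {C : Wd} (hz : ¬(sys N).Zero 0 N C) (h : Shp N C 0)
    (h1 : (C 0).q.kf.clsL = 0) (h2 : (C 0).q.kf.clsR = 0) :
    ∃ C', (sys N).Eqv 0 N C C' ∧ Shp N C' 0 ∧ (C' 0).q.kf = .sm .idle := by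
  obtain ⟨c, hc, ha⟩ := home_core hN hz h
  have hK := h.kK
  have fin : ∀ {c'}, (sys N).Eqv 0 N C
      (Function.update C 0 { C 0 with q := (C 0).q.key .idle, oc := some c' }) →
      ∃ C', (sys N).Eqv 0 N C C' ∧ Shp N C' 0 ∧ (C' 0).q.kf = .sm .idle :=
    fun e => ⟨_, e, ca_key_shp h _ _, by simp⟩
  cases hm : (C 0).q.kf with
  | R => rw [hm] at hK; exact hK.elim
  | L => rw [hm] at hK; exact hK.elim
  | fu pt p =>
    rw [hm] at h1 h2 ha
    cases pt with
    | respL => simp [KF.clsL] at h1
    | respR => simp [KF.clsR] at h2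
    | tr ph o =>
      obtain ⟨ro, q, rfl, h3⟩ := ha
      have e1 := ca_load h (t := .pend ph o) rfl hm hc (Act.l3 h3)
      have s1 := ca_key_shp h (.pend ph o) (some (.LA0 ph o ro (merge ph o ro q p)))
      have e2 := ca_small s1 (t := .pend ph o) (c := .LA0 ph o ro (merge ph o ro q p)) (by simp)
        (by simp) (Or.inr Act.s10)
      exact ⟨_, e1.trans e2, ca_key_shp s1 _ _, by simp⟩
  | sm t =>
    rw [hm] at h1 h2 ha
    cases t with
    | idle => exact ⟨C, Sys.Eqv.refl _, h, hm⟩
    | pre κ ph =>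
      obtain ⟨q, rfl, h3⟩ := ha
      exact fin (ca_small h hm hc (Or.inr (Act.s2 h3)))
    | car =>
      obtain ⟨q, rfl, h3, h4⟩ := ha
      exact fin (ca_small h hm hc (Or.inr (Act.s7 h3 h4)))
    | ret =>
      obtain ⟨q, rfl, h3, h4⟩ := ha
      exact fin (ca_small h hm hc (Or.inl (Act.s8 h3 h4)))
    | all β =>
      obtain ⟨q, rfl, h3⟩ := ha
      exact fin (ca_small h hm hc (Or.inr (Act.s9 h3)))
    | pend ph o =>
      obtain ⟨ro, q, rfl⟩ := ha
      exact fin (ca_small h hm hc (Or.inr Act.s10))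
    | half => simp [KF.clsL] at h1
    | opnL => simp [KF.clsL] at h1
    | ful => simp [KF.clsL] at h1
    | wrk => simp [KF.clsL] at h1
    | got => simp [KF.clsR] at h2
    | acc => simp [KF.clsR] at h2
    | opnR => simp [KF.clsR] at h2
    | dresp => simp [KF.clsR] at h2

theorem ca_bits {v : ℕ → Option Bool} (h : ∀ j < N, v j ≠ none) {j : ℕ} (hj : j < N) :
    v j = some ((bval ((List.range N).map fun i => (v i).getD false)).testBit j) := by
  rw [testBit_bval]
  have := h j hj
  cases e : v j with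
  | none => exact absurd e this
  | some β => simp [List.getD_eq_getElem?_getD, hj, e]

theorem ca_bval_lt (v : ℕ → Bool) : bval ((List.range N).map v) < 2 ^ N := by
  simpa using bval_lt ((List.range N).map v)

theorem clean1 (hN : 2 ≤ N) {C : Wd} {k : ℕ} (hz : ¬(sys N).Zero 0 N C) (h : Shp N C k)
    (h1 : (C k).q.kf.clsL = 0) (h2 : (C k).q.kf.clsR = 0) :
    ∃ x, (sys N).Sim 0 N C (lift N x) := by
  obtain ⟨C1, e1, s1, k1, -⟩ := go_home hz h
  have z1 := ca_nz hz e1
  obtain ⟨C2, e2, s2, k2⟩ := ca_unlock hN z1 s1 (k1 ▸ h1) (k1 ▸ h2)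
  have z2 := ca_nz z1 e2
  obtain ⟨c, hc, ha⟩ := home_core hN z2 s2
  rw [k2] at ha
  obtain ⟨q, rfl⟩ := ha
  have hu := no_u z2 s2 (by rw [k2]; exact id) (by rw [k2]; simp)
  have hd := no_hole z2 s2 .d (by rw [k2]; simp [KF.opent])
  have hb := no_hole z2 s2 .b (by rw [k2]; simp [KF.opent])
  refine ⟨⟨q, bval ((List.range N).map fun i => (C2 i).q.d.getD false),
    bval ((List.range N).map fun i => (C2 i).q.b.getD false), (C2 (N - 1)).oc⟩, ?_⟩
  refine ((e1.trans e2).sim.trans (norm_tok z2 s2.fl)).trans (Sys.Sim.of_agree fun j _ hj => ?_)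
  have l1 := ca_bval_lt (N := N) fun i => (C2 i).q.d.getD false
  have l2 := ca_bval_lt (N := N) fun i => (C2 i).q.b.getD false
  refine Ent.ext (RegG.ext ?_ ?_ ?_ ?_ ?_ ?_ ?_ ?_) rfl rfl ?_
  · exact ca_first s2 hj
  · exact ca_last s2 hj
  · by_cases e : j = 0
    · subst e; simpa [lift] using k2
    · simpa [lift, e] using s2.kL j hj (by omega)
  · rfl
  · exact ca_bits (v := fun i => (C2 i).q.d) hd hj
  · exact ca_bits (v := fun i => (C2 i).q.b) hb hj
  · exact hu j hj
  · have := (ca_uok z2 (Nat.zero_le j) hj).doom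
    simp only [lift, RegG.setT_doom, this]
    symm
    rw [decide_eq_false_iff_not]
    omega
  · by_cases e : j = 0
    · subst e; simpa [lift] using hc
    · by_cases e' : j + 1 = N
      · have : N - 1 = j := by omega
        simp [lift, e, e', this]
      · simp only [lift, e, e', if_false]
        by_contra hc'
        refine nz_uok z2 (Nat.zero_le j) hj
          (Or.inr (Or.inr (Or.inr (Or.inr (Or.inl (Or.inr ⟨?_, ?_, hc'⟩))))))
        · simpa [e] using ca_first s2 hj
        · simpa [e'] using ca_last s2 hj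

/-- A key at the last position has the class of the right neighbour at home. -/
theorem ca_cls_last {C D : Wd} (hz : ¬(sys N).Zero 0 (2 * N) (cat N C D))
    (h : Shp N C (N - 1)) (h' : Shp N D 0) : (C (N - 1)).q.kf.clsL = (D 0).q.kf.clsR := by
  have := ((ca_bd h'.hk hz).2.2 (ca_lastN h)).1 (by simpa using h.kK) h'.kK
  simpa using this

/-- If the right key opens no track, the upper lane of the left cell is empty. -/
theorem ca_u_empty {C D : Wd} (hz : ¬(sys N).Zero 0 (2 * N) (cat N C D))
    (h : Shp N C 0) (h' : Shp N D 0) (ho : (D 0).q.kf.opent = none) :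
    ∀ j < N, (C j).q.u = none := by
  have hN := h.hk
  have hle := filterMap_length_le N fun p => (C p).q.lane .u
  by_contra hc
  have hne : ((List.range N).filterMap fun p => (C p).q.lane .u) ≠ [] :=
    fun e => hc (filterMap_eq_nil.1 e)
  have hpos := List.length_pos_of_ne_nil hne
  have e := ca_lane h .u (N - ((List.range N).filterMap fun p => (C p).q.lane .u).length)
    (by omega)
  have z := ca_nz2 hz e (Sys.Eqv.refl D)
  refine ((ca_bd hN z).2.2 (ca_lastN (ca_putL_shp h _ _))).2.1 ?_ h'.kK ho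
  rw [RegG.era_u, ← RegG.lane_u, ca_putL_lane _ _ _ (by omega)]
  unfold caPack
  rw [if_neg (by omega)]
  simp only [ne_eq, List.getElem?_eq_none_iff, not_le]
  omega

/-- The key `opnL` leaves home when the upper lane is empty. -/
theorem ca_out_opn {C : Wd} (h : Shp N C 0) (hk : (C 0).q.kf = .sm .opnL)
    (hu : ∀ j < N, (C j).q.u = none) :
    (sys N).Eqv 0 N C (place 0 N (N - 1) (.sm .opnL) C) :=
  ca_out h hk fun j hj => by simp [src, hu j hj, RegG.key]

theorem ca_cls_home (hN : 2 ≤ N) {C D : Wd} (hz : ¬(sys N).Zero 0 (2 * N) (cat N C D))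
    (h : Shp N C 0) (h' : Shp N D 0) : (C 0).q.kf.clsL = (D 0).q.kf.clsR := by
  have out : ∀ {C : Wd} {m : KF Pay}, ¬(sys N).Zero 0 (2 * N) (cat N C D) → Shp N C 0 → m.isKey →
      (sys N).Eqv 0 N C (place 0 N (N - 1) m C) → m.clsL = (D 0).q.kf.clsR := by
    intro C m hz h hm e
    have := ca_cls_last (ca_nz2 hz e (Sys.Eqv.refl D)) (ca_place_shp h.fl (by omega) hm) h'
    rwa [ca_place_kf C (by omega)] at this
  have hK := h.kK
  by_cases c2 : (C 0).q.kf.clsL = 2
  · obtain ⟨c, e⟩ := to_opn hN (ca_nz_l hz) h c2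
    have s := ca_key_shp h .opnL (some c)
    have z := ca_nz2 hz e (Sys.Eqv.refl D)
    rw [c2]
    by_cases ho : (D 0).q.kf.opent = none
    · exact out (m := .sm .opnL) z s trivial (ca_out_opn s (by simp) (ca_u_empty z s h' ho))
    · cases hm : (D 0).q.kf with
      | sm t => rw [hm] at ho; cases t <;> simp_all [KF.opent, KF.clsR]
      | _ => rw [hm] at ho; simp [KF.opent] at ho
  by_cases c0 : (C 0).q.kf.clsL = 0 ∧ (C 0).q.kf.clsR = 0
  · obtain ⟨C', e, s, k⟩ := ca_unlock hN (ca_nz_l hz) h c0.1 c0.2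
    rw [c0.1]
    exact out (m := .sm .idle) (ca_nz2 hz e (Sys.Eqv.refl D)) s trivial
      (ca_out s k fun _ _ => rfl)
  cases hm : (C 0).q.kf with
  | R => rw [hm] at hK; exact hK.elim
  | L => rw [hm] at hK; exact hK.elim
  | fu pt p =>
    refine out hz h trivial ?_
    have := mv_fu (M := N) (k := 0) (k' := N - 1) h.fl h.hk (by omega) pt p
    rwa [← hm, ca_place_self h, hm, Nat.zero_add] at this
  | sm t =>
    refine out hz h trivial (ca_out h hm fun _ _ => ?_)
    rw [hm] at c2 c0
    cases t <;> first | rfl | simp [KF.clsL, KF.clsR] at c2 c0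

theorem clean_cls (hN : 2 ≤ N) {C D : Wd} {k k' : ℕ} (hz : ¬(sys N).Zero 0 (2 * N) (cat N C D))
    (h : Shp N C k) (h' : Shp N D k') : (C k).q.kf.clsL = (D k').q.kf.clsR := by
  obtain ⟨C1, e1, s1, k1, -⟩ := go_home (ca_nz_l hz) h
  obtain ⟨D1, e2, s2, k2, -⟩ := go_home (ca_nz_r hz) h'
  rw [← k1, ← k2]
  exact ca_cls_home hN (ca_nz2 hz e1 e2) s1 s2

end Vale.Agent.P192
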