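import Vale.Agent.P192.Move

/-! Completeness for unary rules and unary zeros. -/

namespace Vale.Agent.P192

theorem home_small {M : ℕ} {x : Ent} (h : x.q.first = true) {t t' : Tag} {c c' : Core}
    (ha : Act .small (.tag t) c (.tag t') c') :
    Step1 M { x with q := x.q.key t, oc := some c } { x with q := x.q.key t', oc := some c' } :=
  Step1.act (o := .small) (q := x.q) (ro := .home) h ha

theorem home_load {M : ℕ} {x : Ent} (h : x.q.first = true) {t : Tag} {pt : PTag}
    (ht : t.ld = some pt) {p : Pay} {c c' : Core} (ha : Act (.load t.beta) .unit c p c') :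
    Step1 M { x with q := x.q.key t, oc := some c } { x with q := x.q.full pt p, oc := some c' } := by
  have h1 := Step1.act (N := M) (q := x.q.key t) (ro := .home) (a := x.a) (n := x.n)
    (show shape (.load t.beta) .home (x.q.key t) from ⟨h, t, pt, rfl, ht, rfl⟩) ha
  have e1 : merge .A (.load t.beta) .home (x.q.key t) .unit = x.q.key t := by simp [merge]
  have e2 : merge .B (.load t.beta) .home (x.q.key t) p = x.q.full pt p := by
    simp [merge, ldOf, ht, RegG.full, RegG.key]
  rw [e1, e2] at h1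
  exact h1

theorem cA_sim1 {X : Type} {S : Sys X} {lo hi i : ℕ} {f g : ℕ → X} (h1 : lo ≤ i) (h2 : i < hi)
    (h : S.s1 (f i) (g i)) (ho : ∀ j, lo ≤ j → j < hi → j ≠ i → g j = f j) : S.Sim lo hi f g := by
  refine ⟨_, (Sys.step1 h1 h2 h).eqv, fun j a b => ?_⟩
  by_cases e : j = i
  · subst e; simp
  · simp [e, ho j a b e]

theorem cA_sim2 {X : Type} {S : Sys X} {lo hi i : ℕ} {f g : ℕ → X} (h1 : lo ≤ i)
    (h2 : i + 1 < hi) (h : S.s2 (f i) (f (i + 1)) (g i) (g (i + 1)))
    (ho : ∀ j, lo ≤ j → j < hi → j ≠ i → j ≠ i + 1 → g j = f j) : S.Sim lo hi f g := by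
  refine ⟨_, (Sys.step2 h1 h2 h).eqv, fun j a b => ?_⟩
  by_cases e : j = i + 1
  · subst e; simp
  · by_cases e' : j = i
    · subst e'; simp
    · simp [e, e', ho j a b e' e]

/-- A standard cell with key `m` at `k`, lanes `D`, `B`, `U`, core `c` and last slot `oc`. -/
def cAstd (N k : ℕ) (m : KF Pay) (D B U : ℕ → Option Bool) (dm : Bool) (c : Core)
    (oc : Option Core) : Wd := fun j =>
  ⟨⟨decide (j = 0), decide (j + 1 = N), if j < k then .R else if j = k then m else .L,
    if j = 0 then .A else .L, D j, B j, U j, dm⟩,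
   j, 0, if j = 0 then some c else if j + 1 = N then oc else none⟩

/-- The bits of a number. -/
def cAbits (n : ℕ) : ℕ → Option Bool := fun j => some (n.testBit j)

theorem cA_lift (N : ℕ) (x : Ent) :
    lift N x = cAstd N 0 (.sm .idle) (cAbits x.a) (cAbits x.n) (fun _ => none)
      (decide (2 ^ N ≤ x.a ∨ 2 ^ N ≤ x.n)) (.free x.q) x.oc := by
  funext j
  simp [lift, cAstd, cAbits]

theorem cA_lift' {N : ℕ} {x : Ent} (hx : InR (2 ^ N) x) :
    lift N x = cAstd N 0 (.sm .idle) (cAbits x.a) (cAbits x.n) (fun _ => none) false (.free x.q)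
      x.oc := by
  rw [cA_lift]
  have : decide (2 ^ N ≤ x.a ∨ 2 ^ N ≤ x.n) = false := by
    have h1 := hx.1
    have h2 := hx.2
    simp only [decide_eq_false_iff_not]
    omega
  rw [this]

section
variable {M N k : ℕ} {m m' : KF Pay} {D B U D' B' U' : ℕ → Option Bool} {dm : Bool}
  {c c' : Core} {oc oc' : Option Core}

theorem cA_std_congr (h : ∀ j < N, D j = D' j ∧ B j = B' j ∧ U j = U' j) :
    (sys M).Sim 0 N (cAstd N k m D B U dm c oc) (cAstd N k m D' B' U' dm c oc) := by
  refine Sys.Sim.of_agree fun j _ b => ?_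
  obtain ⟨h1, h2, h3⟩ := h j b
  simp [cAstd, h1, h2, h3]

theorem cA_std_small (hN : 2 ≤ N) {t t' : Tag} (ha : Act .small (.tag t) c (.tag t') c') :
    (sys M).Sim 0 N (cAstd N 0 (.sm t) D B U dm c oc) (cAstd N 0 (.sm t') D B U dm c' oc) := by
  refine cA_sim1 (i := 0) le_rfl (by omega) ?_ fun j _ _ e => by simp [cAstd, e]
  exact home_small (x := cAstd N 0 (.sm t) D B U dm c oc 0) rfl ha

theorem cA_std_load (hN : 2 ≤ N) {t : Tag} {pt : PTag} (ht : t.ld = some pt) {p : Pay}
    (ha : Act (.load t.beta) .unit c p c') :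
    (sys M).Sim 0 N (cAstd N 0 (.sm t) D B U dm c oc) (cAstd N 0 (.fu pt p) D B U dm c' oc) := by
  refine cA_sim1 (i := 0) le_rfl (by omega) ?_ fun j _ _ e => by simp [cAstd, e]
  exact home_load (x := cAstd N 0 (.sm t) D B U dm c oc 0) rfl ht ha

/-- The generic key move. -/
theorem cA_std_mv (hk : k + 1 < N) {κ : Kind} {p : Pay} (hκ : κ = .mvS ∨ ∃ pt, κ = .mvP pt)
    (h1 : unext κ (cAstd N (k + 1) m' D' B' U' dm c oc k).q p = (cAstd N k m D B U dm c oc k).q)
    (h2 : ins κ (cAstd N k m D B U dm c oc (k + 1)).q p = (cAstd N (k + 1) m' D' B' U' dm c oc (k + 1)).q)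
    (ho : ∀ j < N, j ≠ k → D j = D' j ∧ B j = B' j ∧ U j = U' j) :
    (sys M).Sim 0 N (cAstd N k m D B U dm c oc) (cAstd N (k + 1) m' D' B' U' dm c oc) := by
  refine cA_sim2 (i := k) (Nat.zero_le _) hk ?_ fun j _ b e e' => ?_
  · have hq : QL κ (cAstd N (k + 1) m' D' B' U' dm c oc k).q := by
      have : k + 1 ≠ N := by omega
      rcases hκ with rfl | ⟨pt, rfl⟩ <;> simp [QL, cAstd, this]
    have hr : PR κ (cAstd N k m D B U dm c oc (k + 1)).q := by
      rcases hκ with rfl | ⟨pt, rfl⟩ <;> simp [PR, cAstd]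
    have hs : okS κ (cAstd N k m D B U dm c oc (k + 1)).q p := by
      rcases hκ with rfl | ⟨pt, rfl⟩ <;> simp [okS]
    have := Step2.mk (a := k) (n := 0) (oc := (cAstd N k m D B U dm c oc k).oc) (a' := k + 1)
      (n' := 0) (oc' := (cAstd N k m D B U dm c oc (k + 1)).oc) hq hr hs
    rw [h1, h2] at this
    have ea : ∀ a a', da κ a a' = a := by
      rcases hκ with rfl | ⟨pt, rfl⟩ <;> simp [da]
    have en : ∀ a a', dn κ a a' = a := by
      rcases hκ with rfl | ⟨pt, rfl⟩ <;> simp [dn]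
    simp only [ea, en] at this
    exact this
  · obtain ⟨a1, a2, a3⟩ := ho j b e
    have : (j < k + 1) ↔ j < k := by omega
    simp [cAstd, a1, a2, a3, e, e', this]

theorem cA_std_mvS (hk : k + 1 < N) {t : Tag}
    (h1 : src t (cAstd N (k + 1) (.sm t) D' B' U' dm c oc k).q = (cAstd N k (.sm t) D B U dm c oc k).q)
    (ho : ∀ j < N, j ≠ k → D j = D' j ∧ B j = B' j ∧ U j = U' j) :
    (sys M).Sim 0 N (cAstd N k (.sm t) D B U dm c oc) (cAstd N (k + 1) (.sm t) D' B' U' dm c oc) := by
  refine cA_std_mv hk (κ := .mvS) (p := .tag t) (Or.inl rfl) h1 ?_ ho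
  obtain ⟨a1, a2, a3⟩ := ho (k + 1) hk (by omega)
  simp [ins, cAstd, RegG.key, a1, a2, a3]

theorem cA_std_mvs {t : Tag} {k : ℕ} (hk : k < N)
    (h : ∀ j < k, ∀ q : Reg, q.d = D j → q.b = B j → q.u = U j → src t q = q.key t) :
    (sys M).Sim 0 N (cAstd N 0 (.sm t) D B U dm c oc) (cAstd N k (.sm t) D B U dm c oc) := by
  induction k with
  | zero => exact Sys.Sim.refl _
  | succ k ih =>
    refine (ih (by omega) fun j hj => h j (by omega)).trans (cA_std_mvS hk ?_ fun _ _ _ => ⟨rfl, rfl, rfl⟩)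
    rw [h k (by omega) _ rfl rfl rfl]
    simp [cAstd, RegG.key]

theorem cA_std_mvf {pt : PTag} {p : Pay} {k : ℕ} (hk : k < N) :
    (sys M).Sim 0 N (cAstd N 0 (.fu pt p) D B U dm c oc) (cAstd N k (.fu pt p) D B U dm c oc) := by
  induction k with
  | zero => exact Sys.Sim.refl _
  | succ k ih =>
    refine (ih (by omega)).trans
      (cA_std_mv hk (κ := .mvP pt) (p := p) (Or.inr ⟨_, rfl⟩) ?_ ?_ fun _ _ _ => ⟨rfl, rfl, rfl⟩)
    · simp [unext, cAstd, RegG.full]
    · simp [ins, cAstd, RegG.full]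

end

theorem cA_succ_bits (n : ℕ) : ∃ z, (∀ j < z, n.testBit j = true) ∧ n.testBit z = false ∧
    ∀ j, (n + 1).testBit j = if j < z then false else if j = z then true else n.testBit j := by
  induction n using Nat.strong_induction_on with
  | _ n ih =>
    rcases Nat.even_or_odd' n with ⟨m, rfl | rfl⟩
    · refine ⟨0, by simp, by simp [Nat.testBit_zero], fun j => ?_⟩
      rcases j with _ | j
      · simp [Nat.testBit_zero]
      · have e1 : (2 * m + 1) / 2 = m := by omega
        have e2 : 2 * m / 2 = m := by omega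
        simp [Nat.testBit_succ, e1]
    · obtain ⟨z, h1, h2, h3⟩ := ih m (by omega)
      have e1 : (2 * m + 1) / 2 = m := by omega
      have e2 : (2 * m + 1 + 1) / 2 = m + 1 := by omega
      refine ⟨z + 1, fun j hj => ?_, by simpa [Nat.testBit_succ, e1] using h2, fun j => ?_⟩
      · rcases j with _ | j
        · simp [Nat.testBit_zero]
        · simpa [Nat.testBit_succ, e1] using h1 j (by omega)
      · rcases j with _ | j
        · have : (2 * m + 1 + 1) % 2 = 0 := by omega
          simp [Nat.testBit_zero, this]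
        · simp [Nat.testBit_succ, e1, e2, h3 j]

theorem cA_inc {N n : ℕ} (hn : n + 1 < 2 ^ N) {D : ℕ → Option Bool} {c : Core}
    {oc : Option Core} :
    (sys N).Sim 0 N (cAstd N 0 (.sm .car) D (cAbits n) (fun _ => none) false c oc)
      (cAstd N 0 (.sm .ret) D (cAbits (n + 1)) (fun _ => none) false c oc) := by
  obtain ⟨z, h1, h2, h3⟩ := cA_succ_bits n
  have hz : z < N := by
    have h4 : (n + 1).testBit z = true := by simp [h3]
    have h5 := Nat.ge_two_pow_of_testBit h4
    exact (Nat.pow_lt_pow_iff_right (by norm_num : 1 < 2)).1 (lt_of_le_of_lt h5 hn)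
  have A : ∀ k ≤ z, (sys N).Sim 0 N (cAstd N 0 (.sm .car) D (cAbits n) (fun _ => none) false c oc)
      (cAstd N k (.sm .car) D (fun j => if j < k then some false else cAbits n j) (fun _ => none)
        false c oc) := by
    intro k
    induction k with
    | zero => intro _; exact cA_std_congr fun j _ => by simp
    | succ k ih =>
      intro hk
      refine (ih (by omega)).trans (cA_std_mvS (by omega) ?_ fun j _ e => ?_)
      · simp [src, cAstd, RegG.key, RegG.setL, cAbits, h1 k (by omega)]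
      · have : (j < k + 1) ↔ j < k := by omega
        simp [this]
  refine (A z le_rfl).trans (Sys.Sim.trans ?_ (cA_std_mvs hz fun j hj q _ hb _ => ?_).symm)
  · refine cA_sim1 (i := z) (Nat.zero_le _) hz (Step1.u5 ⟨?_, ?_, ?_⟩) fun j _ _ e => ?_
    · simp
    · simp [cAbits, h2]
    · simp [RegG.key, RegG.setL, cAbits, h3]
    · simp only [cAstd, cAbits, h3, e, if_false]
      split_ifs <;> rfl
  · have : q.b = some false := by simp [hb, cAbits, h3, hj]
    simp [src, this]

theorem cA_send {N : ℕ} (hN : 2 ≤ N) {D B U : ℕ → Option Bool} {dm : Bool} {oc : Option Core}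
    {ph : Ph} {o : Op} {ro : Role} {q : Reg} {p : Pay} (hs : shape o ro q) :
    (sys N).Sim 0 N (cAstd N 0 (.sm .idle) D B U dm (.free (merge ph o ro q p)) oc)
      (cAstd N (N - 1) (.fu (.tr ph o) p) D B U dm (.LA1 o ro q) oc) :=
  (cA_std_small hN Act.s10).trans
    ((cA_std_load hN (t := .pend ph o) rfl (Act.l3 hs)).trans (cA_std_mvf (by omega)))

theorem comp1 {N : ℕ} (hN : 2 ≤ N) {x x' : Ent} (hx : InR (2 ^ N) x) (h : Step1 (2 ^ N) x x') :
    (sys N).Sim 0 N (lift N x) (lift N x') := by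
  cases h with
  | u5 h =>
    rw [cA_lift, cA_lift]
    exact cA_std_small hN (Act.s1 h)
  | @u2 q a n oc h1 h2 h3 =>
    rw [cA_lift' hx, cA_lift' (x := ⟨q.setT .B, a, n + 1, oc⟩) ⟨hx.1, h3⟩]
    exact (cA_std_small hN (Act.s7 h1 h2)).trans ((cA_inc h3).trans (cA_std_small hN (Act.s8 h1 h2)))
  | @act o ro q p c p' c' a n hs ha =>
    rw [cA_lift, cA_lift]
    refine (cA_send hN hs).trans (Sys.Sim.trans ?_ (cA_send hN hs).symm)
    have e0 : N - 1 ≠ 0 := by omega
    have e1 : N - 1 + 1 = N := by omega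
    refine cA_sim1 (i := N - 1) (Nat.zero_le _) (by omega) ?_ fun j _ _ e => ?_
    · have := Step1.act (N := N) (ro := .relay) (a := N - 1) (n := 0)
        (q := (cAstd N (N - 1) (.fu (.tr .A o) p) (cAbits a) (cAbits n) (fun _ => none)
          (decide (2 ^ N ≤ a ∨ 2 ^ N ≤ n)) (.LA1 o ro q) (some c) (N - 1)).q)
        (by simp [shape, cAstd, e1]) ha
      simpa [sys, merge, cAstd, RegG.full, e0, e1] using this
    · have : j + 1 ≠ N := by omega
      simp [cAstd, e, this]

theorem cA_wrong {N n : ℕ} (hn : n < 2 ^ N) {β : Bool}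
    (h : n ≠ if β then 2 ^ N - 1 else 0) : ∃ j < N, n.testBit j = !β := by
  by_contra hc
  push Not at hc
  apply h
  apply Nat.eq_of_testBit_eq
  intro j
  by_cases hj : j < N
  · have := hc j hj
    cases β
    · simpa using this
    · simpa [Nat.testBit_two_pow_sub_one, hj] using this
  · have : n.testBit j = false :=
      Nat.testBit_lt_two_pow (lt_of_lt_of_le hn (Nat.pow_le_pow_right (by norm_num) (by omega)))
    cases β
    · simpa using this
    · simpa [Nat.testBit_two_pow_sub_one, hj] using this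

theorem cA_relay {N : ℕ} (hN : 2 ≤ N) {D B U : ℕ → Option Bool} {dm : Bool} {oc : Option Core}
    {c : Core} {p : Pay} (h : ∀ α, p = .era α → ZA α oc) :
    (sys N).Zero 0 N (cAstd N (N - 1) (.fu (.tr .A .chk) p) D B U dm c oc) := by
  have e0 : N - 1 ≠ 0 := by omega
  have e1 : N - 1 + 1 = N := by omega
  refine Sys.zero1 (i := N - 1) (Nat.zero_le _) (by omega) ?_
  refine Or.inr (Or.inr (Or.inr (Or.inr (Or.inr ⟨by simp [cAstd, e1], p, by simp [cAstd], ?_⟩))))
  simpa [cAstd, e0, e1] using h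

theorem compZ1 {N : ℕ} (hN : 2 ≤ N) {x : Ent} (h : Zero1 (2 ^ N) x) :
    (sys N).Zero 0 N (lift N x) := by
  by_cases hx : InR (2 ^ N) x
  swap
  · refine Sys.zero1 (i := 0) le_rfl (by omega) (Or.inl fun hu => hx ?_)
    have := hu.doom
    simp only [lift, decide_eq_false_iff_not] at this
    exact ⟨by omega, by omega⟩
  rw [cA_lift' hx]
  rcases h with h | h | h | ⟨β, h1, h2⟩ | h | ⟨h1, p, h2, h3⟩
  · refine Sys.zero1 (i := 0) le_rfl (by omega) ?_
    refine Or.inr (Or.inr (Or.inr (Or.inr (Or.inl (Or.inl ⟨rfl, fun c hc => Or.inr ⟨x.q, ?_, h⟩⟩)))))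
    simpa [cAstd] using hc.symm
  · exact absurd hx.1 (by omega)
  · exact absurd hx.2 (by omega)
  · obtain ⟨j, hj, e⟩ := cA_wrong hx.2 h2
    refine Sys.Zero.of_sim ((cA_std_small hN (Act.s9 h1)).trans
      (cA_std_mvs hj fun _ _ _ _ _ _ => rfl)) ?_
    refine Sys.zero1 (i := j) (Nat.zero_le _) hj (Or.inl fun hu => ?_)
    exact hu.ka β (by simp [cAstd]) (by simp [cAstd, cAbits, e])
  · have e : x.q = merge .A .chk .home x.q (.era x.q.era) := by simp [merge]
    rw [e]
    refine Sys.Zero.of_sim (cA_send hN trivial) (cA_relay hN fun α hα => ?_)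
    cases hα
    exact h
  · have e : x.q = merge .A .chk .relay x.q p := by
      simp only [merge, RegG.full, ← h2]
    rw [e]
    exact Sys.Zero.of_sim (cA_send hN h1) (cA_relay hN h3)

end Vale.Agent.P192
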