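import Vale.Agent.P192.Size
import Vale.Agent.P192.CompA

/-! Auxiliary facts for the cleaning lemmas: shapes, packed lanes, pairs of cells. -/

namespace Vale.Agent.P192

variable {N : ℕ}

theorem ca_src_kf {t : Tag} {q : Reg} (h : (src t q).doom = false) : (src t q).kf = .sm t := by
  unfold src at h ⊢
  split <;> (try split_ifs) <;> simp_all

theorem ca_first {C : Wd} {k : ℕ} (h : Shp N C k) {j : ℕ} (hj : j < N) :
    (C j).q.first = decide (j = 0) := by
  simpa using (h.fl j hj).1

theorem ca_last {C : Wd} {k : ℕ} (h : Shp N C k) {j : ℕ} (hj : j < N) :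
    (C j).q.last = decide (j + 1 = N) := by
  simpa using (h.fl j hj).2

theorem ca_first0 {C : Wd} {k : ℕ} (h : Shp N C k) : (C 0).q.first = true := by
  have := h.hk
  simpa using ca_first h (j := 0) (by omega)

theorem ca_lastN {C : Wd} {k : ℕ} (h : Shp N C k) : (C (N - 1)).q.last = true := by
  have := h.hk
  rw [ca_last h (j := N - 1) (by omega)]
  simp; omega

theorem ca_sib {C : Wd} {k : ℕ} (h : Shp N C k) : Sib C 0 (N - 1) := by
  intro j _ hj
  rw [ca_last h (j := j) (by omega), ca_first h (j := j + 1) (by omega)]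
  simp; omega

theorem ca_nokey {C : Wd} (h : Shp N C 0) (p : ℕ) (h1 : 0 < p) (h2 : p < N) :
    ¬(C p).q.kf.isKey := by
  rw [h.kL p h2 h1]; exact id

theorem ca_place_self {C : Wd} {k : ℕ} (h : Shp N C k) : place 0 N k (C k).q.kf C = C := by
  have := place_self (s := 0) (N := N) (k := k) (w := C) (by simpa using h.kR)
    (by simpa using h.kL)
  simpa using this

theorem ca_place_kf (C : Wd) {k : ℕ} (hk : k < N) (m : KF Pay) :
    (place 0 N k m C k).q.kf = m := by
  simp [place, hk]

theorem ca_place_shp {C : Wd} {k : ℕ} (h : FL 0 N C) (hk : k < N) {m : KF Pay} (hm : m.isKey) :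
    Shp N (place 0 N k m C) k := by
  refine ⟨hk, fun j hj => ?_, fun j hj => ?_, fun j hj hj' => ?_, ?_⟩
  · have := h j hj
    simpa [place, hj] using this
  · have : j < N := by omega
    simp [place, this, hj]
  · have h1 : ¬j < k := by omega
    have h2 : ¬j = k := by omega
    simp [place, hj, h1, h2]
  · rw [ca_place_kf C hk]; exact hm

theorem ca_place_u (C : Wd) (k : ℕ) (m : KF Pay) (j : ℕ) :
    (place 0 N k m C j).q.u = (C j).q.u := by
  unfold place; split_ifs <;> rfl

theorem ca_upd_shp {C : Wd} {k : ℕ} (h : Shp N C k) {x : Ent} (h1 : x.q.first = (C k).q.first)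
    (h2 : x.q.last = (C k).q.last) (h3 : x.q.kf.isKey) : Shp N (Function.update C k x) k := by
  refine ⟨h.hk, fun j hj => ?_, fun j hj => ?_, fun j hj hj' => ?_, by simpa using h3⟩
  · have := h.fl j hj
    by_cases e : j = k
    · subst e
      simp only [zero_add, Function.update_self] at this ⊢
      rw [h1, h2]; exact this
    · simpa [e] using this
  · rw [Function.update_of_ne (by omega)]; exact h.kR j hj
  · rw [Function.update_of_ne (by omega)]; exact h.kL j hj hj'

theorem ca_putL_kf (l : Lane) (a b : ℕ) (C : Wd) (v : ℕ → Option Bool) (j : ℕ) :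
    (putL l a b C v j).q.kf = (C j).q.kf := by
  unfold putL; split_ifs <;> simp

theorem ca_putL_lane (l : Lane) (C : Wd) (v : ℕ → Option Bool) {j : ℕ} (hj : j < N) :
    (putL l 0 N C v j).q.lane l = v j := by
  simp [putL, hj]

theorem ca_putL_shp {C : Wd} {k : ℕ} (h : Shp N C k) (l : Lane) (v : ℕ → Option Bool) :
    Shp N (putL l 0 N C v) k := by
  refine ⟨h.hk, fun j hj => ?_, fun j hj => ?_, fun j hj hj' => ?_, ?_⟩
  · have := h.fl j hj
    simpa [putL, hj] using this
  · rw [ca_putL_kf]; exact h.kR j hj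
  · rw [ca_putL_kf]; exact h.kL j hj hj'
  · rw [ca_putL_kf]; exact h.kK

theorem ca_putL_self (l : Lane) (a b : ℕ) (C : Wd) :
    putL l a b C (fun p => (C p).q.lane l) = C := by
  funext p
  unfold putL; split_ifs <;> simp

/-- The bits of `L` packed from position `s` on. -/
def caPack (s : ℕ) (L : List Bool) : ℕ → Option Bool := fun p => if p < s then none else L[p - s]?

theorem ca_pack_take (s : ℕ) (L : List Bool) (n : ℕ) :
    (List.range n).filterMap (caPack s L) = L.take (n - s) := by
  induction n with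
  | zero => simp
  | succ n ih =>
    rw [List.range_succ, List.filterMap_append, ih]
    by_cases h : n < s
    · have e1 : n - s = 0 := by omega
      have e2 : n + 1 - s = 0 := by omega
      simp [caPack, h, e1, e2]
    · have e : n + 1 - s = n - s + 1 := by omega
      rw [e, List.take_add_one]
      simp only [caPack, h, List.filterMap_cons, List.filterMap_nil, if_false]
      cases L[n - s]? <;> rfl

theorem ca_pack {s n : ℕ} {L : List Bool} (h : s + L.length ≤ n) :
    (List.range n).filterMap (caPack s L) = L := by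
  rw [ca_pack_take, List.take_of_length_le (by omega)]

/-- Repacking a lane of a cell whose key is at home. -/
theorem ca_lane {C : Wd} (h : Shp N C 0) (l : Lane) (s : ℕ)
    (hs : s + ((List.range N).filterMap fun p => (C p).q.lane l).length ≤ N) :
    (sys N).Eqv 0 N C
      (putL l 0 N C (caPack s ((List.range N).filterMap fun p => (C p).q.lane l))) := by
  have := lane_cell (M := N) (a := 0) (b := N) (w := C) l (ca_sib h)
    (fun _ p h1 h2 => ca_nokey h p h1 h2) (v := fun p => (C p).q.lane l)
    (v' := caPack s ((List.range N).filterMap fun p => (C p).q.lane l))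
    (by rw [Nat.sub_zero, ← List.range_eq_range', ca_pack hs])
  rwa [ca_putL_self] at this

theorem ca_nz {X : Type} {S : Sys X} {lo hi : ℕ} {f g : ℕ → X} (hz : ¬S.Zero lo hi f)
    (h : S.Eqv lo hi f g) : ¬S.Zero lo hi g := fun h' => hz (Sys.Zero.of_eqv h h')

theorem ca_uok {lo hi : ℕ} {f : Wd} (h : ¬(sys N).Zero lo hi f) {i : ℕ} (h1 : lo ≤ i)
    (h2 : i < hi) : uok (f i).q := by
  by_contra hc
  exact nz_uok h h1 h2 (Or.inl hc)

theorem ca_cat_l {X : Type} (C D : ℕ → X) {p : ℕ} (h : p < N) : cat N C D p = C p := by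
  simp [cat, h]

theorem ca_cat_r {X : Type} (C D : ℕ → X) (p : ℕ) : cat N C D (N + p) = D p := by
  simp [cat]

theorem ca_sim_cat {X : Type} {S : Sys X} {C C' D D' : ℕ → X} (h : S.Sim 0 N C C')
    (h' : S.Sim 0 N D D') : S.Sim 0 (2 * N) (cat N C D) (cat N C' D') := by
  have a1 : S.Sim 0 N (cat N C D) (cat N C' D) :=
    ((Sys.Sim.of_agree fun i _ hi => ca_cat_l C D hi).trans h).trans
      (Sys.Sim.of_agree fun i _ hi => (ca_cat_l C' D hi).symm)
  have a2 : S.Sim (N + 0) (N + N) (cat N C' D) (cat N C' D') := by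
    rw [Sys.sim_shift]
    simpa only [ca_cat_r] using h'
  refine (a1.mono le_rfl (by omega) fun j _ _ hj => ?_).trans
    (a2.mono (by omega) (by omega) fun j _ hj' hj => ?_)
  · have : ¬j < N := by omega
    simp [cat, this]
  · have : j < N := by omega
    simp [cat, this]

theorem ca_nz_l {X : Type} {S : Sys X} {C D : ℕ → X} (h : ¬S.Zero 0 (2 * N) (cat N C D)) :
    ¬S.Zero 0 N C := fun hz =>
  h ((hz.congr fun i _ hi => (ca_cat_l C D hi).symm).mono le_rfl (by omega))

theorem ca_nz_r {X : Type} {S : Sys X} {C D : ℕ → X} (h : ¬S.Zero 0 (2 * N) (cat N C D)) :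
    ¬S.Zero 0 N D := fun hz => by
  have : S.Zero (N + 0) (N + N) (cat N C D) := by
    rw [Sys.zero_shift]
    simpa only [ca_cat_r] using hz
  exact h (this.mono (by omega) (by omega))

theorem ca_nz2 {X : Type} {S : Sys X} {C C' D D' : ℕ → X} (hz : ¬S.Zero 0 (2 * N) (cat N C D))
    (h : S.Eqv 0 N C C') (h' : S.Eqv 0 N D D') : ¬S.Zero 0 (2 * N) (cat N C' D') :=
  fun hz' => hz (Sys.Zero.of_sim (ca_sim_cat h.sim h'.sim) hz')

/-- Compatibility at the boundary of two cells. -/
theorem ca_bd {C D : Wd} (hN : 0 < N) (hz : ¬(sys N).Zero 0 (2 * N) (cat N C D)) :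
    compatS (C (N - 1)).q.era (D 0).q := by
  have := nz_compat hz (i := N - 1) (Nat.zero_le _) (by omega)
  have e : N - 1 + 1 = N + 0 := by omega
  rwa [e, ca_cat_r, ca_cat_l C D (by omega)] at this

/-- A small step at home. -/
theorem ca_small {C : Wd} (h : Shp N C 0) {t t' : Tag} {c c' : Core} (hk : (C 0).q.kf = .sm t)
    (hc : (C 0).oc = some c)
    (ha : Act .small (.tag t) c (.tag t') c' ∨ Act .small (.tag t') c' (.tag t) c) :
    (sys N).Eqv 0 N C
      (Function.update C 0 { C 0 with q := (C 0).q.key t', oc := some c' }) := by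
  have e : ({ C 0 with q := (C 0).q.key t, oc := some c } : Ent) = C 0 := by
    rw [← hc]
    have : (C 0).q.key t = (C 0).q := by unfold RegG.key; rw [← hk]
    rw [this]
  rcases ha with ha | ha
  · have := home_small (M := N) (ca_first0 h) ha
    rw [e] at this
    exact (Sys.step1 (S := sys N) le_rfl h.hk this).eqv
  · have := home_small (M := N) (ca_first0 h) ha
    rw [e] at this
    exact (Sys.step1' (S := sys N) le_rfl h.hk this).eqv.symm

/-- Undoing a load step at home. -/
theorem ca_load {C : Wd} (h : Shp N C 0) {t : Tag} {pt : PTag} {p : Pay} {c c' : Core}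
    (ht : t.ld = some pt) (hk : (C 0).q.kf = .fu pt p) (hc : (C 0).oc = some c)
    (ha : Act (.load t.beta) .unit c' p c) :
    (sys N).Eqv 0 N C
      (Function.update C 0 { C 0 with q := (C 0).q.key t, oc := some c' }) := by
  have e : ({ C 0 with q := (C 0).q.full pt p, oc := some c } : Ent) = C 0 := by
    rw [← hc]
    have : (C 0).q.full pt p = (C 0).q := by unfold RegG.full; rw [← hk]
    rw [this]
  have := home_load (M := N) (ca_first0 h) ht ha
  rw [e] at this
  exact (Sys.step1' (S := sys N) le_rfl h.hk this).eqv.symm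

theorem ca_key_shp {C : Wd} {k : ℕ} (h : Shp N C k) (t : Tag) (oc : Option Core) :
    Shp N (Function.update C k { C k with q := (C k).q.key t, oc := oc }) k :=
  ca_upd_shp h rfl rfl trivial

/-- Moving a small key from home to the last position. -/
theorem ca_out {C : Wd} (h : Shp N C 0) {t : Tag} (hk : (C 0).q.kf = .sm t)
    (ht : ∀ j < N, src t { (C j).q with kf := .R } = (C j).q.key t) :
    (sys N).Eqv 0 N C (place 0 N (N - 1) (.sm t) C) := by
  have hN := h.hk
  have := mv_sm (M := N) (k := 0) (k' := N - 1) h.fl (Nat.zero_le _) (by omega) t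
    (fun j _ hj => by simpa using ht j (by omega))
  rwa [← hk, ca_place_self h, hk, Nat.zero_add] at this

end Vale.Agent.P192
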