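import Vale.Agent.P192.CleanA

/-! Cleaning a linked pair of cells.

PROOF PLAN. By `clean_cls` the right class equals the left one. Bring both keys home.
Class 2 (open): left becomes `opnL` (`to_opn`). Right `dresp t`: do `s6`. Right `fu respR p`: the
left upper lane is empty (else push a bit to `N - 1`, `compatS`), move `opnL` to `N - 1`, undo
`hand`, move the left key home, `to_opn` again. Now the keys are `opnL` and `opnR o`.
If `o = none`: upper lane empty as before. If `o = some t`: let `T` be the number of bits in the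
joint lane. If `T > N`, `lane_pair` fills the left lane and puts a bit at position `N`; `s4`, move
`ful` to `N - 1`, `compatS` fails. So `T ≤ N`: push everything right, the left lane is empty.
Move `opnL` to `N - 1`, undo `opn`: class 1.
Class 1: left `half` moves freely to `N - 1`; right `acc o` at home: undo `s3` to `got κ ph`;
undo `hs`: left `pre κ ph`, right `idle`. Both classes vanish in both cells; `clean1` twice
(`Sys.sim_shift`, `Sys.zero_shift`, `Sys.Sim.mono` move between the right cell and the pair). -/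

namespace Vale.Agent.P192

variable {N : ℕ}

/-- The pair is equivalent to a pair of standard cells. -/
def cbGoal (N : ℕ) (C D : Wd) : Prop :=
  ∃ x y, (sys N).Sim 0 (2 * N) (cat N C D) (cat N (lift N x) (lift N y))

theorem cb_sim {C D C' D' : Wd} (e : (sys N).Sim 0 (2 * N) (cat N C D) (cat N C' D'))
    (h : cbGoal N C' D') : cbGoal N C D := by
  obtain ⟨x, y, h⟩ := h
  exact ⟨x, y, e.trans h⟩

theorem cb_eqv {C D C' D' : Wd} (e : (sys N).Eqv 0 N C C') (e' : (sys N).Eqv 0 N D D')
    (h : cbGoal N C' D') : cbGoal N C D :=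
  cb_sim (ca_sim_cat e.sim e'.sim) h

/-- Undoing a binary rule at the boundary. -/
theorem cb_bd (hN : 0 < N) {C D : Wd} {x y : Ent} (h : Step2 x y (C (N - 1)) (D 0)) :
    (sys N).Eqv 0 (2 * N) (cat N C D)
      (cat N (Function.update C (N - 1) x) (Function.update D 0 y)) := by
  have e1 : N - 1 + 1 = N + 0 := by omega
  have h' : (sys N).s2 x y (cat N C D (N - 1)) (cat N C D (N - 1 + 1)) := by
    rw [e1, ca_cat_r, ca_cat_l C D (by omega)]; exact h
  have := (Sys.step2' (S := sys N) (lo := 0) (hi := 2 * N) (Nat.zero_le _) (by omega) h').eqv.symm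
  convert this using 1
  funext p
  by_cases a : p = N - 1 + 1
  · subst a
    rw [Function.update_self, e1, ca_cat_r, Function.update_self]
  · rw [Function.update_of_ne a]
    by_cases b : p = N - 1
    · subst b
      rw [Function.update_self, ca_cat_l _ _ (by omega), Function.update_self]
    · rw [Function.update_of_ne b]
      by_cases c : p < N
      · rw [ca_cat_l _ _ c, ca_cat_l _ _ c, Function.update_of_ne b]
      · obtain ⟨j, rfl⟩ : ∃ j, p = N + j := ⟨p - N, by omega⟩
        rw [ca_cat_r, ca_cat_r, Function.update_of_ne (by omega)]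

theorem cb_key {x : Ent} {t : Tag} (h : x.q.kf = .sm t) : x.q.key t = x.q := by
  unfold RegG.key; rw [← h]

theorem cb_upd {C : Wd} {k : ℕ} (h : Shp N C k) (m : KF Pay) (hm : m.isKey) :
    Shp N (Function.update C k { C k with q := { (C k).q with kf := m } }) k :=
  ca_upd_shp h rfl rfl hm

theorem cb_got (hN : 2 ≤ N) {C D : Wd} (hz : ¬(sys N).Zero 0 (2 * N) (cat N C D))
    (h : Shp N C (N - 1)) (h' : Shp N D 0) (hk : (C (N - 1)).q.kf = .sm .half) {κ : Kind} {ph : Ph}
    (hk' : (D 0).q.kf = .sm (.got κ ph)) : cbGoal N C D := by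
  have st : Step2 { C (N - 1) with q := { (C (N - 1)).q with kf := .sm (.pre κ ph) } }
      { D 0 with q := { (D 0).q with kf := .sm .idle } } (C (N - 1)) (D 0) := by
    have := Step2.mk (κ := .hs) (q := (C (N - 1)).q) (r := (D 0).q.key .idle)
      (p := .tag (.pre κ ph)) (a := (C (N - 1)).a) (n := (C (N - 1)).n) (oc := (C (N - 1)).oc)
      (a' := (D 0).a) (n' := (D 0).n) (oc' := (D 0).oc) ⟨ca_lastN h, hk⟩ ⟨ca_first0 h', rfl⟩
      (fun e => nomatch e)
    have e : ins .hs ((D 0).q.key .idle) (.tag (.pre κ ph)) = (D 0).q := cb_key hk'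
    rw [e] at this
    exact this
  have e := cb_bd (by omega) st
  have z := ca_nz hz e
  obtain ⟨x, hx⟩ := clean1 hN (ca_nz_l z) (cb_upd h (.sm (.pre κ ph)) trivial)
    (by simp [KF.clsL]) (by simp [KF.clsR])
  obtain ⟨y, hy⟩ := clean1 hN (ca_nz_r z) (cb_upd h' (.sm .idle) trivial)
    (by simp [KF.clsL]) (by simp [KF.clsR])
  exact ⟨x, y, e.sim.trans (ca_sim_cat hx hy)⟩

theorem cb_half (hN : 2 ≤ N) {C D : Wd} {k k' : ℕ} (hz : ¬(sys N).Zero 0 (2 * N) (cat N C D))
    (h : Shp N C k) (h' : Shp N D k') (hk : (C k).q.kf = .sm .half) : cbGoal N C D := by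
  have hc := clean_cls hN hz h h'
  obtain ⟨C1, e1, s1, k1, -⟩ := go_home (ca_nz_l hz) h
  obtain ⟨D1, e2, s2, k2, -⟩ := go_home (ca_nz_r hz) h'
  rw [hk] at k1 hc
  rw [← k2] at hc
  have e3 := e1.trans (ca_out s1 k1 fun _ _ => rfl)
  have s3 := ca_place_shp (k := N - 1) s1.fl (by omega) (m := .sm .half) trivial
  have k3 := ca_place_kf (N := N) C1 (k := N - 1) (by omega) (.sm .half)
  have z := ca_nz2 hz e3 e2
  refine cb_eqv e3 e2 ?_
  obtain ⟨c, hc', ha⟩ := home_core hN (ca_nz_r z) s2
  cases hm : (D1 0).q.kf with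
  | sm t =>
    rw [hm] at hc ha
    cases t with
    | got κ ph => exact cb_got hN z s3 s2 k3 hm
    | acc o =>
      obtain ⟨κ, ph, q, rfl, rfl, h3⟩ := ha
      have e4 := ca_small s2 hm hc' (Or.inr (Act.s3 h3))
      refine cb_eqv (Sys.Eqv.refl _) e4 ?_
      exact cb_got hN (ca_nz2 z (Sys.Eqv.refl _) e4) s3 (ca_key_shp s2 _ _) k3 (κ := κ) (ph := ph)
        (by simp)
    | _ => simp [KF.clsL, KF.clsR] at hc
  | fu pt p => rw [hm] at hc; cases pt <;> simp [KF.clsL, KF.clsR] at hc
  | _ => rw [hm] at hc; simp [KF.clsL, KF.clsR] at hc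

theorem cb_empty (hN : 2 ≤ N) {C D : Wd} (hz : ¬(sys N).Zero 0 (2 * N) (cat N C D))
    (h : Shp N C 0) (h' : Shp N D 0) (hk : (C 0).q.kf = .sm .opnL) (hu : ∀ j < N, (C j).q.u = none)
    {o : Option Trk} (hk' : (D 0).q.kf = .sm (.opnR o)) : cbGoal N C D := by
  have e1 := ca_out_opn h hk hu
  have s1 := ca_place_shp (k := N - 1) h.fl (by omega) (m := .sm .opnL) trivial
  have k1 := ca_place_kf (N := N) C (k := N - 1) (by omega) (.sm .opnL)
  have u1 : (place 0 N (N - 1) (.sm .opnL) C (N - 1)).q.u = none := by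
    rw [ca_place_u]; exact hu _ (by omega)
  have z := ca_nz2 hz e1 (Sys.Eqv.refl D)
  refine cb_eqv e1 (Sys.Eqv.refl D) ?_
  generalize place 0 N (N - 1) (.sm .opnL) C = C1 at s1 k1 u1 z
  have st : Step2 { C1 (N - 1) with q := { (C1 (N - 1)).q with kf := .sm .half } }
      { D 0 with q := { (D 0).q with kf := .sm (.acc o) } } (C1 (N - 1)) (D 0) := by
    have := Step2.mk (κ := .opn) (q := (C1 (N - 1)).q) (r := (D 0).q.key (.acc o))
      (p := .unit) (a := (C1 (N - 1)).a) (n := (C1 (N - 1)).n) (oc := (C1 (N - 1)).oc)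
      (a' := (D 0).a) (n' := (D 0).n) (oc' := (D 0).oc) ⟨ca_lastN s1, k1, u1⟩
      ⟨ca_first0 h', o, rfl⟩ (fun e => nomatch e)
    have e : ins .opn ((D 0).q.key (.acc o)) .unit = (D 0).q := cb_key hk'
    rw [e] at this
    exact this
  have e := cb_bd (by omega) st
  refine cb_sim e.sim ?_
  exact cb_half hN (ca_nz z e) (cb_upd s1 (.sm .half) trivial) (cb_upd h' (.sm (.acc o)) trivial)
    (by simp)

theorem cb_putP (t : Trk) (C D : Wd) (v : ℕ → Option Bool) :
    putP N t (cat N C D) v =
      cat N (putL .u 0 N C v) (putL t.lane 0 N D fun j => v (N + j)) := by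
  funext p
  by_cases a : p < N
  · have : ¬N ≤ p := by omega
    simp [putP, putL, cat, a, this]
  · obtain ⟨j, rfl⟩ : ∃ j, p = N + j := ⟨p - N, by omega⟩
    by_cases b : j < N
    · have : N + j < 2 * N := by omega
      simp [putP, putL, cat, b, this]
    · have : ¬N + j < 2 * N := by omega
      simp [putP, putL, cat, b, this]

/-- Repacking the joint lane of an open pair. -/
theorem cb_lane {C D : Wd} (h : Shp N C 0) (h' : Shp N D 0) {t : Trk}
    (hk' : (D 0).q.kf = .sm (.opnR (some t))) :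
    ∃ L : List Bool, L.length ≤ 2 * N ∧ ∀ s, s + L.length ≤ 2 * N →
      (sys N).Eqv 0 (2 * N) (cat N C D)
        (cat N (putL .u 0 N C (caPack s L)) (putL t.lane 0 N D fun j => caPack s L (N + j))) := by
  let v : ℕ → Option Bool := cat N (fun p => (C p).q.lane .u) fun p => (D p).q.lane t.lane
  refine ⟨(List.range (2 * N)).filterMap v, filterMap_length_le _ _, fun s hs => ?_⟩
  have := lane_pair (M := N) (N := N) (w := cat N C D) t
    (fun j hj => by rw [ca_cat_l _ _ (by omega)]; exact h.fl j hj)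
    (fun j hj => by rw [ca_cat_r]; simpa using h'.fl j hj)
    (fun p h1 h2 => by rw [ca_cat_l _ _ h2]; exact ca_nokey h p h1 h2)
    (by have := ca_cat_r (N := N) C D 0; rw [Nat.add_zero] at this; rw [this]; exact hk')
    (v := v) (v' := caPack s ((List.range (2 * N)).filterMap v)) (ca_pack hs).symm
  rw [cb_putP, cb_putP] at this
  convert this using 2
  · rw [← ca_putL_self .u 0 N C]
    funext p
    unfold putL
    split_ifs with a
    · simp [v, ca_cat_l _ _ a.2]
    · rfl
  · simp only [v, ca_cat_r]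
    exact (ca_putL_self _ _ _ _).symm

theorem cb_src_ful {q : Reg} (h : q.u ≠ none) : src .ful { q with kf := .R } = q.key .ful := by
  simp [src, h, RegG.key]

theorem cb_opnR (hN : 2 ≤ N) {C D : Wd} (hz : ¬(sys N).Zero 0 (2 * N) (cat N C D))
    (h : Shp N C 0) (h' : Shp N D 0) (hk : (C 0).q.kf = .sm .opnL)
    {o : Option Trk} (hk' : (D 0).q.kf = .sm (.opnR o)) : cbGoal N C D := by
  cases o with
  | none => exact cb_empty hN hz h h' hk (ca_u_empty hz h h' (by rw [hk']; rfl)) hk'
  | some t =>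
    obtain ⟨L, hL, hE⟩ := cb_lane h h' hk'
    by_cases hT : L.length ≤ N
    · have e := hE N (by omega)
      refine cb_sim e.sim (cb_empty hN (ca_nz hz e) (ca_putL_shp h _ _) (ca_putL_shp h' _ _)
        (by rw [ca_putL_kf]; exact hk) (fun j hj => ?_) (o := some t)
        (by rw [ca_putL_kf]; exact hk'))
      rw [← RegG.lane_u, ca_putL_lane _ _ _ hj]
      simp [caPack, hj]
    · exfalso
      have z := ca_nz hz (hE 0 (by omega))
      have s1 := ca_putL_shp h .u (caPack 0 L)
      have s2 := ca_putL_shp h' t.lane fun j => caPack 0 L (N + j)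
      have k1 : (putL .u 0 N C (caPack 0 L) 0).q.kf = .sm .opnL := by rw [ca_putL_kf]; exact hk
      have k2 : (putL t.lane 0 N D (fun j => caPack 0 L (N + j)) 0).q.kf =
          .sm (.opnR (some t)) := by rw [ca_putL_kf]; exact hk'
      have u1 : ∀ j < N, (putL .u 0 N C (caPack 0 L) j).q.u ≠ none := fun j hj => by
        rw [← RegG.lane_u, ca_putL_lane _ _ _ hj]
        simp [caPack]; omega
      have u2 : (putL t.lane 0 N D (fun j => caPack 0 L (N + j)) 0).q.lane t.lane ≠ none := by
        rw [ca_putL_lane _ _ _ h.hk]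
        simp [caPack]; omega
      generalize putL .u 0 N C (caPack 0 L) = C1 at z s1 k1 u1
      generalize putL t.lane 0 N D (fun j => caPack 0 L (N + j)) = D1 at z s2 k2 u2
      obtain ⟨c, hc, ha⟩ := home_core hN (ca_nz_l z) s1
      rw [k1] at ha
      obtain ⟨κ, ph, q, rfl, -⟩ := ha
      have e1 := ca_small s1 k1 hc (Or.inl Act.s4)
      have s3 := ca_key_shp s1 .ful (some (.LS κ ph .L q))
      have u3 : ∀ j < N, (Function.update C1 0
          { C1 0 with q := (C1 0).q.key .ful, oc := some (.LS κ ph .L q) } j).q.u ≠ none := by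
        intro j hj
        by_cases a : j = 0
        · subst a; simpa using u1 0 hj
        · rw [Function.update_of_ne a]; exact u1 j hj
      have e2 := ca_out s3 (t := .ful) (by simp) fun j hj => cb_src_ful (u3 j hj)
      have z2 := ca_nz2 z (e1.trans e2) (Sys.Eqv.refl D1)
      have s4 := ca_place_shp (k := N - 1) s3.fl (by omega) (m := .sm .ful) trivial
      refine u2 (((ca_bd h.hk z2).2.2 (ca_lastN s4)).2.2 ?_ ?_ t k2)
      · rw [RegG.era_kf, ca_place_kf _ (by omega)]; rfl
      · rw [RegG.era_u, ca_place_u]; exact u3 _ (by omega)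

theorem cb_open (hN : 2 ≤ N) {C D : Wd} (hz : ¬(sys N).Zero 0 (2 * N) (cat N C D))
    (h : Shp N C 0) (h' : Shp N D 0) (hk : (C 0).q.kf = .sm .opnL) : cbGoal N C D := by
  have hc := clean_cls hN hz h h'
  rw [hk] at hc
  obtain ⟨c, hc', ha⟩ := home_core hN (ca_nz_r hz) h'
  cases hm : (D 0).q.kf with
  | sm t =>
    rw [hm] at hc ha
    cases t with
    | opnR o => exact cb_opnR hN hz h h' hk hm
    | dresp t =>
      obtain ⟨κ, q, rfl, h3, h4⟩ := ha
      have e4 := ca_small h' hm hc' (Or.inl (Act.s6 h3 h4))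
      refine cb_eqv (Sys.Eqv.refl _) e4 ?_
      exact cb_opnR hN (ca_nz2 hz (Sys.Eqv.refl _) e4) h (ca_key_shp h' _ _) hk (o := some t)
        (by simp)
    | _ => simp [KF.clsL, KF.clsR] at hc
  | fu pt p =>
    rw [hm] at hc
    cases pt with
    | respR =>
      have hu := ca_u_empty hz h h' (by rw [hm]; rfl)
      have e1 := ca_out_opn h hk hu
      have s1 := ca_place_shp (k := N - 1) h.fl (by omega) (m := .sm .opnL) trivial
      have k1 := ca_place_kf (N := N) C (k := N - 1) (by omega) (.sm .opnL)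
      have z := ca_nz2 hz e1 (Sys.Eqv.refl D)
      refine cb_eqv e1 (Sys.Eqv.refl D) ?_
      generalize place 0 N (N - 1) (.sm .opnL) C = C1 at s1 k1 z
      have st : Step2 { C1 (N - 1) with q := { (C1 (N - 1)).q with kf := .fu .respL p } }
          { D 0 with q := { (D 0).q with kf := .sm (.opnR none) } } (C1 (N - 1)) (D 0) := by
        have := Step2.mk (κ := .hand) (q := (C1 (N - 1)).q) (r := (D 0).q.key (.opnR none))
          (p := p) (a := (C1 (N - 1)).a) (n := (C1 (N - 1)).n) (oc := (C1 (N - 1)).oc)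
          (a' := (D 0).a) (n' := (D 0).n) (oc' := (D 0).oc) ⟨ca_lastN s1, k1⟩
          ⟨ca_first0 h', rfl⟩ (fun e => nomatch e)
        have e : ins .hand ((D 0).q.key (.opnR none)) p = (D 0).q := by
          show ({ (D 0).q with kf := .fu .respR p } : Reg) = (D 0).q
          rw [← hm]
        rw [e] at this
        exact this
      have e := cb_bd (by omega) st
      refine cb_sim e.sim ?_
      have z1 := ca_nz z e
      have s2 := cb_upd s1 (.fu .respL p) trivial
      have s3 := cb_upd h' (.sm (.opnR none)) trivial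
      obtain ⟨C2, e2, s4, k4, -⟩ := go_home (ca_nz_l z1) s2
      obtain ⟨c2, e3⟩ := to_opn hN (ca_nz (ca_nz_l z1) e2) s4 (by rw [k4]; simp [KF.clsL])
      refine cb_eqv (e2.trans e3) (Sys.Eqv.refl _) ?_
      exact cb_opnR hN (ca_nz2 z1 (e2.trans e3) (Sys.Eqv.refl _)) (ca_key_shp s4 _ _) s3 (by simp)
        (o := none) (by simp)
    | _ => simp [KF.clsL, KF.clsR] at hc
  | _ => rw [hm] at hc; simp [KF.clsL, KF.clsR] at hc

theorem clean2 {N : ℕ} (hN : 2 ≤ N) {C D : Wd} {k k' : ℕ}
    (hz : ¬(sys N).Zero 0 (2 * N) (cat N C D)) (h : Shp N C k) (h' : Shp N D k')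
    (h1 : (C k).q.kf.clsL ≠ 0) :
    ∃ x y, (sys N).Sim 0 (2 * N) (cat N C D) (cat N (lift N x) (lift N y)) := by
  by_cases c2 : (C k).q.kf.clsL = 2
  · obtain ⟨C1, e1, s1, k1, -⟩ := go_home (ca_nz_l hz) h
    obtain ⟨D1, e2, s2, -, -⟩ := go_home (ca_nz_r hz) h'
    obtain ⟨c, e3⟩ := to_opn hN (ca_nz (ca_nz_l hz) e1) s1 (k1 ▸ c2)
    exact cb_eqv (e1.trans e3) e2
      (cb_open hN (ca_nz2 hz (e1.trans e3) e2) (ca_key_shp s1 _ _) s2 (by simp))
  · refine cb_half hN hz h h' ?_
    cases hm : (C k).q.kf with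
    | sm t => rw [hm] at h1 c2; cases t <;> simp [KF.clsL] at h1 c2 ⊢
    | fu pt p => rw [hm] at h1 c2; cases pt <;> simp [KF.clsL] at h1 c2
    | _ => rw [hm] at h1; simp [KF.clsL] at h1

end Vale.Agent.P192
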