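import Vale.Agent.P192.St

/-! Canonical rational cocycles on torsion groups. -/

namespace Vale.Agent.P192

variable {Γ : Type} [Group Γ] {S : Subgroup Γ} {c : Γ → Γ → ℚ}

/-- A normalised rational two-cocycle on a subgroup. -/
def IsCoc (S : Subgroup Γ) (c : Γ → Γ → ℚ) : Prop :=
  (∀ x ∈ S, ∀ y ∈ S, ∀ z ∈ S, c x y + c (x * y) z = c x (y * z) + c y z) ∧ c 1 1 = 0

theorem IsCoc.one_right (h : IsCoc S c) {x : Γ} (hx : x ∈ S) : c x 1 = 0 := by
  have := h.1 x hx 1 S.one_mem 1 S.one_mem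
  simp only [mul_one] at this
  linarith [h.2]

theorem IsCoc.one_left (h : IsCoc S c) {x : Γ} (hx : x ∈ S) : c 1 x = 0 := by
  have := h.1 1 S.one_mem 1 S.one_mem x hx
  simp only [one_mul] at this
  linarith [h.2]

theorem IsCan.coc (h : IsCan S c) : IsCoc S c :=
  ⟨h.1, by simpa using h.2 1 S.one_mem 0⟩

theorem IsCan.one_right (h : IsCan S c) {x : Γ} (hx : x ∈ S) : c x 1 = 0 :=
  h.coc.one_right hx

theorem IsCan.one_left (h : IsCan S c) {x : Γ} (hx : x ∈ S) : c 1 x = 0 :=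
  h.coc.one_left hx

theorem IsCan.mono (h : IsCan S c) {S' : Subgroup Γ} (hS : S' ≤ S) : IsCan S' c :=
  ⟨fun x hx y hy z hz => h.1 x (hS hx) y (hS hy) z (hS hz), fun x hx => h.2 x (hS hx)⟩

theorem IsCan.congr (h : IsCan S c) {c' : Γ → Γ → ℚ} (hc : ∀ x ∈ S, ∀ y ∈ S, c' x y = c x y) :
    IsCan S c' := by
  refine ⟨fun x hx y hy z hz => ?_, fun x hx k => ?_⟩
  · rw [hc x hx y hy, hc _ (S.mul_mem hx hy) z hz, hc x hx _ (S.mul_mem hy hz), hc y hy z hz]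
    exact h.1 x hx y hy z hz
  · rw [hc x hx _ (S.pow_mem hx k)]
    exact h.2 x hx k

theorem IsCan.sub (h : IsCan S c) {c' : Γ → Γ → ℚ} (h' : IsCan S c') :
    IsCan S (fun x y => c x y - c' x y) := by
  refine ⟨fun x hx y hy z hz => ?_, fun x hx k => ?_⟩
  · have h1 := h.1 x hx y hy z hz
    have h2 := h'.1 x hx y hy z hz
    simp only
    linarith
  · simp only [h.2 x hx k, h'.2 x hx k, sub_zero]

theorem IsCan.comap (h : IsCan S c) {Γ' : Type} [Group Γ'] {S' : Subgroup Γ'} (φ : Γ' → Γ)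
    (hS : ∀ x ∈ S', φ x ∈ S) (hφ : ∀ x ∈ S', ∀ y ∈ S', φ (x * y) = φ x * φ y) :
    IsCan S' (fun x y => c (φ x) (φ y)) := by
  refine ⟨fun x hx y hy z hz => ?_, fun x hx k => ?_⟩
  · simp only [hφ x hx y hy, hφ y hy z hz]
    exact h.1 _ (hS x hx) _ (hS y hy) _ (hS z hz)
  · have h1 : φ 1 = 1 := by
      have := hφ 1 S'.one_mem 1 S'.one_mem
      rw [mul_one] at this
      exact (mul_eq_left.1 this.symm)
    have h2 : φ (x ^ k) = φ x ^ k := by
      induction k with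
      | zero => simpa using h1
      | succ k ih => rw [pow_succ, hφ _ (S'.pow_mem hx k) x hx, ih, pow_succ]
    simp only [h2]
    exact h.2 _ (hS x hx) k

theorem IsCan.cob (h : IsCan S c) (ht : ∀ x ∈ S, IsOfFinOrder x) (f : Γ → ℚ)
    (hf : ∀ x ∈ S, ∀ y ∈ S, c x y = f (x * y) - f x - f y) :
    ∀ x ∈ S, ∀ y ∈ S, c x y = 0 := by
  have h1 : f 1 = 0 := by
    have := hf 1 S.one_mem 1 S.one_mem
    rw [h.one_right S.one_mem, mul_one] at this
    linarith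
  have h2 : ∀ x ∈ S, f x = 0 := by
    intro x hx
    have hk : ∀ k : ℕ, f (x ^ k) = k * f x := by
      intro k
      induction k with
      | zero => simpa using h1
      | succ k ih =>
        have := hf x hx _ (S.pow_mem hx k)
        rw [h.2 x hx k, ← pow_succ', ih] at this
        push_cast
        linarith
    obtain ⟨n, hn, hxn⟩ := isOfFinOrder_iff_pow_eq_one.1 (ht x hx)
    have := hk n
    rw [hxn, h1] at this
    have hn' : (n : ℚ) ≠ 0 := by exact_mod_cast hn.ne'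
    exact (mul_eq_zero.1 this.symm).resolve_left hn'
  intro x hx y hy
  rw [hf x hx y hy, h2 x hx, h2 y hy, h2 _ (S.mul_mem hx hy)]
  simp

/-- The central extension defined by a cocycle. -/
@[ext] structure CE (h : IsCoc S c) : Type where
  t : ℚ
  g : S

namespace CE

variable {h : IsCoc S c}

instance : Mul (CE h) := ⟨fun a b => ⟨a.t + b.t + c a.g b.g, a.g * b.g⟩⟩
instance : One (CE h) := ⟨⟨0, 1⟩⟩
instance : Inv (CE h) := ⟨fun a => ⟨-a.t - c (a.g⁻¹ : S) a.g, a.g⁻¹⟩⟩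

theorem mul_t (a b : CE h) : (a * b).t = a.t + b.t + c a.g b.g := rfl
@[simp] theorem mul_g (a b : CE h) : (a * b).g = a.g * b.g := rfl
@[simp] theorem one_t : (1 : CE h).t = 0 := rfl
@[simp] theorem one_g : (1 : CE h).g = 1 := rfl
theorem inv_t (a : CE h) : (a⁻¹).t = -a.t - c (a.g⁻¹ : S) a.g := rfl
@[simp] theorem inv_g (a : CE h) : (a⁻¹).g = a.g⁻¹ := rfl

instance : Group (CE h) := Group.ofLeftAxioms
  (fun a b d => by
    refine CE.ext ?_ (mul_assoc _ _ _)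
    have := h.1 _ a.g.2 _ b.g.2 _ d.g.2
    simp only [mul_t, mul_g, Subgroup.coe_mul]
    linarith)
  (fun a => by
    refine CE.ext ?_ (one_mul _)
    simp [mul_t, h.one_left a.g.2])
  (fun a => by
    refine CE.ext ?_ (inv_mul_cancel _)
    simp only [mul_t, inv_t, inv_g, one_t]
    ring)

/-- The projection. -/
def proj (h : IsCoc S c) : CE h →* Γ where
  toFun a := a.g
  map_one' := rfl
  map_mul' _ _ := rfl

theorem proj_apply (a : CE h) : proj h a = a.g := rfl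

open Classical in
/-- The canonical section. -/
noncomputable def sec (h : IsCoc S c) (x : Γ) : CE h := if hx : x ∈ S then ⟨0, ⟨x, hx⟩⟩ else 1

theorem sec_t (x : Γ) : (sec h x).t = 0 := by
  unfold sec
  split_ifs <;> rfl

theorem sec_g {x : Γ} (hx : x ∈ S) : proj h (sec h x) = x := by
  simp [sec, hx, proj_apply]

theorem eq_sec {a : CE h} (ha : a.t = 0) : a = sec h (proj h a) := by
  refine CE.ext (by rw [ha, sec_t]) (Subtype.ext ?_)
  exact (sec_g a.g.2).symm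

theorem sec_one : sec h 1 = 1 := (eq_sec (a := (1 : CE h)) rfl).symm

/-- The central elements. -/
def cen (h : IsCoc S c) (t : ℚ) : CE h := ⟨t, 1⟩

theorem cen_mul_t (t : ℚ) (a : CE h) : (cen h t * a).t = t + a.t := by
  simp [mul_t, cen, h.one_left a.g.2]

theorem comm_of_g {z : CE h} (hz : proj h z = 1) (a : CE h) : Commute a z := by
  have hz' : z.g = 1 := Subtype.ext hz
  refine CE.ext ?_ (by simp [hz'])
  simp [mul_t, hz', h.one_left a.g.2, h.one_right a.g.2, add_comm]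

theorem cen_comm (t : ℚ) (a : CE h) : Commute a (cen h t) := comm_of_g rfl a

theorem sec_mul_t {x y : Γ} (hx : x ∈ S) (hy : y ∈ S) : (sec h x * sec h y).t = c x y := by
  simp [mul_t, sec, hx, hy]

theorem sec_mul {x y : Γ} (hx : x ∈ S) (hy : y ∈ S) :
    sec h x * sec h y = cen h (c x y) * sec h (x * y) := by
  refine CE.ext ?_ ?_
  · rw [sec_mul_t hx hy, cen_mul_t, sec_t, add_zero]
  · simp [sec, hx, hy, S.mul_mem hx hy, cen]

theorem sec_mul_of_zero {x y : Γ} (hx : x ∈ S) (hy : y ∈ S) (h0 : c x y = 0) :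
    sec h x * sec h y = sec h (x * y) := by
  rw [sec_mul hx hy, h0]
  exact one_mul _

end CE

open CE

theorem IsCan.pow_t (h : IsCan S c) (a : CE h.coc) (k : ℕ) : (a ^ k).t = k * a.t := by
  induction k with
  | zero => simp
  | succ k ih =>
    have h1 : ((a ^ k).g : Γ) = (a.g : Γ) ^ k := map_pow (proj h.coc) a k
    rw [pow_succ', mul_t, ih, h1, h.2 _ a.g.2]
    push_cast
    ring

theorem IsCan.t_eq_of_pow (h : IsCan S c) {a b : CE h.coc} {n : ℕ} (hn : 0 < n)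
    (hab : a ^ n = b ^ n) : a.t = b.t := by
  have h1 := h.pow_t a n
  rw [hab, h.pow_t] at h1
  have hn' : (n : ℚ) ≠ 0 := by exact_mod_cast hn.ne'
  exact (mul_left_cancel₀ hn' h1).symm

theorem IsCan.sec_pow (h : IsCan S c) {x : Γ} (hx : x ∈ S) (k : ℕ) :
    sec h.coc x ^ k = sec h.coc (x ^ k) := by
  have := eq_sec (a := sec h.coc x ^ k) (by rw [h.pow_t, sec_t, mul_zero])
  rwa [map_pow, sec_g hx] at this

theorem IsCan.conj_t (h : IsCan S c) (ht : ∀ x ∈ S, IsOfFinOrder x) (a b : CE h.coc) :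
    (b * a * b⁻¹).t = a.t := by
  obtain ⟨n, hn, hxn⟩ := isOfFinOrder_iff_pow_eq_one.1 (ht _ a.g.2)
  refine h.t_eq_of_pow hn ?_
  rw [conj_pow, (comm_of_g (z := a ^ n) (by rw [map_pow]; exact hxn) b).eq, mul_inv_cancel_right]

theorem IsCan.sec_conj (h : IsCan S c) (ht : ∀ x ∈ S, IsOfFinOrder x) (b : CE h.coc) {x : Γ}
    (hx : x ∈ S) : b * sec h.coc x * b⁻¹ = sec h.coc (proj _ b * x * (proj _ b)⁻¹) := by
  have := eq_sec (a := b * sec h.coc x * b⁻¹) (by rw [h.conj_t ht, sec_t])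
  rwa [map_mul, map_mul, map_inv, sec_g hx] at this

theorem IsCan.conj (h : IsCan S c) (ht : ∀ x ∈ S, IsOfFinOrder x) {g x y : Γ} (hg : g ∈ S)
    (hx : x ∈ S) (hy : y ∈ S) : c (g * x * g⁻¹) (g * y * g⁻¹) = c x y := by
  have h1 := h.sec_conj ht (sec h.coc g) hx
  have h2 := h.sec_conj ht (sec h.coc g) hy
  rw [sec_g hg] at h1 h2
  rw [← sec_mul_t (h := h.coc) (S.mul_mem (S.mul_mem hg hx) (S.inv_mem hg))
    (S.mul_mem (S.mul_mem hg hy) (S.inv_mem hg)), ← h1, ← h2, ← sec_mul_t (h := h.coc) hx hy,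
    ← h.conj_t ht (sec h.coc x * sec h.coc y) (sec h.coc g)]
  congr 1
  group

theorem IsCan.sec_comm (h : IsCan S c) (ht : ∀ x ∈ S, IsOfFinOrder x) {x y : Γ} (hx : x ∈ S)
    (hy : y ∈ S) (hxy : Commute x y) : Commute (sec h.coc x) (sec h.coc y) := by
  have h1 := h.sec_conj ht (sec h.coc x) hy
  rw [sec_g hx, hxy.eq, mul_inv_cancel_right] at h1
  exact mul_inv_eq_iff_eq_mul.1 h1

theorem IsCan.comm (h : IsCan S c) (ht : ∀ x ∈ S, IsOfFinOrder x) {x y : Γ} (hx : x ∈ S)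
    (hy : y ∈ S) (hxy : Commute x y) : c x y = 0 := by
  obtain ⟨n, hn, hxn⟩ := isOfFinOrder_iff_pow_eq_one.1 (ht x hx)
  obtain ⟨m, hm, hym⟩ := isOfFinOrder_iff_pow_eq_one.1 (ht y hy)
  rw [← sec_mul_t (h := h.coc) hx hy]
  refine h.t_eq_of_pow (b := 1) (Nat.mul_pos hn hm) ?_
  rw [(h.sec_comm ht hx hy hxy).mul_pow, h.sec_pow hx, h.sec_pow hy, pow_mul, hxn, mul_comm n m,
    pow_mul, hym, one_pow, one_pow, one_pow, sec_one, one_mul]

theorem IsCan.abel_aux (h : IsCan S c) (ht : ∀ x ∈ S, IsOfFinOrder x) {V : Subgroup Γ}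
    (hV : V ≤ S) (hc : ∀ x ∈ V, ∀ y ∈ V, Commute x y) {x x' : Γ} (hx : x ∈ S) (hx' : x' ∈ S)
    (h1 : ∀ k : ℕ, x ^ k * (x' ^ k)⁻¹ ∈ V) :
    sec h.coc (x * x'⁻¹) * sec h.coc x' = sec h.coc x := by
  have hd : x * x'⁻¹ ∈ S := S.mul_mem hx (S.inv_mem hx')
  have key : ∀ k : ℕ, (sec h.coc (x * x'⁻¹) * sec h.coc x') ^ k =
      sec h.coc (x ^ k * (x' ^ k)⁻¹) * sec h.coc x' ^ k := by
    intro k
    induction k with
    | zero => simp [sec_one]
    | succ k ih =>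
      have e1 := h.sec_conj ht (sec h.coc x' ^ k) hd
      rw [map_pow, sec_g hx'] at e1
      have e2 : x' ^ k * (x * x'⁻¹) * (x' ^ k)⁻¹ =
          (x ^ k * (x' ^ k)⁻¹)⁻¹ * (x ^ (k + 1) * (x' ^ (k + 1))⁻¹) := by group
      have hm : (x ^ k * (x' ^ k)⁻¹)⁻¹ * (x ^ (k + 1) * (x' ^ (k + 1))⁻¹) ∈ V :=
        V.mul_mem (V.inv_mem (h1 k)) (h1 (k + 1))
      have e3 := sec_mul_of_zero (h := h.coc) (hV (h1 k)) (hV hm)
        (h.comm ht (hV (h1 k)) (hV hm) (hc _ (h1 k) _ hm))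
      rw [mul_inv_cancel_left, ← e2, ← e1] at e3
      rw [pow_succ, ih, ← e3, pow_succ]
      group
  obtain ⟨n, hn, hxn⟩ := isOfFinOrder_iff_pow_eq_one.1 (ht x hx)
  obtain ⟨m, hm, hym⟩ := isOfFinOrder_iff_pow_eq_one.1 (ht x' hx')
  have h0 : (sec h.coc (x * x'⁻¹) * sec h.coc x').t = 0 := by
    refine h.t_eq_of_pow (b := 1) (Nat.mul_pos hn hm) ?_
    have a1 : x ^ (n * m) = 1 := by rw [pow_mul, hxn, one_pow]
    have a2 : x' ^ (n * m) = 1 := by rw [mul_comm, pow_mul, hym, one_pow]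
    rw [key, h.sec_pow hx', a1, a2]
    simp [sec_one]
  rw [sec_mul_t hd hx'] at h0
  rw [sec_mul_of_zero hd hx' h0, inv_mul_cancel_right]

theorem IsCan.abel (h : IsCan S c) (ht : ∀ x ∈ S, IsOfFinOrder x) {V : Subgroup Γ} (hV : V ≤ S)
    (hc : ∀ x ∈ V, ∀ y ∈ V, Commute x y) {x y x' y' : Γ} (hx : x ∈ S) (hy : y ∈ S)
    (hx' : x' ∈ S) (hy' : y' ∈ S) (h1 : ∀ k : ℕ, x ^ k * (x' ^ k)⁻¹ ∈ V)
    (h2 : ∀ k : ℕ, y ^ k * (y' ^ k)⁻¹ ∈ V)
    (h3 : ∀ k : ℕ, (x * y) ^ k * ((x' * y') ^ k)⁻¹ ∈ V) : c x y = c x' y' := by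
  have a1 := h.abel_aux ht hV hc hx hx' h1
  have a2 := h.abel_aux ht hV hc hy hy' h2
  have a3 := h.abel_aux ht hV hc (S.mul_mem hx hy) (S.mul_mem hx' hy') h3
  have m1 : x * x'⁻¹ ∈ V := by simpa using h1 1
  have m3 : x * y * (x' * y')⁻¹ ∈ V := by simpa only [pow_one] using h3 1
  have m2 : (x * x'⁻¹)⁻¹ * (x * y * (x' * y')⁻¹) ∈ V := V.mul_mem (V.inv_mem m1) m3
  have e1 := h.sec_conj ht (sec h.coc x') (S.mul_mem hy (S.inv_mem hy'))
  rw [sec_g hx'] at e1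
  have e2 : x' * (y * y'⁻¹) * x'⁻¹ = (x * x'⁻¹)⁻¹ * (x * y * (x' * y')⁻¹) := by group
  have e3 := sec_mul_of_zero (h := h.coc) (hV m1) (hV m2)
    (h.comm ht (hV m1) (hV m2) (hc _ m1 _ m2))
  rw [mul_inv_cancel_left, ← e2, ← e1] at e3
  have e4 : sec h.coc x * sec h.coc y =
      sec h.coc (x * y * (x' * y')⁻¹) * (sec h.coc x' * sec h.coc y') := by
    rw [← a1, ← a2, ← e3]
    group
  rw [sec_mul hx' hy', ← mul_assoc, (cen_comm _ _).eq, mul_assoc, a3] at e4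
  rw [← sec_mul_t (h := h.coc) hx hy, e4, cen_mul_t, sec_t, add_zero]

theorem IsCan.prod (h : IsCan S c) (ht : ∀ x ∈ S, IsOfFinOrder x) {x y x' y' : Γ} (hx : x ∈ S)
    (hy : y ∈ S) (hx' : x' ∈ S) (hy' : y' ∈ S) (h1 : Commute x x') (h2 : Commute x y')
    (h3 : Commute y x') (h4 : Commute y y') : c (x * x') (y * y') = c x y + c x' y' := by
  have hxy := S.mul_mem hx hy
  have hxy' := S.mul_mem hx' hy'
  have h5 : Commute (x * y) (x' * y') := (h1.mul_right h2).mul_left (h3.mul_right h4)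
  rw [← sec_mul_t (h := h.coc) (S.mul_mem hx hx') (S.mul_mem hy hy'),
    ← sec_mul_of_zero hx hx' (h.comm ht hx hx' h1), ← sec_mul_of_zero hy hy' (h.comm ht hy hy' h4),
    (h.sec_comm ht hy hx' h3).symm.mul_mul_mul_comm, sec_mul hx hy, sec_mul hx' hy',
    (cen_comm _ _).mul_mul_mul_comm, sec_mul_of_zero hxy hxy' (h.comm ht hxy hxy' h5), mul_assoc,
    cen_mul_t, cen_mul_t, sec_t, add_zero]

theorem exists_can {G : Type} [Group G] (π : G →* Γ) (N : Subgroup G) [N.Normal]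
    (hcen : ∀ z ∈ N, π z = 1 → ∀ g, Commute g z) (ht : ∀ g ∈ N, IsOfFinOrder (π g))
    (χ : G → ℚ) (hχ : ∀ z ∈ N, ∀ z' ∈ N, π z = 1 → π z' = 1 → χ (z * z') = χ z + χ z') :
    ∃ (v : G → ℚ) (c : Γ → Γ → ℚ), IsCan (N.map π) c ∧
      (∀ x ∈ N, ∀ y ∈ N, c (π x) (π y) = v (x * y) - v x - v y) ∧
      (∀ z ∈ N, π z = 1 → ∀ x ∈ N, v (z * x) = χ z + v x) ∧
      (∀ x ∈ N, IsOfFinOrder x → v x = 0) ∧ (∀ g, ∀ x ∈ N, v (g * x * g⁻¹) = v x) := by
  classical
  have hχ1 : χ 1 = 0 := by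
    have := hχ 1 N.one_mem 1 N.one_mem (map_one π) (map_one π)
    rw [mul_one] at this
    linarith
  have hχp : ∀ z ∈ N, π z = 1 → ∀ k : ℕ, χ (z ^ k) = k * χ z := by
    intro z hz hz1 k
    induction k with
    | zero => simpa using hχ1
    | succ k ih =>
      rw [pow_succ, hχ _ (N.pow_mem hz k) z hz (by rw [map_pow, hz1, one_pow]) hz1, ih]
      push_cast
      ring
  let v : G → ℚ := fun g => χ (g ^ orderOf (π g)) / orderOf (π g)
  have hpos : ∀ g ∈ N, (orderOf (π g) : ℚ) ≠ 0 := fun g hg => by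
    exact_mod_cast (ht g hg).orderOf_pos.ne'
  have hv : ∀ g ∈ N, ∀ r : ℕ, π g ^ r = 1 → χ (g ^ r) = r * v g := by
    intro g hg r hr
    obtain ⟨k, rfl⟩ := orderOf_dvd_of_pow_eq_one hr
    rw [pow_mul, hχp _ (N.pow_mem hg _) (by rw [map_pow, pow_orderOf_eq_one])]
    have := hpos g hg
    simp only [v]
    push_cast
    field_simp
  have hz : ∀ z ∈ N, π z = 1 → ∀ x ∈ N, v (z * x) = χ z + v x := by
    intro z hz hz1 x hx
    have h1 := hv (z * x) (N.mul_mem hz hx) (orderOf (π x))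
      (by rw [map_mul, hz1, one_mul, pow_orderOf_eq_one])
    rw [(hcen z hz hz1 x).symm.mul_pow, hχ _ (N.pow_mem hz _) _ (N.pow_mem hx _)
      (by rw [map_pow, hz1, one_pow]) (by rw [map_pow, pow_orderOf_eq_one]), hχp z hz hz1,
      hv x hx _ (pow_orderOf_eq_one _), ← mul_add] at h1
    exact (mul_left_cancel₀ (hpos x hx) h1).symm
  have hpow : ∀ x ∈ N, ∀ k : ℕ, v (x ^ k) = k * v x := by
    intro x hx k
    have h1 := hv (x ^ k) (N.pow_mem hx k) (orderOf (π x))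
      (by rw [map_pow, ← pow_mul, mul_comm, pow_mul, pow_orderOf_eq_one, one_pow])
    rw [← pow_mul, mul_comm, pow_mul, hχp _ (N.pow_mem hx _) (by rw [map_pow, pow_orderOf_eq_one]),
      hv x hx _ (pow_orderOf_eq_one _), mul_left_comm] at h1
    exact (mul_left_cancel₀ (hpos x hx) h1).symm
  have hσ : ∀ a : Γ, ∃ g : G, ∀ x ∈ N, π x = a → g ∈ N ∧ π g = a := by
    intro a
    by_cases h : ∃ x ∈ N, π x = a
    · obtain ⟨x, hx, hxa⟩ := h
      exact ⟨x, fun _ _ _ => ⟨hx, hxa⟩⟩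
    · exact ⟨1, fun x hx hxa => absurd ⟨x, hx, hxa⟩ h⟩
  choose σ hσ using hσ
  let c : Γ → Γ → ℚ := fun a b => v (σ a * σ b) - v (σ a) - v (σ b)
  have hc : ∀ x ∈ N, ∀ y ∈ N, c (π x) (π y) = v (x * y) - v x - v y := by
    intro x hx y hy
    obtain ⟨m1, p1⟩ := hσ _ x hx rfl
    obtain ⟨m2, p2⟩ := hσ _ y hy rfl
    obtain ⟨z, hz1⟩ : ∃ z, z = σ (π x) * x⁻¹ := ⟨_, rfl⟩
    obtain ⟨w, hw1⟩ : ∃ w, w = σ (π y) * y⁻¹ := ⟨_, rfl⟩
    have mz : z ∈ N := hz1 ▸ N.mul_mem m1 (N.inv_mem hx)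
    have mw : w ∈ N := hw1 ▸ N.mul_mem m2 (N.inv_mem hy)
    have pz : π z = 1 := by rw [hz1, map_mul, p1, map_inv, mul_inv_cancel]
    have pw : π w = 1 := by rw [hw1, map_mul, p2, map_inv, mul_inv_cancel]
    have e1 : σ (π x) = z * x := by rw [hz1, inv_mul_cancel_right]
    have e2 : σ (π y) = w * y := by rw [hw1, inv_mul_cancel_right]
    have e3 : z * x * (w * y) = z * (w * (x * y)) := by
      rw [mul_assoc, ← mul_assoc x, (hcen w mw pw x).eq, mul_assoc]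
    simp only [c]
    rw [e1, e2, e3, hz z mz pz _ (N.mul_mem mw (N.mul_mem hx hy)), hz w mw pw _ (N.mul_mem hx hy),
      hz z mz pz x hx, hz w mw pw y hy]
    ring
  refine ⟨v, c, ⟨?_, ?_⟩, hc, hz, ?_, ?_⟩
  · rintro _ ⟨x, hx, rfl⟩ _ ⟨y, hy, rfl⟩ _ ⟨w, hw, rfl⟩
    rw [← map_mul, ← map_mul, hc x hx y hy, hc _ (N.mul_mem hx hy) w hw,
      hc x hx _ (N.mul_mem hy hw), hc y hy w hw, mul_assoc]
    ring
  · rintro _ ⟨x, hx, rfl⟩ k
    rw [← map_pow, hc x hx _ (N.pow_mem hx k), ← pow_succ', hpow x hx, hpow x hx]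
    push_cast
    ring
  · intro x hx hfin
    obtain ⟨n, hn, hxn⟩ := isOfFinOrder_iff_pow_eq_one.1 hfin
    have h1 := hpow x hx n
    have h2 := hpow x hx 0
    rw [pow_zero] at h2
    rw [hxn, h2] at h1
    have hn' : (n : ℚ) ≠ 0 := by exact_mod_cast hn.ne'
    simpa [hn'] using h1.symm
  · intro g x hx
    have hm : g * x * g⁻¹ ∈ N := Subgroup.Normal.conj_mem inferInstance x hx g
    have h1 := hv _ hm (orderOf (π x))
      (by rw [map_mul, map_mul, map_inv, conj_pow, pow_orderOf_eq_one, mul_one, mul_inv_cancel])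
    rw [conj_pow, (hcen _ (N.pow_mem hx _) (by rw [map_pow, pow_orderOf_eq_one]) g).eq,
      mul_inv_cancel_right, hv x hx _ (pow_orderOf_eq_one _)] at h1
    exact (mul_left_cancel₀ (hpos x hx) h1).symm

/-- Every normalised cocycle on a torsion group is cohomologous to a canonical one. -/
theorem IsCoc.exists_can (h : IsCoc S c) (ht : ∀ x ∈ S, IsOfFinOrder x) :
    ∃ (c' : Γ → Γ → ℚ) (f : Γ → ℚ), IsCan S c' ∧
      ∀ x ∈ S, ∀ y ∈ S, c' x y = c x y + f (x * y) - f x - f y := by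
  obtain ⟨v, c', h1, h2, h3, -⟩ := Vale.Agent.P192.exists_can (proj h) ⊤
    (fun z _ hz g => comm_of_g hz g) (fun g _ => ht _ g.g.2) CE.t (fun z _ z' _ hz _ => by
      rw [proj_apply] at hz
      rw [mul_t, hz, h.one_left z'.g.2, add_zero])
  refine ⟨c', fun x => v (sec h x), h1.mono fun x hx => ⟨sec h x, trivial, sec_g hx⟩,
    fun x hx y hy => ?_⟩
  have := h2 (sec h x) trivial (sec h y) trivial
  rw [sec_g hx, sec_g hy, sec_mul hx hy, h3 _ trivial rfl _ trivial] at this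
  exact this

end Vale.Agent.P192
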