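import Vale.Agent.P192.CompA

/-! Completeness for binary rules and binary zeros. -/

namespace Vale.Agent.P192

theorem cB_left {X : Type} {S : Sys X} {N : ℕ} {C C' : ℕ → X} (E : ℕ → X)
    (h : S.Sim 0 N C C') : S.Sim 0 (2 * N) (cat N C E) (cat N C' E) := by
  have h1 : S.Sim 0 N (cat N C E) (cat N C' E) :=
    (Sys.Sim.of_agree fun j _ b => by simp [cat, b]).trans
      (h.trans (Sys.Sim.of_agree fun j _ b => by simp [cat, b]))
  refine h1.mono le_rfl (by omega) fun j _ _ e => ?_
  have : ¬j < N := by omega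
  simp [cat, this]

theorem cB_right {X : Type} {S : Sys X} {N : ℕ} (C : ℕ → X) {E E' : ℕ → X}
    (h : S.Sim 0 N E E') : S.Sim 0 (2 * N) (cat N C E) (cat N C E') := by
  have h1 : S.Sim (N + 0) (N + N) (cat N C E) (cat N C E') := by
    rw [Sys.sim_shift]
    simpa [cat] using h
  refine h1.mono (by omega) (by omega) fun j _ _ e => ?_
  have : j < N := by omega
  simp [cat, this]

theorem cB_zleft {X : Type} {S : Sys X} {N : ℕ} {C : ℕ → X} (E : ℕ → X)
    (h : S.Zero 0 N C) : S.Zero 0 (2 * N) (cat N C E) :=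
  (h.congr fun j _ b => by simp [cat, b]).mono le_rfl (by omega)

theorem cB_zright {X : Type} {S : Sys X} {N : ℕ} (C : ℕ → X) {E : ℕ → X}
    (h : S.Zero 0 N E) : S.Zero 0 (2 * N) (cat N C E) := by
  have h1 : S.Zero (N + 0) (N + N) (cat N C E) := by
    rw [Sys.zero_shift]
    simpa [cat] using h
  exact h1.mono (by omega) (by omega)

/-- A binary rule at the boundary of two cells. -/
theorem cB_bd {M N : ℕ} (hN : 2 ≤ N) {C C' E E' : Wd} {κ : Kind} {p : Pay}
    (hκ : κ.trk = none) (hq : QL κ (C' (N - 1)).q) (hr : PR κ (E 0).q) (hs : κ ≠ .chk)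
    (h1 : C (N - 1) = { C' (N - 1) with q := unext κ (C' (N - 1)).q p })
    (h2 : E' 0 = { E 0 with q := ins κ (E 0).q p })
    (h3 : ∀ j < N - 1, C' j = C j) (h4 : ∀ j, 0 < j → E' j = E j) :
    (sys M).Sim 0 (2 * N) (cat N C E) (cat N C' E') := by
  have e1 : N - 1 + 1 = N := by omega
  have e2 : N - 1 < N := by omega
  refine cA_sim2 (i := N - 1) (Nat.zero_le _) (by omega) ?_ fun j _ _ e e' => ?_
  · have := Step2.mk (p := p) (a := (C' (N - 1)).a) (n := (C' (N - 1)).n) (oc := (C' (N - 1)).oc)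
      (a' := (E 0).a) (n' := (E 0).n) (oc' := (E 0).oc) hq hr (fun h => absurd h hs)
    have ea : ∀ a a', da κ a a' = a := by
      intro a a'
      have : κ ≠ .swd := by rintro rfl; simp [Kind.trk] at hκ
      simp [da, this]
    have en : ∀ a a', dn κ a a' = a := by
      intro a a'
      have : κ ≠ .mvc := by rintro rfl; simp [Kind.trk] at hκ
      simp [dn, this]
    simp only [ea, en] at this
    simp only [e1, cat, e2, if_true, lt_irrefl, if_false, Nat.sub_self, h1, h2]
    exact this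
  · by_cases hj : j < N
    · simp only [cat, hj, if_true]
      exact h3 j (by omega)
    · simp only [cat, hj, if_false]
      exact h4 _ (by omega)

section
variable {M N : ℕ} {D B U D' B' U' : ℕ → Option Bool} {dm dm' : Bool}
  {c c' : Core} {oc oc' : Option Core}

theorem cB_lt {k j : ℕ} (hj : j < k) {m m' : KF Pay} :
    cAstd N k m D B U dm c oc j = cAstd N k m' D B U dm c oc j := by
  simp [cAstd, hj]

theorem cB_gt {j : ℕ} (hj : 0 < j) {m m' : KF Pay} :
    cAstd N 0 m D B U dm c oc j = cAstd N 0 m' D B U dm c oc j := by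
  have : j ≠ 0 := by omega
  simp [cAstd, this]

theorem cB_open (hN : 2 ≤ N) {κ : Kind} {ph : Ph} {q r : Reg} (hq : ph = .B → QL κ q)
    (hr : ph = .A → PR κ r) :
    (sys M).Sim 0 (2 * N)
      (cat N (cAstd N 0 (.sm .idle) D B (fun _ => none) dm (.free q) oc)
        (cAstd N 0 (.sm .idle) D' B' U' dm' (.free r) oc'))
      (cat N (cAstd N 0 (.sm .opnL) D B (fun _ => none) dm (.LS κ ph .L q) oc)
        (cAstd N 0 (.sm (.opnR κ.trk)) D' B' U' dm' (.LS κ ph .R r) oc')) := by
  have e1 : N - 1 + 1 = N := by omega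
  refine (cB_left _ ((cA_std_small hN (Act.s2 hq)).trans
    (cA_std_mvs (k := N - 1) (by omega) fun _ _ _ _ _ _ => rfl))).trans ?_
  refine (cB_bd hN (κ := .hs) (p := .tag (.pre κ ph))
    (C' := cAstd N (N - 1) (.sm .half) D B (fun _ => none) dm (.LS κ ph .L q) oc)
    (E' := cAstd N 0 (.sm (.got κ ph)) D' B' U' dm' (.free r) oc') rfl
    (by simp [QL, cAstd, e1]) (by simp [PR, cAstd]) (by simp) (by simp [cAstd, unext, RegG.key])
    (by simp [cAstd, ins, RegG.key]) (fun j hj => cB_lt hj) (fun j hj => cB_gt hj)).trans ?_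
  refine (cB_right _ (cA_std_small hN (Act.s3 hr))).trans ?_
  refine (cB_bd hN (κ := .opn) (p := .unit)
    (C' := cAstd N (N - 1) (.sm .opnL) D B (fun _ => none) dm (.LS κ ph .L q) oc)
    (E' := cAstd N 0 (.sm (.opnR κ.trk)) D' B' U' dm' (.LS κ ph .R r) oc') rfl
    (by simp [QL, cAstd, e1]) (by simp [PR, cAstd]) (by simp) (by simp [cAstd, unext, RegG.key])
    (by simp [cAstd, ins, RegG.key, opnOf]) (fun j hj => cB_lt hj) (fun j hj => cB_gt hj)).trans ?_
  exact cB_left _ (cA_std_mvs (k := N - 1) (by omega) fun _ _ _ _ _ hu => by simp [src, hu]).symm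

theorem cB_plain (hN : 2 ≤ N) {κ : Kind} {q r : Reg} {p : Pay} (hκ : κ.trk = none)
    (hq : QL κ q) (hr : PR κ r) (hs : okS κ r p) :
    (sys M).Sim 0 (2 * N)
      (cat N (cAstd N 0 (.sm .idle) D B (fun _ => none) dm (.free (unext κ q p)) oc)
        (cAstd N 0 (.sm .idle) D' B' U' dm' (.free r) oc'))
      (cat N (cAstd N 0 (.sm .idle) D B (fun _ => none) dm (.free q) oc)
        (cAstd N 0 (.sm .idle) D' B' U' dm' (.free (ins κ r p)) oc')) := by
  have e1 : N - 1 + 1 = N := by omega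
  refine (cB_open hN (κ := κ) (ph := .A) (by simp) fun _ => hr).trans
    (Sys.Sim.trans ?_ (cB_open hN (κ := κ) (ph := .B) (fun _ => hq) (by simp)).symm)
  rw [hκ]
  refine (cB_left _ ((cA_std_load hN (t := .opnL) rfl (Act.l1 hκ hq)).trans
    (cA_std_mvf (k := N - 1) (by omega)))).trans ?_
  refine (cB_bd hN (κ := .hand) (p := p)
    (C' := cAstd N (N - 1) (.sm .opnL) D B (fun _ => none) dm (.LS κ .B .L q) oc)
    (E' := cAstd N 0 (.fu .respR p) D' B' U' dm' (.LS κ .A .R r) oc') rfl
    (by simp [QL, cAstd, e1]) (by simp [PR, cAstd]) (by simp) (by simp [cAstd, unext, RegG.full])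
    (by simp [cAstd, ins, RegG.full]) (fun j hj => cB_lt hj) (fun j hj => cB_gt hj)).trans ?_
  refine (cB_right _ (cA_std_load hN (t := .opnR none) rfl (Act.l2 hκ hr hs)).symm).trans ?_
  exact cB_left _ (cA_std_mvs (k := N - 1) (by omega) fun _ _ _ _ _ hu => by simp [src, hu]).symm

end

/-- The `d` lane when the track `t` holds `T` and the other track holds `O`. -/
def cBtrD (t : Trk) (T O : ℕ → Option Bool) : ℕ → Option Bool :=
  match t with
  | .d => T
  | .b => O

/-- The `b` lane when the track `t` holds `T` and the other track holds `O`. -/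
def cBtrB (t : Trk) (T O : ℕ → Option Bool) : ℕ → Option Bool :=
  match t with
  | .d => O
  | .b => T

theorem cB_fm (N : ℕ) (T : ℕ → Option Bool) :
    (List.range (2 * N)).filterMap (cat N (fun _ => none) T) =
      (List.range (2 * N)).filterMap (cat N T fun _ => none) := by
  have e : ∀ f g : ℕ → Option Bool, (List.range (2 * N)).filterMap (cat N f g) =
      (List.range N).filterMap f ++ (List.range N).filterMap g := by
    intro f g
    rw [two_mul, List.range_add, List.filterMap_append, List.filterMap_map]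
    congr 1
    · exact List.filterMap_congr fun j hj => by simp [cat, List.mem_range.1 hj]
    · exact List.filterMap_congr fun j _ => by simp [cat]
  simp [e]

section
variable {M N : ℕ} {D B U U' T T' O O' : ℕ → Option Bool} {dm dm' : Bool}
  {c c' : Core} {oc oc' : Option Core}

theorem cB_lane (_hN : 2 ≤ N) (t : Trk) (m : KF Pay) :
    (sys M).Sim 0 (2 * N)
      (cat N (cAstd N 0 m D B (fun _ => none) dm c oc)
        (cAstd N 0 (.sm (.opnR (some t))) (cBtrD t T O) (cBtrB t T O) U' dm' c' oc'))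
      (cat N (cAstd N 0 m D B T dm c oc)
        (cAstd N 0 (.sm (.opnR (some t))) (cBtrD t (fun _ => none) O) (cBtrB t (fun _ => none) O) U'
          dm' c' oc')) := by
  have key : ∀ V W : ℕ → Option Bool, Agree 0 (2 * N)
      (putP N t (cat N (cAstd N 0 m D B (fun _ => none) dm c oc)
        (cAstd N 0 (.sm (.opnR (some t))) (cBtrD t T O) (cBtrB t T O) U' dm' c' oc')) (cat N V W))
      (cat N (cAstd N 0 m D B V dm c oc)
        (cAstd N 0 (.sm (.opnR (some t))) (cBtrD t W O) (cBtrB t W O) U' dm' c' oc')) := by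
    intro V W j _ hj
    by_cases h : j < N
    · have : ¬N ≤ j := by omega
      simp [putP, putL, cat, h, this, cAstd, RegG.setL]
    · have h' : N ≤ j := by omega
      cases t <;> simp [putP, putL, cat, h, h', hj, cAstd, RegG.setL, cBtrD, cBtrB, Trk.lane]
  refine (Sys.Sim.of_agree (key _ _)).symm.trans (Sys.Sim.trans ?_ (Sys.Sim.of_agree (key _ _)))
  refine (lane_pair t (fun j hj => ?_) (fun j hj => ?_) (fun p h1 h2 => ?_) ?_ (cB_fm N T)).sim
  · simp [cat, hj, cAstd]
  · simp [cat, cAstd]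
  · have : p ≠ 0 := by omega
    simp [cat, h2, cAstd, this, KF.isKey]
  · simp [cat, cAstd]

theorem cB_sweep (t : Trk) (hT : ∀ j, T j ≠ none) (hT' : ∀ j, T' j ≠ none) {k : ℕ} (hk : k < N) :
    (sys M).Sim 0 N (cAstd N 0 (.sm (.wrk (.sw t))) (cBtrD t T O) (cBtrB t T O) T' dm c oc)
      (cAstd N k (.sm (.wrk (.sw t))) (cBtrD t (cat k T' fun j => T (k + j)) O)
        (cBtrB t (cat k T' fun j => T (k + j)) O) (cat k T fun j => T' (k + j)) dm c oc) := by
  induction k with
  | zero => exact cA_std_congr fun j _ => by cases t <;> simp [cat, cBtrD, cBtrB]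
  | succ k ih =>
    refine (ih (by omega)).trans (cA_std_mvS hk ?_ fun j _ e => ?_)
    · cases t <;>
        simp [src, cAstd, cat, cBtrD, cBtrB, hT k, hT' k, RegG.swapU, RegG.setL, RegG.key, Trk.lane]
    · by_cases h : j < k
      · have h' : j < k + 1 := by omega
        cases t <;> simp [cat, cBtrD, cBtrB, h, h']
      · have h' : ¬j < k + 1 := by omega
        have e1 : k + (j - k) = j := by omega
        have e2 : k + 1 + (j - (k + 1)) = j := by omega
        cases t <;> simp [cat, cBtrD, cBtrB, h, h', e1, e2]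

theorem cB_data (hN : 2 ≤ N) {κ : Kind} {t : Trk} {q r : Reg} (hκ : κ.trk = some t)
    (hw : κ.wop = some (.sw t)) (hq : QL κ q) (hr : PR κ r)
    (hT : ∀ j, T j ≠ none) (hT' : ∀ j, T' j ≠ none) :
    (sys M).Sim 0 (2 * N)
      (cat N (cAstd N 0 (.sm .idle) (cBtrD t T O) (cBtrB t T O) (fun _ => none) dm
          (.free (unext κ q .unit)) oc)
        (cAstd N 0 (.sm .idle) (cBtrD t T' O') (cBtrB t T' O') U' dm' (.free r) oc'))
      (cat N (cAstd N 0 (.sm .idle) (cBtrD t T' O) (cBtrB t T' O) (fun _ => none) dm (.free q) oc)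
        (cAstd N 0 (.sm .idle) (cBtrD t T O') (cBtrB t T O') U' dm' (.free (ins κ r .unit)) oc')) := by
  have e1 : N - 1 + 1 = N := by omega
  refine (cB_open hN (κ := κ) (ph := .A) (by simp) fun _ => hr).trans
    (Sys.Sim.trans ?_ (cB_open hN (κ := κ) (ph := .B) (fun _ => hq) (by simp)).symm)
  rw [hκ]
  refine (cB_lane hN t _).trans (Sys.Sim.trans ?_ (cB_lane hN t _).symm)
  refine (cB_left _ ((cA_std_small hN (Act.s5 hw hq)).trans
    (cB_sweep t hT hT' (k := N - 1) (by omega)))).trans ?_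
  refine (cB_bd hN (κ := .dh) (p := .trk t)
    (C' := cAstd N (N - 1) (.sm .ful) (cBtrD t T' O) (cBtrB t T' O) T dm (.LS κ .B .L q) oc)
    (E' := cAstd N 0 (.sm (.dresp t)) (cBtrD t (fun _ => none) O') (cBtrB t (fun _ => none) O') U' dm'
      (.LS κ .A .R r) oc') rfl
    (by simp [QL, cAstd, e1, hT]) (by simp [PR, cAstd]) (by simp) ?_
    (by simp [cAstd, ins, RegG.key]) (fun j hj => ?_) (fun j hj => cB_gt hj)).trans ?_
  · cases t <;> simp [cAstd, unext, src, cat, cBtrD, cBtrB, hT, hT', RegG.swapU, RegG.setL, RegG.key,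
      Trk.lane]
  · cases t <;> simp [cAstd, cat, cBtrD, cBtrB, hj]
  refine (cB_right _ (cA_std_small hN (Act.s6 hw hr))).trans ?_
  refine cB_left _ ((cA_std_small hN Act.s4).trans
    (cA_std_mvs (k := N - 1) (by omega) fun j _ _ _ _ hu => ?_)).symm
  simp [src, hu, hT]

end

theorem cB_bits (n j : ℕ) : cAbits n j ≠ none := by simp [cAbits]

theorem comp2 {N : ℕ} (hN : 2 ≤ N) {x y x' y' : Ent} (hx : InR (2 ^ N) x) (hy : InR (2 ^ N) y)
    (h : Step2 x y x' y') :
    (sys N).Sim 0 (2 * N) (cat N (lift N x) (lift N y)) (cat N (lift N x') (lift N y')) := by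
  cases h with
  | @mk κ q r p a n oc a' n' oc' hq hr hs =>
    by_cases h1 : κ = .swd
    · subst h1
      rw [cA_lift' hx, cA_lift' hy,
        cA_lift' (x := ⟨q, da .swd a a', dn .swd n n', oc⟩) ⟨hy.1, hx.2⟩,
        cA_lift' (x := ⟨ins .swd r p, da .swd a' a, dn .swd n' n, oc'⟩) ⟨hx.1, hy.2⟩]
      exact cB_data hN (κ := .swd) (t := .d) rfl rfl hq hr (cB_bits a) (cB_bits a')
    by_cases h2 : κ = .mvc
    · subst h2
      rw [cA_lift' hx, cA_lift' hy,
        cA_lift' (x := ⟨q, da .mvc a a', dn .mvc n n', oc⟩) ⟨hx.1, hy.2⟩,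
        cA_lift' (x := ⟨ins .mvc r p, da .mvc a' a, dn .mvc n' n, oc'⟩) ⟨hy.1, hx.2⟩]
      exact cB_data hN (κ := .mvc) (t := .b) rfl rfl hq hr (cB_bits n) (cB_bits n')
    by_cases h3 : κ = .eqd
    · subst h3
      exact Sys.Sim.refl _
    have hκ : κ.trk = none := by
      cases κ <;> first | rfl | contradiction
    simp only [da, dn, h1, h2, if_false]
    rw [cA_lift, cA_lift, cA_lift, cA_lift]
    exact cB_plain hN hκ hq hr hs

theorem compZ2 {N : ℕ} (hN : 2 ≤ N) {x y : Ent} (h : Zero2 x y) :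
    (sys N).Zero 0 (2 * N) (cat N (lift N x) (lift N y)) := by
  by_cases hx : InR (2 ^ N) x
  swap
  · refine cB_zleft _ (compZ1 hN ?_)
    by_cases h1 : x.a < 2 ^ N
    · exact Or.inr (Or.inr (Or.inl (not_lt.1 fun h2 => hx ⟨h1, h2⟩)))
    · exact Or.inr (Or.inl (not_lt.1 h1))
  by_cases hy : InR (2 ^ N) y
  swap
  · refine cB_zright _ (compZ1 hN ?_)
    by_cases h1 : y.a < 2 ^ N
    · exact Or.inr (Or.inr (Or.inl (not_lt.1 fun h2 => hy ⟨h1, h2⟩)))
    · exact Or.inr (Or.inl (not_lt.1 h1))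
  obtain ⟨h1, h2⟩ := h
  by_cases hf : y.q.first = true
  · have hc : ¬∃ α, Pay.era x.q.era = .era α ∧ compatS α y.q := by
      rintro ⟨α, e, hc⟩
      cases e
      have := hc.1
      simp [h1, hf] at this
    have hs := Step2.mk (κ := .chk) (q := x.q) (r := y.q) (p := .era x.q.era) (a := x.a)
      (n := x.n) (oc := x.oc) (a' := y.a) (n' := y.n) (oc' := y.oc) trivial trivial fun _ => hc
    have e1 : unext .chk x.q (.era x.q.era) = x.q := by simp [unext]
    have e2 : ins .chk y.q (.era x.q.era) = y.q.dm := by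
      simp only [ins]
      rw [if_neg hc]
    rw [e1, e2] at hs
    refine Sys.Zero.of_sim (comp2 hN hx hy hs) (cB_zright _ (compZ1 hN (Or.inl fun hu => ?_)))
    simpa using hu.doom
  have hr : PR .eqd y.q := by simpa [PR] using hf
  have e1 : N - 1 + 1 = N := by omega
  rw [cA_lift' hx, cA_lift' hy]
  refine Sys.Zero.of_sim ((cB_open hN (κ := .eqd) (ph := .A) (by simp) fun _ => hr).trans
    (cB_lane hN .d _ (T := cAbits y.a) (O := cAbits y.n))) (cB_zleft _ ?_)
  refine Sys.Zero.of_sim ((cA_std_small hN (Act.s5 (κ := .eqd) (w := .eq) (q := x.q) rfl h1)).trans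
    (cA_std_mvs (k := N - 1) (by omega) fun j _ q hd _ hu => ?_)) ?_
  · simp [src, hd, hu, h2, cAbits]
  · refine Sys.zero1 (i := N - 1) (Nat.zero_le _) (by omega) (Or.inl fun hu => ?_)
    exact hu.ke (by simp [cAstd, e1]) (by simp [cAstd]) (by simp [cAstd, cAbits]) (by simp [cAstd, h2])

end Vale.Agent.P192
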