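import Vale.Agent.P192.Level

/-! Exchanging two blocks of cells. -/

namespace Vale.Agent.P192

open Sys

variable {N : ℕ}

theorem swapIdx_mul {o p q l e j : ℕ} (hj : j < N) :
    swapIdx (o + N * p) (o + N * q) (N * l) (o + N * e + j) = o + N * swapIdx p q l e + j := by
  have key : ∀ a, (o + N * a ≤ o + N * e + j ∧ o + N * e + j < o + N * a + N * l) ↔
      (a ≤ e ∧ e < a + l) := by
    intro a
    constructor
    · rintro ⟨h1, h2⟩
      refine ⟨idx_le hj h1, idx_lt (N := N) (o := o) (j := j) ?_⟩
      rw [Nat.mul_add]; omega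
    · rintro ⟨h1, h2⟩
      have m1 := Nat.mul_le_mul_left N h1
      have m2 := Nat.mul_le_mul_left N (show e + 1 ≤ a + l from h2)
      rw [Nat.mul_add, Nat.mul_add] at m2
      omega
  unfold swapIdx
  simp only [key]
  split_ifs with h1 h2
  · obtain ⟨d, rfl⟩ := Nat.exists_eq_add_of_le h1.1
    rw [Nat.add_sub_cancel_left, Nat.mul_add, Nat.mul_add]; omega
  · obtain ⟨d, rfl⟩ := Nat.exists_eq_add_of_le h2.1
    rw [Nat.add_sub_cancel_left, Nat.mul_add, Nat.mul_add]; omega
  · rfl

theorem swapIdx_out {p q l i : ℕ} (h1 : i < p ∨ p + l ≤ i) (h2 : i < q ∨ q + l ≤ i) :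
    swapIdx p q l i = i := by
  unfold swapIdx
  split_ifs <;> omega

/-- The interface of a cell. -/
noncomputable def ifc (C : Wd) : KF Pay × Core := (keyOf C, cor C)

theorem cv_congr {C C' : Wd} {t : ℕ} (h : CV N C (kpos C) t (cor C)) (e : ∀ j < N, C' j = C j) :
    CV N C' (kpos C') t (cor C') ∧ kpos C' = kpos C ∧ cor C' = cor C ∧ keyOf C' = keyOf C ∧
      Ul N C' (kpos C') = Ul N C (kpos C) ∧ (∀ tr, Tl N C' (kpos C') tr = Tl N C (kpos C) tr) ∧
      ∀ U, phi N U C' (kpos C') (cor C') = phi N U C (kpos C) (cor C) := by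
  obtain ⟨h1, h2, h3, h4⟩ := h.congr e
  have e1 := h1.kpos_eq
  have e2 := h1.cor_eq
  rw [e1, e2]
  refine ⟨h1, rfl, rfl, ?_, h2, h3, h4⟩
  unfold keyOf
  rw [e1, e _ h.hk]

theorem tl_full {C : Wd} {k t : ℕ} {c : Core} (h : CV N C k t c) {tr : Trk}
    (ho : (C k).q.kf.opent ≠ some tr) : (Tl N C k tr).length = N := by
  unfold Tl
  rw [filterMap_full]
  · simp
  · intro j hj
    unfold vt
    split_ifs with h1 h2
    · exact h.uF (by rw [h1.2]; trivial) j h1.1
    · simp
    · exact h.hol tr ho j hj

theorem phi_indep {C : Wd} {k : ℕ} {c : Core} (ho : (C k).q.kf.opent = none) (U U' : List Bool) :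
    phi N U C k c = phi N U' C k c := by
  simp [phi, ho]

theorem data_QL {κ : Kind} {t : Trk} (h : κ.trk = some t) {q : Reg} (hq : QL κ q) :
    q.last = false := by
  cases κ <;> simp_all [Kind.trk, QL]

theorem data_PR {κ : Kind} {t : Trk} (h : κ.trk = some t) {q : Reg} (hq : PR κ q) :
    q.first = false := by
  cases κ <;> simp_all [Kind.trk, PR]

theorem phiq_LS_first (m : KF Pay) (κ ph sd q) : (phiq m (.LS κ ph sd q)).first = q.first := by
  cases m with
  | sm t => cases t <;> simp [phiq]
  | fu pt p => cases pt <;> simp [phiq]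
  | _ => simp [phiq]

theorem phiq_LS_last (m : KF Pay) (κ ph sd q) : (phiq m (.LS κ ph sd q)).last = q.last := by
  cases m with
  | sm t => cases t <;> simp [phiq]
  | fu pt p => cases pt <;> simp [phiq]
  | _ => simp [phiq]

theorem not_open {m m' : KF Pay} {c c' : Core} (h : compatA m c) (h' : compatA m' c')
    (hp : PV m c m' c') (h1 : (phiq m c).last = true) (h2 : (phiq m' c').first = true) :
    m'.opent = none := by
  rcases hp with hp | ⟨κ, ph, q, -, -, hp⟩ | ⟨κ, ph, q, ph', r, rfl, rfl, a1, a2, hp⟩
  · exact KF.opent_of_clsR _ hp.2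
  · rcases hp with rfl | ⟨r, rfl, -⟩ <;> rfl
  · rw [phiq_LS_last] at h1
    rw [phiq_LS_first] at h2
    cases m' with
    | sm t =>
      cases t with
      | opnR o =>
        cases o with
        | none => rfl
        | some t =>
          exfalso
          obtain ⟨κ', ph'', q', e, ht, hq⟩ := h'
          cases e
          cases ph' with
          | A => simp [data_PR ht (hq rfl)] at h2
          | B =>
            have hW : ¬m.isW ∧ ph = .B := by
              rcases hp with hp | hp | hp
              · exact ⟨hp.1, hp.2.2⟩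
              · exact absurd hp.2.2 (by simp)
              · exact ⟨hp.1, hp.2.2.1⟩
            obtain ⟨hW, rfl⟩ := hW
            have : QL κ q := by
              cases m with
              | sm t =>
                cases t <;> simp_all [KF.clsL, KF.isW, compatA]
              | fu pt p => cases pt <;> simp_all [KF.clsL, KF.isW]
              | _ => simp [KF.clsL] at a1
            simp [data_QL ht this] at h1
      | dresp t =>
        exfalso
        obtain ⟨κ', q', e, ht, hq⟩ := h'
        cases e
        have : κ.trk = some t := by cases κ <;> simp_all [Kind.wop, Kind.trk]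
        simp [data_PR this hq] at h2
      | _ => rfl
    | _ => rfl

theorem exch {o a b p q l : ℕ} {f g : Wd} (h : Valid N o a b f) (hp : a < p)
    (hl : 0 < l) (hpq : p + l < q) (hq : q + l < b)
    (e1 : ifc (cell N o f p) = ifc (cell N o f q))
    (e2 : ifc (cell N o f (p + l - 1)) = ifc (cell N o f (q + l - 1)))
    (o1 : (keyOf (cell N o f p)).opent = none) (o2 : (keyOf (cell N o f (p + l))).opent = none)
    (o4 : (keyOf (cell N o f (q + l))).opent = none)
    (hg : ∀ i, a ≤ i → i < b → ∀ j < N, cell N o g i j = cell N o f (swapIdx p q l i) j) :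
    Valid N o a b g ∧ Agree a b (Phi N o g) (Phi N o f ∘ swapIdx p q l) ∧
      ∀ i, a ≤ i → i < b → ifc (cell N o g i) = ifc (cell N o f (swapIdx p q l i)) := by
  have e1k : keyOf (cell N o f p) = keyOf (cell N o f q) := congrArg Prod.fst e1
  have e1c : cor (cell N o f p) = cor (cell N o f q) := congrArg Prod.snd e1
  have e2k : keyOf (cell N o f (p + l - 1)) = keyOf (cell N o f (q + l - 1)) :=
    congrArg Prod.fst e2
  have e2c : cor (cell N o f (p + l - 1)) = cor (cell N o f (q + l - 1)) := congrArg Prod.snd e2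
  have o3 : (keyOf (cell N o f q)).opent = none := e1k ▸ o1
  have hr : ∀ i, a ≤ i → i < b → a ≤ swapIdx p q l i ∧ swapIdx p q l i < b := by
    intro i x y; unfold swapIdx; split_ifs <;> omega
  have hc := fun i x y => (h.cv _ (hr i x y).1 (hr i x y).2).imp fun t ht =>
    cv_congr ht (hg i x y)
  -- pairs across a quiet boundary
  have hb : ∀ i i', a ≤ i → i + 1 < b → a ≤ i' → i' < b →
      (keyOf (cell N o f (i + 1))).opent = none → (keyOf (cell N o f i')).opent = none →
      PV (keyOf (cell N o f i)) (cor (cell N o f i)) (keyOf (cell N o f i')) (cor (cell N o f i')) →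
      PairV N (cell N o f i) (kpos (cell N o f i)) (cor (cell N o f i))
        (cell N o f i') (kpos (cell N o f i')) (cor (cell N o f i')) := by
    intro i i' x y x' y' u v w
    refine ⟨w, ?_⟩
    obtain ⟨t, ht⟩ := h.cv (i + 1) (by omega) y
    obtain ⟨t', ht'⟩ := h.cv i' x' y'
    have := (h.pv i x y).2
    unfold keyOf at u v
    rw [tl_full ht (by simp [u]), tl_full ht (by simp [u])] at this
    rw [tl_full ht' (by simp [v]), tl_full ht' (by simp [v])]
    exact this
  have hcase : ∀ i, a ≤ i → i + 1 < b → swapIdx p q l (i + 1) = swapIdx p q l i + 1 ∨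
      ((keyOf (cell N o f (swapIdx p q l (i + 1)))).opent = none ∧
        PairV N (cell N o f (swapIdx p q l i)) (kpos (cell N o f (swapIdx p q l i)))
          (cor (cell N o f (swapIdx p q l i))) (cell N o f (swapIdx p q l (i + 1)))
          (kpos (cell N o f (swapIdx p q l (i + 1)))) (cor (cell N o f (swapIdx p q l (i + 1))))) := by
    intro i x y
    by_cases c1 : i + 1 = p
    · have s1 : swapIdx p q l i = i := swapIdx_out (by omega) (by omega)
      have s2 : swapIdx p q l (i + 1) = q := by unfold swapIdx; split_ifs <;> omega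
      rw [s1, s2]
      refine Or.inr ⟨o3, hb i q x y (by omega) (by omega) (c1 ▸ o1) o3 ?_⟩
      rw [← e1k, ← e1c, ← c1]; exact (h.pv i x y).1
    by_cases c2 : i + 1 = p + l
    · have s1 : swapIdx p q l i = q + l - 1 := by unfold swapIdx; split_ifs <;> omega
      have s2 : swapIdx p q l (i + 1) = p + l := by unfold swapIdx; split_ifs <;> omega
      have s3 : q + l - 1 + 1 = q + l := by omega
      have s4 : p + l - 1 + 1 = p + l := by omega
      rw [s1, s2]
      refine Or.inr ⟨o2, hb _ _ (by omega) (by omega) (by omega) (by omega) (s3 ▸ o4) o2 ?_⟩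
      rw [← e2k, ← e2c]
      have := (h.pv (p + l - 1) (by omega) (by omega)).1
      rwa [s4] at this
    by_cases c3 : i + 1 = q
    · have s1 : swapIdx p q l i = i := swapIdx_out (by omega) (by omega)
      have s2 : swapIdx p q l (i + 1) = p := by unfold swapIdx; split_ifs <;> omega
      rw [s1, s2]
      refine Or.inr ⟨o1, hb i p x y (by omega) (by omega) (c3 ▸ o3) o1 ?_⟩
      rw [e1k, e1c, ← c3]; exact (h.pv i x y).1
    by_cases c4 : i + 1 = q + l
    · have s1 : swapIdx p q l i = p + l - 1 := by unfold swapIdx; split_ifs <;> omega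
      have s2 : swapIdx p q l (i + 1) = q + l := by unfold swapIdx; split_ifs <;> omega
      have s3 : q + l - 1 + 1 = q + l := by omega
      have s4 : p + l - 1 + 1 = p + l := by omega
      rw [s1, s2]
      refine Or.inr ⟨o4, hb _ _ (by omega) (by omega) (by omega) (by omega) (s4 ▸ o2) o4 ?_⟩
      rw [e2k, e2c]
      have := (h.pv (q + l - 1) (by omega) (by omega)).1
      rwa [s3] at this
    left
    unfold swapIdx; split_ifs <;> omega
  have sa : swapIdx p q l a = a := swapIdx_out (by omega) (by omega)
  have sb : swapIdx p q l (b - 1) = b - 1 := swapIdx_out (by omega) (by omega)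
  refine ⟨⟨fun i x y => (hc i x y).imp fun t ht => ht.1, fun i x y => ?_, ?_, ?_⟩, ?_, ?_⟩
  · obtain ⟨t, -, -, a2, a3, a4, -⟩ := hc i x (by omega)
    obtain ⟨t', -, -, b2, b3, -, b5, -⟩ := hc (i + 1) (by omega) y
    have key : PairV N (cell N o f (swapIdx p q l i)) (kpos (cell N o f (swapIdx p q l i)))
          (cor (cell N o f (swapIdx p q l i))) (cell N o f (swapIdx p q l (i + 1)))
          (kpos (cell N o f (swapIdx p q l (i + 1)))) (cor (cell N o f (swapIdx p q l (i + 1)))) := by
      rcases hcase i x y with c | c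
      · have := hr (i + 1) (by omega) y
        rw [c] at this ⊢
        exact h.pv _ (hr i x (by omega)).1 this.2
      · exact c.2
    unfold keyOf at a3 b3
    unfold PairV at key ⊢
    rw [a2, a3, a4, b2, b3, b5, b5]
    exact key
  · obtain ⟨t, -, -, -, a3, -⟩ := hc a le_rfl (by omega)
    rw [a3, sa]; exact h.ql
  · obtain ⟨t, -, -, -, a3, -⟩ := hc (b - 1) (by omega) (by omega)
    rw [a3, sb]; exact h.qr
  · intro i x y
    obtain ⟨t, -, -, -, -, -, -, a6⟩ := hc i x y
    simp only [Phi, Function.comp]
    rw [a6]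
    rcases Nat.eq_or_lt_of_le x with rfl | x'
    · rw [sa]
      exact phi_indep (KF.opent_of_clsR _ h.ql) _ _
    · obtain ⟨i, rfl⟩ : ∃ i', i = i' + 1 := ⟨i - 1, by omega⟩
      obtain ⟨t', -, -, -, -, b4, -⟩ := hc i (by omega) (by omega)
      rcases hcase i (by omega) y with c | c
      · rw [Nat.add_sub_cancel, b4, c, Nat.add_sub_cancel]
      · exact phi_indep c.1 _ _
  · intro i x y
    obtain ⟨t, -, -, a2, a3, -⟩ := hc i x y
    unfold ifc
    rw [a2, a3]

end Vale.Agent.P192
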