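import Vale.Agent.P192.Defs

/-! Finiteness of the register types. -/

namespace Vale.Agent.P192

instance : Fintype Trk := ⟨{.d, .b}, fun x => by cases x <;> simp⟩
instance : Fintype Lane := ⟨{.d, .b, .u}, fun x => by cases x <;> simp⟩
instance : Fintype Ph := ⟨{.A, .B}, fun x => by cases x <;> simp⟩
instance : Fintype Sd := ⟨{.L, .R}, fun x => by cases x <;> simp⟩
instance : Fintype Role := ⟨{.home, .relay}, fun x => by cases x <;> simp⟩
instance : Fintype TF := ⟨{.R, .L, .A, .B}, fun x => by cases x <;> simp⟩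

deriving instance Fintype for Op
deriving instance Fintype for PTag
deriving instance Fintype for Kind
deriving instance Fintype for WOp
deriving instance Fintype for Tag

instance {P : Type} [Finite P] : Finite (KF P) := by
  refine Finite.of_surjective (α := Bool ⊕ Tag ⊕ (PTag × P))
    (fun z => match z with
      | .inl true => .R
      | .inl false => .L
      | .inr (.inl t) => .sm t
      | .inr (.inr (pt, p)) => .fu pt p) ?_
  intro k
  cases k with
  | R => exact ⟨.inl true, rfl⟩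
  | L => exact ⟨.inl false, rfl⟩
  | sm t => exact ⟨.inr (.inl t), rfl⟩
  | fu pt p => exact ⟨.inr (.inr (pt, p)), rfl⟩

instance {P : Type} [Finite P] : Finite (RegG P) := by
  refine Finite.of_surjective
    (α := Bool × Bool × KF P × TF × Option Bool × Option Bool × Option Bool × Bool)
    (fun z => ⟨z.1, z.2.1, z.2.2.1, z.2.2.2.1, z.2.2.2.2.1, z.2.2.2.2.2.1, z.2.2.2.2.2.2.1,
      z.2.2.2.2.2.2.2⟩) ?_
  rintro ⟨a, b, c, d, e, f, g, h⟩
  exact ⟨(a, b, c, d, e, f, g, h), rfl⟩

instance : Finite Pay := by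
  refine Finite.of_surjective (α := Unit ⊕ Bool ⊕ Trk ⊕ Tag ⊕ RegG Unit)
    (fun z => match z with
      | .inl _ => .unit
      | .inr (.inl β) => .bit β
      | .inr (.inr (.inl t)) => .trk t
      | .inr (.inr (.inr (.inl t))) => .tag t
      | .inr (.inr (.inr (.inr α))) => .era α) ?_
  intro k
  cases k with
  | unit => exact ⟨.inl (), rfl⟩
  | bit β => exact ⟨.inr (.inl β), rfl⟩
  | trk t => exact ⟨.inr (.inr (.inl t)), rfl⟩
  | tag t => exact ⟨.inr (.inr (.inr (.inl t))), rfl⟩
  | era α => exact ⟨.inr (.inr (.inr (.inr α))), rfl⟩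

instance : Finite Core := by
  refine Finite.of_surjective
    (α := Reg ⊕ (Kind × Ph × Sd × Reg) ⊕ Reg ⊕ (Ph × Op × Role × Reg) ⊕ (Op × Role × Reg))
    (fun z => match z with
      | .inl q => .free q
      | .inr (.inl (κ, ph, sd, q)) => .LS κ ph sd q
      | .inr (.inr (.inl q)) => .LC q
      | .inr (.inr (.inr (.inl (ph, o, ro, q)))) => .LA0 ph o ro q
      | .inr (.inr (.inr (.inr (o, ro, q)))) => .LA1 o ro q) ?_
  intro k
  cases k with
  | free q => exact ⟨.inl q, rfl⟩
  | LS κ ph sd q => exact ⟨.inr (.inl (κ, ph, sd, q)), rfl⟩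
  | LC q => exact ⟨.inr (.inr (.inl q)), rfl⟩
  | LA0 ph o ro q => exact ⟨.inr (.inr (.inr (.inl (ph, o, ro, q)))), rfl⟩
  | LA1 o ro q => exact ⟨.inr (.inr (.inr (.inr (o, ro, q)))), rfl⟩

/-- Letters in range. -/
def InR (N : ℕ) (x : Ent) : Prop := x.a < N ∧ x.n < N

theorem finite_InR (N : ℕ) : {x | InR N x}.Finite := by
  have : Finite (Reg × Fin N × Fin N × Option Core) := inferInstance
  refine Set.Finite.subset (Set.finite_range
    (fun z : Reg × Fin N × Fin N × Option Core => (⟨z.1, z.2.1, z.2.2.1, z.2.2.2⟩ : Ent))) ?_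
  rintro ⟨q, a, n, oc⟩ ⟨h1, h2⟩
  exact ⟨(q, ⟨a, h1⟩, ⟨n, h2⟩, oc), rfl⟩

theorem Step1.inR {N : ℕ} {x y : Ent} (h : Step1 N x y) : InR N x ↔ InR N y := by
  cases h <;> simp only [InR]
  omega

theorem Step2.inR {N : ℕ} {x y x' y' : Ent} (h : Step2 x y x' y') :
    (InR N x ∧ InR N y) ↔ (InR N x' ∧ InR N y') := by
  cases h
  simp only [InR, da, dn]
  split_ifs <;> tauto

theorem zero1_of_not_inR {N : ℕ} {x : Ent} (h : ¬InR N x) : Zero1 N x := by
  unfold InR at h
  unfold Zero1
  by_cases h1 : x.a < N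
  · exact Or.inr (Or.inr (Or.inl (by omega)))
  · exact Or.inr (Or.inl (by omega))

end Vale.Agent.P192
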