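import Vale.Agent.P192.St

/-! Gauss decomposition of the relative Steinberg subgroup.

PROOF PLAN. Characteristic two: `x i j a` is an involution, `x i j 0 = 1`.
`hd_conj`: for a generator `dsT x i j a b u` and `l ∉ {i, j}`, conjugation acts on
`x i l p * x j l q` by `(p, q) ↦ (p + a q, q)` for `x i j a` and `(p, q + b p)` for `x j i b`;
similarly on rows `x k i p * x k j q`; roots disjoint from `{i, j}` commute; for the roots `(i, j)`,
`(j, i)` write `x i j c = ⁅x i m c, x m j 1⁆` with a third index `m`. Note `v⁻¹ = 1 + b u⁻¹ a`.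
Closure induction (the property is closed under products and inverses).
`gauss`: `Z := Uup * HD * Ulo` as a set. It is enough to show that `Z` is stable under conjugation
by `allX x` (then left multiplication by a conjugate of an upper `x i j a`, or right multiplication
by a conjugate of a lower one, keeps `Z`, and left = right up to conjugation). `allX x` is generated
by the simple root elements `x s t r`, `x t s r` with `rk t = rk s + 1` (induction on the distance,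
`x i j r = ⁅x i k r, x k j 1⁆`). Let `U'` be generated by the upper `x k l a`, `(k, l) ≠ (s, t)`,
`ε a = 0`; it is normalised by `x s t r`, `x t s r` and by `HD`, and every element of `Uup` is
`x s t a * u'`. By definition of `dsT`,
`x t s r * x s t a = x s t (a * u⁻¹) * dsT x t s r a u * x t s (u⁻¹ * r)` with `u = 1 + r a`
(a unit by `L.nil` for `ι = Unit`), and `ε (u⁻¹ r + r) = 0`. Conjugating `h` by `x t s r` gives
`h * x t s (r' + r)` with `ε (r' + r) = 0` (every unit has `ε = 1`). Symmetric for `x s t r`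
using `Ulo`. -/

namespace Vale.Agent.P192

open Matrix
open scoped commutatorElement

variable {ι R G : Type} [Fintype ι] [DecidableEq ι] [Ring R] [Group G]

theorem el_isSt : IsSt (el (ι := ι) (R := R)) where
  add i j hij a b := by
    refine Units.ext ?_
    rw [Units.val_mul, el_val hij, el_val hij, el_val hij, single_add]
    have : single i j a * single i j b = (0 : Matrix ι ι R) :=
      single_mul_single_of_ne _ _ _ _ hij.symm _
    rw [mul_add, add_mul, add_mul, this]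
    simp only [mul_one, one_mul, add_zero, add_assoc]
  comm i j k l hij hkl hjk hil a b := by
    refine Units.ext ?_
    have h1 : single i j a * single k l b = (0 : Matrix ι ι R) :=
      single_mul_single_of_ne _ _ _ _ hjk _
    have h2 : single k l b * single i j a = (0 : Matrix ι ι R) :=
      single_mul_single_of_ne _ _ _ _ hil.symm _
    rw [Units.val_mul, Units.val_mul, el_val hij, el_val hkl]
    simp only [mul_add, add_mul, h1, h2, mul_one, one_mul, add_zero]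
    abel
  mul i j k hij hjk hik a b := by
    rw [commutatorElement_def, mul_inv_eq_iff_eq_mul, mul_inv_eq_iff_eq_mul]
    refine Units.ext ?_
    have h1 : single i k (a * b) * single j k b = (0 : Matrix ι ι R) :=
      single_mul_single_of_ne _ _ _ _ hjk.symm _
    have h2 : single i k (a * b) * single i j a = (0 : Matrix ι ι R) :=
      single_mul_single_of_ne _ _ _ _ hik.symm _
    have h3 : single j k b * single i j a = (0 : Matrix ι ι R) :=
      single_mul_single_of_ne _ _ _ _ hik.symm _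
    simp only [Units.val_mul, el_val hij, el_val hjk, el_val hik]
    simp only [mul_add, add_mul, h1, h2, h3, mul_one, one_mul, add_zero, single_mul_single_same]
    abel

theorem isUnit_one_add (L : Loc R) {a : R} (ha : L.ε a = 0) : IsUnit (1 + a) := by
  obtain ⟨n, hn⟩ := L.nil Unit (scalar Unit a) fun i j => by simp [ha]
  rw [← map_pow] at hn
  refine IsNilpotent.isUnit_one_add ⟨n, ?_⟩
  simpa using congrFun (congrFun hn ()) ()

theorem ga_add_self (L : Loc R) (a : R) : a + a = 0 := by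
  rw [← two_mul, L.two, zero_mul]

theorem ga_unit (L : Loc R) (u : Rˣ) : L.ε u = 1 := by
  have h : ∀ y : ZMod 2, IsUnit y → y = 1 := by decide
  exact h _ (u.isUnit.map L.ε)

theorem ga_zmod (y : ZMod 2) : y + y = 0 := by
  revert y; decide

theorem ga_clo_ind {s : Set G} (hs : ∀ g ∈ s, g⁻¹ = g) {P : G → Prop} (h1 : P 1)
    (hm : ∀ g ∈ s, P g) (hmul : ∀ a b, P a → P b → P (a * b)) {g : G}
    (hg : g ∈ Subgroup.closure s) : P g := by
  induction hg using Subgroup.closure_induction'' with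
  | mem g hg => exact hm g hg
  | inv_mem g hg => rw [hs g hg]; exact hm g hg
  | one => exact h1
  | mul a b _ _ ha hb => exact hmul a b ha hb

theorem ga_conj {s : Set G} {K : Subgroup G} {h : G} (hs : ∀ g ∈ s, h * g * h⁻¹ ∈ K) {g : G}
    (hg : g ∈ Subgroup.closure s) : h * g * h⁻¹ ∈ K :=
  (Subgroup.closure_le (K.comap (MulAut.conj h).toMonoidHom)).2 hs hg

section Basic

variable {x : ι → ι → R → G}

omit [Fintype ι] [DecidableEq ι] in
theorem IsSt.zero (hx : IsSt x) {i j : ι} (hij : i ≠ j) : x i j 0 = 1 := by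
  have := hx.add i j hij 0 0
  rw [add_zero] at this
  exact left_eq_mul.1 this

omit [Fintype ι] [DecidableEq ι] in
theorem IsSt.sq (hx : IsSt x) (L : Loc R) {i j : ι} (hij : i ≠ j) (a : R) :
    x i j a * x i j a = 1 := by
  rw [← hx.add i j hij, ga_add_self L, hx.zero hij]

omit [Fintype ι] [DecidableEq ι] in
theorem IsSt.inv (hx : IsSt x) (L : Loc R) {i j : ι} (hij : i ≠ j) (a : R) :
    (x i j a)⁻¹ = x i j a := inv_eq_of_mul_eq_one_right (hx.sq L hij a)

omit [Fintype ι] [DecidableEq ι] in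
theorem IsSt.conjL (hx : IsSt x) {i j k : ι} (hij : i ≠ j) (hjk : j ≠ k) (hik : i ≠ k) (a b : R) :
    x i j a * x j k b * (x i j a)⁻¹ = x i k (a * b) * x j k b := by
  rw [← hx.mul i j k hij hjk hik, commutatorElement_def, inv_mul_cancel_right]

omit [Fintype ι] [DecidableEq ι] in
theorem IsSt.conjR (hx : IsSt x) (L : Loc R) {i j k : ι} (hij : i ≠ j) (hjk : j ≠ k) (hik : i ≠ k)
    (a b : R) : x j k b * x i j a * (x j k b)⁻¹ = x i k (a * b) * x i j a := by
  rw [← hx.inv L hik, ← hx.mul i j k hij hjk hik, commutatorElement_inv, commutatorElement_def,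
    inv_mul_cancel_right]

omit [Fintype ι] [DecidableEq ι] in
theorem IsSt.conjC (hx : IsSt x) {i j k l : ι} (hij : i ≠ j) (hkl : k ≠ l) (hjk : j ≠ k)
    (hil : i ≠ l) (a b : R) : x i j a * x k l b * (x i j a)⁻¹ = x k l b := by
  rw [(hx.comm i j k l hij hkl hjk hil a b).eq, mul_inv_cancel_right]

theorem ga_conj_mul (h a b : G) : h * (a * b) * h⁻¹ = h * a * h⁻¹ * (h * b * h⁻¹) := by group

theorem ga_mul_conj (h k a : G) : h * k * a * (h * k)⁻¹ = h * (k * a * k⁻¹) * h⁻¹ := by group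

omit [Fintype ι] [DecidableEq ι] in
theorem IsSt.col1 (hx : IsSt x) {i j l : ι} (hij : i ≠ j) (hil : i ≠ l) (hjl : j ≠ l)
    (a p q : R) : x i j a * (x i l p * x j l q) * (x i j a)⁻¹ = x i l (p + a * q) * x j l q := by
  rw [ga_conj_mul, hx.conjC hij hil hij.symm hil, hx.conjL hij hjl hil, hx.add i l hil, mul_assoc]

omit [Fintype ι] [DecidableEq ι] in
theorem IsSt.col2 (hx : IsSt x) {i j l : ι} (hij : i ≠ j) (hil : i ≠ l) (hjl : j ≠ l)
    (b p q : R) : x j i b * (x i l p * x j l q) * (x j i b)⁻¹ = x i l p * x j l (q + b * p) := by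
  rw [(hx.comm i l j l hil hjl hjl.symm hil p q).eq, hx.col1 hij.symm hjl hil,
    (hx.comm i l j l hil hjl hjl.symm hil p _).eq]

omit [Fintype ι] [DecidableEq ι] in
theorem IsSt.row1 (hx : IsSt x) (L : Loc R) {i j k : ι} (hij : i ≠ j) (hki : k ≠ i) (hkj : k ≠ j)
    (a p q : R) : x i j a * (x k i p * x k j q) * (x i j a)⁻¹ = x k i p * x k j (p * a + q) := by
  rw [ga_conj_mul, hx.conjC hij hkj hkj.symm hij, hx.conjR L hki hij hkj, hx.add k j hkj,
    (hx.comm k j k i hkj hki hkj.symm hki _ p).eq, mul_assoc]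

omit [Fintype ι] [DecidableEq ι] in
theorem IsSt.row2 (hx : IsSt x) (L : Loc R) {i j k : ι} (hij : i ≠ j) (hki : k ≠ i) (hkj : k ≠ j)
    (b p q : R) : x j i b * (x k i p * x k j q) * (x j i b)⁻¹ = x k i (q * b + p) * x k j q := by
  rw [(hx.comm k i k j hki hkj hki.symm hkj p q).eq, hx.row1 L hij.symm hkj hki,
    (hx.comm k i k j hki hkj hki.symm hkj _ q).eq]

theorem ga_ids (L : Loc R) {a b : R} {u v : Rˣ} (hu : (u : R) = 1 + a * b)
    (hv : (v : R) = 1 + b * a) :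
    (↑u⁻¹ * a + a * (1 + b * (↑u⁻¹ * a)) = (0 : R)) ∧ (b + b * ↑u⁻¹ * (1 + a * b) = (0 : R)) ∧
      ((↑v⁻¹ : R) = 1 + b * (↑u⁻¹ * a)) := by
  have h1 : (↑u⁻¹ * a + a * (1 + b * (↑u⁻¹ * a)) : R) = 0 := by
    have : (↑u⁻¹ * a + a * (1 + b * (↑u⁻¹ * a)) : R) = a + (1 + a * b) * (↑u⁻¹ * a) := by
      noncomm_ring
    rw [this, ← hu, Units.mul_inv_cancel_left, ga_add_self L]
  refine ⟨h1, by rw [← hu, Units.inv_mul_cancel_right, ga_add_self L], ?_⟩
  refine Units.inv_eq_of_mul_eq_one_right ?_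
  have : ((1 + b * a) * (1 + b * (↑u⁻¹ * a)) : R) =
      1 + b * (↑u⁻¹ * a + a * (1 + b * (↑u⁻¹ * a))) := by noncomm_ring
  rw [hv, this, h1, mul_zero, add_zero]

omit [Fintype ι] [DecidableEq ι] in
theorem IsSt.ds_col (hx : IsSt x) (L : Loc R) {i j l : ι} (hij : i ≠ j) (hil : i ≠ l)
    (hjl : j ≠ l) {a b : R} {u v : Rˣ} (hu : (u : R) = 1 + a * b) (hv : (v : R) = 1 + b * a)
    (p q : R) : dsT x i j a b u * (x i l p * x j l q) * (dsT x i j a b u)⁻¹ =
      x i l (u * p) * x j l (↑v⁻¹ * q) := by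
  obtain ⟨h1, h2, h3⟩ := ga_ids L hu hv
  rw [dsT, ga_mul_conj, ga_mul_conj, ga_mul_conj, hx.col1 hij hil hjl, hx.col2 hij hil hjl,
    hx.col1 hij hil hjl, hx.col2 hij hil hjl]
  have e1 : p + ↑u⁻¹ * a * q + a * (q + b * (p + ↑u⁻¹ * a * q)) = (u : R) * p := by
    have : p + ↑u⁻¹ * a * q + a * (q + b * (p + ↑u⁻¹ * a * q)) =
        (1 + a * b) * p + (↑u⁻¹ * a + a * (1 + b * (↑u⁻¹ * a))) * q := by noncomm_ring
    rw [this, h1, zero_mul, add_zero, hu]
  rw [e1]
  have e2 : q + b * (p + ↑u⁻¹ * a * q) + b * ↑u⁻¹ * (↑u * p) = (↑v⁻¹ : R) * q := by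
    have : q + b * (p + ↑u⁻¹ * a * q) + b * ↑u⁻¹ * ((1 + a * b) * p) =
        (1 + b * (↑u⁻¹ * a)) * q + (b + b * ↑u⁻¹ * (1 + a * b)) * p := by noncomm_ring
    rw [h3]
    conv_lhs => enter [2, 2]; rw [hu]
    rw [this, h2, zero_mul, add_zero]
  rw [e2]

omit [Fintype ι] [DecidableEq ι] in
theorem IsSt.ds_row (hx : IsSt x) (L : Loc R) {i j k : ι} (hij : i ≠ j) (hki : k ≠ i)
    (hkj : k ≠ j) {a b : R} {u v : Rˣ} (hu : (u : R) = 1 + a * b) (hv : (v : R) = 1 + b * a)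
    (p q : R) : dsT x i j a b u * (x k i p * x k j q) * (dsT x i j a b u)⁻¹ =
      x k i (p * ↑u⁻¹) * x k j (q * v) := by
  rw [dsT, ga_mul_conj, ga_mul_conj, ga_mul_conj, hx.row1 L hij hki hkj, hx.row2 L hij hki hkj,
    hx.row1 L hij hki hkj, hx.row2 L hij hki hkj]
  have h0 : (↑u⁻¹ : R) * (1 + a * b) = 1 := by rw [← hu, Units.inv_mul]
  have h0' : (1 + a * b) * (↑u⁻¹ : R) = 1 := by rw [← hu, Units.mul_inv]
  have h1 : (↑u⁻¹ : R) * (a * b) + 1 = ↑u⁻¹ := by
    have : (↑u⁻¹ : R) * (a * b) + ↑u⁻¹ * (1 + a * b) =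
        ↑u⁻¹ + (↑u⁻¹ * (a * b) + ↑u⁻¹ * (a * b)) := by noncomm_ring
    rw [h0, ga_add_self L, add_zero] at this
    exact this
  have e0 : (p * (↑u⁻¹ * a) + q) * b + p = p * ↑u⁻¹ + q * b := by
    have : (p * (↑u⁻¹ * a) + q) * b + p = p * ((↑u⁻¹ : R) * (a * b) + 1) + q * b := by
      noncomm_ring
    rw [this, h1]
  have e1 : (p * ↑u⁻¹ + q * b) * a + (p * (↑u⁻¹ * a) + q) = q * (v : R) := by
    have : (p * ↑u⁻¹ + q * b) * a + (p * (↑u⁻¹ * a) + q) =
        q * (1 + b * a) + (p * (↑u⁻¹ * a) + p * (↑u⁻¹ * a)) := by noncomm_ring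
    rw [this, ga_add_self L, add_zero, hv]
  have e2 : q * (v : R) * (b * ↑u⁻¹) + (p * ↑u⁻¹ + q * b) = p * ↑u⁻¹ := by
    have : q * (1 + b * a) * (b * ↑u⁻¹) + (p * ↑u⁻¹ + q * b) =
        p * ↑u⁻¹ + (q * b * ((1 + a * b) * (↑u⁻¹ : R)) + q * b) := by noncomm_ring
    rw [hv, this, h0', mul_one, ga_add_self L, add_zero]
  rw [e0, e1, e2]

theorem ga_third (h3 : 3 ≤ Fintype.card ι) (i j : ι) : ∃ m, m ≠ i ∧ m ≠ j := by
  by_contra h
  push Not at h
  have h1 : (Finset.univ : Finset ι) ⊆ {i, j} := fun m _ => by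
    by_cases hm : m = i
    · simp [hm]
    · simp [h m hm]
  have h2 := (Finset.card_le_card h1).trans Finset.card_le_two
  rw [Finset.card_univ] at h2
  omega

theorem IsSt.ds_conj (hx : IsSt x) (L : Loc R) (h3 : 3 ≤ Fintype.card ι) {i j : ι} (hij : i ≠ j)
    {a b : R} {u v : Rˣ} (hu : (u : R) = 1 + a * b) (hv : (v : R) = 1 + b * a) (d : ι → Rˣ)
    (hd : d = Function.update (Function.update (1 : ι → Rˣ) i u) j v⁻¹) (k l : ι) (hkl : k ≠ l)
    (c : R) : dsT x i j a b u * x k l c * (dsT x i j a b u)⁻¹ =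
      x k l (d k * c * ((d l)⁻¹ : Rˣ)) := by
  have di : d i = u := by simp [hd, hij]
  have dj : d j = v⁻¹ := by simp [hd]
  have dm : ∀ m, m ≠ i → m ≠ j → d m = 1 := fun m h1 h2 => by simp [hd, h1, h2]
  have key : ∀ k l, k ≠ l → (k ≠ i ∧ k ≠ j) ∨ (l ≠ i ∧ l ≠ j) → ∀ c,
      dsT x i j a b u * x k l c * (dsT x i j a b u)⁻¹ = x k l (d k * c * ((d l)⁻¹ : Rˣ)) := by
    intro k l hkl h c
    by_cases hki : k = i
    · subst hki
      have hl := h.resolve_left fun h' => h'.1 rfl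
      have := hx.ds_col L hij hkl hl.2.symm hu hv c 0
      rw [mul_zero, hx.zero hl.2.symm, mul_one, mul_one] at this
      simp [this, di, dm l hl.1 hl.2]
    by_cases hkj : k = j
    · subst hkj
      have hl := h.resolve_left fun h' => h'.2 rfl
      have := hx.ds_col L hij hl.1.symm hkl hu hv 0 c
      rw [mul_zero, hx.zero hl.1.symm, one_mul, one_mul] at this
      simp [this, dj, dm l hl.1 hl.2]
    by_cases hli : l = i
    · subst hli
      have := hx.ds_row L hij hki hkj hu hv c 0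
      rw [zero_mul, hx.zero hkj, mul_one, mul_one] at this
      simp [this, di, dm k hki hkj]
    by_cases hlj : l = j
    · subst hlj
      have := hx.ds_row L hij hki hkj hu hv 0 c
      rw [zero_mul, hx.zero hki, one_mul, one_mul] at this
      simp [this, dj, dm k hki hkj]
    rw [dsT, ga_mul_conj, ga_mul_conj, ga_mul_conj,
      hx.conjC hij hkl (Ne.symm hkj) (Ne.symm hli), hx.conjC hij.symm hkl (Ne.symm hki) (Ne.symm hlj),
      hx.conjC hij hkl (Ne.symm hkj) (Ne.symm hli), hx.conjC hij.symm hkl (Ne.symm hki) (Ne.symm hlj)]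
    simp [dm k hki hkj, dm l hli hlj]
  by_cases h : (k ≠ i ∧ k ≠ j) ∨ (l ≠ i ∧ l ≠ j)
  · exact key k l hkl h c
  obtain ⟨m, hmi, hmj⟩ := ga_third h3 i j
  have hkm : k ≠ m := by rintro rfl; exact h (Or.inl ⟨hmi, hmj⟩)
  have hml : m ≠ l := by rintro rfl; exact h (Or.inr ⟨hmi, hmj⟩)
  have e := hx.mul k m l hkm hml hkl c 1
  rw [mul_one] at e
  rw [← e, conjugate_commutatorElement, key k m hkm (Or.inr ⟨hmi, hmj⟩),
    key m l hml (Or.inl ⟨hmi, hmj⟩), hx.mul k m l hkm hml hkl]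
  simp [dm m hmi hmj]

end Basic

theorem hd_conj (L : Loc R) (h3 : 3 ≤ Fintype.card ι) {x : ι → ι → R → G} (hx : IsSt x)
    {z : G × (ι → Rˣ)} (hz : z ∈ HD L.ε x) (k l : ι) (hkl : k ≠ l) (c : R) :
    z.1 * x k l c * z.1⁻¹ = x k l (z.2 k * c * ((z.2 l)⁻¹ : Rˣ)) := by
  induction hz using Subgroup.closure_induction generalizing c with
  | mem z hz =>
    obtain ⟨i, j, a, b, u, v, hij, -, hu, hv, rfl⟩ := hz
    exact hx.ds_conj L h3 hij hu hv _ rfl k l hkl c
  | one => simp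
  | mul z w _ _ hz hw =>
    rw [Prod.fst_mul, ga_mul_conj, hw, hz]
    simp [mul_assoc]
  | inv z _ hz =>
    have := hz (((z.2 k)⁻¹ : Rˣ) * c * z.2 l)
    simp only [← mul_assoc, Units.mul_inv, one_mul, Units.mul_inv_cancel_right] at this
    simp [← this, mul_assoc]

theorem ga_el_mul {i j : ι} (hij : i ≠ j) (r : R) (M : Matrix ι ι R) (k l : ι) :
    (((el i j r : (Matrix ι ι R)ˣ) : Matrix ι ι R) * M) k l =
      M k l + if k = i then r * M j l else 0 := by
  rw [el_val hij, add_mul, one_mul, Matrix.add_apply]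
  congr 1
  split_ifs with h
  · rw [h, single_mul_apply_same]
  · rw [single_mul_apply_of_ne _ _ _ _ _ h]

theorem hd_map (L : Loc R) {x : ι → ι → R → G} (π : G →* (Matrix ι ι R)ˣ)
    (hπ : ∀ i j r, i ≠ j → π (x i j r) = el i j r) {z : G × (ι → Rˣ)} (hz : z ∈ HD L.ε x) :
    π z.1 = diagU z.2 := by
  induction hz using Subgroup.closure_induction with
  | mem z hz =>
    obtain ⟨i, j, a, b, u, v, hij, -, hu, hv, rfl⟩ := hz
    obtain ⟨h1, h2, h3⟩ := ga_ids L hu hv
    refine Units.ext ?_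
    simp only [dsT, map_mul, hπ _ _ _ hij, hπ _ _ _ hij.symm, Units.val_mul, diagU_val, mul_assoc]
    ext k l
    rw [← mul_one ((el i j (↑u⁻¹ * a) : (Matrix ι ι R)ˣ) : Matrix ι ι R)]
    simp only [ga_el_mul hij, ga_el_mul hij.symm, hij, hij.symm, if_true, if_false, add_zero]
    by_cases hki : k = i
    · subst hki
      by_cases hli : l = k
      · subst hli
        simp [hij, hij.symm, hu]
      by_cases hlj : l = j
      · subst hlj
        simpa [hij, hij.symm] using h1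
      · simp [hij, Ne.symm hli, Ne.symm hlj]
    by_cases hkj : k = j
    · subst hkj
      by_cases hli : l = i
      · subst hli
        simpa [hij, hij.symm] using h2
      by_cases hlj : l = k
      · subst hlj
        simp [hij, hij.symm, h1, h3]
      · simp [hij.symm, Ne.symm hli, Ne.symm hlj]
    · simp [hki, hkj, one_apply, diagonal_apply]
  | one => simp
  | mul z w _ _ hz hw => simp [hz, hw]
  | inv z _ hz => simp [hz]

omit [Fintype ι] [DecidableEq ι] [Ring R] in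
theorem ga_mem_allX (x : ι → ι → R → G) {i j : ι} (hij : i ≠ j) (r : R) : x i j r ∈ allX x :=
  Subgroup.subset_closure ⟨i, j, r, hij, rfl⟩

omit [Fintype ι] [DecidableEq ι] in
theorem ga_conj_mem (ε : R →+* ZMod 2) {x : ι → ι → R → G} {h : G} (hh : h ∈ allX x) {i j : ι}
    (hij : i ≠ j) {a : R} (ha : ε a = 0) : h * x i j a * h⁻¹ ∈ relN ε x :=
  Subgroup.subset_closure ⟨h, hh, i, j, a, hij, ha, rfl⟩

omit [Fintype ι] [DecidableEq ι] in
theorem ga_mem_relN (ε : R →+* ZMod 2) (x : ι → ι → R → G) {i j : ι} (hij : i ≠ j) {a : R}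
    (ha : ε a = 0) : x i j a ∈ relN ε x := by
  simpa using ga_conj_mem ε (allX x).one_mem hij ha

theorem hd_mem (L : Loc R) {x : ι → ι → R → G} (hx : IsSt x) {z : G × (ι → Rˣ)}
    (hz : z ∈ HD L.ε x) : z.1 ∈ relN L.ε x := by
  refine (Subgroup.closure_le ((relN L.ε x).comap (MonoidHom.fst _ _))).2 ?_ hz
  rintro z ⟨i, j, a, b, u, v, hij, hab, -, -, rfl⟩
  change dsT x i j a b u ∈ relN L.ε x
  rcases hab with h | h
  · have e : dsT x i j a b u = x j i (b * ↑u⁻¹) * x i j a * (x j i (b * ↑u⁻¹))⁻¹ *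
        x j i (b * ↑u⁻¹ + b) * x i j (↑u⁻¹ * a) := by
      rw [dsT, hx.add j i hij.symm]
      group
    rw [e]
    refine mul_mem (mul_mem (ga_conj_mem _ (ga_mem_allX x hij.symm _) hij h)
      (ga_mem_relN _ x hij.symm ?_)) (ga_mem_relN _ x hij (by simp [h]))
    rw [map_add, map_mul, ga_unit L, mul_one, ga_zmod]
  · have e : dsT x i j a b u = x j i (b * ↑u⁻¹) * (x i j a * x j i b * (x i j a)⁻¹) *
        x i j (a + ↑u⁻¹ * a) := by
      rw [dsT, hx.add i j hij]
      group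
    rw [e]
    refine mul_mem (mul_mem (ga_mem_relN _ x hij.symm (by simp [h]))
      (ga_conj_mem _ (ga_mem_allX x hij _) hij.symm h)) (ga_mem_relN _ x hij ?_)
    rw [map_add, map_mul, ga_unit L, one_mul, ga_zmod]

theorem relN_conj (ε : R →+* ZMod 2) {x : ι → ι → R → G} {h g : G} (hh : h ∈ allX x)
    (hg : g ∈ relN ε x) : h * g * h⁻¹ ∈ relN ε x := by
  refine ga_conj ?_ hg
  rintro g ⟨k, hk, i, j, a, hij, ha, rfl⟩
  rw [← ga_mul_conj]
  exact ga_conj_mem ε (mul_mem hh hk) hij ha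

/-- The big cell. -/
def gaZ (ρ : ι → ℕ) (ε : R →+* ZMod 2) (x : ι → ι → R → G) : Set G :=
  {g | ∃ u ∈ Uup ρ ε x, ∃ z ∈ HD ε x, ∃ v ∈ Ulo ρ ε x, g = u * z.1 * v}

/-- Upper root elements other than the root `(s, t)`. -/
def gaU (ρ : ι → ℕ) (ε : R →+* ZMod 2) (x : ι → ι → R → G) (s t : ι) : Subgroup G :=
  Subgroup.closure {g | ∃ i j a, ρ i < ρ j ∧ ¬ (i = s ∧ j = t) ∧ ε a = 0 ∧ g = x i j a}

theorem ga_step (L : Loc R) (h3 : 3 ≤ Fintype.card ι) {x : ι → ι → R → G} (hx : IsSt x)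
    {ρ : ι → ℕ} (hρ : Function.Injective ρ) {s t : ι} (hst : ρ t = ρ s + 1) (r : R) {g : G}
    (hg : g ∈ gaZ ρ L.ε x) : x t s r * g * (x t s r)⁻¹ ∈ gaZ ρ L.ε x := by
  have ne : ∀ {i j}, ρ i < ρ j → i ≠ j := fun h h' => by rw [h'] at h; exact lt_irrefl _ h
  have lt : ∀ {i j}, ρ i ≤ ρ j → i ≠ j → ρ i < ρ j := fun h h' =>
    lt_of_le_of_ne h fun e => h' (hρ e)
  have hs : s ≠ t := ne (by omega)
  have memU : ∀ {i j a}, ρ i < ρ j → ¬ (i = s ∧ j = t) → L.ε a = 0 → x i j a ∈ gaU ρ L.ε x s t :=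
    fun h1 h2 h3 => Subgroup.subset_closure ⟨_, _, _, h1, h2, h3, rfl⟩
  have memLo : ∀ {i j a}, ρ j < ρ i → L.ε a = 0 → x i j a ∈ Ulo ρ L.ε x :=
    fun h1 h3 => Subgroup.subset_closure ⟨_, _, _, h1, h3, rfl⟩
  have memUp : ∀ {i j a}, ρ i < ρ j → L.ε a = 0 → x i j a ∈ Uup ρ L.ε x :=
    fun h1 h3 => Subgroup.subset_closure ⟨_, _, _, h1, h3, rfl⟩
  have hle : gaU ρ L.ε x s t ≤ Uup ρ L.ε x :=
    Subgroup.closure_mono fun g ⟨i, j, a, h1, _, h3, h4⟩ => ⟨i, j, a, h1, h3, h4⟩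
  have n1 : ∀ r, ∀ u ∈ gaU ρ L.ε x s t, x t s r * u * (x t s r)⁻¹ ∈ gaU ρ L.ε x s t := by
    intro r u hu
    refine ga_conj ?_ hu
    rintro g ⟨k, l, a, h1, h2, ha, rfl⟩
    by_cases hl : l = t
    · subst hl
      have hk : k ≠ s := fun h => h2 ⟨h, rfl⟩
      rw [hx.conjR L (ne h1) hs.symm hk]
      exact mul_mem (memU (lt (by omega) hk) (fun h => hk h.1) (by simp [ha])) (memU h1 h2 ha)
    by_cases hk : k = s
    · subst hk
      rw [hx.conjL hs.symm (ne h1) (Ne.symm hl)]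
      exact mul_mem (memU (lt (by omega) (Ne.symm hl)) (fun h => hl h.2) (by simp [ha]))
        (memU h1 h2 ha)
    · rw [hx.conjC hs.symm (ne h1) (Ne.symm hk) (Ne.symm hl)]
      exact memU h1 h2 ha
  have n2 : ∀ r, ∀ u ∈ gaU ρ L.ε x s t, x s t r * u * (x s t r)⁻¹ ∈ gaU ρ L.ε x s t := by
    intro r u hu
    refine ga_conj ?_ hu
    rintro g ⟨k, l, a, h1, h2, ha, rfl⟩
    by_cases hl : l = s
    · subst hl
      rw [hx.conjR L (ne h1) hs (ne (by omega))]
      exact mul_mem (memU (by omega) (fun h => ne h1 h.1) (by simp [ha])) (memU h1 h2 ha)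
    by_cases hk : k = t
    · subst hk
      rw [hx.conjL hs (ne h1) (Ne.symm hl)]
      exact mul_mem (memU (by omega) (fun h => ne h1 h.2.symm) (by simp [ha])) (memU h1 h2 ha)
    · rw [hx.conjC hs (ne h1) (Ne.symm hk) (Ne.symm hl)]
      exact memU h1 h2 ha
  have n3 : ∀ z ∈ HD L.ε x, ∀ u ∈ gaU ρ L.ε x s t, z.1 * u * z.1⁻¹ ∈ gaU ρ L.ε x s t := by
    intro z hz u hu
    refine ga_conj ?_ hu
    rintro g ⟨k, l, a, h1, h2, ha, rfl⟩
    rw [hd_conj L h3 hx hz k l (ne h1)]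
    exact memU h1 h2 (by simp [ha])
  have n4 : ∀ v ∈ Ulo ρ L.ε x, x t s r * v * (x t s r)⁻¹ ∈ Ulo ρ L.ε x := by
    intro v hv
    refine ga_conj ?_ hv
    rintro g ⟨k, l, a, h1, ha, rfl⟩
    by_cases hl : l = t
    · subst hl
      rw [hx.conjR L (ne h1).symm hs.symm (ne (by omega)).symm]
      exact mul_mem (memLo (by omega) (by simp [ha])) (memLo h1 ha)
    by_cases hk : k = s
    · subst hk
      rw [hx.conjL hs.symm (ne h1).symm (Ne.symm hl)]
      exact mul_mem (memLo (by omega) (by simp [ha])) (memLo h1 ha)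
    · rw [hx.conjC hs.symm (ne h1).symm (Ne.symm hk) (Ne.symm hl)]
      exact memLo h1 ha
  have dec : ∀ u ∈ Uup ρ L.ε x, ∃ a, L.ε a = 0 ∧ ∃ u' ∈ gaU ρ L.ε x s t, u = x s t a * u' := by
    intro u hu
    refine ga_clo_ind (P := fun u => ∃ a, L.ε a = 0 ∧ ∃ u' ∈ gaU ρ L.ε x s t, u = x s t a * u')
      ?_ ⟨0, map_zero _, 1, one_mem _, by rw [hx.zero hs, mul_one]⟩ ?_ ?_ hu
    · rintro g ⟨k, l, a, h1, -, rfl⟩
      exact hx.inv L (ne h1) a
    · rintro g ⟨k, l, a, h1, ha, rfl⟩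
      by_cases h2 : k = s ∧ l = t
      · exact ⟨a, ha, 1, one_mem _, by rw [h2.1, h2.2, mul_one]⟩
      · exact ⟨0, map_zero _, _, memU h1 h2 ha, by rw [hx.zero hs, one_mul]⟩
    · rintro _ _ ⟨a, ha, u, hu, rfl⟩ ⟨b, hb, w, hw, rfl⟩
      refine ⟨a + b, by simp [ha, hb], _, mul_mem (n2 b u hu) hw, ?_⟩
      rw [hx.add s t hs, hx.inv L hs]
      simp only [← mul_assoc]
      rw [mul_assoc (x s t a) (x s t b), hx.sq L hs, mul_one]
  obtain ⟨u, hu, z, hz, v, hv, rfl⟩ := hg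
  obtain ⟨a, ha, u', hu', rfl⟩ := dec u hu
  obtain ⟨p, hp⟩ := isUnit_one_add L (a := r * a) (by simp [ha])
  obtain ⟨q, hq⟩ := isUnit_one_add L (a := a * r) (by simp [ha])
  have hD : (dsT x t s r a p, Function.update (Function.update (1 : ι → Rˣ) t p) s q⁻¹) ∈
      HD L.ε x := Subgroup.subset_closure ⟨t, s, r, a, p, q, hs.symm, Or.inr ha, hp, hq, rfl⟩
  have hz' := hd_conj L h3 hx (inv_mem hz) t s hs.symm
  refine ⟨_, mul_mem (memUp (i := s) (j := t) (a := a * ↑p⁻¹) (by omega) (by simp [ha]))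
    (hle (n3 _ hD _ (n1 (↑p⁻¹ * r + r) _ (n1 r u' hu')))), _, mul_mem hD hz, _,
    mul_mem (mul_mem (memLo (i := t) (j := s)
      (a := z⁻¹.2 t * (↑p⁻¹ * r + r) * ((z⁻¹.2 s)⁻¹ : Rˣ)) (by omega) ?_)
      (memLo (i := t) (j := s) (a := z⁻¹.2 t * r * ((z⁻¹.2 s)⁻¹ : Rˣ) + r) (by omega) ?_))
      (n4 v hv), ?_⟩
  · simp only [map_mul, map_add, ga_unit L, one_mul, mul_one, ga_zmod]
  · simp only [map_mul, map_add, ga_unit L, one_mul, mul_one, ga_zmod]
  · have e1 : x t s r * x s t a = x s t (a * ↑p⁻¹) * dsT x t s r a p * x t s (↑p⁻¹ * r) := by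
      rw [dsT]
      simp only [← mul_assoc]
      rw [hx.sq L hs, one_mul, mul_assoc _ (x t s _), hx.sq L hs.symm, mul_one]
    rw [hx.add t s hs.symm (_ * r * _), ← hz', ← hz', hx.add t s hs.symm]
    simp only [Prod.fst_mul, Prod.fst_inv]
    have e2 := hx.inv L hs.symm r
    generalize dsT x t s r a p = D at e1 ⊢
    generalize x t s (↑p⁻¹ * r) = w at e1 ⊢
    generalize x s t (a * ↑p⁻¹) = A at e1 ⊢
    generalize x t s r = y at e1 e2 ⊢
    have e3 : x s t a = y⁻¹ * (A * D * w) := by rw [← e1]; group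
    have e4 : y * y = 1 := by nth_rewrite 1 [← e2]; exact inv_mul_cancel y
    rw [e3]
    calc y * (y⁻¹ * (A * D * w) * u' * z.1 * v) * y⁻¹
        = A * D * w * (y * y) * u' * (y * y)⁻¹ * (y * y) * z.1 * (y * y) * v * y⁻¹ := by
          rw [e4]; group
      _ = _ := by group

theorem gauss (L : Loc R) {n : ℕ} (h3 : 3 ≤ n) (rk : ι ≃ Fin n) {x : ι → ι → R → G}
    (hx : IsSt x) {g : G} (hg : g ∈ relN L.ε x) :
    ∃ u ∈ Uup (fun i => (rk i : ℕ)) L.ε x, ∃ z ∈ HD L.ε x,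
      ∃ v ∈ Ulo (fun i => (rk i : ℕ)) L.ε x, g = u * z.1 * v := by
  have h3' : 3 ≤ Fintype.card ι := by rw [Fintype.card_congr rk, Fintype.card_fin]; exact h3
  obtain ⟨ρ, hρ⟩ : ∃ ρ : ι → ℕ, ρ = fun i => (rk i : ℕ) := ⟨_, rfl⟩
  rw [← hρ]
  have hinj : Function.Injective ρ := hρ ▸ Fin.val_injective.comp rk.injective
  have hlt : ∀ i, ρ i < n := fun i => by rw [hρ]; exact (rk i).2
  have hsurj : ∀ m < n, ∃ i, ρ i = m := fun m hm => ⟨rk.symm ⟨m, hm⟩, by simp [hρ]⟩
  have ne : ∀ {i j}, ρ i ≠ ρ j → i ≠ j := fun h h' => h (by rw [h'])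
  let ρ' : ι → ℕ := fun i => n - ρ i
  have hinj' : Function.Injective ρ' := fun i j h => hinj (by
    have := hlt i; have := hlt j; simp only [ρ'] at h; omega)
  have hiff : ∀ i j, ρ' i < ρ' j ↔ ρ j < ρ i := fun i j => by
    have := hlt i; have := hlt j; simp only [ρ']; omega
  have e1 : Uup ρ' L.ε x = Ulo ρ L.ε x := by simp only [Uup, Ulo, hiff]
  have e2 : Ulo ρ' L.ε x = Uup ρ L.ε x := by simp only [Uup, Ulo, hiff]
  have hinv : ∀ g, g ∈ gaZ ρ L.ε x ↔ g⁻¹ ∈ gaZ ρ' L.ε x := fun g => by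
    simp only [gaZ, e1, e2, Set.mem_ofPred_eq]
    constructor
    · rintro ⟨u, hu, z, hz, v, hv, rfl⟩
      exact ⟨_, inv_mem hv, _, inv_mem hz, _, inv_mem hu, by simp [mul_assoc]⟩
    · rintro ⟨u, hu, z, hz, v, hv, h⟩
      exact ⟨_, inv_mem hv, _, inv_mem hz, _, inv_mem hu, by
        rw [← inv_inv g, h]; simp [mul_assoc]⟩
  let P : G → Prop := fun h => ∀ g ∈ gaZ ρ L.ε x, h * g * h⁻¹ ∈ gaZ ρ L.ε x
  have Pmul : ∀ a b, P a → P b → P (a * b) := fun a b ha hb g hg => by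
    rw [ga_mul_conj]
    exact ha _ (hb g hg)
  have Proot : ∀ d i j r, (ρ i = ρ j + d + 1 ∨ ρ j = ρ i + d + 1) → P (x i j r) := by
    intro d
    induction d with
    | zero =>
      rintro i j r (h | h) g hg
      · exact ga_step L h3' hx hinj h r hg
      · have := ga_step L h3' hx hinj' (s := j) (t := i) (by
          have := hlt j; simp only [ρ']; omega) r ((hinv g).1 hg)
        rw [hinv]
        simpa [mul_assoc] using this
    | succ d ih =>
      have h0 : ∀ i j r, (ρ i = ρ j + 1 ∨ ρ j = ρ i + 1) → P (x i j r) := by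
        rintro i j r (h | h) g hg
        · exact ga_step L h3' hx hinj h r hg
        · have := ga_step L h3' hx hinj' (s := j) (t := i) (by
            have := hlt j; simp only [ρ']; omega) r ((hinv g).1 hg)
          rw [hinv]
          simpa [mul_assoc] using this
      intro i j r h
      obtain ⟨k, hk1, hk2⟩ : ∃ k, (ρ i = ρ k + d + 1 ∨ ρ k = ρ i + d + 1) ∧
          (ρ k = ρ j + 1 ∨ ρ j = ρ k + 1) := by
        rcases h with h | h
        · obtain ⟨k, hk⟩ := hsurj (ρ j + 1) (by have := hlt i; omega)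
          exact ⟨k, by omega, by omega⟩
        · obtain ⟨k, hk⟩ := hsurj (ρ j - 1) (by have := hlt j; omega)
          exact ⟨k, by omega, by omega⟩
      have hik : i ≠ k := ne (by omega)
      have hkj : k ≠ j := ne (by omega)
      have e := hx.mul i k j hik hkj (ne (by omega)) r 1
      rw [mul_one, commutatorElement_def, hx.inv L hik, hx.inv L hkj] at e
      rw [← e]
      exact Pmul _ _ (Pmul _ _ (Pmul _ _ (ih i k r hk1) (h0 k j 1 hk2)) (ih i k r hk1))
        (h0 k j 1 hk2)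
  have Pall : ∀ h ∈ allX x, P h := fun h hh => by
    refine ga_clo_ind ?_ (fun g hg => by simpa using hg) ?_ Pmul hh
    · rintro g ⟨i, j, r, hij, rfl⟩
      exact hx.inv L hij r
    · rintro g ⟨i, j, r, hij, rfl⟩
      have := hinj.ne hij
      exact Proot (ρ i - ρ j + (ρ j - ρ i) - 1) i j r (by omega)
  have key : ∀ g' ∈ gaZ ρ L.ε x, g * g' ∈ gaZ ρ L.ε x := by
    refine ga_clo_ind (P := fun g => ∀ g' ∈ gaZ ρ L.ε x, g * g' ∈ gaZ ρ L.ε x) ?_
      (fun g hg => by simpa using hg) ?_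
      (fun a b ha hb g hg => by rw [mul_assoc]; exact ha _ (hb g hg)) hg
    · rintro g ⟨h, -, i, j, a, hij, -, rfl⟩
      rw [conj_inv, hx.inv L hij]
    · rintro _ ⟨h, hh, i, j, a, hij, ha, rfl⟩ g hg
      obtain ⟨u, hu, z, hz, v, hv, e⟩ := Pall _ (inv_mem hh) g hg
      have e' : g = h * (u * z.1 * v) * h⁻¹ := by rw [← e]; group
      rcases lt_or_gt_of_ne (hinj.ne hij) with h1 | h1
      · have := Pall h hh _ ⟨_, mul_mem (Subgroup.subset_closure ⟨i, j, a, h1, ha, rfl⟩) hu, z, hz,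
          v, hv, rfl⟩
        convert this using 1
        rw [e']
        group
      · have := Pall _ (mul_mem hh (ga_mem_allX x hij a)) _ ⟨u, hu, z, hz, _,
          mul_mem hv (Subgroup.subset_closure ⟨i, j, a, h1, ha, rfl⟩), rfl⟩
        convert this using 1
        rw [e']
        group
  have := key 1 ⟨1, one_mem _, 1, one_mem _, 1, one_mem _, by simp⟩
  rw [mul_one] at this
  exact this

end Vale.Agent.P192
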