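import Vale.Agent.P192.Central

/-! Matrix facts about the relative elementary group `Gam`.

PROOF PLAN. `cong_tors`: `(1 + n) ^ (2 ^ k) = 1 + n ^ (2 ^ k)` in characteristic two.
Let `W ≤ Rˣ` be generated by the `u * v⁻¹`, `u = 1 + a b`, `v = 1 + b a`, `ε a = 0 ∨ ε b = 0`.
It contains commutators (`b` a unit, `a = (u - 1) b⁻¹`). With `dAt k d := diagU (update 1 k d)`:
(i) `dAt k d ∈ Gam → d ∈ W` if `3 ≤ card`: `gauss` + `hd_map` (with `π = id`) + `tri_diag`, and
for `z ∈ HD` the product of the classes of `z.2 i` in the commutative group `Rˣ ⧸ W` is `1`.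
(ii) `d ∈ W → dAt k d ∈ Gam` if `2 ≤ card` (`hd_mem`, `hd_map`; `diag (u at i, u⁻¹ at j)` is the
case `b = 1`). (iii) elimination `elim`: the set of `γ * dAt k d` is a subgroup containing all
`el i j a` (`ε a = 0`) and all diagonal units (diagonal units normalise `Gam`), and a congruence
matrix is reduced to a diagonal one by such row operations (induction on a finite set of columns
already cleared; pivots are units). `ext_mem_iff`: `extU e (el i j r) = el (e i) (e j) r` gives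
one direction; for the other use `elim` in `κ` and (i), (ii). `factor`: take the matrix with the
columns of `g` at `T` and identity columns elsewhere (congruent to `1`, so a unit), correct it by
`dAt k0 d` using `elim`. `mem_Gam_of_block`: `1 + n` is a product of `el i j (n i j)` (induct on
the finite set of nonzero entries). `exists_lev`: replace the rows in `T` by identity rows. -/

namespace Vale.Agent.P192

open Matrix

variable {ι R : Type} [Fintype ι] [DecidableEq ι] [Ring R]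

theorem k1_cong_iff (L : Loc R) (M : Matrix ι ι R) : Cong L M ↔ L.ε.mapMatrix M = 1 := by
  constructor
  · intro h
    have : L.ε.mapMatrix (M - 1) = 0 := by
      ext i j; exact h i j
    rwa [map_sub, map_one, sub_eq_zero] at this
  · intro h i j
    have : L.ε.mapMatrix (M - 1) = 0 := by rw [map_sub, map_one, h, sub_self]
    exact congrFun (congrFun this i) j

/-- The congruence subgroup. -/
def k1C (L : Loc R) (ι : Type) [Fintype ι] [DecidableEq ι] : Subgroup (Matrix ι ι R)ˣ :=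
  ((L.ε.mapMatrix : Matrix ι ι R →+* Matrix ι ι (ZMod 2)).toMonoidHom.comp
    (Units.coeHom (Matrix ι ι R))).ker

theorem k1_mem_C (L : Loc R) (g : (Matrix ι ι R)ˣ) :
    g ∈ k1C L ι ↔ Cong L (g : Matrix ι ι R) := by
  rw [k1_cong_iff]; rfl

omit [Fintype ι] in
theorem k1_cong_entry (L : Loc R) {M : Matrix ι ι R} :
    Cong L M ↔ ∀ i j, L.ε (M i j) = L.ε ((1 : Matrix ι ι R) i j) := by
  simp only [Cong, Matrix.sub_apply, map_sub, sub_eq_zero]

theorem cong_of_mem (L : Loc R) {g : (Matrix ι ι R)ˣ} (hg : g ∈ Gam L ι) :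
    Cong L (g : Matrix ι ι R) := by
  rw [← k1_mem_C]
  refine (Subgroup.closure_le _).2 ?_ hg
  rintro _ ⟨h, -, i, j, a, hij, ha, rfl⟩
  have hN : (k1C L ι).Normal := MonoidHom.normal_ker _
  refine hN.conj_mem _ ?_ h
  rw [k1_mem_C, el_val hij]
  intro k l
  rw [add_sub_cancel_left, Matrix.single_apply]
  split_ifs
  · exact ha
  · exact map_zero _

theorem cong_isUnit (L : Loc R) {M : Matrix ι ι R} (hM : Cong L M) : IsUnit M := by
  have h := (L.nil ι (M - 1) hM).isUnit_add_one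
  rwa [sub_add_cancel] at h

theorem k1_pow_two (L : Loc R) (n : Matrix ι ι R) (k : ℕ) :
    (1 + n) ^ (2 ^ k) = 1 + n ^ (2 ^ k) := by
  have h2 : ∀ m : Matrix ι ι R, m + m = 0 := by
    intro m; ext i j
    rw [Matrix.add_apply, ← two_mul, L.two, zero_mul]; rfl
  induction k with
  | zero => simp
  | succ k ih =>
    rw [pow_succ, pow_mul, pow_mul, ih]
    have : (1 + n ^ 2 ^ k) ^ 2 = 1 + (n ^ 2 ^ k + n ^ 2 ^ k) + (n ^ 2 ^ k) ^ 2 := by noncomm_ring
    rw [this, h2, add_zero]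

theorem cong_tors (L : Loc R) {g : (Matrix ι ι R)ˣ} (hg : Cong L (g : Matrix ι ι R)) :
    IsOfFinOrder g := by
  obtain ⟨k, hk⟩ := L.nil ι _ hg
  rw [isOfFinOrder_iff_pow_eq_one]
  refine ⟨2 ^ k, by positivity, Units.ext ?_⟩
  have h := k1_pow_two L ((g : Matrix ι ι R) - 1) k
  rw [add_sub_cancel, pow_eq_zero_of_le (Nat.lt_two_pow_self).le hk, add_zero] at h
  rw [Units.val_pow_eq_pow_val, h, Units.val_one]

theorem el_mem (L : Loc R) {i j : ι} (hij : i ≠ j) {a : R} (ha : L.ε a = 0) :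
    el i j a ∈ Gam L ι :=
  Subgroup.subset_closure ⟨1, Subgroup.one_mem _, i, j, a, hij, ha, by simp⟩

section ext
variable {κ : Type} [Fintype κ] [DecidableEq κ]

theorem k1_extM_val (e : κ ↪ ι) (M : Matrix κ κ R) :
    extM e M = 1 + incM R e * (M - 1) * (incM R e)ᵀ := rfl

omit [Fintype ι] [DecidableEq κ] in
theorem k1_inc_row (e : κ ↪ ι) {μ : Type} (N : Matrix κ μ R) (k : κ) (l : μ) :
    (incM R e * N) (e k) l = N k l := by
  rw [mul_apply, Finset.sum_eq_single k]
  · simp [incM]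
  · intro b _ hb; simp [incM, Ne.symm hb]
  · simp

omit [Fintype ι] [DecidableEq κ] in
theorem k1_inc_col (e : κ ↪ ι) {μ : Type} (N : Matrix μ κ R) (k : μ) (l : κ) :
    (N * (incM R e)ᵀ) k (e l) = N k l := by
  rw [mul_apply, Finset.sum_eq_single l]
  · simp [incM]
  · intro b _ hb; simp [incM, Ne.symm hb]
  · simp

omit [Fintype ι] [DecidableEq κ] in
theorem k1_inc_row0 (e : κ ↪ ι) {μ : Type} (N : Matrix κ μ R) {i : ι} (hi : ∀ k, i ≠ e k) (l : μ) :
    (incM R e * N) i l = 0 := by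
  rw [mul_apply]
  exact Finset.sum_eq_zero fun k _ => by simp [incM, hi k]

omit [Fintype ι] [DecidableEq κ] in
theorem k1_inc_col0 (e : κ ↪ ι) {μ : Type} (N : Matrix μ κ R) (k : μ) {j : ι}
    (hj : ∀ l, j ≠ e l) : (N * (incM R e)ᵀ) k j = 0 := by
  rw [mul_apply]
  exact Finset.sum_eq_zero fun l _ => by simp [incM, hj l]

theorem extM_apply {κ : Type} [Fintype κ] [DecidableEq κ] (e : κ ↪ ι) (M : Matrix κ κ R)
    (k l : κ) : extM e M (e k) (e l) = M k l := by
  rw [k1_extM_val, Matrix.add_apply, k1_inc_col, k1_inc_row, Matrix.sub_apply]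
  simp [one_apply]

theorem k1_extM_out (e : κ ↪ ι) (M : Matrix κ κ R) {i j : ι}
    (h : (∀ k, i ≠ e k) ∨ (∀ k, j ≠ e k)) : extM e M i j = (1 : Matrix ι ι R) i j := by
  rw [k1_extM_val, Matrix.add_apply]
  rcases h with h | h
  · rw [Matrix.mul_assoc, k1_inc_row0 e _ h, add_zero]
  · rw [k1_inc_col0 e _ _ h, add_zero]

theorem k1_extM_ext (e : κ ↪ ι) (M : Matrix κ κ R) (N : Matrix ι ι R)
    (h1 : ∀ k l, N (e k) (e l) = M k l)
    (h2 : ∀ i j, ((∀ k, i ≠ e k) ∨ (∀ k, j ≠ e k)) → N i j = (1 : Matrix ι ι R) i j) :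
    extM e M = N := by
  ext i j
  by_cases h : (∀ k, i ≠ e k) ∨ (∀ k, j ≠ e k)
  · rw [k1_extM_out e M h, h2 i j h]
  · push Not at h
    obtain ⟨⟨k, rfl⟩, ⟨l, rfl⟩⟩ := h
    rw [extM_apply, h1]

theorem k1_extM_inj (e : κ ↪ ι) : Function.Injective (extM (R := R) e) := by
  intro M N h
  ext k l
  rw [← extM_apply e M, h, extM_apply]

theorem k1_extU_val (e : κ ↪ ι) (g : (Matrix κ κ R)ˣ) :
    ((extU e g : (Matrix ι ι R)ˣ) : Matrix ι ι R) = extM e (g : Matrix κ κ R) := rfl

omit [Fintype ι] [DecidableEq ι] [DecidableEq κ] in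
theorem k1_notMem_map (e : κ ↪ ι) (i : ι) : i ∉ Finset.univ.map e ↔ ∀ k, i ≠ e k := by
  simp [eq_comm]

end ext

theorem extU_supp {κ : Type} [Fintype κ] [DecidableEq κ] (e : κ ↪ ι) (g : (Matrix ι ι R)ˣ) :
    g ∈ Supp R (Finset.univ.map e) ↔ ∃ g', extU e g' = g := by
  constructor
  · intro hg
    have key : ∀ h : (Matrix ι ι R)ˣ, h ∈ Supp R (Finset.univ.map e) →
        extM e ((h : Matrix ι ι R).submatrix e e) = h := by
      intro h hh
      refine k1_extM_ext e _ _ (fun _ _ => rfl) fun i j hij => hh i j ?_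
      simpa only [k1_notMem_map] using hij
    have h1 := key g hg
    have h2 := key g⁻¹ (Subgroup.inv_mem _ hg)
    refine ⟨⟨(g : Matrix ι ι R).submatrix e e, ((g⁻¹ : (Matrix ι ι R)ˣ) : Matrix ι ι R).submatrix e e,
      k1_extM_inj e ?_, k1_extM_inj e ?_⟩, Units.ext h1⟩
    · rw [map_mul, h1, h2, map_one, Units.mul_inv]
    · rw [map_mul, h1, h2, map_one, Units.inv_mul]
  · rintro ⟨g', rfl⟩ i j hij
    rw [k1_extU_val]
    exact k1_extM_out e _ (by simpa only [k1_notMem_map] using hij)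

theorem extU_el {κ : Type} [Fintype κ] [DecidableEq κ] (e : κ ↪ ι) (i j : κ) (r : R) :
    extU e (el i j r) = el (e i) (e j) r := by
  by_cases hij : i = j
  · subst hij; simp [el]
  · have hij' : e i ≠ e j := fun h => hij (e.injective h)
    refine Units.ext ?_
    rw [k1_extU_val, el_val hij, el_val hij']
    refine k1_extM_ext e _ _ (fun k l => ?_) (fun a b hab => ?_)
    · simp [one_apply, Matrix.single_apply]
    · rw [Matrix.add_apply, Matrix.single_apply, if_neg, add_zero]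
      rintro ⟨h1, h2⟩
      rcases hab with h | h
      · exact h i h1.symm
      · exact h j h2.symm

theorem extU_comp {κ μ : Type} [Fintype κ] [DecidableEq κ] [Fintype μ] [DecidableEq μ]
    (e : κ ↪ ι) (e' : μ ↪ κ) (g : (Matrix μ μ R)ˣ) :
    extU e (extU e' g) = extU (e'.trans e) g := by
  refine Units.ext (k1_extM_ext (e'.trans e) _ _ (fun k l => ?_) (fun a b hab => ?_)).symm
  · rw [k1_extU_val, k1_extU_val, Function.Embedding.trans_apply, Function.Embedding.trans_apply,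
      extM_apply, extM_apply]
  · rw [k1_extU_val, k1_extU_val]
    by_cases h : (∀ k, a ≠ e k) ∨ (∀ k, b ≠ e k)
    · exact k1_extM_out e _ h
    · push Not at h
      obtain ⟨⟨k, rfl⟩, ⟨l, rfl⟩⟩ := h
      rw [extM_apply, k1_extM_out e' _ (hab.imp (fun h m hm => h m (by rw [hm]; rfl))
        (fun h m hm => h m (by rw [hm]; rfl)))]
      simp [one_apply]

theorem extU_injective {κ : Type} [Fintype κ] [DecidableEq κ] (e : κ ↪ ι) :
    Function.Injective (extU (R := R) e) := fun _ _ h =>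
  Units.ext (k1_extM_inj e (congrArg Units.val h))

theorem mem_Gam_of_block (L : Loc R) (A B : Finset ι) (hAB : Disjoint A B) {g : (Matrix ι ι R)ˣ}
    (hg : Cong L (g : Matrix ι ι R))
    (hs : ∀ i j, ¬(i ∈ A ∧ j ∈ B) → (g : Matrix ι ι R) i j = (1 : Matrix ι ι R) i j) :
    g ∈ Gam L ι := by
  suffices H : ∀ s : Finset (ι × ι), s ⊆ A ×ˢ B → ∀ g : (Matrix ι ι R)ˣ,
      Cong L (g : Matrix ι ι R) →
      (∀ i j, (i, j) ∉ s → (g : Matrix ι ι R) i j = (1 : Matrix ι ι R) i j) → g ∈ Gam L ι from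
    H _ subset_rfl g hg fun i j hij => hs i j (by simpa using hij)
  intro s
  induction s using Finset.induction_on with
  | empty =>
    intro _ g _ h
    have : g = 1 := Units.ext (by ext i j; exact h i j (by simp))
    rw [this]; exact Subgroup.one_mem _
  | insert p s hp ih =>
    obtain ⟨i, j⟩ := p
    intro hsub g hg h
    have hmem : i ∈ A ∧ j ∈ B := by simpa using hsub (Finset.mem_insert_self _ _)
    have hjA : j ∉ A := fun hj => Finset.disjoint_left.1 hAB hj hmem.2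
    have hij : i ≠ j := fun h => hjA (h ▸ hmem.1)
    have ha : L.ε (-(g : Matrix ι ι R) i j) = 0 := by
      have := k1_cong_entry L |>.1 hg i j
      rw [one_apply_ne hij, map_zero] at this
      rw [map_neg, this, neg_zero]
    have hel := el_mem L hij ha
    have hrow : ∀ l, (g : Matrix ι ι R) j l = (1 : Matrix ι ι R) j l := fun l =>
      h j l fun hm => hjA (by simpa using (Finset.mem_product.1 (hsub hm)).1)
    have h' : el i j (-(g : Matrix ι ι R) i j) * g ∈ Gam L ι := by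
      refine ih (fun x hx => hsub (Finset.mem_insert_of_mem hx)) _ ?_ ?_
      · rw [← k1_mem_C]
        exact Subgroup.mul_mem _ ((k1_mem_C L _).2 (cong_of_mem L hel)) ((k1_mem_C L _).2 hg)
      · intro k l hkl
        rw [Units.val_mul, el_val hij, add_mul, Matrix.one_mul, Matrix.add_apply]
        by_cases hk : k = i
        · subst hk
          rw [single_mul_apply_same, hrow]
          by_cases hl : l = j
          · subst hl; rw [one_apply_eq, one_apply_ne hij]; simp
          · rw [one_apply_ne (Ne.symm hl), mul_zero, add_zero]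
            exact h k l (by simp [hkl, hl])
        · rw [single_mul_apply_of_ne _ _ _ _ _ hk, add_zero]
          exact h k l (by simp [hkl, hk])
    exact (Subgroup.mul_mem_cancel_left _ hel).1 h'

theorem k1_eps_unit (L : Loc R) (u : Rˣ) : L.ε u = 1 := by
  have h : L.ε u * L.ε (u⁻¹ : Rˣ) = 1 := by rw [← map_mul, Units.mul_inv, map_one]
  revert h
  generalize L.ε u = a
  generalize L.ε (u⁻¹ : Rˣ) = b
  revert a b; decide

theorem k1_diag_el (d : ι → Rˣ) {i j : ι} (hij : i ≠ j) (r : R) :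
    diagU d * el i j r * (diagU d)⁻¹ = el i j (d i * r * ((d j)⁻¹ : Rˣ)) := by
  rw [mul_inv_eq_iff_eq_mul]
  refine Units.ext ?_
  rw [Units.val_mul, Units.val_mul, el_val hij, el_val hij, diagU_val]
  ext k l
  rw [diagonal_mul, mul_diagonal, Matrix.add_apply, Matrix.add_apply, Matrix.single_apply,
    Matrix.single_apply, one_apply]
  by_cases h1 : k = l
  · subst h1
    have : ¬(i = k ∧ j = k) := fun h => hij (h.1.trans h.2.symm)
    simp [this]
  · by_cases h2 : i = k ∧ j = l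
    · obtain ⟨rfl, rfl⟩ := h2
      simp [h1]
    · simp [h1, h2]

theorem k1_diag_allX (d : ι → Rˣ) {h : (Matrix ι ι R)ˣ} (hh : h ∈ allX (el (ι := ι) (R := R))) :
    diagU d * h * (diagU d)⁻¹ ∈ allX (el (ι := ι) (R := R)) := by
  have : allX (el (ι := ι) (R := R)) ≤
      (allX (el (ι := ι) (R := R))).comap (MulAut.conj (diagU d)).toMonoidHom := by
    refine (Subgroup.closure_le _).2 ?_
    rintro _ ⟨i, j, r, hij, rfl⟩
    exact Subgroup.subset_closure ⟨i, j, _, hij, k1_diag_el d hij r⟩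
  exact this hh

theorem k1_diag_Gam (L : Loc R) (d : ι → Rˣ) {g : (Matrix ι ι R)ˣ} (hg : g ∈ Gam L ι) :
    diagU d * g * (diagU d)⁻¹ ∈ Gam L ι := by
  have : Gam L ι ≤ (Gam L ι).comap (MulAut.conj (diagU d)).toMonoidHom := by
    refine (Subgroup.closure_le _).2 ?_
    rintro _ ⟨h, hh, i, j, a, hij, ha, rfl⟩
    refine Subgroup.subset_closure ⟨_, k1_diag_allX d hh, i, j, d i * a * ((d j)⁻¹ : Rˣ), hij,
      by simp [ha], ?_⟩
    rw [← k1_diag_el d hij]
    change diagU d * (h * el i j a * h⁻¹) * (diagU d)⁻¹ = _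
    group
  exact this hg

/-- A unit placed at one diagonal position. -/
def k1At (k : ι) : Rˣ →* (Matrix ι ι R)ˣ := diagU.comp (MonoidHom.mulSingle (fun _ : ι => Rˣ) k)

theorem k1At_eq (k : ι) (d : Rˣ) : k1At k d = diagU (Function.update 1 k d) := rfl

theorem k1At_val (k : ι) (d : Rˣ) (i j : ι) : ((k1At k d : (Matrix ι ι R)ˣ) : Matrix ι ι R) i j =
    if i = j then (if i = k then (d : R) else 1) else 0 := by
  rw [k1At_eq, diagU_val, diagonal_apply, Function.update_apply]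
  split_ifs <;> rfl

theorem k1_hd (L : Loc R) {i j : ι} (hij : i ≠ j) {a b : R} {u v : Rˣ}
    (hab : L.ε a = 0 ∨ L.ε b = 0) (hu : (u : R) = 1 + a * b) (hv : (v : R) = 1 + b * a) :
    k1At i u * k1At j v⁻¹ ∈ Gam L ι := by
  have hz : (dsT (el (ι := ι) (R := R)) i j a b u,
      Function.update (Function.update (1 : ι → Rˣ) i u) j v⁻¹) ∈ HD L.ε (el (ι := ι) (R := R)) :=
    Subgroup.subset_closure ⟨i, j, a, b, u, v, hij, hab, hu, hv, rfl⟩
  have h1 := hd_map L (MonoidHom.id _) (fun _ _ _ _ => rfl) hz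
  have h2 := hd_mem L el_isSt hz
  rw [MonoidHom.id_apply] at h1
  rw [h1] at h2
  have h3 : Function.update (Function.update (1 : ι → Rˣ) i u) j v⁻¹ =
      Function.update (1 : ι → Rˣ) i u * Function.update (1 : ι → Rˣ) j v⁻¹ := by
    funext k
    simp only [Pi.mul_apply, Function.update_apply, Pi.one_apply]
    split_ifs with h1 h2
    · exact absurd (h2.symm.trans h1) hij
    all_goals simp
  rw [k1At_eq, k1At_eq, ← map_mul, ← h3]
  exact h2

theorem k1_hd_one (L : Loc R) {i j : ι} (hij : i ≠ j) (u : Rˣ) :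
    k1At i u * k1At j u⁻¹ ∈ Gam L ι :=
  k1_hd L hij (a := (u : R) - 1) (b := 1) (Or.inl (by rw [map_sub, k1_eps_unit, map_one, sub_self]))
    (by simp) (by simp)

/-- Elements of the relative group up to a diagonal correction at `k`. -/
def k1X (L : Loc R) (k : ι) : Subgroup (Matrix ι ι R)ˣ where
  carrier := {g | ∃ d : Rˣ, g * k1At k d ∈ Gam L ι}
  one_mem' := ⟨1, by simp⟩
  mul_mem' := by
    rintro g h ⟨d, hd⟩ ⟨e, he⟩
    refine ⟨e * d, ?_⟩
    have := Subgroup.mul_mem _ hd (k1_diag_Gam L (Function.update 1 k d)⁻¹ he)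
    rw [map_inv, ← k1At_eq] at this
    convert this using 1
    rw [map_mul]; group
  inv_mem' := by
    rintro g ⟨d, hd⟩
    refine ⟨d⁻¹, ?_⟩
    have := k1_diag_Gam L (Function.update 1 k d) (Subgroup.inv_mem _ hd)
    rw [← k1At_eq] at this
    convert this using 1
    rw [map_inv]; group

theorem k1_At_X (L : Loc R) (k i : ι) (d : Rˣ) : k1At i d ∈ k1X L k := by
  by_cases h : i = k
  · subst h
    exact ⟨d⁻¹, by rw [← map_mul, mul_inv_cancel, map_one]; exact Subgroup.one_mem _⟩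
  · exact ⟨d⁻¹, k1_hd_one L h d⟩

theorem k1_At_C (L : Loc R) (i : ι) (d : Rˣ) : k1At i d ∈ k1C L ι := by
  rw [k1_mem_C, k1_cong_entry]
  intro a b
  rw [k1At_val, one_apply]
  split_ifs
  · rw [k1_eps_unit, map_one]
  · rfl
  · rfl

theorem k1_col_cancel {p g : (Matrix ι ι R)ˣ} {j : ι}
    (h : ∀ i, (g : Matrix ι ι R) i j = (p : Matrix ι ι R) i j) (i : ι) :
    ((p⁻¹ * g : (Matrix ι ι R)ˣ) : Matrix ι ι R) i j = (1 : Matrix ι ι R) i j := by
  rw [Units.val_mul, mul_apply]
  simp only [h]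
  rw [← mul_apply, Units.inv_mul]

theorem k1_row_cancel {p g : (Matrix ι ι R)ˣ} {i : ι}
    (h : ∀ j, (g : Matrix ι ι R) i j = (p : Matrix ι ι R) i j) (j : ι) :
    ((g * p⁻¹ : (Matrix ι ι R)ˣ) : Matrix ι ι R) i j = (1 : Matrix ι ι R) i j := by
  rw [Units.val_mul, mul_apply]
  simp only [h]
  rw [← mul_apply, Units.mul_inv]

/-- The unit with the columns of `g` at `T` and identity columns elsewhere. -/
theorem k1_cols (L : Loc R) (T : Finset ι) {g : Matrix ι ι R} (hg : Cong L g) :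
    ∃ p : (Matrix ι ι R)ˣ, Cong L (p : Matrix ι ι R) ∧
      ∀ i j, (p : Matrix ι ι R) i j = if j ∈ T then g i j else (1 : Matrix ι ι R) i j := by
  have hc : Cong L (Matrix.of fun i j => if j ∈ T then g i j else (1 : Matrix ι ι R) i j) := by
    rw [k1_cong_entry] at hg ⊢
    intro i j
    rw [of_apply]
    split_ifs
    · exact hg i j
    · rfl
  obtain ⟨p, hp⟩ := cong_isUnit L hc
  exact ⟨p, hp ▸ hc, fun i j => by rw [hp, of_apply]⟩

theorem k1_onecol (L : Loc R) (k j : ι) {p : (Matrix ι ι R)ˣ} (hp : Cong L (p : Matrix ι ι R))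
    (h : ∀ i l, l ≠ j → (p : Matrix ι ι R) i l = (1 : Matrix ι ι R) i l) : p ∈ k1X L k := by
  have hu : IsUnit ((p : Matrix ι ι R) j j) := by
    have := isUnit_one_add L (hp j j)
    rwa [Matrix.sub_apply, one_apply_eq, add_sub_cancel] at this
  obtain ⟨u, hu⟩ := hu
  have h1 : p * (k1At j u)⁻¹ ∈ Gam L ι := by
    refine mem_Gam_of_block L (Finset.univ.erase j) {j} (by simp) ?_ ?_
    · rw [← k1_mem_C]
      exact Subgroup.mul_mem _ ((k1_mem_C L _).2 hp) (Subgroup.inv_mem _ (k1_At_C L j u))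
    · intro a b hab
      by_cases hb : b = j
      · subst hb
        have ha : a = b := by simpa using hab
        subst ha
        refine k1_row_cancel (fun l => ?_) a
        rw [k1At_val]
        by_cases hl : l = a
        · subst hl; simp [hu]
        · rw [h a l hl, one_apply_ne (Ne.symm hl), if_neg (Ne.symm hl)]
      · rw [← map_inv, Units.val_mul, k1At_eq, diagU_val, mul_diagonal, h a b hb,
          Function.update_of_ne hb]
        simp
  have h2 : p * (k1At j u)⁻¹ ∈ k1X L k := ⟨1, by simpa using h1⟩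
  simpa using Subgroup.mul_mem _ h2 (k1_At_X L k j u)

theorem k1_elim (L : Loc R) {g : (Matrix ι ι R)ˣ} (hg : Cong L (g : Matrix ι ι R)) (k : ι) :
    g ∈ k1X L k := by
  have H : ∀ s : Finset ι, ∃ x ∈ k1X L k, x ∈ k1C L ι ∧ x * g ∈ Fix R s := by
    intro s
    induction s using Finset.induction_on with
    | empty => exact ⟨1, Subgroup.one_mem _, Subgroup.one_mem _, fun _ j hj => by simp at hj⟩
    | insert j s hj ih =>
      obtain ⟨x, hx, hxC, hF⟩ := ih
      have hc : Cong L ((x * g : (Matrix ι ι R)ˣ) : Matrix ι ι R) :=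
        (k1_mem_C L _).1 (Subgroup.mul_mem _ hxC ((k1_mem_C L _).2 hg))
      obtain ⟨p, hp, hpe⟩ := k1_cols L {j} hc
      have hpX : p ∈ k1X L k := k1_onecol L k j hp fun i l hl => by simp [hpe, hl]
      refine ⟨p⁻¹ * x, Subgroup.mul_mem _ (Subgroup.inv_mem _ hpX) hx,
        Subgroup.mul_mem _ (Subgroup.inv_mem _ ((k1_mem_C L _).2 hp)) hxC, ?_⟩
      intro i l hl
      rw [mul_assoc]
      refine k1_col_cancel (fun a => ?_) i
      rw [hpe]
      split_ifs with h
      · rfl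
      · rcases Finset.mem_insert.1 hl with h' | h'
        · exact absurd (Finset.mem_singleton.2 h') h
        · exact hF a l h'
  obtain ⟨x, hx, -, hF⟩ := H Finset.univ
  have : x * g = 1 := Units.ext (by ext i j; exact hF i j (Finset.mem_univ _))
  rw [eq_inv_of_mul_eq_one_right this]
  exact Subgroup.inv_mem _ hx

theorem elim (L : Loc R) (h2 : 2 ≤ Fintype.card ι) {g : (Matrix ι ι R)ˣ}
    (hg : Cong L (g : Matrix ι ι R)) (k : ι) :
    ∃ d : Rˣ, g * diagU (Function.update 1 k d) ∈ Gam L ι := by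
  have _ := h2
  exact k1_elim L hg k

/-- Units whose diagonal placement at `k` is relative elementary. -/
def k1N (L : Loc R) (k : ι) : Subgroup Rˣ := (Gam L ι).comap (k1At k)

theorem k1N_normal (L : Loc R) (k : ι) : (k1N L k).Normal := by
  refine ⟨fun d hd e => ?_⟩
  have := k1_diag_Gam L (Function.update 1 k e) hd
  rw [← k1At_eq, ← map_mul, ← map_inv, ← map_mul] at this
  exact this

theorem k1N_gen (L : Loc R) (h2 : 2 ≤ Fintype.card ι) (k : ι) {a b : R} {u v : Rˣ}
    (hab : L.ε a = 0 ∨ L.ε b = 0) (hu : (u : R) = 1 + a * b) (hv : (v : R) = 1 + b * a) :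
    u * v⁻¹ ∈ k1N L k := by
  have : Nontrivial ι := Fintype.one_lt_card_iff_nontrivial.1 h2
  obtain ⟨j, hj⟩ := exists_ne k
  have h1 := k1_hd L hj.symm hab hu hv
  have h2 := k1_hd_one L hj v
  have h3 := Subgroup.mul_mem _ h1 h2
  rw [mul_assoc, ← mul_assoc (k1At j v⁻¹), ← map_mul, inv_mul_cancel, map_one, one_mul,
    ← map_mul] at h3
  exact h3

theorem k1_At_transfer (L : Loc R) {κ : Type} [Fintype κ] [DecidableEq κ]
    (h2 : 2 ≤ Fintype.card κ) (h3 : 3 ≤ Fintype.card ι) (k : κ) (i : ι) {d : Rˣ}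
    (hd : k1At i d ∈ Gam L ι) : k1At k d ∈ Gam L κ := by
  have := k1N_normal L k
  have hgen : ∀ {a b : R} {u v : Rˣ}, (L.ε a = 0 ∨ L.ε b = 0) → (u : R) = 1 + a * b →
      (v : R) = 1 + b * a → QuotientGroup.mk' (k1N L k) u = QuotientGroup.mk' (k1N L k) v := by
    intro a b u v hab hu hv
    have := (QuotientGroup.eq_one_iff _).2 (k1N_gen L h2 k hab hu hv)
    rw [← mul_inv_eq_one, ← map_inv, ← map_mul]
    exact this
  let _ : CommGroup (Rˣ ⧸ k1N L k) :=
    { (inferInstance : Group (Rˣ ⧸ k1N L k)) with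
      mul_comm := by
        intro x y
        obtain ⟨u, rfl⟩ := QuotientGroup.mk'_surjective (k1N L k) x
        obtain ⟨b, rfl⟩ := QuotientGroup.mk'_surjective (k1N L k) y
        have := hgen (a := ((u : R) - 1) * (b⁻¹ : Rˣ)) (b := b) (u := u) (v := b * u * b⁻¹)
          (Or.inl (by rw [map_mul, map_sub, k1_eps_unit, map_one, sub_self, zero_mul]))
          (by simp) (by simp [mul_sub, sub_mul, mul_assoc])
        rw [map_mul, map_mul, map_inv, eq_mul_inv_iff_mul_eq] at this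
        exact this }
  let ψ : ((Matrix ι ι R)ˣ × (ι → Rˣ)) →* (Rˣ ⧸ k1N L k) :=
    { toFun := fun z => ∏ m, QuotientGroup.mk' (k1N L k) (z.2 m)
      map_one' := by simp
      map_mul' := fun z w => by simp [Finset.prod_mul_distrib] }
  have hψ1 : ∀ (g : (Matrix ι ι R)ˣ) (m : ι) (u : Rˣ),
      ψ (g, Function.update 1 m u) = QuotientGroup.mk' (k1N L k) u := by
    intro g m u
    change ∏ a, QuotientGroup.mk' (k1N L k) (Function.update (1 : ι → Rˣ) m u a) = _
    rw [Finset.prod_eq_single m]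
    · simp
    · intro b _ hb; simp [Function.update_of_ne hb]
    · simp
  have hker : HD L.ε (el (ι := ι) (R := R)) ≤ ψ.ker := by
    refine (Subgroup.closure_le _).2 ?_
    rintro _ ⟨a, b, p, q, u, v, hab, hpq, hu, hv, rfl⟩
    have h3 : Function.update (Function.update (1 : ι → Rˣ) a u) b v⁻¹ =
        Function.update (1 : ι → Rˣ) a u * Function.update (1 : ι → Rˣ) b v⁻¹ := by
      funext k
      simp only [Pi.mul_apply, Function.update_apply, Pi.one_apply]
      split_ifs with h1 h2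
      · exact absurd (h2.symm.trans h1) hab
      all_goals simp
    have h4 : (dsT (el (ι := ι) (R := R)) a b p q u,
        Function.update (Function.update (1 : ι → Rˣ) a u) b v⁻¹) =
        (dsT (el (ι := ι) (R := R)) a b p q u, Function.update (1 : ι → Rˣ) a u) *
          (1, Function.update (1 : ι → Rˣ) b v⁻¹) := by
      rw [h3]; simp
    rw [SetLike.mem_coe, MonoidHom.mem_ker, h4, map_mul, hψ1, hψ1, hgen hpq hu hv, map_inv,
      mul_inv_cancel]
  obtain ⟨u, hu, z, hz, v, hv, hg⟩ := gauss L h3 (Fintype.equivFin ι) el_isSt hd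
  have hz1 := hd_map L (MonoidHom.id _) (fun _ _ _ _ => rfl) hz
  rw [MonoidHom.id_apply] at hz1
  rw [hz1, k1At_eq] at hg
  have hinj : Function.Injective fun i : ι => ((Fintype.equivFin ι i : Fin _) : ℕ) :=
    fun a b h => (Fintype.equivFin ι).injective (Fin.ext h)
  obtain ⟨-, he, -⟩ := tri_diag L.ε _ hinj hu hv hg.symm
  have h5 : ψ z = 1 := hker hz
  have h6 : z = (z.1, Function.update (1 : ι → Rˣ) i d) := by rw [← he]
  rw [h6, hψ1] at h5
  exact (QuotientGroup.eq_one_iff (N := k1N L k) d).1 h5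

theorem k1_ext_At {κ : Type} [Fintype κ] [DecidableEq κ] (e : κ ↪ ι) (k : κ) (d : Rˣ) :
    extU e (k1At k d) = k1At (e k) d := by
  refine Units.ext (k1_extM_ext e _ _ (fun a b => ?_) (fun a b hab => ?_))
  · simp [k1At_val]
  · rw [k1At_val, one_apply]
    split_ifs with h1 h2
    · subst h1
      rcases hab with h | h <;> exact absurd h2 (h k)
    · rfl
    · rfl

theorem k1_ext_Gam (L : Loc R) {κ : Type} [Fintype κ] [DecidableEq κ] (e : κ ↪ ι)
    {g : (Matrix κ κ R)ˣ} (hg : g ∈ Gam L κ) : extU e g ∈ Gam L ι := by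
  have h1 : allX (el (ι := κ) (R := R)) ≤ (allX (el (ι := ι) (R := R))).comap (extU e) := by
    refine (Subgroup.closure_le _).2 ?_
    rintro _ ⟨i, j, r, hij, rfl⟩
    exact Subgroup.subset_closure ⟨_, _, r, e.injective.ne hij, extU_el e i j r⟩
  have h2 : Gam L κ ≤ (Gam L ι).comap (extU e) := by
    refine (Subgroup.closure_le _).2 ?_
    rintro _ ⟨h, hh, i, j, a, hij, ha, rfl⟩
    refine Subgroup.subset_closure ⟨_, h1 hh, _, _, a, e.injective.ne hij, ha, ?_⟩
    rw [map_mul, map_mul, map_inv, extU_el]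
  exact h2 hg

theorem ext_mem_iff (L : Loc R) {κ : Type} [Fintype κ] [DecidableEq κ] (h3 : 3 ≤ Fintype.card κ)
    (e : κ ↪ ι) (g : (Matrix κ κ R)ˣ) : extU e g ∈ Gam L ι ↔ g ∈ Gam L κ := by
  refine ⟨fun h => ?_, k1_ext_Gam L e⟩
  have hc : Cong L (g : Matrix κ κ R) := by
    have := (k1_cong_entry L).1 (cong_of_mem L h)
    rw [k1_cong_entry]
    intro k l
    have h1 := this (e k) (e l)
    rw [k1_extU_val, extM_apply] at h1
    rw [h1]
    simp [one_apply]
  obtain ⟨k⟩ : Nonempty κ := Fintype.card_pos_iff.1 (by omega)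
  obtain ⟨d, hd⟩ := k1_elim L hc k
  have h1 := k1_ext_Gam L e hd
  rw [map_mul, Subgroup.mul_mem_cancel_left _ h, k1_ext_At] at h1
  have h4 := k1_At_transfer L (κ := κ) (by omega)
    (h3.trans (Fintype.card_le_of_embedding e)) k (e k) h1
  exact (Subgroup.mul_mem_cancel_right _ h4).1 hd

theorem k1_At_Fix {k : ι} {S : Finset ι} (hk : k ∉ S) (d : Rˣ) : k1At k d ∈ Fix R S := by
  intro i j hj
  rw [k1At_val, one_apply]
  split_ifs with h1 h2
  · exact absurd (h2 ▸ h1 ▸ hj) hk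
  · rfl
  · rfl

theorem k1_At_Supp {k : ι} {J : Finset ι} (hk : k ∈ J) (d : Rˣ) : k1At k d ∈ Supp R J := by
  intro i j hj
  rw [k1At_val, one_apply]
  split_ifs with h1 h2
  · subst h1; subst h2; simp [hk] at hj
  · rfl
  · rfl

/-- Transitivity on frames. -/
theorem factor (L : Loc R) (h2 : 2 ≤ Fintype.card ι) (J S T : Finset ι) (hST : Disjoint S T)
    (k : ι) (hkJ : k ∈ J) (hkS : k ∉ S) (hkT : k ∉ T) {g : (Matrix ι ι R)ˣ}
    (hg : g ∈ Gam L ι ⊓ Supp R J) :
    ∃ p ∈ Gam L ι ⊓ Supp R J ⊓ Fix R S, ∃ q ∈ Gam L ι ⊓ Supp R J ⊓ Fix R T, g = p * q := by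
  have _ := h2
  obtain ⟨p, hp, hpe⟩ := k1_cols L T (cong_of_mem L hg.1)
  obtain ⟨d, hd⟩ := k1_elim L hp k
  have hpJ : p ∈ Supp R J := by
    intro i j hij
    rw [hpe]
    split_ifs
    · exact hg.2 i j hij
    · rfl
  have hpS : p ∈ Fix R S := by
    intro i j hj
    rw [hpe, if_neg (Finset.disjoint_left.1 hST hj)]
  have h1 : p * k1At k d ∈ Supp R J := Subgroup.mul_mem _ hpJ (k1_At_Supp hkJ d)
  refine ⟨p * k1At k d, ⟨⟨hd, h1⟩, Subgroup.mul_mem _ hpS (k1_At_Fix hkS d)⟩,
    (p * k1At k d)⁻¹ * g, ⟨⟨Subgroup.mul_mem _ (Subgroup.inv_mem _ hd) hg.1,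
      Subgroup.mul_mem _ (Subgroup.inv_mem _ h1) hg.2⟩, ?_⟩, by group⟩
  rw [_root_.mul_inv_rev, mul_assoc]
  refine Subgroup.mul_mem _ (Subgroup.inv_mem _ (k1_At_Fix hkT d)) ?_
  intro i j hj
  exact k1_col_cancel (fun a => by rw [hpe, if_pos hj]) i

/-- Matrices whose rows in `T` are those of the identity. -/
def k1Row (R : Type) [Ring R] (T : Finset ι) : Subgroup (Matrix ι ι R)ˣ where
  carrier := {g | ∀ i ∈ T, ∀ j, (g : Matrix ι ι R) i j = (1 : Matrix ι ι R) i j}
  one_mem' := fun _ _ _ => rfl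
  mul_mem' := by
    intro g h hg hh i hi j
    rw [Units.val_mul, mul_apply]
    simp only [hg i hi]
    rw [← mul_apply, Matrix.one_mul, hh i hi]
  inv_mem' := by
    intro g hg i hi j
    have := k1_row_cancel (g := 1) (p := g) (fun j => (hg i hi j).symm) j
    rwa [one_mul] at this

/-- The commutative block subgroup. -/
theorem exists_block (L : Loc R) (A B : Finset ι) (hAB : Disjoint A B) :
    ∃ V : Subgroup (Matrix ι ι R)ˣ, V ≤ Gam L ι ⊓ Supp R (A ∪ B) ⊓ Fix R A ∧
      (∀ x ∈ V, ∀ y ∈ V, Commute x y) ∧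
      ∀ g : (Matrix ι ι R)ˣ, Cong L (g : Matrix ι ι R) →
        (∀ i j, ¬(i ∈ A ∧ j ∈ B) → (g : Matrix ι ι R) i j = (1 : Matrix ι ι R) i j) → g ∈ V := by
  have hV : ∀ g ∈ k1C L ι ⊓ Fix R Bᶜ ⊓ k1Row R Aᶜ, ∀ i j, ¬(i ∈ A ∧ j ∈ B) →
      (g : Matrix ι ι R) i j = (1 : Matrix ι ι R) i j := by
    intro g hg i j hij
    by_cases hi : i ∈ A
    · exact hg.1.2 i j (Finset.mem_compl.2 fun hj => hij ⟨hi, hj⟩)
    · exact hg.2 i (Finset.mem_compl.2 hi) j
  have hz : ∀ x ∈ k1C L ι ⊓ Fix R Bᶜ ⊓ k1Row R Aᶜ, ∀ y ∈ k1C L ι ⊓ Fix R Bᶜ ⊓ k1Row R Aᶜ,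
      (x : Matrix ι ι R) * y = x + y - 1 := by
    intro x hx y hy
    have : ((x : Matrix ι ι R) - 1) * ((y : Matrix ι ι R) - 1) = 0 := by
      ext i j
      rw [mul_apply, Matrix.zero_apply]
      refine Finset.sum_eq_zero fun m _ => ?_
      by_cases hm : m ∈ B
      · rw [Matrix.sub_apply (y : Matrix ι ι R),
          hV y hy m j fun h => Finset.disjoint_left.1 hAB h.1 hm, sub_self, mul_zero]
      · rw [Matrix.sub_apply (x : Matrix ι ι R), hV x hx i m fun h => hm h.2, sub_self, zero_mul]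
    rw [← sub_eq_zero, ← this]
    noncomm_ring
  refine ⟨k1C L ι ⊓ Fix R Bᶜ ⊓ k1Row R Aᶜ, fun g hg => ⟨⟨?_, ?_⟩, ?_⟩, ?_, ?_⟩
  · exact mem_Gam_of_block L A B hAB ((k1_mem_C L _).1 hg.1.1) (hV g hg)
  · intro i j hij
    refine hV g hg i j fun h => ?_
    rcases hij with h' | h'
    · exact h' (Finset.mem_union_left _ h.1)
    · exact h' (Finset.mem_union_right _ h.2)
  · intro i j hj
    exact hV g hg i j fun h => Finset.disjoint_left.1 hAB hj h.2
  · intro x hx y hy
    refine Units.ext ?_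
    rw [Units.val_mul, Units.val_mul, hz x hx y hy, hz y hy x hx, add_comm]
  · intro g hg hs
    exact ⟨⟨(k1_mem_C L _).2 hg, fun i j hj => hs i j fun h => Finset.mem_compl.1 hj h.2⟩,
      fun i hi j => hs i j fun h => Finset.mem_compl.1 hi h.1⟩

/-- The Levi projection of a parabolic subgroup. -/
theorem exists_lev (L : Loc R) (J T : Finset ι) (hT : T ⊆ J) :
    ∃ lev : (Matrix ι ι R)ˣ → (Matrix ι ι R)ˣ, ∃ V : Subgroup (Matrix ι ι R)ˣ,
      V ≤ Gam L ι ⊓ Supp R J ⊓ Fix R T ∧ (∀ x ∈ V, ∀ y ∈ V, Commute x y) ∧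
      (∀ g ∈ Gam L ι ⊓ Supp R J ⊓ Fix R T, ∀ h ∈ Gam L ι ⊓ Supp R J ⊓ Fix R T,
        lev (g * h) = lev g * lev h) ∧
      (∀ g ∈ Gam L ι ⊓ Supp R J ⊓ Fix R T, lev g ∈ Gam L ι ⊓ Supp R (J \ T)) ∧
      (∀ g ∈ Gam L ι ⊓ Supp R (J \ T), lev g = g) ∧
      (∀ g ∈ Gam L ι ⊓ Supp R J ⊓ Fix R T, g * (lev g)⁻¹ ∈ V) := by
  obtain ⟨V, hV1, hV2, hV3⟩ := exists_block L T (J \ T) Finset.disjoint_sdiff
  rw [Finset.union_sdiff_of_subset hT] at hV1
  have hex : ∀ g : (Matrix ι ι R)ˣ, ∃ p : (Matrix ι ι R)ˣ, g ∈ Gam L ι →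
      Cong L (p : Matrix ι ι R) ∧ ∀ i j, (p : Matrix ι ι R) i j =
        if i ∈ T then (1 : Matrix ι ι R) i j else (g : Matrix ι ι R) i j := by
    intro g
    by_cases hg : g ∈ Gam L ι
    · have hc : Cong L (Matrix.of fun i j =>
          if i ∈ T then (1 : Matrix ι ι R) i j else (g : Matrix ι ι R) i j) := by
        have := (k1_cong_entry L).1 (cong_of_mem L hg)
        rw [k1_cong_entry]
        intro i j
        rw [of_apply]
        split_ifs
        · rfl
        · exact this i j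
      obtain ⟨p, hp⟩ := cong_isUnit L hc
      exact ⟨p, fun _ => ⟨hp ▸ hc, fun i j => by rw [hp, of_apply]⟩⟩
    · exact ⟨1, fun h => absurd h hg⟩
  choose lev hlev using hex
  have hS : ∀ g ∈ Gam L ι ⊓ Supp R J ⊓ Fix R T, lev g ∈ Supp R (J \ T) := by
    intro g hg i j hij
    rw [(hlev g hg.1.1).2]
    split_ifs with hi
    · rfl
    · by_cases hj : j ∈ T
      · exact hg.2 i j hj
      · refine hg.1.2 i j ?_
        simpa [hi, hj] using hij
  have hW : ∀ g ∈ Gam L ι ⊓ Supp R J ⊓ Fix R T, g * (lev g)⁻¹ ∈ V := by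
    intro g hg
    refine hV3 _ ?_ fun i j hij => ?_
    · rw [← k1_mem_C]
      exact Subgroup.mul_mem _ ((k1_mem_C L _).2 (cong_of_mem L hg.1.1))
        (Subgroup.inv_mem _ ((k1_mem_C L _).2 (hlev g hg.1.1).1))
    · by_cases hi : i ∈ T
      · have hj : j ∉ J \ T := fun h => hij ⟨hi, h⟩
        have h1 : g ∈ Fix R {j} := by
          intro a b hb
          rw [Finset.mem_singleton.1 hb]
          by_cases hjT : j ∈ T
          · exact hg.2 a j hjT
          · exact hg.1.2 a j (Or.inr fun h => hj (Finset.mem_sdiff.2 ⟨h, hjT⟩))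
        have h2 : lev g ∈ Fix R {j} := by
          intro a b hb
          rw [Finset.mem_singleton.1 hb]
          exact hS g hg a j (Or.inr hj)
        exact Subgroup.mul_mem _ h1 (Subgroup.inv_mem _ h2) i j (Finset.mem_singleton_self _)
      · exact k1_row_cancel (fun a => by rw [(hlev g hg.1.1).2, if_neg hi]) j
  refine ⟨lev, V, hV1, hV2, fun g hg h hh => ?_, fun g hg => ⟨?_, hS g hg⟩, fun g hg => ?_, hW⟩
  · refine Units.ext ?_
    ext i j
    rw [(hlev _ (Subgroup.mul_mem _ hg.1.1 hh.1.1)).2, Units.val_mul, Units.val_mul, mul_apply,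
      mul_apply]
    simp only [(hlev g hg.1.1).2]
    split_ifs with hi
    · rw [← mul_apply, Matrix.one_mul, (hlev h hh.1.1).2, if_pos hi]
    · refine Finset.sum_congr rfl fun m _ => ?_
      rw [(hlev h hh.1.1).2]
      split_ifs with hm
      · rw [hg.2 i m hm, one_apply_ne (fun h : i = m => hi (h ▸ hm)), zero_mul, zero_mul]
      · rfl
  · have := Subgroup.mul_mem _ (Subgroup.inv_mem _ (hV1 (hW g hg)).1.1) hg.1.1
    simpa using this
  · refine Units.ext ?_
    ext i j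
    rw [(hlev g hg.1).2]
    split_ifs with hi
    · exact (hg.2 i j (Or.inl fun h => (Finset.mem_sdiff.1 h).2 hi)).symm
    · rfl

end Vale.Agent.P192
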