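import Vale.Agent.P192.SoundG
import Vale.Agent.P192.CompB
import Vale.Agent.P192.CleanB

/-! One level of the simulation: going up and going down. -/

namespace Vale.Agent.P192

open Sys

variable {N : ℕ}

theorem Sys.Sim.glue {X : Type} {S : Sys X} {a b c : ℕ} {f g1 g2 : ℕ → X} (hab : a ≤ b)
    (hbc : b ≤ c) (h1 : S.Sim a b f g1) (h2 : S.Sim b c f g2) :
    S.Sim a c f fun p => if p < b then g1 p else g2 p := by
  have e1 : S.Sim a c f (patch a b g1 f) := (h1.eqv_patch.mono le_rfl hbc).sim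
  refine e1.trans ?_
  have e2 : S.Sim b c (patch a b g1 f) (fun p => if p < b then g1 p else g2 p) := by
    refine (Sim.of_agree ?_).trans (h2.trans (Sim.of_agree ?_))
    · intro i x y
      have : ¬(a ≤ i ∧ i < b) := by omega
      simp [patch, this]
    · intro i x y
      have : ¬ i < b := by omega
      simp [this]
  refine e2.mono hab le_rfl ?_
  intro j x y z
  have h3 : j < b := by omega
  simp [patch, x, h3]

theorem liftW_cell (hN : 2 ≤ N) (o : ℕ) (V : Wd) (i : ℕ) {j : ℕ} (hj : j < N) :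
    liftW N o V (o + N * i + j) = lift N (V i) j := by
  unfold liftW
  have e : o + N * i + j - o = j + N * i := by omega
  rw [e, Nat.add_mul_div_left _ _ (by omega), Nat.add_mul_mod_self_left, Nat.div_eq_of_lt hj,
    Nat.mod_eq_of_lt hj, Nat.zero_add]

theorem liftW_pair (hN : 2 ≤ N) (o : ℕ) (V : Wd) (i : ℕ) :
    Agree 0 (2 * N) (fun j => liftW N o V (o + N * i + j))
      (cat N (lift N (V i)) (lift N (V (i + 1)))) := by
  intro j _ hj
  by_cases h : j < N
  · simp only [cat, h, if_true]; exact liftW_cell hN o V i h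
  · simp only [cat, h, if_false]
    have e : o + N * i + j = o + N * (i + 1) + (j - N) := by rw [Nat.mul_succ]; omega
    rw [e]; exact liftW_cell hN o V (i + 1) (by omega)

theorem pos_decomp (hN : 2 ≤ N) {o p : ℕ} (h : o ≤ p) :
    ∃ i j, j < N ∧ p = o + N * i + j :=
  ⟨(p - o) / N, (p - o) % N, Nat.mod_lt _ (by omega), by
    have := Nat.div_add_mod (p - o) N; omega⟩

theorem idx_lt {o i j a : ℕ} (h : o + N * i + j < o + N * a) : i < a := by
  by_contra hc
  have := Nat.mul_le_mul_left N (Nat.le_of_not_lt hc)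
  omega

theorem idx_le {o i j a : ℕ} (hj : j < N) (h : o + N * a ≤ o + N * i + j) : a ≤ i := by
  by_contra hc
  have := Nat.mul_le_mul_left N (Nat.succ_le_of_lt (Nat.lt_of_not_le hc))
  rw [Nat.mul_succ] at this
  omega

theorem liftW_agree (hN : 2 ≤ N) {o a b : ℕ} {V V' : Wd} (h : Agree a b V V') :
    Agree (o + N * a) (o + N * b) (liftW N o V) (liftW N o V') := by
  intro p h1 h2
  obtain ⟨i, j, hj, rfl⟩ := pos_decomp hN (o := o) (p := p) (by omega)
  rw [liftW_cell hN _ _ _ hj, liftW_cell hN _ _ _ hj, h i (idx_le hj h1) (idx_lt h2)]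

theorem zero_lift1 (hN : 2 ≤ N) {o a b i : ℕ} {V : Wd} (h1 : a ≤ i) (h2 : i < b)
    (h : Zero1 (2 ^ N) (V i)) : (sys N).Zero (o + N * a) (o + N * b) (liftW N o V) := by
  have h3 : (sys N).Zero (o + N * i + 0) (o + N * i + N) (liftW N o V) := by
    rw [zero_shift]
    exact (compZ1 hN h).congr fun j _ hj => (liftW_cell hN o V i hj).symm
  refine h3.mono ?_ ?_
  · have := Nat.mul_le_mul_left N h1; omega
  · have := Nat.mul_le_mul_left N (Nat.succ_le_of_lt h2); rw [Nat.mul_succ] at this; omega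

theorem pzero_lift (hN : 2 ≤ N) {o a b : ℕ} {V : Wd} (h : (sys (2 ^ N)).PZero a b V) :
    (sys N).Zero (o + N * a) (o + N * b) (liftW N o V) := by
  rcases h with ⟨i, h1, h2, h⟩ | ⟨i, h1, h2, h⟩
  · exact zero_lift1 hN h1 h2 h
  · have h3 : (sys N).Zero (o + N * i + 0) (o + N * i + 2 * N) (liftW N o V) := by
      rw [zero_shift]
      exact (compZ2 hN h).congr fun j x y => (liftW_pair hN o V i j x y).symm
    refine h3.mono ?_ ?_
    · have := Nat.mul_le_mul_left N h1; omega
    · have := Nat.mul_le_mul_left N (Nat.succ_le_of_lt h2)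
      rw [Nat.mul_succ, Nat.mul_succ] at this; omega

theorem step_lift (hN : 2 ≤ N) {o a b : ℕ} {V V' : Wd} (h : (sys (2 ^ N)).Step a b V V') :
    (sys N).Sim (o + N * a) (o + N * b) (liftW N o V) (liftW N o V') ∨
      ((sys N).Zero (o + N * a) (o + N * b) (liftW N o V) ∧
        (sys N).Zero (o + N * a) (o + N * b) (liftW N o V')) := by
  rcases h with ⟨i, h1, h2, h, hr⟩ | ⟨i, h1, h2, h, hr⟩
  · by_cases hx : InR (2 ^ N) (V i)
    · left
      have h3 : (sys N).Sim (o + N * i + 0) (o + N * i + N) (liftW N o V) (liftW N o V') := by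
        rw [sim_shift]
        exact (Sim.of_agree fun j _ hj => liftW_cell hN o V i hj).trans ((comp1 hN hx h).trans
          (Sim.of_agree fun j _ hj => (liftW_cell hN o V' i hj).symm))
      refine h3.mono ?_ ?_ ?_
      · have := Nat.mul_le_mul_left N h1; omega
      · have := Nat.mul_le_mul_left N (Nat.succ_le_of_lt h2); rw [Nat.mul_succ] at this; omega
      · intro p x y z
        obtain ⟨i', j, hj, rfl⟩ := pos_decomp hN (o := o) (p := p) (by omega)
        rw [liftW_cell hN _ _ _ hj, liftW_cell hN _ _ _ hj, hr i' (by rintro rfl; omega)]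
    · right
      exact ⟨zero_lift1 hN h1 h2 (zero1_of_not_inR hx),
        zero_lift1 hN h1 h2 (zero1_of_not_inR fun h' => hx ((Step1.inR h).2 h'))⟩
  · by_cases hx : InR (2 ^ N) (V i) ∧ InR (2 ^ N) (V (i + 1))
    · left
      have h3 : (sys N).Sim (o + N * i + 0) (o + N * i + 2 * N) (liftW N o V) (liftW N o V') := by
        rw [sim_shift]
        exact (Sim.of_agree (liftW_pair hN o V i)).trans ((comp2 hN hx.1 hx.2 h).trans
          (Sim.of_agree fun j x y => (liftW_pair hN o V' i j x y).symm))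
      refine h3.mono ?_ ?_ ?_
      · have := Nat.mul_le_mul_left N h1; omega
      · have := Nat.mul_le_mul_left N (Nat.succ_le_of_lt h2)
        rw [Nat.mul_succ, Nat.mul_succ] at this; omega
      · intro p x y z
        obtain ⟨i', j, hj, rfl⟩ := pos_decomp hN (o := o) (p := p) (by omega)
        rw [liftW_cell hN _ _ _ hj, liftW_cell hN _ _ _ hj,
          hr i' (by rintro rfl; omega) (by rintro rfl; rw [Nat.mul_succ] at z; omega)]
    · right
      have hx' : ¬(InR (2 ^ N) (V' i) ∧ InR (2 ^ N) (V' (i + 1))) :=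
        fun h' => hx ((Step2.inR h).2 h')
      constructor
      · rcases not_and_or.1 hx with h' | h'
        · exact zero_lift1 hN h1 (by omega) (zero1_of_not_inR h')
        · exact zero_lift1 hN (by omega) h2 (zero1_of_not_inR h')
      · rcases not_and_or.1 hx' with h' | h'
        · exact zero_lift1 hN h1 (by omega) (zero1_of_not_inR h')
        · exact zero_lift1 hN (by omega) h2 (zero1_of_not_inR h')

theorem eqv_lift (hN : 2 ≤ N) {o a b : ℕ} {V V' : Wd} (h : (sys (2 ^ N)).Eqv a b V V') :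
    (sys N).Sim (o + N * a) (o + N * b) (liftW N o V) (liftW N o V') ∨
      ((sys N).Zero (o + N * a) (o + N * b) (liftW N o V) ∧
        (sys N).Zero (o + N * a) (o + N * b) (liftW N o V')) := by
  induction h with
  | rel x y hxy => exact step_lift hN hxy
  | refl => exact Or.inl (Sim.refl _)
  | symm _ _ _ ih => exact ih.imp Sim.symm And.symm
  | trans _ _ _ _ _ ih1 ih2 =>
    rcases ih1 with ih1 | ih1 <;> rcases ih2 with ih2 | ih2
    · exact Or.inl (ih1.trans ih2)
    · exact Or.inr ⟨Zero.of_sim ih1 ih2.1, ih2.2⟩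
    · exact Or.inr ⟨ih1.1, Zero.of_sim ih2.symm ih1.2⟩
    · exact Or.inr ⟨ih1.1, ih2.2⟩

theorem zero_lift (hN : 2 ≤ N) {o a b : ℕ} {V : Wd} (h : (sys (2 ^ N)).Zero a b V) :
    (sys N).Zero (o + N * a) (o + N * b) (liftW N o V) := by
  obtain ⟨g, h1, h2⟩ := h
  rcases eqv_lift (o := o) hN h1 with h3 | h3
  · exact Zero.of_sim h3 (pzero_lift hN h2)
  · exact h3.1

theorem sim_lift (hN : 2 ≤ N) {o a b : ℕ} {V V' : Wd} (h : (sys (2 ^ N)).Sim a b V V')
    (hz : ¬(sys N).Zero (o + N * a) (o + N * b) (liftW N o V)) :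
    (sys N).Sim (o + N * a) (o + N * b) (liftW N o V) (liftW N o V') := by
  obtain ⟨g, h1, h2⟩ := h
  rcases eqv_lift (o := o) hN h1 with h3 | h3
  · exact h3.trans (Sim.of_agree (liftW_agree hN h2))
  · exact absurd h3.1 hz

theorem Shp.kpos_eq {C : Wd} {k : ℕ} (h : Shp N C k) : kpos C = k := P192.kpos_eq h.kR h.kK

theorem CV.shp {C : Wd} {k t : ℕ} {c : Core} (h : CV N C k t c) : Shp N C k :=
  ⟨h.hk, fun j hj => by simpa using ⟨h.first j hj, h.last j hj⟩, h.kR, h.kL, h.kK⟩

theorem cell_pair (o : ℕ) (f : Wd) (i : ℕ) :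
    Agree 0 (2 * N) (fun j => f (o + N * i + j)) (cat N (cell N o f i) (cell N o f (i + 1))) := by
  intro j _ hj
  by_cases h : j < N
  · simp only [cat, h, if_true, cell]
  · simp only [cat, h, if_false, cell]
    congr 1; rw [Nat.mul_succ]; omega

theorem nz_cell {o a b i : ℕ} {f : Wd} (hz : ¬(sys N).Zero (o + N * a) (o + N * b) f)
    (h1 : a ≤ i) (h2 : i < b) : ¬(sys N).Zero 0 N (cell N o f i) := by
  intro h
  refine hz (Zero.mono ((zero_shift (o + N * i)).2 h) ?_ ?_)
  · have := Nat.mul_le_mul_left N h1; omega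
  · have := Nat.mul_le_mul_left N (Nat.succ_le_of_lt h2); rw [Nat.mul_succ] at this; omega

theorem nz_pair {o a b i : ℕ} {f : Wd} (hz : ¬(sys N).Zero (o + N * a) (o + N * b) f)
    (h1 : a ≤ i) (h2 : i + 1 < b) :
    ¬(sys N).Zero 0 (2 * N) (cat N (cell N o f i) (cell N o f (i + 1))) := by
  intro h
  refine hz (Zero.mono ((zero_shift (o + N * i)).2
    (h.congr fun j x y => (cell_pair o f i j x y).symm)) ?_ ?_)
  · have := Nat.mul_le_mul_left N h1; omega
  · have := Nat.mul_le_mul_left N (Nat.succ_le_of_lt h2)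
    rw [Nat.mul_succ, Nat.mul_succ] at this; omega

theorem cls_pair (hN : 2 ≤ N) {o a b i : ℕ} {f : Wd}
    (hz : ¬(sys N).Zero (o + N * a) (o + N * b) f)
    (hs : ∀ i, a ≤ i → i < b → ∃ k, Shp N (cell N o f i) k) (h1 : a ≤ i) (h2 : i + 1 < b) :
    (keyOf (cell N o f i)).clsL = (keyOf (cell N o f (i + 1))).clsR := by
  obtain ⟨k, hk⟩ := hs i h1 (by omega)
  obtain ⟨k', hk'⟩ := hs (i + 1) (by omega) h2
  unfold keyOf
  rw [hk.kpos_eq, hk'.kpos_eq]
  exact clean_cls hN (nz_pair hz h1 h2) hk hk'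

theorem cleanG (hN : 2 ≤ N) {o b : ℕ} {f : Wd} (n : ℕ) : ∀ a, b - a ≤ n →
    ¬(sys N).Zero (o + N * a) (o + N * b) f →
    (∀ i, a ≤ i → i < b → ∃ k, Shp N (cell N o f i) k) →
    (a < b → (keyOf (cell N o f a)).clsR = 0) → (a < b → (keyOf (cell N o f (b - 1))).clsL = 0) →
    ∃ V, (sys N).Sim (o + N * a) (o + N * b) f (liftW N o V) := by
  induction n with
  | zero =>
    intro a hn _ _ _ _
    refine ⟨f, Sim.of_agree fun p x y => ?_⟩
    have := Nat.mul_le_mul_left N (show b ≤ a by omega)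
    omega
  | succ n ih =>
    intro a hn hz hs hl hr
    by_cases hab : a < b
    swap
    · refine ⟨f, Sim.of_agree fun p x y => ?_⟩
      have := Nat.mul_le_mul_left N (show b ≤ a by omega)
      omega
    obtain ⟨k, hk⟩ := hs a le_rfl hab
    have hkey : keyOf (cell N o f a) = (cell N o f a k).q.kf := by unfold keyOf; rw [hk.kpos_eq]
    by_cases hc : (keyOf (cell N o f a)).clsL = 0
    · obtain ⟨x, hx⟩ := clean1 hN (nz_cell hz le_rfl hab) hk (hkey ▸ hc) (hkey ▸ hl hab)
      have m1 : N * a ≤ N * (a + 1) := Nat.mul_le_mul_left N (by omega)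
      have m2 : N * (a + 1) ≤ N * b := Nat.mul_le_mul_left N (by omega)
      obtain ⟨V, hV⟩ := ih (a + 1) (by omega) (fun h => hz (h.mono (by omega) le_rfl))
        (fun i x y => hs i (by omega) y)
        (fun h => by rw [← cls_pair hN hz hs le_rfl h]; exact hc) (fun _ => hr hab)
      have h1 : (sys N).Sim (o + N * a) (o + N * (a + 1)) f
          (liftW N o (Function.update V a x)) := by
        have e : o + N * (a + 1) = o + N * a + N := by rw [Nat.mul_succ]; omega
        rw [e]
        refine (sim_shift (lo := 0) (o + N * a)).2 (hx.trans (Sim.of_agree fun j _ hj => ?_))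
        rw [liftW_cell hN _ _ _ hj, Function.update_self]
      have h2 : (sys N).Sim (o + N * (a + 1)) (o + N * b) f
          (liftW N o (Function.update V a x)) :=
        hV.trans (Sim.of_agree (liftW_agree hN fun i x y => by
          rw [Function.update_of_ne (by omega)]))
      have h3 := h1.glue (by omega) (by omega) h2
      simp only [ite_self] at h3
      exact ⟨_, h3⟩
    · have hab' : a + 1 < b := by
        by_contra h
        have e : b - 1 = a := by omega
        exact hc (e ▸ hr hab)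
      obtain ⟨k', hk'⟩ := hs (a + 1) (by omega) hab'
      obtain ⟨x, y, hx⟩ := clean2 hN (nz_pair hz le_rfl hab') hk hk' (hkey ▸ hc)
      have m1 : N * a ≤ N * (a + 2) := Nat.mul_le_mul_left N (by omega)
      have m2 : N * (a + 2) ≤ N * b := Nat.mul_le_mul_left N (by omega)
      have hc' : (keyOf (cell N o f (a + 1))).clsL = 0 := by
        rcases (keyOf (cell N o f (a + 1))).cls_zero with h | h
        · exact h
        · exact absurd ((cls_pair hN hz hs le_rfl hab').trans h) hc
      obtain ⟨V, hV⟩ := ih (a + 2) (by omega) (fun h => hz (h.mono (by omega) le_rfl))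
        (fun i x y => hs i (by omega) y)
        (fun h => by rw [← cls_pair hN hz hs (i := a + 1) (by omega) h]; exact hc')
        (fun _ => hr hab)
      have h1 : (sys N).Sim (o + N * a) (o + N * (a + 2)) f
          (liftW N o (Function.update (Function.update V a x) (a + 1) y)) := by
        have e : o + N * (a + 2) = o + N * a + 2 * N := by ring
        rw [e]
        refine (sim_shift (lo := 0) (o + N * a)).2 ((Sim.of_agree (cell_pair o f a)).trans
          (hx.trans (Sim.of_agree fun j u v => ?_)))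
        have e3 := liftW_pair hN o (Function.update (Function.update V a x) (a + 1) y) a j u v
        rw [Function.update_self, Function.update_of_ne (by omega), Function.update_self] at e3
        exact e3.symm
      have h2 : (sys N).Sim (o + N * (a + 2)) (o + N * b) f
          (liftW N o (Function.update (Function.update V a x) (a + 1) y)) :=
        hV.trans (Sim.of_agree (liftW_agree hN fun i x y => by
          rw [Function.update_of_ne (by omega), Function.update_of_ne (by omega)]))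
      have h3 := h1.glue (by omega) (by omega) h2
      simp only [ite_self] at h3
      exact ⟨_, h3⟩

theorem inR_of_nz {M a b : ℕ} {V : Wd} (h : ¬(sys M).Zero a b V) {i : ℕ} (h1 : a ≤ i)
    (h2 : i < b) : InR M (V i) := by
  by_contra hc
  exact h (zero1 h1 h2 (zero1_of_not_inR hc))

theorem up_core (hN : 2 ≤ N) {o a b : ℕ} (hab : a < b) {f : Wd}
    (hz : ¬(sys N).Zero (o + N * a) (o + N * b) f)
    (hs : ∀ i, a ≤ i → i < b → ∃ k, Shp N (cell N o f i) k)
    (hl : (keyOf (cell N o f a)).clsR = 0) (hr : (keyOf (cell N o f (b - 1))).clsL = 0) :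
    Valid N o a b f ∧ ¬(sys (2 ^ N)).Zero a b (Phi N o f) ∧
      (sys N).Sim (o + N * a) (o + N * b) f (liftW N o (Phi N o f)) := by
  obtain ⟨V, hV⟩ := cleanG hN (b - a) a le_rfl hz hs (fun _ => hl) (fun _ => hr)
  have h1 : ¬(sys N).Zero (o + N * a) (o + N * b) (liftW N o V) :=
    fun h => hz (Zero.of_sim hV h)
  have h2 : ¬(sys (2 ^ N)).Zero a b V := fun h => h1 (zero_lift hN h)
  obtain ⟨h3, h4⟩ := valid_liftW (o := o) hN hab fun i x y => inR_of_nz h2 x y
  have h5 : ¬(sys (2 ^ N)).Zero a b (Phi N o (liftW N o V)) := fun h => h2 (h.congr h4)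
  obtain ⟨h6, h7⟩ := sound_eqv hN hab h3 h5 hV.symm
  have h8 : (sys (2 ^ N)).Sim a b V (Phi N o f) := (Sim.of_agree h4).symm.trans h7
  exact ⟨h6, fun h => h5 (Zero.of_sim h7 h), hV.trans (sim_lift hN h8 h1)⟩

theorem to_lift (hN : 2 ≤ N) {o a b : ℕ} (hab : a < b) {f : Wd} (h : Valid N o a b f)
    (hz : ¬(sys (2 ^ N)).Zero a b (Phi N o f)) :
    (sys N).Sim (o + N * a) (o + N * b) f (liftW N o (Phi N o f)) :=
  (up_core hN hab (sound_nz hN hab h hz)
    (fun i x y => (h.cv i x y).elim fun _ ht => ⟨_, ht.shp⟩) h.ql h.qr).2.2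

theorem down (hN : 2 ≤ N) {o a b : ℕ} (hab : a < b) {f g : Wd} (hf : Valid N o a b f)
    (hg : Valid N o a b g) (hz : ¬(sys (2 ^ N)).Zero a b (Phi N o f))
    (h : (sys (2 ^ N)).Sim a b (Phi N o f) (Phi N o g)) :
    (sys N).Sim (o + N * a) (o + N * b) f g := by
  have h1 := to_lift hN hab hf hz
  have h2 := to_lift hN hab hg fun h' => hz (Zero.of_sim h h')
  exact h1.trans ((sim_lift hN h fun h' => sound_nz hN hab hf hz (Zero.of_sim h1 h')).trans h2.symm)

/-- The position of the first complete cell. -/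
noncomputable def off (f : Wd) : ℕ :=
  open Classical in if h : ∃ p, 1 < p ∧ (f p).q.first = true then Nat.find h else 0

theorem off_spec {hi : ℕ} {f : Wd} (hz : ¬(sys N).Zero 1 hi f) (h : N + 1 < hi) :
    2 ≤ off f ∧ off f ≤ N + 1 ∧ (f (off f)).q.first = true ∧
      ∀ p, 1 < p → p < off f → (f p).q.first = false := by
  classical
  obtain ⟨j, hj, hl⟩ := nz_last hz (s := 1) le_rfl (by omega)
  have h1 : (f (1 + j + 1)).q.first = true := by
    have := (nz_compat hz (i := 1 + j) (by omega) (by omega)).1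
    rw [← this]; exact hl
  have he : ∃ p, 1 < p ∧ (f p).q.first = true := ⟨1 + j + 1, by omega, h1⟩
  unfold off
  rw [dif_pos he]
  have h2 := Nat.find_spec he
  have h3 : Nat.find he ≤ 1 + j + 1 := Nat.find_min' he ⟨by omega, h1⟩
  refine ⟨h2.1, by omega, h2.2, fun p x y => ?_⟩
  have := Nat.find_min he y
  simpa [x] using this

theorem off_eq {f : Wd} {o : ℕ} (h1 : 2 ≤ o) (h2 : (f o).q.first = true)
    (h3 : ∀ p, 1 < p → p < o → (f p).q.first = false) : off f = o := by
  classical
  have he : ∃ p, 1 < p ∧ (f p).q.first = true := ⟨o, by omega, h2⟩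
  unfold off
  rw [dif_pos he, Nat.find_eq_iff]
  refine ⟨⟨by omega, h2⟩, fun p hp hc => ?_⟩
  rw [h3 p hc.1 hp] at hc
  exact absurd hc.2 (by simp)

/-- The end of the interval one level up. -/
noncomputable def upHi (N : ℕ) (f : Wd) (hi : ℕ) : ℕ := (hi - off f - 1) / N - 1

theorem up_auto (hN : 2 ≤ N) {hi B : ℕ} {f : Wd} (hz : ¬(sys N).Zero 1 hi f)
    (h : N * (B + 4) ≤ hi) (hB : 2 ≤ B) :
    B ≤ upHi N f hi ∧ ∃ a b, a ≤ 1 ∧ upHi N f hi ≤ b ∧ off f + N * b < hi ∧
      Valid N (off f) a b f ∧ ¬(sys (2 ^ N)).Zero a b (Phi N (off f) f) := by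
  have hm : N * (B + 4) = N * (B + 1) + 3 * N := by ring
  obtain ⟨o1, o2, o3, -⟩ := off_spec hz (by nlinarith)
  set o := off f with ho
  set K := (hi - o - 1) / N with hK
  have hK1 : B + 1 ≤ K := by
    rw [hK, Nat.le_div_iff_mul_le (by omega), Nat.mul_comm]; omega
  have hK2 : o + N * K < hi := by
    have := Nat.mul_div_le (hi - o - 1) N
    rw [← hK] at this
    have : N * (B + 1) ≥ 1 := Nat.mul_pos (by omega) (by omega)
    omega
  have hU : upHi N f hi = K - 1 := rfl
  have hz' : ¬(sys N).Zero (o + N * 0) (o + N * K) f :=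
    fun h' => hz (h'.mono (by omega) (by omega))
  have hs : ∀ i, 0 ≤ i → i < K → ∃ k, Shp N (cell N o f i) k := by
    intro i _ hi'
    have := Nat.mul_le_mul_left N (show i + 1 ≤ K from hi')
    obtain ⟨s1, s2⟩ := nz_struct hN hz (o := o) (by omega) o3 i (by omega)
    exact nz_shape hN (nz_cell hz' (Nat.zero_le _) hi') s1 s2
  obtain ⟨a, ha, hl⟩ : ∃ a, a ≤ 1 ∧ (keyOf (cell N o f a)).clsR = 0 := by
    by_cases h1 : (keyOf (cell N o f 1)).clsR = 0
    · exact ⟨1, le_rfl, h1⟩
    · refine ⟨0, by omega, ?_⟩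
      rcases (keyOf (cell N o f 0)).cls_zero with h2 | h2
      · exact absurd ((cls_pair hN hz' hs (i := 0) le_rfl (by omega)).symm.trans h2) h1
      · exact h2
  obtain ⟨b, hb1, hb2, hr⟩ : ∃ b, K - 1 ≤ b ∧ b ≤ K ∧ (keyOf (cell N o f (b - 1))).clsL = 0 := by
    by_cases h1 : (keyOf (cell N o f (K - 1 - 1))).clsL = 0
    · exact ⟨K - 1, le_rfl, by omega, h1⟩
    · refine ⟨K, by omega, le_rfl, ?_⟩
      rcases (keyOf (cell N o f (K - 1))).cls_zero with h2 | h2
      · exact h2
      · have e : K - 1 = K - 1 - 1 + 1 := by omega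
        rw [e] at h2
        exact absurd ((cls_pair hN hz' hs (i := K - 1 - 1) (by omega) (by omega)).trans h2) h1
  have m1 : N * b ≤ N * K := Nat.mul_le_mul_left N hb2
  obtain ⟨v1, v2, -⟩ := up_core hN (o := o) (a := a) (b := b) (by omega)
    (fun h' => hz' (h'.mono (by omega) (by omega))) (fun i x y => hs i (by omega) (by omega)) hl hr
  exact ⟨by omega, a, b, ha, by omega, by omega, v1, v2⟩

end Vale.Agent.P192
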