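import Vale.Agent.P192.Valid

/-! Bits, key moves and lane moves. -/

namespace Vale.Agent.P192

theorem bval_lt (l : List Bool) : bval l < 2 ^ l.length := by
  induction l with
  | nil => simp [bval]
  | cons β l ih =>
    simp only [bval, List.length_cons, pow_succ]
    cases β <;> simp <;> omega

theorem testBit_bval (l : List Bool) (j : ℕ) : (bval l).testBit j = l.getD j false := by
  induction l generalizing j with
  | nil => simp [bval]
  | cons β l ih =>
    cases j with
    | zero =>
      simp only [bval, Nat.testBit_zero, List.getD_cons_zero]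
      cases β <;> simp
    | succ j =>
      have : (β.toNat + 2 * bval l) / 2 = bval l := by cases β <;> simp <;> omega
      simp only [bval, Nat.testBit_succ, this, ih, List.getD_cons_succ]

theorem bval_testBit (N n : ℕ) (h : n < 2 ^ N) : bval ((List.range N).map n.testBit) = n := by
  apply Nat.eq_of_testBit_eq
  intro j
  rw [testBit_bval]
  by_cases hj : j < N
  · simp [List.getD, hj]
  · have : n.testBit j = false :=
      Nat.testBit_lt_two_pow (lt_of_lt_of_le h (Nat.pow_le_pow_right (by norm_num) (by omega)))
    simp [List.getD, hj, this]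

theorem bval_inj {l l' : List Bool} (h : l.length = l'.length) (e : bval l = bval l') : l = l' := by
  apply List.ext_getElem h
  intro j h1 h2
  have := testBit_bval l j
  rw [e, testBit_bval] at this
  simpa [List.getD, h1, h2] using this.symm

theorem mv_filterMap_full {α : Type} (L : List α) {v : α → Option Bool} (h : ∀ j ∈ L, v j ≠ none) :
    L.filterMap v = L.map fun j => (v j).getD false := by
  induction L with
  | nil => rfl
  | cons a L ih =>
    have h1 := h a (by simp)
    obtain ⟨β, hβ⟩ := Option.ne_none_iff_exists'.1 h1
    rw [List.filterMap_cons_some hβ, ih fun j hj => h j (by simp [hj])]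
    simp [hβ]

theorem filterMap_full {N : ℕ} {v : ℕ → Option Bool} (h : ∀ j < N, v j ≠ none) :
    (List.range N).filterMap v = (List.range N).map fun j => (v j).getD false :=
  mv_filterMap_full _ fun j hj => h j (by simpa using hj)

theorem filterMap_length_le (N : ℕ) (v : ℕ → Option Bool) :
    ((List.range N).filterMap v).length ≤ N := by
  simpa using List.length_filterMap_le v (List.range N)

theorem mv_full_of_length {α : Type} (L : List α) {v : α → Option Bool}
    (h : (L.filterMap v).length = L.length) : ∀ j ∈ L, v j ≠ none := by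
  induction L with
  | nil => simp
  | cons a L ih =>
    have h1 := List.length_filterMap_le v L
    cases ha : v a with
    | none =>
      rw [List.filterMap_cons_none ha] at h
      simp only [List.length_cons] at h
      omega
    | some β =>
      rw [List.filterMap_cons_some ha] at h
      simp only [List.length_cons, Nat.add_right_cancel_iff] at h
      intro j hj
      rcases List.mem_cons.1 hj with rfl | hj
      · simp [ha]
      · exact ih h j hj

theorem full_of_length {N : ℕ} {v : ℕ → Option Bool}
    (h : ((List.range N).filterMap v).length = N) : ∀ j < N, v j ≠ none :=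
  fun j hj => mv_full_of_length (List.range N) (by rw [h, List.length_range]) j (by simpa using hj)

theorem filterMap_eq_nil {N : ℕ} {v : ℕ → Option Bool} :
    (List.range N).filterMap v = [] ↔ ∀ j < N, v j = none := by
  simp [List.filterMap_eq_nil_iff]

/-- Moving a bit to an adjacent hole does not change the list of bits. -/
theorem filterMap_move {N p : ℕ} (hp : p + 1 < N) {v v' : ℕ → Option Bool}
    (h1 : v' p = v (p + 1)) (h2 : v' (p + 1) = v p) (h3 : v p = none ∨ v (p + 1) = none)
    (h : ∀ j < N, j ≠ p → j ≠ p + 1 → v' j = v j) :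
    (List.range N).filterMap v' = (List.range N).filterMap v := by
  obtain ⟨m, rfl⟩ : ∃ m, N = p + (2 + m) := ⟨N - p - 2, by omega⟩
  rw [List.range_eq_range', ← List.range'_append_1, ← List.range'_append_1]
  simp only [List.filterMap_append, zero_add]
  congr 1
  · exact List.filterMap_congr fun j hj => by
      rw [List.mem_range'_1] at hj
      exact h j (by omega) (by omega) (by omega)
  · congr 1
    · simp only [List.range'_succ, List.range'_zero, List.filterMap_cons, h1, h2]
      rcases h3 with h3 | h3 <;> rw [h3] <;> simp
    · exact List.filterMap_congr fun j hj => by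
        rw [List.mem_range'_1] at hj
        exact h j (by omega) (by omega) (by omega)

theorem place_self {s N k : ℕ} {w : Wd} (hR : ∀ j < k, (w (s + j)).q.kf = .R)
    (hL : ∀ j < N, k < j → (w (s + j)).q.kf = .L) : place s N k (w (s + k)).q.kf w = w := by
  funext p
  unfold place
  split_ifs with h1 h2 h3
  · obtain ⟨j, rfl⟩ : ∃ j, p = s + j := ⟨p - s, by omega⟩
    rw [← hR j (by omega)]
  · subst h3
    rfl
  · obtain ⟨j, rfl⟩ : ∃ j, p = s + j := ⟨p - s, by omega⟩
    rw [← hL j (by omega) (by omega)]
  · rfl

theorem mv_place_at {s N k : ℕ} (hk : k < N) (m : KF Pay) (w : Wd) :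
    place s N k m w (s + k) = { w (s + k) with q := { (w (s + k)).q with kf := m } } := by
  simp [place, hk]

theorem mv_place_left {s N k : ℕ} (hk : k + 1 < N) (m : KF Pay) (w : Wd) :
    place s N (k + 1) m w (s + k) = { w (s + k) with q := { (w (s + k)).q with kf := .R } } := by
  have : k < N := by omega
  simp [place, this]

theorem mv_place_right {s N k : ℕ} (hk : k + 1 < N) (m : KF Pay) (w : Wd) :
    place s N k m w (s + k + 1) =
      { w (s + k + 1) with q := { (w (s + k + 1)).q with kf := .L } } := by
  have h1 : s ≤ s + k + 1 ∧ s + k + 1 < s + N := by omega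
  have h2 : ¬ s + k + 1 < s + k := by omega
  have h3 : ¬ s + k + 1 = s + k := by omega
  simp only [place, h1, h2, h3, and_self, if_true, if_false]

theorem mv_place_other {s N k : ℕ} (m m' : KF Pay) (w : Wd) {j : ℕ} (h1 : j ≠ s + k)
    (h2 : j ≠ s + k + 1) : place s N (k + 1) m w j = place s N k m' w j := by
  unfold place
  split_ifs <;> first | rfl | omega

theorem mv_one {M s N k : ℕ} {w : Wd} (h : FL s N w) (hk : k + 1 < N) (t : Tag) :
    (sys M).Step s (s + N)
      (Function.update (place s N k (.sm t) w) (s + k)
        { w (s + k) with q := src t { (w (s + k)).q with kf := .R } })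
      (place s N (k + 1) (.sm t) w) := by
  refine Or.inr ⟨s + k, by omega, by omega, ?_, fun j h1 h2 => ?_⟩
  · rw [Function.update_self, Function.update_of_ne (by omega), mv_place_left hk,
      mv_place_right hk, show s + k + 1 = s + (k + 1) from rfl, mv_place_at hk]
    have hl : (w (s + k)).q.last = false := by rw [(h k (by omega)).2]; simp; omega
    have hf : (w (s + (k + 1))).q.first = false := by rw [(h (k + 1) hk).1]; simp
    exact Step2.mk (κ := .mvS) (q := { (w (s + k)).q with kf := .R })
      (r := { (w (s + (k + 1))).q with kf := .L }) (p := .tag t) ⟨hl, rfl⟩ ⟨hf, rfl⟩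
      (fun h => nomatch h)
  · rw [Function.update_of_ne h1]
    exact mv_place_other _ _ _ h1 h2

theorem mv_sm {M s N k k' : ℕ} {w : Wd} (h : FL s N w) (hk : k ≤ k') (hk' : k' < N) (t : Tag)
    (ht : ∀ j, k ≤ j → j < k' → src t { (w (s + j)).q with kf := .R } = (w (s + j)).q.key t) :
    (sys M).Eqv s (s + N) (place s N k (.sm t) w) (place s N k' (.sm t) w) := by
  induction k', hk using Nat.le_induction with
  | base => exact Sys.Eqv.refl _
  | succ j hj ih =>
    refine (ih (by omega) fun i h1 h2 => ht i h1 (by omega)).trans ?_
    have := mv_one (M := M) h hk' t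
    rw [ht j hj (by omega), Function.update_eq_self_iff.2] at this
    · exact this.eqv
    · rw [mv_place_at (by omega)]
      rfl

theorem mv_one_fu {M s N k : ℕ} {w : Wd} (h : FL s N w) (hk : k + 1 < N) (pt : PTag) (p : Pay) :
    (sys M).Step s (s + N) (place s N k (.fu pt p) w) (place s N (k + 1) (.fu pt p) w) := by
  refine Or.inr ⟨s + k, by omega, by omega, ?_, fun j h1 h2 => mv_place_other _ _ _ h1 h2⟩
  rw [mv_place_left hk, mv_place_right hk, show s + k + 1 = s + (k + 1) from rfl, mv_place_at hk,
    mv_place_at (by omega)]
  have hl : (w (s + k)).q.last = false := by rw [(h k (by omega)).2]; simp; omega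
  have hf : (w (s + (k + 1))).q.first = false := by rw [(h (k + 1) hk).1]; simp
  exact Step2.mk (κ := .mvP pt) (q := { (w (s + k)).q with kf := .R })
    (r := { (w (s + (k + 1))).q with kf := .L }) (p := p) ⟨hl, rfl⟩ ⟨hf, rfl⟩
    (fun h => nomatch h)

theorem mv_fu {M s N k k' : ℕ} {w : Wd} (h : FL s N w) (hk : k < N) (hk' : k' < N) (pt : PTag)
    (p : Pay) : (sys M).Eqv s (s + N) (place s N k (.fu pt p) w) (place s N k' (.fu pt p) w) := by
  have key : ∀ j < N, (sys M).Eqv s (s + N) (place s N 0 (.fu pt p) w) (place s N j (.fu pt p) w) := by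
    intro j
    induction j with
    | zero => exact fun _ => Sys.Eqv.refl _
    | succ j ih => exact fun hj => (ih (by omega)).trans (mv_one_fu h hj pt p).eqv
  exact (key k hk).symm.trans (key k' hk')

theorem mv_pull {r : (ℕ → Option Bool) → (ℕ → Option Bool) → Prop} (n : ℕ) : ∀ (a : ℕ)
    (_ : ∀ v p β, a ≤ p → p + 1 < a + (n + 1) → v p = some β → v (p + 1) = none →
      r v (Function.update (Function.update v p none) (p + 1) (some β)))
    (v : ℕ → Option Bool) (β : Bool) (l : List Bool), v a = none →
    (List.range' (a + 1) n).filterMap v = β :: l →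
    ∃ v', Relation.EqvGen r v v' ∧ v' a = some β ∧ (List.range' (a + 1) n).filterMap v' = l ∧
      ∀ p, (p < a ∨ a + (n + 1) ≤ p) → v' p = v p := by
  induction n with
  | zero => intro a _ v β l _ h; simp at h
  | succ n ih =>
    intro a hr v β l ha h
    have last : ∀ u : ℕ → Option Bool, u a = none → u (a + 1) = some β →
        (List.range' (a + 1 + 1) n).filterMap u = l →
        ∃ v', Relation.EqvGen r u v' ∧ v' a = some β ∧
          (List.range' (a + 1) (n + 1)).filterMap v' = l ∧
          ∀ p, (p < a ∨ a + (n + 1 + 1) ≤ p) → v' p = u p := by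
      intro u h0 h1 h2
      refine ⟨Function.update (Function.update u (a + 1) none) a (some β), ?_, by simp, ?_, ?_⟩
      · refine Relation.EqvGen.symm _ _ (Relation.EqvGen.rel _ _ ?_)
        have := hr (Function.update (Function.update u (a + 1) none) a (some β)) a β le_rfl
          (by omega) (by simp) (by simp)
        convert this using 1
        funext p
        by_cases e1 : p = a + 1
        · simp [e1, h1]
        · by_cases e2 : p = a
          · simp [e2, h0]
          · simp [e1, e2]
      · rw [List.range'_succ, List.filterMap_cons_none (by simp), ← h2]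
        refine List.filterMap_congr fun j hj => ?_
        rw [List.mem_range'_1] at hj
        rw [Function.update_of_ne (by omega), Function.update_of_ne (by omega)]
      · intro p hp
        rw [Function.update_of_ne (by omega), Function.update_of_ne (by omega)]
    rw [List.range'_succ] at h
    cases h1 : v (a + 1) with
    | some γ =>
      rw [List.filterMap_cons_some h1, List.cons.injEq] at h
      exact last v ha (h.1 ▸ h1) h.2
    | none =>
      rw [List.filterMap_cons_none h1] at h
      obtain ⟨u, e1, e2, e3, e4⟩ := ih (a + 1)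
        (fun v p β h1 h2 => hr v p β (by omega) (by omega)) v β l h1 h
      obtain ⟨v', f1, f2, f3, f4⟩ := last u ((e4 a (by omega)).trans ha) e2 e3
      exact ⟨v', Relation.EqvGen.trans _ _ _ e1 f1, f2, f3,
        fun p hp => (f4 p hp).trans (e4 p (by omega))⟩

theorem mv_gen {r : (ℕ → Option Bool) → (ℕ → Option Bool) → Prop} (n : ℕ) : ∀ (a : ℕ)
    (_ : ∀ v p β, a ≤ p → p + 1 < a + n → v p = some β → v (p + 1) = none →
      r v (Function.update (Function.update v p none) (p + 1) (some β)))
    (v v' : ℕ → Option Bool), (∀ p, (p < a ∨ a + n ≤ p) → v p = v' p) →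
    (List.range' a n).filterMap v = (List.range' a n).filterMap v' → Relation.EqvGen r v v' := by
  induction n with
  | zero =>
    intro a _ v v' ho _
    have : v = v' := funext fun p => ho p (by omega)
    rw [this]
    exact Relation.EqvGen.refl _
  | succ n ih =>
    intro a hr v v' ho hf
    have same : ∀ u u' : ℕ → Option Bool, (∀ p, (p < a ∨ a + (n + 1) ≤ p) → u p = u' p) →
        u a = u' a → (List.range' (a + 1) n).filterMap u = (List.range' (a + 1) n).filterMap u' →
        Relation.EqvGen r u u' := by
      intro u u' h1 h2 h3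
      refine ih (a + 1) (fun v p β h1 h2 => hr v p β (by omega) (by omega)) u u' (fun p hp => ?_) h3
      by_cases e : p = a
      · rw [e, h2]
      · exact h1 p (by omega)
    have diff : ∀ (u u' : ℕ → Option Bool) (β : Bool),
        (∀ p, (p < a ∨ a + (n + 1) ≤ p) → u p = u' p) → u a = none → u' a = some β →
        (List.range' (a + 1) n).filterMap u = β :: (List.range' (a + 1) n).filterMap u' →
        Relation.EqvGen r u u' := by
      intro u u' β h1 h2 h3 h4
      obtain ⟨w, e1, e2, e3, e4⟩ := mv_pull n a hr u β _ h2 h4
      exact Relation.EqvGen.trans _ _ _ e1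
        (same w u' (fun p hp => (e4 p hp).trans (h1 p hp)) (e2.trans h3.symm) e3)
    rw [List.range'_succ] at hf
    cases h1 : v a with
    | none =>
      cases h2 : v' a with
      | none =>
        rw [List.filterMap_cons_none h1, List.filterMap_cons_none h2] at hf
        exact same v v' ho (h1.trans h2.symm) hf
      | some β =>
        rw [List.filterMap_cons_none h1, List.filterMap_cons_some h2] at hf
        exact diff v v' β ho h1 h2 hf
    | some β =>
      cases h2 : v' a with
      | none =>
        rw [List.filterMap_cons_some h1, List.filterMap_cons_none h2] at hf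
        exact Relation.EqvGen.symm _ _ (diff v' v β (fun p hp => (ho p hp).symm) h2 h1 hf.symm)
      | some γ =>
        rw [List.filterMap_cons_some h1, List.filterMap_cons_some h2, List.cons.injEq] at hf
        exact same v v' ho (by rw [h1, h2, hf.1]) hf.2

theorem lane_gen {r : (ℕ → Option Bool) → (ℕ → Option Bool) → Prop} (a b : ℕ)
    (hr : ∀ v p β, a ≤ p → p + 1 < b → v p = some β → v (p + 1) = none →
      r v (Function.update (Function.update v p none) (p + 1) (some β)))
    {v v' : ℕ → Option Bool} (ho : ∀ p, (p < a ∨ b ≤ p) → v p = v' p)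
    (hf : (List.range' a (b - a)).filterMap v = (List.range' a (b - a)).filterMap v') :
    Relation.EqvGen r v v' :=
  mv_gen (b - a) a (fun v p β h1 h2 => hr v p β h1 (by omega)) v v'
    (fun p hp => ho p (by omega)) hf

/-- the general form of a lane move -/
theorem mv_lane {M a b : ℕ} (put : (ℕ → Option Bool) → Wd)
    (hput : ∀ v v' p, (a ≤ p → p < b → v p = v' p) → put v p = put v' p)
    (hstep : ∀ v v' p β, a ≤ p → p + 1 < b → v p = some β → v (p + 1) = none → v' p = none →
      v' (p + 1) = some β → Step2 (put v p) (put v (p + 1)) (put v' p) (put v' (p + 1)))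
    {v v' : ℕ → Option Bool}
    (hf : (List.range' a (b - a)).filterMap v = (List.range' a (b - a)).filterMap v') :
    (sys M).Eqv a b (put v) (put v') := by
  let u : ℕ → Option Bool := fun p => if a ≤ p ∧ p < b then v' p else v p
  have hu : put u = put v' := funext fun p => hput _ _ p fun h1 h2 => by simp [u, h1, h2]
  have := lane_gen (r := fun v v' => (sys M).Step a b (put v) (put v')) a b
    (fun v p β h1 h2 h3 h4 => Or.inr ⟨p, h1, h2,
      hstep _ _ p β h1 h2 h3 h4 (by simp) (by simp),
      fun j e1 e2 => hput _ _ j fun _ _ => by simp [e1, e2]⟩) (v := v) (v' := u)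
    (fun p hp => by
      have : ¬(a ≤ p ∧ p < b) := by omega
      simp [u, this])
    (hf.trans (List.filterMap_congr fun j hj => by
      rw [List.mem_range'_1] at hj
      have : a ≤ j ∧ j < b := by omega
      simp [u, this]))
  rw [← hu]
  clear hf hu
  generalize u = u' at this
  induction this with
  | rel _ _ h => exact h.eqv
  | refl => exact Sys.Eqv.refl _
  | symm _ _ _ ih => exact ih.symm
  | trans _ _ _ _ _ ih1 ih2 => exact ih1.trans ih2

theorem mv_lm (l : Lane) (x y : Ent) (β : Bool) (hx : x.q.last = false) (hy : y.q.first = false)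
    (hu : l = .u → ¬y.q.kf.isKey) :
    Step2 { x with q := x.q.setL l (some β) } { y with q := y.q.setL l none }
      { x with q := x.q.setL l none } { y with q := y.q.setL l (some β) } := by
  have := Step2.mk (κ := .lm l) (q := x.q.setL l none) (r := y.q.setL l none) (p := .bit β)
    (a := x.a) (n := x.n) (oc := x.oc) (a' := y.a) (n' := y.n) (oc' := y.oc)
    ⟨by simpa using hx, by simp⟩ ⟨by simpa using hy, by simp, by simpa using hu⟩
    (fun h => nomatch h)
  simpa [unext, ins, da, dn] using this

theorem mv_cross (t : Trk) (x y : Ent) (β : Bool) (hx : x.q.last = true) (hy : y.q.first = true)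
    (hk : y.q.kf = .sm (.opnR (some t))) :
    Step2 { x with q := x.q.setL .u (some β) } { y with q := y.q.setL t.lane none }
      { x with q := x.q.setL .u none } { y with q := y.q.setL t.lane (some β) } := by
  have := Step2.mk (κ := .cross t) (q := x.q.setL .u none) (r := y.q.setL t.lane none)
    (p := .bit β) (a := x.a) (n := x.n) (oc := x.oc) (a' := y.a) (n' := y.n) (oc' := y.oc)
    ⟨by simpa using hx, by simp⟩ ⟨by simpa using hy, by simpa using hk, by simp⟩
    (fun h => nomatch h)
  simpa [unext, ins, da, dn] using this

theorem lane_cell {M a b : ℕ} {w : Wd} (l : Lane) (h : Sib w a (b - 1))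
    (hu : l = .u → ∀ p, a < p → p < b → ¬(w p).q.kf.isKey) {v v' : ℕ → Option Bool}
    (hf : (List.range' a (b - a)).filterMap v = (List.range' a (b - a)).filterMap v') :
    (sys M).Eqv a b (putL l a b w v) (putL l a b w v') := by
  refine mv_lane (putL l a b w) (fun v v' p hp => ?_) (fun v v' p β h1 h2 h3 h4 h5 h6 => ?_) hf
  · unfold putL
    split_ifs with h1
    · rw [hp h1.1 h1.2]
    · rfl
  · have e1 : a ≤ p ∧ p < b := by omega
    have e2 : a ≤ p + 1 ∧ p + 1 < b := by omega
    simp only [putL, e1, e2, and_self, if_true, h3, h4, h5, h6]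
    exact mv_lm l _ _ β (h p h1 (by omega)).1 (h p h1 (by omega)).2
      (fun hl => hu hl _ (by omega) h2)

theorem mv_putP_left {N : ℕ} (t : Trk) (w : Wd) (v : ℕ → Option Bool) {p : ℕ} (hp : p < N) :
    putP N t w v p = { w p with q := (w p).q.setL .u (v p) } := by
  have e1 : ¬(N ≤ p ∧ p < 2 * N) := by omega
  simp [putP, putL, e1, hp]

theorem mv_putP_right {N : ℕ} (t : Trk) (w : Wd) (v : ℕ → Option Bool) {p : ℕ} (hp : N ≤ p)
    (hp' : p < 2 * N) : putP N t w v p = { w p with q := (w p).q.setL t.lane (v p) } := by
  have e1 : ¬p < N := by omega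
  simp [putP, putL, e1, hp, hp']

theorem lane_pair {M N : ℕ} {w : Wd} (t : Trk) (h1 : FL 0 N w) (h2 : FL N N w)
    (hu : ∀ p, 0 < p → p < N → ¬(w p).q.kf.isKey) (hk : (w N).q.kf = .sm (.opnR (some t)))
    {v v' : ℕ → Option Bool}
    (hf : (List.range (2 * N)).filterMap v = (List.range (2 * N)).filterMap v') :
    (sys M).Eqv 0 (2 * N) (putP N t w v) (putP N t w v') := by
  refine mv_lane (putP N t w) (fun v v' p hp => ?_) (fun v v' p β e1 e2 h3 h4 h5 h6 => ?_)
    (by simpa [List.range_eq_range'] using hf)
  · by_cases e1 : p < N
    · rw [mv_putP_left t w v e1, mv_putP_left t w v' e1, hp (by omega) (by omega)]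
    · by_cases e2 : p < 2 * N
      · rw [mv_putP_right t w v (by omega) e2, mv_putP_right t w v' (by omega) e2,
          hp (by omega) e2]
      · simp [putP, putL, e1, e2]
  · rcases lt_trichotomy (p + 1) N with c | c | c
    · rw [mv_putP_left t w v c, mv_putP_left t w v' c, mv_putP_left t w v (by omega),
        mv_putP_left t w v' (by omega), h3, h4, h5, h6]
      have a1 := (h1 p (by omega)).2
      have a2 := (h1 (p + 1) c).1
      rw [zero_add] at a1 a2
      exact mv_lm .u _ _ β (by rw [a1]; simp; omega) (by rw [a2]; simp)
        (fun _ => hu _ (by omega) c)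
    · rw [mv_putP_right t w v c.ge e2, mv_putP_right t w v' c.ge e2, mv_putP_left t w v (by omega),
        mv_putP_left t w v' (by omega), h3, h4, h5, h6]
      have a1 := (h1 p (by omega)).2
      have a2 := (h2 0 (by omega)).1
      rw [zero_add] at a1
      rw [add_zero, ← c] at a2
      exact mv_cross t _ _ β (by rw [a1]; simp [c]) (by rw [a2]; simp) (by rw [c]; exact hk)
    · rw [mv_putP_right t w v c.le e2, mv_putP_right t w v' c.le e2,
        mv_putP_right t w v (by omega) (by omega), mv_putP_right t w v' (by omega) (by omega),
        h3, h4, h5, h6]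
      obtain ⟨j, rfl⟩ : ∃ j, p = N + j := ⟨p - N, by omega⟩
      have a1 := (h2 j (by omega)).2
      have a2 := (h2 (j + 1) (by omega)).1
      exact mv_lm t.lane _ _ β (by rw [a1]; simp; omega) (by rw [← add_assoc] at a2; rw [a2]; simp)
        (fun hl => by cases t <;> exact nomatch hl)

end Vale.Agent.P192
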