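import Vale.Agent.P192.St

/-! Ring maps from a homogeneously presented ring into its matrix rings (for `Vanish`). -/

namespace Vale.Agent.P192

open Matrix

variable {X R : Type} [Ring R]

theorem vn_charP (L : Loc R) : CharP R 2 :=
  haveI : Nontrivial R := L.ε.domain_nontrivial
  CharTwo.of_one_ne_zero_of_two_eq_zero one_ne_zero L.two

/-- The ring map from `ZMod 2`. -/
noncomputable def vnC (L : Loc R) : ZMod 2 →+* R :=
  haveI := vn_charP L
  ZMod.castHom (dvd_refl 2) R

theorem vn_zmod (z : ZMod 2) : z = 0 ∨ z = 1 := by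
  revert z; decide

theorem vnC_comm (L : Loc R) (z : ZMod 2) (r : R) : vnC L z * r = r * vnC L z := by
  rcases vn_zmod z with h | h <;> simp [h]

theorem vn_eps_C (L : Loc R) (z : ZMod 2) : L.ε (vnC L z) = z := by
  rcases vn_zmod z with h | h <;> simp [h]

theorem vn_ext (P : Pres X R) {S : Type} [Ring S] (f g : R →+* S)
    (h : ∀ x, f (P.gen x) = g (P.gen x)) (a : R) : f a = g a := by
  refine P.ind (fun a => f a = g a) (by simp) (by simp) h ?_ ?_ a
  · intro a b ha hb
    rw [map_add, map_add, ha, hb]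
  · intro a b ha hb
    rw [map_mul, map_mul, ha, hb]

section
variable {κ : Type} [Fintype κ] [DecidableEq κ]

/-- A matrix over `ZMod 2` viewed over `R`. -/
noncomputable def vnM (L : Loc R) : Matrix κ κ (ZMod 2) →+* Matrix κ κ R := (vnC L).mapMatrix

theorem vnM_apply (L : Loc R) (M : Matrix κ κ (ZMod 2)) (i j : κ) :
    vnM L M i j = vnC L (M i j) := rfl

theorem vnM_comm (L : Loc R) (M : Matrix κ κ (ZMod 2)) (r : R) :
    scalar κ r * vnM L M = vnM L M * scalar κ r := by
  ext i j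
  rw [scalar_apply, diagonal_mul, mul_diagonal, vnM_apply, vnC_comm]

theorem vn_prod (P : Pres X R) (L : Loc R) (M : Matrix κ κ (ZMod 2)) (u : List X) :
    (u.map fun x => vnM L M * scalar κ (P.gen x)).prod =
      vnM L (M ^ u.length) * scalar κ (u.map P.gen).prod := by
  induction u with
  | nil => simp
  | cons x u ih =>
    rw [List.map_cons, List.prod_cons, ih, List.map_cons, List.prod_cons, List.length_cons,
      pow_succ', map_mul, map_mul, Matrix.mul_assoc, Matrix.mul_assoc,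
      ← Matrix.mul_assoc (scalar κ (P.gen x)), vnM_comm, Matrix.mul_assoc]

theorem vn_exists_rho (P : Pres X R) (L : Loc R) (M : Matrix κ κ (ZMod 2)) :
    ∃ f : R →+* Matrix κ κ R, ∀ x, f (P.gen x) = vnM L M * scalar κ (P.gen x) := by
  refine P.univ (Matrix κ κ R) _ ?_ ?_ ?_
  · have : (2 : Matrix κ κ R) = scalar κ (2 : R) := (map_ofNat _ 2).symm
    rw [this, L.two, map_zero]
  · intro p hp
    rw [vn_prod, vn_prod, P.lenE p hp, P.hE p hp]
  · intro u hu
    rw [vn_prod, P.hZ u hu, map_zero, Matrix.mul_zero]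

/-- The ring map twisting the generators by a matrix over `ZMod 2`. -/
noncomputable def vnRho (P : Pres X R) (L : Loc R) (M : Matrix κ κ (ZMod 2)) :
    R →+* Matrix κ κ R := Classical.choose (vn_exists_rho P L M)

theorem vnRho_gen (P : Pres X R) (L : Loc R) (M : Matrix κ κ (ZMod 2)) (x : X) :
    vnRho P L M (P.gen x) = vnM L M * scalar κ (P.gen x) :=
  Classical.choose_spec (vn_exists_rho P L M) x

theorem vnRho_gen_apply (P : Pres X R) (L : Loc R) (M : Matrix κ κ (ZMod 2)) (x : X) (i j : κ) :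
    vnRho P L M (P.gen x) i j = vnC L (M i j) * P.gen x := by
  rw [vnRho_gen, scalar_apply, mul_diagonal, vnM_apply]

theorem vnRho_eps (P : Pres X R) (L : Loc R) (hε : ∀ x, L.ε (P.gen x) = 0)
    (M : Matrix κ κ (ZMod 2)) (a : R) (i j : κ) :
    L.ε (vnRho P L M a i j) = if i = j then L.ε a else 0 := by
  have h := vn_ext P (L.ε.mapMatrix.comp (vnRho P L M)) ((scalar κ).comp L.ε) (by
    intro x
    ext i j
    simp only [RingHom.comp_apply, RingHom.mapMatrix_apply, map_apply, vnRho_gen_apply, map_mul,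
      hε, mul_zero, map_zero, Matrix.zero_apply]) a
  have h2 := congrFun (congrFun h i) j
  simpa only [RingHom.comp_apply, RingHom.mapMatrix_apply, map_apply, scalar_apply,
    diagonal_apply] using h2

theorem vnRho_zero (P : Pres X R) (L : Loc R) (hε : ∀ x, L.ε (P.gen x) = 0) (a : R) :
    vnRho P L (0 : Matrix κ κ (ZMod 2)) a = scalar κ (vnC L (L.ε a)) :=
  vn_ext P (vnRho P L 0) ((scalar κ).comp ((vnC L).comp L.ε)) (by
    intro x
    simp [vnRho_gen, hε]) a

theorem vnRho_one (P : Pres X R) (L : Loc R) (a : R) :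
    vnRho P L (1 : Matrix κ κ (ZMod 2)) a = scalar κ a :=
  vn_ext P (vnRho P L 1) (scalar κ) (by
    intro x
    rw [vnRho_gen, map_one, Matrix.one_mul]) a

theorem vnRho_conj (P : Pres X R) (L : Loc R) {S M M' : Matrix κ κ (ZMod 2)}
    (h : S * M = M' * S) (a : R) : vnM L S * vnRho P L M a = vnRho P L M' a * vnM L S := by
  refine P.ind (fun a => vnM L S * vnRho P L M a = vnRho P L M' a * vnM L S) (by simp) (by simp)
    ?_ ?_ ?_ a
  · intro x
    rw [vnRho_gen, vnRho_gen, ← Matrix.mul_assoc, ← map_mul, h, map_mul, Matrix.mul_assoc,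
      Matrix.mul_assoc, vnM_comm]
  · intro a b ha hb
    rw [map_add, map_add, Matrix.mul_add, Matrix.add_mul, ha, hb]
  · intro a b ha hb
    rw [map_mul, map_mul, ← Matrix.mul_assoc, ha, Matrix.mul_assoc, hb, Matrix.mul_assoc]

theorem vnRho_block (P : Pres X R) (L : Loc R) (p : κ → Prop) [DecidablePred p]
    {M M' : Matrix κ κ (ZMod 2)} (h1 : ∀ i j, ¬p i → p j → M i j = 0)
    (h2 : ∀ i j, M' i j = if p i ∧ ¬p j then 0 else M i j) (a : R) :
    (∀ i j, ¬p i → p j → vnRho P L M a i j = 0) ∧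
      ∀ i j, vnRho P L M' a i j = if p i ∧ ¬p j then 0 else vnRho P L M a i j := by
  refine P.ind (fun a => (∀ i j, ¬p i → p j → vnRho P L M a i j = 0) ∧
      ∀ i j, vnRho P L M' a i j = if p i ∧ ¬p j then 0 else vnRho P L M a i j) (by simp) ?_
    ?_ ?_ ?_ a
  · refine ⟨fun i j hi hj => ?_, fun i j => ?_⟩
    · rw [map_one, one_apply_ne]
      rintro rfl
      exact hi hj
    · rw [map_one, map_one]
      split_ifs with h
      · rw [one_apply_ne]
        rintro rfl
        exact h.2 h.1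
      · rfl
  · intro x
    refine ⟨fun i j hi hj => ?_, fun i j => ?_⟩
    · rw [vnRho_gen_apply, h1 i j hi hj, map_zero, zero_mul]
    · rw [vnRho_gen_apply, vnRho_gen_apply, h2]
      split_ifs <;> simp
  · rintro a b ⟨ha1, ha2⟩ ⟨hb1, hb2⟩
    refine ⟨fun i j hi hj => ?_, fun i j => ?_⟩
    · rw [map_add, Matrix.add_apply, ha1 i j hi hj, hb1 i j hi hj, add_zero]
    · rw [map_add, map_add, Matrix.add_apply, Matrix.add_apply, ha2, hb2]
      split_ifs <;> simp
  · rintro a b ⟨ha1, ha2⟩ ⟨hb1, hb2⟩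
    refine ⟨fun i j hi hj => ?_, fun i j => ?_⟩
    · rw [map_mul, mul_apply]
      refine Finset.sum_eq_zero fun k _ => ?_
      by_cases hk : p k
      · rw [ha1 i k hi hk, zero_mul]
      · rw [hb1 k j hk hj, mul_zero]
    · rw [map_mul, map_mul, mul_apply, mul_apply]
      split_ifs with h
      · refine Finset.sum_eq_zero fun k _ => ?_
        rw [ha2, hb2]
        by_cases hk : p k
        · rw [if_pos (⟨hk, h.2⟩ : p k ∧ ¬p j), mul_zero]
        · rw [if_pos (⟨h.1, hk⟩ : p i ∧ ¬p k), zero_mul]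
      · refine Finset.sum_congr rfl fun k _ => ?_
        rw [ha2, hb2]
        by_cases hi : p i <;> by_cases hj : p j <;> by_cases hk : p k
        · simp [hi, hj, hk]
        · simp [hi, hj, hk, hb1 k j hk hj]
        · exact absurd ⟨hi, hj⟩ h
        · exact absurd ⟨hi, hj⟩ h
        · simp [hi, hj, hk]
        · simp [hi, hj, hk]
        · simp [hi, hj, hk, ha1 i k hi hk]
        · simp [hi, hj, hk]

end

/-- The path shift. -/
def vnP (m : ℕ) : Matrix (Fin m) (Fin m) (ZMod 2) :=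
  fun i j => if (j : ℕ) = i + 1 then 1 else 0

/-- The cyclic shift. -/
def vnT (m : ℕ) : Matrix (Fin m) (Fin m) (ZMod 2) :=
  fun i j => vnP m i j + if (i : ℕ) + 1 = m ∧ (j : ℕ) = 0 then 1 else 0

/-- The Pascal matrix. -/
def vnS (m : ℕ) : Matrix (Fin m) (Fin m) (ZMod 2) :=
  fun i j => ((i : ℕ).choose j : ZMod 2)

theorem vnS_det (m : ℕ) : (vnS m).det ≠ 0 := by
  rw [det_of_isLowerTriangular]
  · simp [vnS]
  · intro i j hij
    have : (i : ℕ) < j := hij
    simp [vnS, Nat.choose_eq_zero_of_lt this]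

theorem vnS_mul (m : ℕ) (i j : Fin m) :
    (vnS m * (1 + vnP m)) i j = (((i : ℕ) + 1).choose j : ZMod 2) := by
  rw [Matrix.mul_add, Matrix.mul_one, Matrix.add_apply, mul_apply]
  rcases j with ⟨j, hj⟩
  rcases j with _ | j
  · simp [vnS, vnP]
  · rw [Finset.sum_eq_single (⟨j, by omega⟩ : Fin m)]
    · simp only [vnS, vnP, if_true, mul_one, Nat.choose_succ_succ, Nat.cast_add]
      rw [add_comm]
    · intro k _ hk
      have : ¬(j + 1 = (k : ℕ) + 1) := fun h => hk (Fin.ext (by simp only; omega))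
      simp only [vnP, if_neg this, mul_zero]
    · simp

theorem vnT_mul (N : ℕ) (i j : Fin (2 ^ N)) :
    (vnT (2 ^ N) * vnS (2 ^ N)) i j = (((i : ℕ) + 1).choose j : ZMod 2) := by
  rw [mul_apply]
  by_cases hi : (i : ℕ) + 1 = 2 ^ N
  · rw [Finset.sum_eq_single (⟨0, by positivity⟩ : Fin (2 ^ N))]
    · simp only [vnT, vnP, vnS, hi, and_self, if_true]
      rw [if_neg (by positivity : (2 : ℕ) ^ N ≠ 0).symm, zero_add, one_mul]
      rcases j with ⟨j, hj⟩
      rcases j with _ | j
      · simp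
      · have := Nat.prime_two.dvd_choose_pow (n := N) (k := j + 1) (by omega) (by omega)
        rw [(ZMod.natCast_eq_zero_iff _ _).2 this]
        simp
    · intro k _ hk
      have h1 : ¬((k : ℕ) = i + 1) := by have := k.2; omega
      have h2 : (k : ℕ) ≠ 0 := fun h => hk (Fin.ext h)
      simp [vnT, vnP, h1, h2]
    · simp
  · rw [Finset.sum_eq_single (⟨i + 1, by have := i.2; omega⟩ : Fin (2 ^ N))]
    · simp [vnT, vnP, vnS, hi]
    · intro k _ hk
      have h1 : ¬((k : ℕ) = i + 1) := fun h => hk (Fin.ext h)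
      simp [vnT, vnP, h1, hi]
    · simp

theorem vnS_conj (N : ℕ) :
    vnS (2 ^ N) * (1 + vnP (2 ^ N)) = vnT (2 ^ N) * vnS (2 ^ N) := by
  ext i j
  rw [vnS_mul, vnT_mul]

/-- Bounded band width, uniformly in the size. -/
def VnBand (P : Pres X R) (L : Loc R) (a : R) (D : ℕ) : Prop :=
  ∀ m : ℕ, (∀ i j : Fin m, (i : ℕ) + D < j → vnRho P L (vnP m) a i j = 0) ∧
    ∀ i j : Fin m, ((i : ℕ) + D < m ∨ D ≤ (j : ℕ)) →
      vnRho P L (vnT m) a i j = vnRho P L (vnP m) a i j

theorem VnBand.mono {P : Pres X R} {L : Loc R} {a : R} {D D' : ℕ} (h : VnBand P L a D)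
    (hD : D ≤ D') : VnBand P L a D' := fun m =>
  ⟨fun i j hij => (h m).1 i j (by omega), fun i j hij => (h m).2 i j (by omega)⟩

theorem vn_band (P : Pres X R) (L : Loc R) (a : R) : ∃ D, VnBand P L a D := by
  refine P.ind (fun a => ∃ D, VnBand P L a D) ⟨0, fun m => by simp⟩ ⟨0, fun m => ?_⟩ ?_ ?_ ?_ a
  · refine ⟨fun i j hij => ?_, fun i j _ => by rw [map_one, map_one]⟩
    rw [map_one, one_apply_ne]
    rintro rfl
    omega
  · intro x
    refine ⟨1, fun m => ⟨fun i j hij => ?_, fun i j hij => ?_⟩⟩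
    · rw [vnRho_gen_apply, vnP, if_neg (by omega), map_zero, zero_mul]
    · rw [vnRho_gen_apply, vnRho_gen_apply, vnT, if_neg (by omega), add_zero]
  · rintro a b ⟨D1, h1⟩ ⟨D2, h2⟩
    refine ⟨D1 + D2, fun m => ⟨fun i j hij => ?_, fun i j hij => ?_⟩⟩
    · rw [map_add, Matrix.add_apply, (h1 m).1 i j (by omega), (h2 m).1 i j (by omega), add_zero]
    · rw [map_add, map_add, Matrix.add_apply, Matrix.add_apply, (h1 m).2 i j (by omega),
        (h2 m).2 i j (by omega)]
  · rintro a b ⟨D1, h1⟩ ⟨D2, h2⟩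
    refine ⟨D1 + D2, fun m => ⟨fun i j hij => ?_, fun i j hij => ?_⟩⟩
    · rw [map_mul, mul_apply]
      refine Finset.sum_eq_zero fun k _ => ?_
      by_cases hk : (i : ℕ) + D1 < k
      · rw [(h1 m).1 i k hk, zero_mul]
      · rw [(h2 m).1 k j (by omega), mul_zero]
    · rw [map_mul, map_mul, mul_apply, mul_apply]
      refine Finset.sum_congr rfl fun k _ => ?_
      rcases hij with hij | hij
      · rw [(h1 m).2 i k (by omega)]
        by_cases hk : (i : ℕ) + D1 < k
        · rw [(h1 m).1 i k hk, zero_mul, zero_mul]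
        · rw [(h2 m).2 k j (by omega)]
      · rw [(h2 m).2 k j (by omega)]
        by_cases hk : (k : ℕ) + D2 < j
        · rw [(h2 m).1 k j hk, mul_zero, mul_zero]
        · rw [(h1 m).2 i k (by omega)]

end Vale.Agent.P192
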