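import Vale.Agent.P192.Stab
import Vale.Agent.P192.VanishAux

/-! Vanishing of invariant canonical cocycles (Frobenius and Verschiebung).

PROOF PLAN. For `M : Matrix (Fin m) (Fin m) (ZMod 2)` get from `P.univ` a ring hom
`ρ M : R →+* Matrix (Fin m) (Fin m) R`, `gen x ↦ (M.map cast) * scalar (gen x)` (`cast : ZMod 2 →+* R`
is central; relations are homogeneous). `ε (ρ M a i j) = ε a * (1 i j)` (by `P.ind`). Let
`Φ M : (Matrix (Fin 5) (Fin 5) R)ˣ →* (Matrix ι ι R)ˣ`, `ι = Fin 5 × Fin m`, from `mapMatrix` and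
`Matrix.compRingEquiv`. It maps `el i j r` into `allX el` (and into `Gam` if `ε r = 0`), so `Gam`
into `Gam`. Take `c` from `stab`, `cM M := c (Φ M x) (Φ M y)`.
(1) If `M i j = 0` whenever `i > t ≥ j`, and `M'` is `M` with the entries `i ≤ t < j` removed, then
`cM M = cM M'` (`P.ind`: `ρ M a` has the same zero block and `ρ M' a` is its block diagonal part;
`IsCan.abel` with `exists_block` for rows `l ≤ t`, columns `l > t`). So for upper triangular `M`,
`cM M = cM (diagonal part)`. `cM 0 = 0` (`Φ 0 x = 1` on `Gam`), `cM 1 = m * c0 x y` (`Φ 1 x` is the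
product of the commuting `extU (i ↦ (i, l)) x`; `IsCan.prod`).
(2) `cM (S * M * S⁻¹) = cM M` for `S` invertible over `ZMod 2`: `ρ` is conjugated; the elements of
`allX el` preserving `c` under conjugation form a subgroup containing all `el a b 1`; use
`Matrix.diagonal_transvection_induction_of_det_ne_zero` (or write the Pascal matrix as a product).
(3) `m = 2 ^ N`, `T` the cyclic shift (`T i j = 1` iff `j = i + 1 mod m`), `S i j = choose i j`,
`T * S = S * J` with `J = 1 + ` path shift (`Nat.Prime.dvd_choose_pow`), `S` lower unitriangular.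
(4) `T'` the path shift (`T' i j = 1` iff `j = i + 1` in `ℕ`). For every `a : R` there is `D` with,
for all `m`: `ρ T' a i j = 0` unless `i ≤ j ≤ i + D`, and `(ρ T a - ρ T' a) i j = 0` unless
`m ≤ i + D` and `j < D` (`P.ind`; for `m` small relative to `D` allow the statement to hold trivially
or only claim it for `m > 2 D`). `x`, `y`, `x y` have finite order, so finitely many entries of
their powers occur; for `m > 4 D + 2` all `Φ T w * (Φ T' w)⁻¹` lie in the block subgroup rows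
`l ≥ m / 2`, columns `l < m / 2`; `IsCan.abel` gives `cM T = cM T'`.
Hence `m * c0 x y = cM 1 = cM J = cM T = cM T' = cM 0 = 0`. -/

namespace Vale.Agent.P192

open Matrix

variable {X R : Type} [Ring R]

section
variable {ι : Type} [Fintype ι] [DecidableEq ι]

theorem vn_el_zero (i j : ι) : el i j (0 : R) = 1 := by
  by_cases h : i = j
  · simp [el, h]
  · exact Units.ext (by rw [el_val h]; simp)

theorem vn_blockprod (A B : ι → Prop) (hAB : ∀ i, A i → ¬B i) (H : Subgroup (Matrix ι ι R)ˣ)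
    (n : Matrix ι ι R) (hn : ∀ i j, ¬(A i ∧ B j) → n i j = 0)
    (hH : ∀ i j, i ≠ j → el i j (n i j) ∈ H) : ∃ u ∈ H, (u : Matrix ι ι R) = 1 + n := by
  have key : ∀ s : Finset (ι × ι), ∃ u ∈ H,
      (u : Matrix ι ι R) = 1 + ∑ p ∈ s, single p.1 p.2 (n p.1 p.2) := by
    intro s
    induction s using Finset.induction_on with
    | empty => exact ⟨1, H.one_mem, by simp⟩
    | insert p s hp ih =>
      obtain ⟨u, hu, hv⟩ := ih
      rw [Finset.sum_insert hp]
      by_cases h0 : n p.1 p.2 = 0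
      · exact ⟨u, hu, by rw [hv, h0]; simp⟩
      · have hp2 : A p.1 ∧ B p.2 := by
          by_contra h
          exact h0 (hn _ _ h)
        have hne : p.1 ≠ p.2 := fun h => hAB _ hp2.1 (h ▸ hp2.2)
        refine ⟨u * el p.1 p.2 (n p.1 p.2), H.mul_mem hu (hH _ _ hne), ?_⟩
        have hz : (∑ q ∈ s, single q.1 q.2 (n q.1 q.2)) * single p.1 p.2 (n p.1 p.2) =
            (0 : Matrix ι ι R) := by
          rw [Finset.sum_mul]
          refine Finset.sum_eq_zero fun q _ => ?_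
          by_cases hq : n q.1 q.2 = 0
          · rw [hq]; simp
          · have hq2 : A q.1 ∧ B q.2 := by
              by_contra h
              exact hq (hn _ _ h)
            have hne2 : q.2 ≠ p.1 := fun h => hAB _ hp2.1 (h ▸ hq2.2)
            exact single_mul_single_of_ne _ _ _ _ hne2 _
        rw [Units.val_mul, hv, el_val hne, add_mul, mul_add, mul_add, hz]
        simp only [Matrix.one_mul, Matrix.mul_one, add_zero, add_assoc]
  obtain ⟨u, hu, hv⟩ := key Finset.univ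
  refine ⟨u, hu, ?_⟩
  rw [hv, Fintype.sum_prod_type]
  exact congrArg _ (matrix_eq_sum_single n).symm

theorem vn_el_allX {i j : ι} (h : i ≠ j) (r : R) : el i j r ∈ allX (el (ι := ι) (R := R)) :=
  Subgroup.subset_closure ⟨i, j, r, h, rfl⟩

/-- Elementary matrices whose conjugation preserves a cocycle. -/
def vnStab (L : Loc R) (c : (Matrix ι ι R)ˣ → (Matrix ι ι R)ˣ → ℚ) : Subgroup (Matrix ι ι R)ˣ where
  carrier := {u | u ∈ allX (el (ι := ι) (R := R)) ∧
    ∀ x ∈ Gam L ι, ∀ y ∈ Gam L ι, c (u * x * u⁻¹) (u * y * u⁻¹) = c x y}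
  one_mem' := ⟨Subgroup.one_mem _, fun x _ y _ => by simp⟩
  mul_mem' := by
    rintro u v ⟨hu, hu2⟩ ⟨hv, hv2⟩
    refine ⟨Subgroup.mul_mem _ hu hv, fun x hx y hy => ?_⟩
    have e : ∀ z : (Matrix ι ι R)ˣ, u * v * z * (u * v)⁻¹ = u * (v * z * v⁻¹) * u⁻¹ := by
      intro z; group
    rw [e, e, hu2 _ (relN_conj L.ε hv hx) _ (relN_conj L.ε hv hy), hv2 x hx y hy]
  inv_mem' := by
    rintro u ⟨hu, hu2⟩
    have hi := Subgroup.inv_mem _ hu
    refine ⟨hi, fun x hx y hy => ?_⟩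
    have e : ∀ z : (Matrix ι ι R)ˣ, u * (u⁻¹ * z * u⁻¹⁻¹) * u⁻¹ = z := by
      intro z; group
    rw [← hu2 _ (relN_conj L.ε hi hx) _ (relN_conj L.ε hi hy), e, e]

theorem vn_mem_block (L : Loc R) (A B : Finset ι) (C : ι → Prop) (V : Subgroup (Matrix ι ι R)ˣ)
    (hV : ∀ g : (Matrix ι ι R)ˣ, Cong L (g : Matrix ι ι R) →
      (∀ i j, ¬(i ∈ A ∧ j ∈ B) → (g : Matrix ι ι R) i j = (1 : Matrix ι ι R) i j) → g ∈ V)
    {g g' : (Matrix ι ι R)ˣ} (hg : g ∈ Gam L ι) (hg' : g' ∈ Gam L ι)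
    (h1 : ∀ i j, ¬(i ∈ A ∧ C j) → (g : Matrix ι ι R) i j = (g' : Matrix ι ι R) i j)
    (h2 : ∀ i j, C i → j ∉ B → ((g'⁻¹ : (Matrix ι ι R)ˣ) : Matrix ι ι R) i j = 0) :
    g * g'⁻¹ ∈ V := by
  refine hV _ (cong_of_mem L (Subgroup.mul_mem _ hg (Subgroup.inv_mem _ hg'))) fun i j hij => ?_
  rw [← Units.mul_inv g', Units.val_mul, mul_apply, mul_apply]
  refine Finset.sum_congr rfl fun k _ => ?_
  by_cases hk : i ∈ A ∧ C k
  · rw [h2 k j hk.2 (fun hj => hij ⟨hk.1, hj⟩), mul_zero, mul_zero]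
  · rw [h1 i k hk]

end

section
variable {κ : Type} [Fintype κ] [DecidableEq κ]

/-- Entrywise substitution followed by flattening. -/
def vnF (ρ : R →+* Matrix κ κ R) :
    Matrix (Fin 5) (Fin 5) R →+* Matrix (Fin 5 × κ) (Fin 5 × κ) R :=
  (compRingEquiv (Fin 5) κ R).toRingHom.comp ρ.mapMatrix

theorem vnF_apply (ρ : R →+* Matrix κ κ R) (x : Matrix (Fin 5) (Fin 5) R) (p q : Fin 5 × κ) :
    vnF ρ x p q = ρ (x p.1 q.1) p.2 q.2 := rfl

/-- The map on units. -/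
def vnU (ρ : R →+* Matrix κ κ R) :
    (Matrix (Fin 5) (Fin 5) R)ˣ →* (Matrix (Fin 5 × κ) (Fin 5 × κ) R)ˣ :=
  Units.map (vnF ρ).toMonoidHom

theorem vnU_val (ρ : R →+* Matrix κ κ R) (x : (Matrix (Fin 5) (Fin 5) R)ˣ) :
    (vnU ρ x : Matrix (Fin 5 × κ) (Fin 5 × κ) R) = vnF ρ x := rfl

theorem vnU_el (ρ : R →+* Matrix κ κ R) {a b : Fin 5} (hab : a ≠ b) (r : R)
    (H : Subgroup (Matrix (Fin 5 × κ) (Fin 5 × κ) R)ˣ)
    (hH : ∀ p q : Fin 5 × κ, p ≠ q → el p q (ρ r p.2 q.2) ∈ H) : vnU ρ (el a b r) ∈ H := by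
  obtain ⟨u, hu, hv⟩ := vn_blockprod (fun p : Fin 5 × κ => p.1 = a) (fun p => p.1 = b)
    (fun p h1 h2 => hab (h1.symm.trans h2)) H (vnF ρ (single a b r)) (by
      intro p q h
      rw [vnF_apply, single_apply_of_ne _ _ _ _ _ (fun h' => h ⟨h'.1.symm, h'.2.symm⟩), map_zero]
      rfl) (by
      intro p q hpq
      rw [vnF_apply]
      by_cases h : a = p.1 ∧ b = q.1
      · rw [← h.1, ← h.2, single_apply_same]
        exact hH p q hpq
      · rw [single_apply_of_ne _ _ _ _ _ h, map_zero, Matrix.zero_apply, vn_el_zero]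
        exact H.one_mem)
  have : vnU ρ (el a b r) = u := Units.ext (by rw [vnU_val, el_val hab, map_add, map_one, hv])
  rw [this]
  exact hu

theorem vnU_allX (ρ : R →+* Matrix κ κ R) {h : (Matrix (Fin 5) (Fin 5) R)ˣ}
    (hh : h ∈ allX (el (ι := Fin 5) (R := R))) :
    vnU ρ h ∈ allX (el (ι := Fin 5 × κ) (R := R)) := by
  have : allX (el (ι := Fin 5) (R := R)) ≤ (allX (el (ι := Fin 5 × κ) (R := R))).comap (vnU ρ) := by
    rw [allX, Subgroup.closure_le]
    rintro g ⟨i, j, r, hij, rfl⟩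
    exact vnU_el ρ hij r _ fun p q hpq => vn_el_allX hpq _
  exact this hh

theorem vnU_gam (L : Loc R) (ρ : R →+* Matrix κ κ R)
    (hρ : ∀ r, L.ε r = 0 → ∀ i j, L.ε (ρ r i j) = 0) {x : (Matrix (Fin 5) (Fin 5) R)ˣ}
    (hx : x ∈ Gam L (Fin 5)) : vnU ρ x ∈ Gam L (Fin 5 × κ) := by
  have : Gam L (Fin 5) ≤ (Gam L (Fin 5 × κ)).comap (vnU ρ) := by
    rw [Gam, relN, Subgroup.closure_le]
    rintro g ⟨h, hh, i, j, a, hij, ha, rfl⟩
    change vnU ρ (h * el i j a * h⁻¹) ∈ Gam L (Fin 5 × κ)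
    rw [map_mul, map_mul, map_inv]
    exact relN_conj L.ε (vnU_allX ρ hh)
      (vnU_el ρ hij a _ fun p q hpq => el_mem L hpq (hρ a ha _ _))
  exact this hx

theorem vnRho_gam (P : Pres X R) (L : Loc R) (hε : ∀ x, L.ε (P.gen x) = 0)
    (M : Matrix κ κ (ZMod 2)) {x : (Matrix (Fin 5) (Fin 5) R)ˣ} (hx : x ∈ Gam L (Fin 5)) :
    vnU (vnRho P L M) x ∈ Gam L (Fin 5 × κ) :=
  vnU_gam L _ (fun r hr i j => by rw [vnRho_eps P L hε, hr, ite_self]) hx

/-- The Kronecker product with the identity. -/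
noncomputable def vnK (L : Loc R) :
    Matrix κ κ (ZMod 2) →+* Matrix (Fin 5 × κ) (Fin 5 × κ) R :=
  (compRingEquiv (Fin 5) κ R).toRingHom.comp ((scalar (Fin 5)).comp (vnM L))

theorem vnK_apply (L : Loc R) (S : Matrix κ κ (ZMod 2)) (p q : Fin 5 × κ) :
    vnK L S p q = if p.1 = q.1 then vnC L (S p.2 q.2) else 0 := by
  change (diagonal fun _ : Fin 5 => vnM L S) p.1 q.1 p.2 q.2 = _
  rw [diagonal_apply]
  split_ifs <;> rfl

theorem vnK_conj (P : Pres X R) (L : Loc R) {S M M' : Matrix κ κ (ZMod 2)} (h : S * M = M' * S)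
    (x : Matrix (Fin 5) (Fin 5) R) :
    vnK L S * vnF (vnRho P L M) x = vnF (vnRho P L M') x * vnK L S := by
  change compRingEquiv (Fin 5) κ R (scalar (Fin 5) (vnM L S)) *
      compRingEquiv (Fin 5) κ R (x.map (vnRho P L M)) =
    compRingEquiv (Fin 5) κ R (x.map (vnRho P L M')) *
      compRingEquiv (Fin 5) κ R (scalar (Fin 5) (vnM L S))
  rw [← map_mul, ← map_mul]
  refine congrArg _ ?_
  refine Matrix.ext fun a b => ?_
  rw [scalar_apply, diagonal_mul, mul_diagonal, map_apply, map_apply, vnRho_conj P L h]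

theorem vnK_stab (L : Loc R) (c : (Matrix (Fin 5 × κ) (Fin 5 × κ) R)ˣ →
      (Matrix (Fin 5 × κ) (Fin 5 × κ) R)ˣ → ℚ) (hi : ElInv L (Fin 5 × κ) c)
    (S : Matrix κ κ (ZMod 2)) (hS : S.det ≠ 0) :
    ∃ u ∈ vnStab L c, (u : Matrix (Fin 5 × κ) (Fin 5 × κ) R) = vnK L S := by
  refine diagonal_transvection_induction_of_det_ne_zero
    (fun S => ∃ u ∈ vnStab L c, (u : Matrix (Fin 5 × κ) (Fin 5 × κ) R) = vnK L S) S hS ?_ ?_ ?_
  · intro D hD
    have : diagonal D = 1 := by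
      rw [det_diagonal, Finset.prod_ne_zero_iff] at hD
      rw [← diagonal_one]
      refine congrArg _ (funext fun i => ?_)
      exact (vn_zmod (D i)).resolve_left (hD i (Finset.mem_univ i))
    exact ⟨1, Subgroup.one_mem _, by rw [this, map_one, Units.val_one]⟩
  · rintro ⟨i, j, hij, z⟩
    obtain ⟨u, hu, hv⟩ := vn_blockprod (fun p : Fin 5 × κ => p.2 = i) (fun p => p.2 = j)
      (fun p h1 h2 => hij (h1.symm.trans h2)) (vnStab L c) (vnK L (single i j z)) (by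
        intro p q h
        rw [vnK_apply, single_apply_of_ne _ _ _ _ _ (fun h' => h ⟨h'.1.symm, h'.2.symm⟩), map_zero,
          ite_self]) (by
        intro p q hpq
        have : vnK L (single i j z) p q = 0 ∨ vnK L (single i j z) p q = 1 := by
          rw [vnK_apply]
          split_ifs
          · rcases vn_zmod (single i j z p.2 q.2) with h | h <;> simp [h]
          · exact Or.inl rfl
        rcases this with h | h
        · rw [h, vn_el_zero]
          exact Subgroup.one_mem _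
        · rw [h]
          exact ⟨vn_el_allX hpq _, hi p q hpq⟩)
    refine ⟨u, hu, ?_⟩
    rw [hv, TransvectionStruct.toMatrix_mk, transvection, map_add, map_one]
  · rintro A B - - ⟨u, hu, hA⟩ ⟨v, hv, hB⟩
    exact ⟨u * v, Subgroup.mul_mem _ hu hv, by rw [Units.val_mul, hA, hB, map_mul]⟩

theorem vn_similar (P : Pres X R) (L : Loc R) (hε : ∀ x, L.ε (P.gen x) = 0)
    (c : (Matrix (Fin 5 × κ) (Fin 5 × κ) R)ˣ → (Matrix (Fin 5 × κ) (Fin 5 × κ) R)ˣ → ℚ)
    (hi : ElInv L (Fin 5 × κ) c) {S M M' : Matrix κ κ (ZMod 2)} (hS : S.det ≠ 0)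
    (h : S * M = M' * S) {x y : (Matrix (Fin 5) (Fin 5) R)ˣ} (hx : x ∈ Gam L (Fin 5))
    (hy : y ∈ Gam L (Fin 5)) :
    c (vnU (vnRho P L M') x) (vnU (vnRho P L M') y) =
      c (vnU (vnRho P L M) x) (vnU (vnRho P L M) y) := by
  obtain ⟨u, hu, hv⟩ := vnK_stab L c hi S hS
  have e : ∀ z, vnU (vnRho P L M') z = u * vnU (vnRho P L M) z * u⁻¹ := by
    intro z
    rw [eq_mul_inv_iff_mul_eq]
    exact Units.ext (by rw [Units.val_mul, Units.val_mul, hv, vnU_val, vnU_val, vnK_conj P L h])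
  rw [e, e]
  exact hu.2 _ (vnRho_gam P L hε M hx) _ (vnRho_gam P L hε M hy)

theorem vn_abel (P : Pres X R) (L : Loc R) (hε : ∀ x, L.ε (P.gen x) = 0)
    (c : (Matrix (Fin 5 × κ) (Fin 5 × κ) R)ˣ → (Matrix (Fin 5 × κ) (Fin 5 × κ) R)ˣ → ℚ)
    (hc : IsCan (Gam L (Fin 5 × κ)) c) (M M' : Matrix κ κ (ZMod 2)) (A B C : κ → Prop)
    (hAB : ∀ i, A i → ¬B i) (Q : R → Prop)
    (hQ1 : ∀ r, Q r → ∀ i j, ¬(A i ∧ C j) → vnRho P L M r i j = vnRho P L M' r i j)
    (hQ2 : ∀ r, Q r → ∀ i j, C i → ¬B j → vnRho P L M' r i j = 0)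
    {x y : (Matrix (Fin 5) (Fin 5) R)ˣ} (hx : x ∈ Gam L (Fin 5)) (hy : y ∈ Gam L (Fin 5))
    (hQ : ∀ z, (z = x ∨ z = y ∨ z = x * y) → ∀ k : ℕ, ∀ a b,
      Q (((z ^ k : (Matrix (Fin 5) (Fin 5) R)ˣ) : Matrix (Fin 5) (Fin 5) R) a b) ∧
      Q ((((z ^ k)⁻¹ : (Matrix (Fin 5) (Fin 5) R)ˣ) : Matrix (Fin 5) (Fin 5) R) a b)) :
    c (vnU (vnRho P L M) x) (vnU (vnRho P L M) y) =
      c (vnU (vnRho P L M') x) (vnU (vnRho P L M') y) := by
  classical
  obtain ⟨V, hV1, hV2, hV3⟩ := exists_block L (Finset.univ.filter fun p : Fin 5 × κ => A p.2)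
    (Finset.univ.filter fun p : Fin 5 × κ => B p.2) (by
      rw [Finset.disjoint_filter]
      intro p _ h
      exact hAB _ h)
  have key : ∀ z, (z = x ∨ z = y ∨ z = x * y) → ∀ k : ℕ,
      vnU (vnRho P L M) z ^ k * (vnU (vnRho P L M') z ^ k)⁻¹ ∈ V := by
    intro z hz k
    have hzG : z ^ k ∈ Gam L (Fin 5) := by
      refine Subgroup.pow_mem _ ?_ k
      rcases hz with rfl | rfl | rfl
      · exact hx
      · exact hy
      · exact Subgroup.mul_mem _ hx hy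
    rw [← map_pow, ← map_pow]
    refine vn_mem_block L _ _ (fun p => C p.2) V hV3 (vnRho_gam P L hε M hzG)
      (vnRho_gam P L hε M' hzG) ?_ ?_
    · intro p q hpq
      rw [vnU_val, vnU_val, vnF_apply, vnF_apply]
      refine hQ1 _ (hQ z hz k _ _).1 _ _ fun h => hpq ⟨?_, h.2⟩
      exact Finset.mem_filter.2 ⟨Finset.mem_univ _, h.1⟩
    · intro p q hp hq
      rw [← map_inv, vnU_val, vnF_apply]
      refine hQ2 _ (hQ z hz k _ _).2 _ _ hp fun h => hq ?_
      exact Finset.mem_filter.2 ⟨Finset.mem_univ _, h⟩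
  refine hc.abel (fun g hg => cong_tors L (cong_of_mem L hg))
    (hV1.trans (inf_le_left.trans inf_le_left)) hV2 (vnRho_gam P L hε M hx)
    (vnRho_gam P L hε M hy) (vnRho_gam P L hε M' hx) (vnRho_gam P L hε M' hy)
    (key x (Or.inl rfl)) (key y (Or.inr (Or.inl rfl))) fun k => ?_
  rw [← map_mul, ← map_mul]
  exact key _ (Or.inr (Or.inr rfl)) k

theorem vnU_zero (P : Pres X R) (L : Loc R) (hε : ∀ x, L.ε (P.gen x) = 0)
    {x : (Matrix (Fin 5) (Fin 5) R)ˣ} (hx : x ∈ Gam L (Fin 5)) :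
    vnU (vnRho P L (0 : Matrix κ κ (ZMod 2))) x = 1 := by
  refine Units.ext (Matrix.ext fun p q => ?_)
  have h := cong_of_mem L hx p.1 q.1
  rw [Matrix.sub_apply, map_sub, sub_eq_zero] at h
  rw [Units.val_one, ← map_one (vnF (vnRho P L (0 : Matrix κ κ (ZMod 2)))), vnU_val, vnF_apply,
    vnF_apply, vnRho_zero P L hε, vnRho_zero P L hε, h]

/-- Repeating a matrix in the diagonal blocks indexed by `s`. -/
def vnDs (s : Finset κ) : Matrix (Fin 5) (Fin 5) R →* (κ → Matrix (Fin 5) (Fin 5) R) where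
  toFun x := fun l => if l ∈ s then x else 1
  map_one' := by
    funext l
    simp
  map_mul' x y := by
    funext l
    by_cases h : l ∈ s <;> simp [h]

/-- Block diagonal repetition, on units. -/
def vnD (s : Finset κ) : (Matrix (Fin 5) (Fin 5) R)ˣ →* (Matrix (Fin 5 × κ) (Fin 5 × κ) R)ˣ :=
  Units.map ((blockDiagonalRingHom (Fin 5) κ R).toMonoidHom.comp (vnDs s))

theorem vnD_val (s : Finset κ) (x : (Matrix (Fin 5) (Fin 5) R)ˣ) :
    (vnD s x : Matrix (Fin 5 × κ) (Fin 5 × κ) R) =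
      blockDiagonal fun l => if l ∈ s then (x : Matrix (Fin 5) (Fin 5) R) else 1 := rfl

theorem vnD_empty (x : (Matrix (Fin 5) (Fin 5) R)ˣ) : vnD (∅ : Finset κ) x = 1 :=
  Units.ext (by
    rw [vnD_val, Units.val_one, ← blockDiagonal_one]
    exact congrArg _ (funext fun l => if_neg (Finset.notMem_empty l)))

theorem vnD_insert {s : Finset κ} {l : κ} (hl : l ∉ s) (x : (Matrix (Fin 5) (Fin 5) R)ˣ) :
    vnD (insert l s) x = vnD {l} x * vnD s x := by
  refine Units.ext ?_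
  rw [Units.val_mul, vnD_val, vnD_val, vnD_val, ← blockDiagonal_mul]
  refine congrArg _ (funext fun k => ?_)
  by_cases hk : k = l
  · simp [hk, hl]
  · simp [hk]

theorem vnD_commute {s : Finset κ} {l : κ} (hl : l ∉ s) (x y : (Matrix (Fin 5) (Fin 5) R)ˣ) :
    Commute (vnD {l} x) (vnD s y) := by
  refine Units.ext ?_
  rw [Units.val_mul, Units.val_mul, vnD_val, vnD_val, ← blockDiagonal_mul, ← blockDiagonal_mul]
  refine congrArg _ (funext fun k => ?_)
  by_cases hk : k = l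
  · simp [hk, hl]
  · simp [hk]

/-- The embedding onto one block. -/
def vnE (l : κ) : Fin 5 ↪ Fin 5 × κ := ⟨fun a => (a, l), fun _ _ h => (Prod.ext_iff.1 h).1⟩

theorem vnD_single (l : κ) (x : (Matrix (Fin 5) (Fin 5) R)ˣ) : vnD {l} x = extU (vnE l) x := by
  refine Units.ext (Matrix.ext fun p q => ?_)
  rw [vnD_val, blockDiagonal_apply]
  by_cases h : p.2 = l ∧ q.2 = l
  · have h1 : p = vnE l p.1 := Prod.ext rfl h.1
    have h2 : q = vnE l q.1 := Prod.ext rfl h.2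
    have h3 := extM_apply (vnE l) (x : Matrix (Fin 5) (Fin 5) R) p.1 q.1
    rw [← h1, ← h2] at h3
    rw [if_pos (h.1.trans h.2.symm), if_pos (Finset.mem_singleton.2 h.1)]
    exact h3.symm
  · have hs := (extU_supp (vnE l) (extU (vnE l) x)).2 ⟨x, rfl⟩
    have hm : ∀ r : Fin 5 × κ, r ∈ Finset.univ.map (vnE l) → r.2 = l := by
      intro r hr
      obtain ⟨a, -, rfl⟩ := Finset.mem_map.1 hr
      rfl
    rw [hs p q (by
      by_contra h'
      rw [not_or, not_not, not_not] at h'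
      exact h ⟨hm _ h'.1, hm _ h'.2⟩), ← blockDiagonal_one, blockDiagonal_apply]
    split_ifs with h1 h2
    · exact absurd ⟨Finset.mem_singleton.1 h2, h1 ▸ Finset.mem_singleton.1 h2⟩ h
    · rfl
    · rfl

theorem vnD_univ (P : Pres X R) (L : Loc R) (x : (Matrix (Fin 5) (Fin 5) R)ˣ) :
    vnU (vnRho P L (1 : Matrix κ κ (ZMod 2))) x = vnD Finset.univ x := by
  refine Units.ext (Matrix.ext fun p q => ?_)
  rw [vnD_val, blockDiagonal_apply, vnU_val, vnF_apply, vnRho_one, scalar_apply, diagonal_apply,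
    if_pos (Finset.mem_univ _)]

theorem vn_diag (L : Loc R) (c0 : (Matrix (Fin 5) (Fin 5) R)ˣ → (Matrix (Fin 5) (Fin 5) R)ˣ → ℚ)
    (c : (Matrix (Fin 5 × κ) (Fin 5 × κ) R)ˣ → (Matrix (Fin 5 × κ) (Fin 5 × κ) R)ˣ → ℚ)
    (hc : IsCan (Gam L (Fin 5 × κ)) c)
    (he : ∀ e : Fin 5 ↪ Fin 5 × κ, ∀ x ∈ Gam L (Fin 5), ∀ y ∈ Gam L (Fin 5),
      c (extU e x) (extU e y) = c0 x y)
    {x y : (Matrix (Fin 5) (Fin 5) R)ˣ} (hx : x ∈ Gam L (Fin 5)) (hy : y ∈ Gam L (Fin 5))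
    (s : Finset κ) : vnD s x ∈ Gam L (Fin 5 × κ) ∧ vnD s y ∈ Gam L (Fin 5 × κ) ∧
      c (vnD s x) (vnD s y) = s.card * c0 x y := by
  induction s using Finset.induction_on with
  | empty =>
    rw [vnD_empty, vnD_empty]
    refine ⟨Subgroup.one_mem _, Subgroup.one_mem _, ?_⟩
    rw [hc.one_left (Subgroup.one_mem _)]
    simp
  | insert l s hl ih =>
    obtain ⟨h1, h2, h3⟩ := ih
    have hG : ∀ z ∈ Gam L (Fin 5), vnD {l} z ∈ Gam L (Fin 5 × κ) := by
      intro z hz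
      rw [vnD_single]
      exact (ext_mem_iff L (by simp) _ z).2 hz
    rw [vnD_insert hl, vnD_insert hl]
    refine ⟨Subgroup.mul_mem _ (hG x hx) h1, Subgroup.mul_mem _ (hG y hy) h2, ?_⟩
    rw [hc.prod (fun g hg => cong_tors L (cong_of_mem L hg)) (hG x hx) (hG y hy) h1 h2
      (vnD_commute hl _ _) (vnD_commute hl _ _) (vnD_commute hl _ _) (vnD_commute hl _ _), h3,
      vnD_single, vnD_single, he _ x hx y hy, Finset.card_insert_of_notMem hl]
    push_cast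
    ring

end

theorem vn_tri (P : Pres X R) (L : Loc R) (hε : ∀ x, L.ε (P.gen x) = 0) {m : ℕ}
    (c : (Matrix (Fin 5 × Fin m) (Fin 5 × Fin m) R)ˣ →
      (Matrix (Fin 5 × Fin m) (Fin 5 × Fin m) R)ˣ → ℚ)
    (hc : IsCan (Gam L (Fin 5 × Fin m)) c) (M M' : Matrix (Fin m) (Fin m) (ZMod 2))
    (hM : ∀ i j : Fin m, (j : ℕ) < i → M i j = 0)
    (hM' : ∀ i j : Fin m, M' i j = if (i : ℕ) < j then 0 else M i j)
    {x y : (Matrix (Fin 5) (Fin 5) R)ˣ} (hx : x ∈ Gam L (Fin 5)) (hy : y ∈ Gam L (Fin 5)) :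
    c (vnU (vnRho P L M) x) (vnU (vnRho P L M) y) =
      c (vnU (vnRho P L M') x) (vnU (vnRho P L M') y) := by
  obtain ⟨Mt, hMt⟩ : ∃ Mt : ℕ → Matrix (Fin m) (Fin m) (ZMod 2),
      ∀ t i j, Mt t i j = if (i : ℕ) < j ∧ (i : ℕ) < t then 0 else M i j :=
    ⟨fun t i j => if (i : ℕ) < j ∧ (i : ℕ) < t then 0 else M i j, fun _ _ _ => rfl⟩
  have key : ∀ t, c (vnU (vnRho P L M) x) (vnU (vnRho P L M) y) =
      c (vnU (vnRho P L (Mt t)) x) (vnU (vnRho P L (Mt t)) y) := by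
    intro t
    induction t with
    | zero =>
      have : Mt 0 = M := Matrix.ext fun i j => by rw [hMt, if_neg (by omega)]
      rw [this]
    | succ t ih =>
      rw [ih]
      have hb := vnRho_block P L (fun i : Fin m => (i : ℕ) ≤ t) (M := Mt t) (M' := Mt (t + 1)) (by
        intro i j hi hj
        rw [hMt, hM i j (by omega), ite_self]) (by
        intro i j
        rw [hMt, hMt]
        split_ifs <;> first | rfl | omega)
      refine vn_abel P L hε c hc _ _ (fun i => (i : ℕ) ≤ t) (fun i => ¬(i : ℕ) ≤ t)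
        (fun i => ¬(i : ℕ) ≤ t) (fun i h h' => h' h) (fun _ => True) ?_ ?_ hx hy
        fun _ _ _ _ _ => ⟨trivial, trivial⟩
      · intro r _ i j hij
        rw [(hb r).2, if_neg hij]
      · intro r _ i j hi hj
        rw [(hb r).2, (hb r).1 i j hi (not_not.1 hj), ite_self]
  have : Mt m = M' := Matrix.ext fun i j => by
    rw [hMt, hM']
    have := i.2
    split_ifs <;> first | rfl | omega
  rw [key m, this]

theorem vn_unif (P : Pres X R) (L : Loc R) {z : (Matrix (Fin 5) (Fin 5) R)ˣ}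
    (hz : IsOfFinOrder z) : ∃ D, ∀ k : ℕ, ∀ a b,
      VnBand P L (((z ^ k : (Matrix (Fin 5) (Fin 5) R)ˣ) : Matrix (Fin 5) (Fin 5) R) a b) D ∧
      VnBand P L ((((z ^ k)⁻¹ : (Matrix (Fin 5) (Fin 5) R)ˣ) : Matrix (Fin 5) (Fin 5) R) a b) D := by
  choose d hd using vn_band P L
  obtain ⟨f, hf⟩ : ∃ f : (Matrix (Fin 5) (Fin 5) R)ˣ → ℕ, ∀ w, f w =
      ∑ p : Fin 5 × Fin 5, (d ((w : Matrix (Fin 5) (Fin 5) R) p.1 p.2) +
        d (((w⁻¹ : (Matrix (Fin 5) (Fin 5) R)ˣ) : Matrix (Fin 5) (Fin 5) R) p.1 p.2)) :=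
    ⟨_, fun _ => rfl⟩
  obtain ⟨D, hD⟩ := (hz.finite_powers.image f).bddAbove
  refine ⟨D, fun k a b => ?_⟩
  have h1 : f (z ^ k) ≤ D := hD ⟨z ^ k, ⟨k, rfl⟩, rfl⟩
  have h2 := Finset.single_le_sum (f := fun p : Fin 5 × Fin 5 =>
    d (((z ^ k : (Matrix (Fin 5) (Fin 5) R)ˣ) : Matrix (Fin 5) (Fin 5) R) p.1 p.2) +
      d ((((z ^ k)⁻¹ : (Matrix (Fin 5) (Fin 5) R)ˣ) : Matrix (Fin 5) (Fin 5) R) p.1 p.2))
    (fun _ _ => Nat.zero_le _) (Finset.mem_univ (a, b))
  rw [← hf] at h2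
  simp only at h2
  exact ⟨(hd _).mono (by omega), (hd _).mono (by omega)⟩

theorem vanish (P : Pres X R) (L : Loc R) (hε : ∀ x, L.ε (P.gen x) = 0)
    (c0 : (Matrix (Fin 5) (Fin 5) R)ˣ → (Matrix (Fin 5) (Fin 5) R)ˣ → ℚ)
    (h0 : IsCan (Gam L (Fin 5)) c0) (hi : ElInv L (Fin 5) c0) :
    ∀ x ∈ Gam L (Fin 5), ∀ y ∈ Gam L (Fin 5), c0 x y = 0 := by
  intro x hx y hy
  obtain ⟨D1, h1⟩ := vn_unif P L (cong_tors L (cong_of_mem L hx))
  obtain ⟨D2, h2⟩ := vn_unif P L (cong_tors L (cong_of_mem L hy))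
  obtain ⟨D3, h3⟩ := vn_unif P L (cong_tors L (cong_of_mem L (Subgroup.mul_mem _ hx hy)))
  obtain ⟨D, hD⟩ : ∃ D, D = D1 + D2 + D3 := ⟨_, rfl⟩
  obtain ⟨N, hN⟩ : ∃ N : ℕ, 3 * D < 2 ^ N := ⟨3 * D, Nat.lt_two_pow_self⟩
  obtain ⟨c, hc, hci, he⟩ := stab L c0 h0 hi (Fin 5 × Fin (2 ^ N)) (by
    rw [Fintype.card_prod, Fintype.card_fin, Fintype.card_fin]
    omega)
  have e1 := (vn_diag L c0 c hc he hx hy Finset.univ).2.2
  rw [← vnD_univ P L, ← vnD_univ P L, Finset.card_univ, Fintype.card_fin] at e1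
  have e2 := vn_tri P L hε c hc (1 + vnP (2 ^ N)) 1 (by
    intro i j hij
    rw [Matrix.add_apply, one_apply_ne (by rintro rfl; omega), vnP, if_neg (by omega), add_zero])
    (by
    intro i j
    split_ifs with hij
    · exact one_apply_ne (by rintro rfl; omega)
    · rw [Matrix.add_apply, vnP, if_neg (by omega), add_zero]) hx hy
  have e3 := vn_similar P L hε c hci (vnS_det (2 ^ N)) (vnS_conj N) hx hy
  have e4 := vn_abel P L hε c hc (vnT (2 ^ N)) (vnP (2 ^ N)) (fun i => 2 * D ≤ (i : ℕ))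
    (fun i => (i : ℕ) < 2 * D) (fun i => (i : ℕ) < D) (fun i h h' => by omega)
    (fun r => VnBand P L r D) (fun r hr i j hij => (hr _).2 i j (by omega))
    (fun r hr i j hi hj => (hr _).1 i j (by omega)) hx hy (by
      rintro z (rfl | rfl | rfl) k a b
      · exact ⟨(h1 k a b).1.mono (by omega), (h1 k a b).2.mono (by omega)⟩
      · exact ⟨(h2 k a b).1.mono (by omega), (h2 k a b).2.mono (by omega)⟩
      · exact ⟨(h3 k a b).1.mono (by omega), (h3 k a b).2.mono (by omega)⟩)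
  have e5 := vn_tri P L hε c hc (vnP (2 ^ N)) 0 (by
    intro i j hij
    rw [vnP, if_neg (by omega)]) (by
    intro i j
    split_ifs with hij
    · rfl
    · rw [vnP, if_neg (by omega)]
      rfl) hx hy
  rw [vnU_zero P L hε hx, vnU_zero P L hε hy, hc.one_left (Subgroup.one_mem _)] at e5
  have e6 : ((2 ^ N : ℕ) : ℚ) * c0 x y = 0 := by rw [← e1, ← e2, ← e3, e4, e5]
  exact (mul_eq_zero.1 e6).resolve_left (by positivity)

end Vale.Agent.P192
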