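import Vale.Agent.P192.StPres
import Vale.Agent.P192.Vanish

/-! From a finitely presented algebra with nil matrix rings to a periodic group.

PROOF PLAN. Take `G, x, π` from `exists_stgroup`, `N := relN L.ε x` (normal by `relN_conj`,
`allX x = ⊤`), `N.map π = Gam L (Fin 5)` (`π` maps `allX x` onto `allX el`). Kernel elements of `N`
are central (`central`). If such a `z` had infinite order, the commutative group `K = N ⊓ ker π`
has an additive `χ : K → ℚ` with `χ z = 1` (`Module.Baer.of_divisible`,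
`Module.Baer.extension_property_addMonoidHom`, `zmultiplesHom`); extend by `0` to `G`.
`exists_can` gives `v, c`; `c` is `ElInv` (conjugation invariance of `v`), so `c = 0` (`vanish`), `v`
is additive on `N`, vanishes on the generators (conjugates of involutions), so `χ z = v z = 0`.
So `N` is torsion (`cong_tors`). `G ⧸ N` is the image of the finite subgroup generated by the
`x i j 1` (`x i j r = x i j (r + cast (ε r)) * x i j (cast (ε r))`), so it is finite.
Infinite: `r ↦ π (x 0 1 r)` is injective. -/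

namespace Vale.Agent.P192

theorem p2_char {G : Type} [Group G] (K : Subgroup G) (hK : ∀ a ∈ K, ∀ b ∈ K, a * b = b * a)
    {z : G} (hz : z ∈ K) (hinf : ¬ IsOfFinOrder z) :
    ∃ χ : G → ℚ, (∀ a ∈ K, ∀ b ∈ K, χ (a * b) = χ a + χ b) ∧ χ z = 1 := by
  classical
  let _ : CommGroup K := { (inferInstance : Group K) with
    mul_comm := fun a b => Subtype.ext (hK a a.2 b b.2) }
  have hf : Function.Injective (zmultiplesHom (Additive K) (Additive.ofMul ⟨z, hz⟩)) := by
    intro m n h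
    refine injective_zpow_iff_not_isOfFinOrder.2 hinf ?_
    have h1 := congrArg (fun a : Additive K => ((Additive.toMul a : K) : G)) h
    simpa using h1
  obtain ⟨h, hh⟩ := (Module.Baer.of_divisible ℚ).extension_property_addMonoidHom _ hf
    (Int.castAddHom ℚ)
  refine ⟨fun g => if hg : g ∈ K then h (Additive.ofMul ⟨g, hg⟩) else 0, fun a ha b hb => ?_, ?_⟩
  · simp only [dif_pos ha, dif_pos hb, dif_pos (mul_mem ha hb), ← map_add]
    rfl
  · have h1 := DFunLike.congr_fun hh 1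
    simpa [dif_pos hz] using h1

theorem p2_map {ι R G : Type} [Fintype ι] [DecidableEq ι] [Ring R] [Group G] (L : Loc R)
    {x : ι → ι → R → G} (π : G →* (Matrix ι ι R)ˣ)
    (hπ : ∀ i j r, i ≠ j → π (x i j r) = el i j r) : (relN L.ε x).map π = Gam L ι := by
  have h1 : (allX x).map π = allX (el (ι := ι) (R := R)) := by
    rw [allX, MonoidHom.map_closure]
    congr 1
    ext g
    constructor
    · rintro ⟨_, ⟨i, j, r, hij, rfl⟩, rfl⟩
      exact ⟨i, j, r, hij, hπ i j r hij⟩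
    · rintro ⟨i, j, r, hij, rfl⟩
      exact ⟨_, ⟨i, j, r, hij, rfl⟩, hπ i j r hij⟩
  rw [relN, MonoidHom.map_closure, Gam, relN, ← h1]
  congr 1
  ext g
  constructor
  · rintro ⟨_, ⟨h, hh, i, j, a, hij, ha, rfl⟩, rfl⟩
    exact ⟨π h, Subgroup.mem_map_of_mem π hh, i, j, a, hij, ha, by simp [hπ i j a hij]⟩
  · rintro ⟨_, ⟨h, hh, rfl⟩, i, j, a, hij, ha, rfl⟩
    exact ⟨_, ⟨h, hh, i, j, a, hij, ha, rfl⟩, by simp [hπ i j a hij]⟩

theorem partII {X R : Type} [Finite X] [Ring R] [Infinite R] (P : Pres X R) (L : Loc R)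
    (hε : ∀ x, L.ε (P.gen x) = 0) :
    ∃ (G : Type) (_ : Group G), Group.IsFinitelyPresented G ∧ Infinite G ∧
      ∀ g : G, IsOfFinOrder g := by
  obtain ⟨G, _, x, π, hfp, hx, htop, hπ, hfin⟩ := exists_stgroup P
  have hall : ∀ g, g ∈ allX x := fun g => htop ▸ Subgroup.mem_top g
  have hN : (relN L.ε x).Normal := ⟨fun n hn g => relN_conj _ (hall g) hn⟩
  have hmap := p2_map L π hπ
  have hcen : ∀ z ∈ relN L.ε x, π z = 1 → ∀ g, Commute g z := fun z hz h1 g =>
    central L (by simp) hx π hπ hz h1 (hall g)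
  have ht : ∀ g ∈ relN L.ε x, IsOfFinOrder (π g) := fun g hg =>
    cong_tors L (cong_of_mem L (hmap ▸ Subgroup.mem_map_of_mem π hg))
  have hker : ∀ z ∈ relN L.ε x, π z = 1 → IsOfFinOrder z := by
    intro z hz h1
    by_contra hinf
    obtain ⟨χ, hχ, hχz⟩ := p2_char (relN L.ε x ⊓ π.ker)
      (fun a _ b hb => (hcen b hb.1 hb.2 a).eq) (z := z) ⟨hz, h1⟩ hinf
    obtain ⟨v, c, hcan, hc, hv1, hv2, hv3⟩ := exists_can π (relN L.ε x) hcen ht χ
      fun a ha b hb h2 h3 => hχ a ⟨ha, h2⟩ b ⟨hb, h3⟩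
    rw [hmap] at hcan
    have hinv : ElInv L (Fin 5) c := by
      intro a b hab p hp q hq
      rw [← hmap] at hp hq
      obtain ⟨p, hp, rfl⟩ := hp
      obtain ⟨q, hq, rfl⟩ := hq
      rw [← hπ a b 1 hab, ← map_inv, ← map_mul, ← map_mul, ← map_mul, ← map_mul,
        hc _ (hN.conj_mem p hp _) _ (hN.conj_mem q hq _), hc p hp q hq, ← ga_conj_mul,
        hv3 _ _ (mul_mem hp hq), hv3 _ _ hp, hv3 _ _ hq]
    have hvan := vanish P L hε c hcan hinv
    have h0 : v 1 = 0 := hv2 1 (one_mem _) IsOfFinOrder.one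
    have hz0 : z ∈ relN L.ε x ∧ v z = 0 := by
      refine ga_clo_ind (P := fun g => g ∈ relN L.ε x ∧ v g = 0) ?_ ⟨one_mem _, h0⟩ ?_ ?_ hz
      · rintro g ⟨h, -, i, j, a, hij, -, rfl⟩
        rw [conj_inv, hx.inv L hij]
      · rintro g ⟨h, hh, i, j, a, hij, ha, rfl⟩
        have h2 := ga_mem_relN L.ε x hij ha
        refine ⟨ga_conj_mem _ hh hij ha, ?_⟩
        rw [hv3 _ _ h2]
        exact hv2 _ h2 (isOfFinOrder_iff_pow_eq_one.2 ⟨2, two_pos, by
          rw [pow_two, hx.sq L hij]⟩)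
      · rintro a b ⟨ha, ha'⟩ ⟨hb, hb'⟩
        refine ⟨mul_mem ha hb, ?_⟩
        have h2 := hc a ha b hb
        rw [hvan _ (hmap ▸ Subgroup.mem_map_of_mem π ha) _ (hmap ▸ Subgroup.mem_map_of_mem π hb),
          ha', hb'] at h2
        linarith
    have h2 := hv1 z hz h1 1 (one_mem _)
    rw [mul_one, hz0.2, h0, hχz] at h2
    norm_num at h2
  have hNt : ∀ g ∈ relN L.ε x, IsOfFinOrder g := fun g hg => by
    obtain ⟨n, hn, h1⟩ := isOfFinOrder_iff_pow_eq_one.1 (ht g hg)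
    exact (hker _ (pow_mem hg n) (by rw [map_pow, h1])).of_pow hn.ne'
  refine ⟨G, inferInstance, hfp, ?_, fun g => ?_⟩
  · refine Infinite.of_injective (fun r => x 0 1 r) fun r r' h => ?_
    have h01 : (0 : Fin 5) ≠ 1 := by decide
    have h1 := congrArg (fun g => ((π g : (Matrix (Fin 5) (Fin 5) R)ˣ) :
      Matrix (Fin 5) (Fin 5) R) 0 1) h
    simpa [hπ _ _ _ h01, el_val h01] using h1
  · obtain ⟨F, hF⟩ : ∃ F, F = Subgroup.closure {g | ∃ i j, i ≠ j ∧ g = x i j 1} := ⟨_, rfl⟩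
    rw [← hF] at hfin
    obtain ⟨h, hh, e⟩ : ∃ h ∈ F, QuotientGroup.mk' (relN L.ε x) g =
        QuotientGroup.mk' (relN L.ε x) h := by
      refine ga_clo_ind (P := fun g => ∃ h ∈ F, QuotientGroup.mk' (relN L.ε x) g =
        QuotientGroup.mk' (relN L.ε x) h) ?_ ⟨1, one_mem _, rfl⟩ ?_ ?_ (hall g)
      · rintro g ⟨i, j, r, hij, rfl⟩
        exact hx.inv L hij r
      · rintro g ⟨i, j, r, hij, rfl⟩
        have h1 : ∀ a, L.ε a = 0 → QuotientGroup.mk' (relN L.ε x) (x i j a) = 1 := fun a ha =>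
          (QuotientGroup.eq_one_iff _).2 (ga_mem_relN _ x hij ha)
        have h2 : ∀ y : ZMod 2, y = 0 ∨ y + 1 = 0 := by decide
        rcases h2 (L.ε r) with h3 | h3
        · exact ⟨1, one_mem _, by rw [h1 r h3, map_one]⟩
        · refine ⟨x i j 1, hF ▸ Subgroup.subset_closure ⟨i, j, hij, rfl⟩, ?_⟩
          have h4 : r = r + 1 + 1 := by rw [add_assoc, ga_add_self L, add_zero]
          rw [h4, hx.add i j hij, map_mul, h1 _ (by simpa using h3), one_mul]
      · rintro a b ⟨h, hh, e⟩ ⟨h', hh', e'⟩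
        exact ⟨_, mul_mem hh hh', by rw [map_mul, map_mul, e, e']⟩
    have h1 : IsOfFinOrder h := F.subtype.isOfFinOrder (isOfFinOrder_of_finite (⟨h, hh⟩ : F))
    obtain ⟨n, hn, h2⟩ := isOfFinOrder_iff_pow_eq_one.1 h1
    refine (hNt (g ^ n) ((QuotientGroup.eq_one_iff _).1 ?_)).of_pow hn.ne'
    change QuotientGroup.mk' (relN L.ε x) (g ^ n) = 1
    rw [map_pow, e, ← map_pow, h2, map_one]

end Vale.Agent.P192
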