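import Vale.Agent.P192.Tower
import Vale.Agent.P192.Alg

/-! Selection of exchangeable segments. -/

namespace Vale.Agent.P192

open Sys

theorem sib_swap {M s e p q : ℕ} {f : Wd} (hs : Sib f s e) (hp : s ≤ p) : ∀ l, p + l ≤ q →
    q + l ≤ e + 1 → (∀ i < l, (f (p + i)).q = (f (q + i)).q ∧ (f (p + i)).n = (f (q + i)).n ∧
      (f (p + i)).oc = (f (q + i)).oc) → (sys M).Eqv s (e + 1) f (f ∘ swapIdx p q l)
  | 0, _, _, _ => by
    have : f ∘ swapIdx p q 0 = f := by
      funext i; simp only [Function.comp]; rw [swapIdx_out (by omega) (by omega)]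
    rw [this]; exact Eqv.refl _
  | l + 1, h1, h2, h => by
    have ih := sib_swap (M := M) hs hp l (by omega) (by omega) fun i hi => h i (by omega)
    have hq : ∀ j, ((f ∘ swapIdx p q l) j).q = (f j).q := by
      intro j
      simp only [Function.comp, swapIdx]
      split_ifs with c1 c2
      · have := (h (j - p) (by omega)).1
        rw [show p + (j - p) = j by omega, show q + (j - p) = j - p + q by omega] at this
        exact this.symm
      · have := (h (j - q) (by omega)).1
        rw [show q + (j - q) = j by omega, show p + (j - q) = j - q + p by omega] at this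
        exact this
      · rfl
    have hs' : Sib (f ∘ swapIdx p q l) s e := fun j a b => by rw [hq, hq]; exact hs j a b
    refine ih.trans ?_
    have := swap_a (N := M) hs' (i := p + l) (j := q + l) (by omega) (by omega) (by omega)
    have e1 : (f ∘ swapIdx p q l) (p + l) = f (p + l) := by
      simp only [Function.comp]; rw [swapIdx_out (by omega) (by omega)]
    have e2 : (f ∘ swapIdx p q l) (q + l) = f (q + l) := by
      simp only [Function.comp]; rw [swapIdx_out (by omega) (by omega)]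
    rw [e1, e2] at this
    obtain ⟨k1, k2, k3⟩ := h l (by omega)
    have e3 : Function.update (Function.update (f ∘ swapIdx p q l) (p + l)
        { f (p + l) with a := (f (q + l)).a }) (q + l) { f (q + l) with a := (f (p + l)).a } =
        f ∘ swapIdx p q (l + 1) := by
      funext j
      by_cases c1 : j = q + l
      · subst c1
        have : swapIdx p q (l + 1) (q + l) = p + l := by unfold swapIdx; split_ifs <;> omega
        simp only [Function.update_self, Function.comp, this]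
        exact Ent.ext k1.symm rfl k2.symm k3.symm
      · rw [Function.update_of_ne c1]
        by_cases c2 : j = p + l
        · subst c2
          have : swapIdx p q (l + 1) (p + l) = q + l := by unfold swapIdx; split_ifs <;> omega
          simp only [Function.update_self, Function.comp, this]
          exact Ent.ext k1 rfl k2 k3
        · rw [Function.update_of_ne c2]
          have : swapIdx p q (l + 1) j = swapIdx p q l j := by
            unfold swapIdx; split_ifs <;> omega
          simp only [Function.comp, this]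
    rwa [e3] at this

instance finite_Ty : ∀ h, Finite (Ty h)
  | 0 => inferInstanceAs (Finite Unit)
  | h + 1 => by
    have := finite_Ty h
    exact inferInstanceAs (Finite ((KF Pay × Core) × Ty h))

theorem card_Ty : ∀ h, Nat.card (Ty h) = Nat.card (KF Pay × Core) ^ h
  | 0 => by simp [Ty]
  | h + 1 => by
    have : Nat.card (Ty (h + 1)) = Nat.card ((KF Pay × Core) × Ty h) := rfl
    rw [this, Nat.card_prod, card_Ty h, pow_succ']

theorem Nl_ge' : ∀ s, s + 2 ≤ Nl s
  | 0 => le_rfl
  | s + 1 => by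
    have := Nl_ge' s
    have h2 : Nl s < 2 ^ Nl s := Nat.lt_two_pow_self
    simp only [Nl]; omega

theorem sq_le_two_pow : ∀ t, (t + 4) * (t + 4) ≤ 2 ^ (t + 4)
  | 0 => by norm_num
  | t + 1 => by
    have := sq_le_two_pow t
    rw [show t + 1 + 4 = t + 4 + 1 by omega, pow_succ]
    nlinarith

theorem growth (C D : ℕ) : ∃ h, C * D ^ (h + 1) ≤ Nl (h + 1) := by
  refine ⟨C + D + 3, ?_⟩
  set t := C + D + 3 + 1 with ht
  have h1 : C * D ^ t ≤ 2 ^ (C + D * t) := by
    rw [pow_add 2, pow_mul 2]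
    exact Nat.mul_le_mul Nat.lt_two_pow_self.le (Nat.pow_le_pow_left Nat.lt_two_pow_self.le _)
  have h2 : C + D * t ≤ 2 ^ t := by
    have := sq_le_two_pow (C + D)
    rw [show C + D + 4 = t by omega] at this
    nlinarith
  have h3 : 2 ^ t ≤ Nl (C + D + 3) := by
    have := Nl_ge' (C + D + 2)
    exact Nat.pow_le_pow_right (n := 2) (by omega) (by omega)
  exact h1.trans (Nat.pow_le_pow_right (n := 2) (by omega) (h2.trans h3))

theorem exists_pick {T : Type} [Finite T] (m G : ℕ) (hG : Nat.card T * m < G) (τ : Fin G → T) :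
    ∃ z : T × (Fin m → Fin G), StrictMono z.2 ∧ ∀ i, τ (z.2 i) = z.1 := by
  classical
  have := Fintype.ofFinite T
  rw [Nat.card_eq_fintype_card] at hG
  obtain ⟨y, hy⟩ := Fintype.exists_lt_card_fiber_of_mul_lt_card τ (n := m) (by simpa using hG)
  refine ⟨(y, Finset.orderEmbOfCardLe _ hy.le), (Finset.orderEmbOfCardLe _ hy.le).strictMono,
    fun i => ?_⟩
  have := Finset.orderEmbOfCardLe_mem _ hy.le i
  simpa using this

theorem pv_cls {m m' : KF Pay} {c c' : Core} (h : PV m c m' c') : m.clsL = 0 ↔ m'.clsR = 0 := by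
  rcases h with h | ⟨κ, ph, q, -, rfl, h⟩ | ⟨κ, ph, q, ph', r, -, -, a1, a2, -⟩
  · simp [h.1, h.2]
  · rcases h with rfl | ⟨r, rfl, -⟩ <;> simp [KF.clsL, KF.clsR]
  · simp [a1, a2]

/-- Offset and length of the segment in a group. -/
def sh (m : KF Pay) : ℕ × ℕ :=
  if m.clsR ≠ 0 then (0, 2) else if m.clsL ≠ 0 then (1, 2) else (1, 1)

theorem sh_cases (m : KF Pay) : sh m = (0, 2) ∨ sh m = (1, 2) ∨ sh m = (1, 1) := by
  unfold sh; split_ifs <;> simp

/-- The key below the middle letter of a group. -/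
noncomputable def mk (h : ℕ) (x : Wd × ℕ) (g : ℕ) : KF Pay :=
  (lastI h (infoL (h + 1) 0 x (off (top (h + 1) 0 x).1 + 2 + 4 * g))).1

/-- Start of the segment in a group. -/
noncomputable def gst (h : ℕ) (x : Wd × ℕ) (g : ℕ) : ℕ :=
  off (top (h + 1) 0 x).1 + 1 + 4 * g + (sh (mk h x g)).1

/-- The type of a group. -/
noncomputable def typ (h : ℕ) (x : Wd × ℕ) (g : ℕ) :
    KF Pay × Reg × Reg × Ty (h + 1) × Ty (h + 1) :=
  (mk h x g, ((top (h + 1) 0 x).1 (gst h x g)).q,
    ((top (h + 1) 0 x).1 (gst h x g + (sh (mk h x g)).2 - 1)).q,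
    infoL (h + 1) 0 x (gst h x g), infoR (h + 1) 0 x (gst h x g + (sh (mk h x g)).2 - 1))

theorem bd_group {h : ℕ} {x : Wd × ℕ} (hx : OK (h + 1) 0 x) {g : ℕ}
    (ho : 1 ≤ off (top (h + 1) 0 x).1)
    (hg : off (top (h + 1) 0 x).1 + 4 + 4 * g < (top (h + 1) 0 x).2) :
    Bd (h + 1) 0 x (gst h x g) ∧ Bd (h + 1) 0 x (gst h x g + (sh (mk h x g)).2) := by
  obtain ⟨-, a, b, ha, hb, -, hv, -⟩ := lev (OK_top h 1 0 x hx)
  rw [← top_succ] at hb
  have hk : ∀ e, (lastI h (infoL (h + 1) 0 x e)).1 =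
      keyOf (cell (Nl (0 + h)) (off (top h 0 x).1) (top h 0 x).1 e) := fun e => by
    rw [lastI_infoL]; rfl
  have hp : ∀ e, 1 ≤ e → e + 1 < (top (h + 1) 0 x).2 →
      ((lastI h (infoL (h + 1) 0 x e)).1.clsL = 0 ↔
        (lastI h (infoL (h + 1) 0 x (e + 1))).1.clsR = 0) := fun e u v => by
    rw [hk, hk]; exact pv_cls (hv.pv e (by omega) (by omega)).1
  have hb : ∀ e, 2 ≤ e → e < (top (h + 1) 0 x).2 →
      (lastI h (infoL (h + 1) 0 x e)).1.clsR = 0 → Bd (h + 1) 0 x e := fun e u v w =>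
    bd_of_top e u h 0 x hx v (KF.opent_of_clsR _ w)
  unfold gst
  set o := off (top (h + 1) 0 x).1 with ho'
  have hm : mk h x g = (lastI h (infoL (h + 1) 0 x (o + 1 + 4 * g + 1))).1 := by
    unfold mk; rw [show o + 1 + 4 * g + 1 = o + 2 + 4 * g by omega]
  have p0 := hp (o + 1 + 4 * g) (by omega) (by omega)
  have p1 := hp (o + 1 + 4 * g + 1) (by omega) (by omega)
  have p2 := hp (o + 1 + 4 * g + 1 + 1) (by omega) (by omega)
  have z0 := (lastI h (infoL (h + 1) 0 x (o + 1 + 4 * g))).1.cls_zero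
  have z1 := (lastI h (infoL (h + 1) 0 x (o + 1 + 4 * g + 1))).1.cls_zero
  have z2 := (lastI h (infoL (h + 1) 0 x (o + 1 + 4 * g + 1 + 1))).1.cls_zero
  rw [← hm] at p0 p1 z1
  unfold sh
  split_ifs with c1 c2
  · exact ⟨hb _ (by omega) (by omega) (by tauto), hb _ (by omega) (by omega) (by tauto)⟩
  · exact ⟨hb _ (by omega) (by omega) (by rw [← hm]; tauto),
      hb _ (by omega) (by omega) (by tauto)⟩
  · exact ⟨hb _ (by omega) (by omega) (by rw [← hm]; tauto),
      hb _ (by omega) (by omega) (by tauto)⟩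

theorem group_exch {h : ℕ} {w : Wd} {L G : ℕ} (hx : OK (h + 1) 0 (w, L))
    (hH : 2 * Nl (h + 1) + 3 ≤ (top (h + 1) 0 (w, L)).2) (hG : 4 * G < Nl (h + 1))
    {g1 g2 : ℕ} (h12 : g1 < g2) (h2 : g2 < G) (ht : typ h (w, L) g1 = typ h (w, L) g2)
    {w' : Wd} (hw : w' = w ∘ swapIdx (dL (h + 1) 0 (w, L) (gst h (w, L) g1))
      (dL (h + 1) 0 (w, L) (gst h (w, L) g2)) (len (h + 1) 0 (sh (mk h (w, L) g1)).2)) :
    (sys 2).Sim 1 L w w' ∧ w' ≠ w ∧ dL (h + 1) 0 (w', L) = dL (h + 1) 0 (w, L) ∧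
      ∀ g < G, typ h (w', L) g = typ h (w, L) g ∧ gst h (w', L) g = gst h (w, L) g := by
  have hz : ¬(sys (Nl (h + 1))).Zero 1 (top (h + 1) 0 (w, L)).2 (top (h + 1) 0 (w, L)).1 := by
    have := OK_top (h + 1) 0 0 (w, L) hx
    rw [Nat.zero_add] at this
    exact this
  have hN := Nl_ge (h + 1)
  obtain ⟨o1, o2, o3, o4⟩ := off_spec hz (by omega)
  obtain ⟨b1, b2⟩ := bd_group hx (g := g1) (by omega) (by omega)
  obtain ⟨-, b4⟩ := bd_group hx (g := g2) (by omega) (by omega)
  have t1 : mk h (w, L) g1 = mk h (w, L) g2 := congrArg (·.1) ht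
  have t2 := congrArg (·.2.1) ht
  have t3 := congrArg (·.2.2.1) ht
  have t4 := congrArg (·.2.2.2.1) ht
  have t5 := congrArg (·.2.2.2.2) ht
  simp only [typ] at t2 t3 t4 t5
  rw [← t1] at t3 t5 b4
  have hp : gst h (w, L) g1 =
    off (top (h + 1) 0 (w, L)).1 + 1 + 4 * g1 + (sh (mk h (w, L) g1)).1 := rfl
  have hq : gst h (w, L) g2 =
      off (top (h + 1) 0 (w, L)).1 + 1 + 4 * g2 + (sh (mk h (w, L) g1)).1 := by
    rw [t1]; rfl
  have hsh := sh_cases (mk h (w, L) g1)
  set F := (top (h + 1) 0 (w, L)).1 with hF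
  set H := (top (h + 1) 0 (w, L)).2 with hH'
  set o := off F with ho
  set p := gst h (w, L) g1 with hp'
  set q := gst h (w, L) g2 with hq'
  set l := (sh (mk h (w, L) g1)).2 with hl
  set δ := (sh (mk h (w, L) g1)).1 with hδ
  have hs : (δ = 0 ∧ l = 2) ∨ (δ = 1 ∧ l = 2) ∨ (δ = 1 ∧ l = 1) := by
    rcases hsh with c | c | c <;> simp [hδ, hl, c]
  obtain ⟨r1, -, r3, r4, r5, r6⟩ := tower_exch p q l (by omega) (by omega) (by omega) (h + 1) 0
    (w, L) w' hx (by omega) t4 t5 b1 b2 b4 (fun i _ _ => by rw [hw])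
  rw [← hF, ← hH'] at r4 r6
  rw [← hH'] at r3 r5
  -- the top cell
  obtain ⟨s1, s2⟩ := nz_struct hN hz (o := o) (by omega) o3 0 (by omega)
  obtain ⟨k, hk⟩ := nz_shape (C := fun j => F (o + j)) hN
    (fun h' => hz (((zero_shift o).2 h').mono (by omega) (by omega))) s1 (by simpa using s2)
  have hfl : ∀ j, o < j → j + 1 < o + Nl (h + 1) →
      (F j).q.first = false ∧ (F j).q.last = false := by
    intro j u v
    have := hk.fl (j - o) (by omega)
    simp only [Nat.zero_add, show o + (j - o) = j by omega] at this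
    rw [this.1, this.2]
    simp only [decide_eq_false_iff_not]
    omega
  have hsib : Sib F (o + 1) (o + Nl (h + 1) - 2) := fun j u v =>
    ⟨(hfl j (by omega) (by omega)).2, (hfl (j + 1) (by omega) (by omega)).1⟩
  have hoc : ∀ j, o < j → j + 1 < o + Nl (h + 1) → (F j).oc = none := by
    intro j u v
    by_contra hc
    exact nz_uok hz (i := j) (by omega) (by omega)
      (Or.inr (Or.inr (Or.inr (Or.inr (Or.inl (Or.inr ⟨(hfl j u v).1, (hfl j u v).2, hc⟩))))))
  have hreg : ∀ i < l, (F (p + i)).q = (F (q + i)).q := by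
    intro i hi
    rcases Nat.eq_zero_or_pos i with rfl | hi'
    · exact t2
    · rw [show p + i = p + l - 1 by omega, show q + i = q + l - 1 by omega]; exact t3
  have hE := sib_swap (M := Nl (h + 1)) hsib (p := p) (q := q) (by omega) l (by omega) (by omega)
    (fun i hi => by
      obtain ⟨n1, n2⟩ := nz_tok hz hsib (i := p + i) (j := q + i) (by omega) (by omega) (by omega)
        (by omega) (by omega) (by rw [hreg i hi])
      exact ⟨hreg i hi, n1.trans n2.symm,
        (hoc _ (by omega) (by omega)).trans (hoc _ (by omega) (by omega)).symm⟩)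
  have hoff : off (top (h + 1) 0 (w', L)).1 = o := by
    refine off_eq o1 ?_ fun i u v => ?_
    · rw [r4 o (by omega) (by omega), Function.comp, swapIdx_out (by omega) (by omega)]; exact o3
    · rw [r4 i (by omega) (by omega), Function.comp, swapIdx_out (by omega) (by omega)]
      exact o4 i u v
  have key : ∀ g g', g < G → swapIdx p q l (o + 2 + 4 * g) = o + 2 + 4 * g' →
      swapIdx p q l (o + 1 + 4 * g + (sh (mk h (w, L) g')).1) =
        o + 1 + 4 * g' + (sh (mk h (w, L) g')).1 →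
      swapIdx p q l (o + 1 + 4 * g + (sh (mk h (w, L) g')).1 + (sh (mk h (w, L) g')).2 - 1) =
        o + 1 + 4 * g' + (sh (mk h (w, L) g')).1 + (sh (mk h (w, L) g')).2 - 1 →
      typ h (w', L) g = typ h (w, L) g' := by
    intro g g' u a1 a2 a3
    have k1 : mk h (w', L) g = mk h (w, L) g' := by
      unfold mk
      rw [hoff, (r5 _ (by omega) (by omega)).1, a1]
    have k2 : gst h (w', L) g = o + 1 + 4 * g + (sh (mk h (w, L) g')).1 := by
      unfold gst; rw [hoff, k1]
    have k3 : gst h (w, L) g' = o + 1 + 4 * g' + (sh (mk h (w, L) g')).1 := rfl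
    have k4 : (sh (mk h (w, L) g')).1 + (sh (mk h (w, L) g')).2 ≤ 3 ∧
        1 ≤ (sh (mk h (w, L) g')).2 := by
      rcases sh_cases (mk h (w, L) g') with c | c | c <;> simp [c]
    unfold typ
    rw [k1, k2, k3, r4 _ (by omega) (by omega), r4 _ (by omega) (by omega),
      (r5 _ (by omega) (by omega)).1, (r5 _ (by omega) (by omega)).2]
    simp only [Function.comp]
    rw [a2, a3]
  have hty : ∀ g < G, typ h (w', L) g = typ h (w, L) g := by
    intro g u
    by_cases c1 : g = g1
    · subst c1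
      rw [ht]
      refine key g g2 u ?_ ?_ ?_ <;> (try rw [← t1, ← hδ]) <;> (try rw [← hl]) <;>
        unfold swapIdx <;> split_ifs <;> omega
    by_cases c2 : g = g2
    · subst c2
      rw [← ht]
      refine key g g1 u ?_ ?_ ?_ <;> (try rw [← hδ]) <;> (try rw [← hl]) <;>
        unfold swapIdx <;> split_ifs <;> omega
    have k4 : (sh (mk h (w, L) g)).1 + (sh (mk h (w, L) g)).2 ≤ 3 ∧
        1 ≤ (sh (mk h (w, L) g)).2 := by
      rcases sh_cases (mk h (w, L) g) with c | c | c <;> simp [c]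
    exact key g g u (swapIdx_out (by omega) (by omega)) (swapIdx_out (by omega) (by omega))
      (swapIdx_out (by omega) (by omega))
  refine ⟨r6 ?_, ?_, r1, fun g u => ⟨hty g u, ?_⟩⟩
  · rw [Nat.zero_add]
    exact (hE.mono (by omega) (by omega)).sim
  · rintro rfl
    have e1 := r4 p (by omega) (by omega)
    have e2 : swapIdx p q l p = q := by unfold swapIdx; split_ifs <;> omega
    rw [Function.comp, e2] at e1
    exact nz_ainj hz hsib (i := p) (j := q) (by omega) (by omega) (by omega) (by omega) (by omega)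
      (congrArg Ent.a e1)
  · have : mk h (w', L) g = mk h (w, L) g := congrArg (·.1) (hty g u)
    unfold gst
    rw [hoff, this]

theorem hcap (m : ℕ) : ∃ L0, HCap (sys 2) m L0 := by
  obtain ⟨h, hh⟩ := growth (4 * (Nat.card (KF Pay × Reg × Reg) * m) + 5)
    (Nat.card (KF Pay × Core) ^ 2)
  have hc : 0 < Nat.card (KF Pay × Core) :=
    Nat.card_pos_iff.2 ⟨⟨(.R, .free (lift 0 ⟨⟨true, true, .R, .R, none, none, none, true⟩, 0, 0,
      none⟩ 0).q)⟩, inferInstance⟩
  set G := Nat.card (KF Pay × Reg × Reg × Ty (h + 1) × Ty (h + 1)) * m + 1 with hGd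
  have hG : 4 * G < Nl (h + 1) := by
    refine lt_of_lt_of_le ?_ hh
    have e : Nat.card (KF Pay × Reg × Reg × Ty (h + 1) × Ty (h + 1)) =
        Nat.card (KF Pay × Reg × Reg) * (Nat.card (KF Pay × Core) ^ 2) ^ (h + 1) := by
      simp only [Nat.card_prod, card_Ty]; ring
    have : 0 < (Nat.card (KF Pay × Core) ^ 2) ^ (h + 1) := by positivity
    rw [hGd, e]
    nlinarith
  choose pick hpick using exists_pick (T := KF Pay × Reg × Reg × Ty (h + 1) × Ty (h + 1)) m G
    (by omega)
  obtain ⟨L0, hL⟩ := exists_OK (h + 1) 0 (2 * Nl (h + 1) + 3)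
  refine ⟨L0, fun L hL0 => ⟨fun w => (len (h + 1) 0 (sh (pick fun g => typ h (w, L) g).1.1).2,
    fun i => dL (h + 1) 0 (w, L) (gst h (w, L) ((pick fun g => typ h (w, L) g).2 i))), ?_⟩⟩
  intro w hw
  obtain ⟨hx, hH⟩ := hL (w, L) hL0 fun h' => hw (h'.mono (by omega) le_rfl)
  obtain ⟨p1, p2⟩ := hpick fun g => typ h (w, L) g
  set z := pick fun g => typ h (w, L) g with hz
  have hm : ∀ i, mk h (w, L) (z.2 i) = z.1.1 := fun i => congrArg (·.1) (p2 i)
  have k4 : (sh z.1.1).1 + (sh z.1.1).2 ≤ 3 ∧ 1 ≤ (sh z.1.1).2 := by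
    rcases sh_cases z.1.1 with c | c | c <;> simp [c]
  have hst : ∀ i, gst h (w, L) (z.2 i) =
      off (top (h + 1) 0 (w, L)).1 + 1 + 4 * (z.2 i : ℕ) + (sh z.1.1).1 := fun i => by
    unfold gst; rw [hm]
  have hz0 : ¬(sys (Nl (h + 1))).Zero 1 (top (h + 1) 0 (w, L)).2 (top (h + 1) 0 (w, L)).1 := by
    have := OK_top (h + 1) 0 0 (w, L) hx
    rw [Nat.zero_add] at this
    exact this
  obtain ⟨o1, o2, -⟩ := off_spec hz0 (by omega)
  have hord : ∀ i j : Fin m, i < j → dL (h + 1) 0 (w, L) (gst h (w, L) (z.2 i)) +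
      len (h + 1) 0 (sh z.1.1).2 ≤ dL (h + 1) 0 (w, L) (gst h (w, L) (z.2 j)) := by
    intro i j hij
    have : (z.2 i : ℕ) < z.2 j := p1 hij
    rw [← dL_add]
    exact dL_le _ _ _ (by rw [hst, hst]; omega)
  have hbd : ∀ i : Fin m, dL (h + 1) 0 (w, L) (gst h (w, L) (z.2 i)) +
      len (h + 1) 0 (sh z.1.1).2 ≤ L := by
    intro i
    have := (z.2 i).2
    rw [← dL_add]
    exact ((dL_le_dR _ _ _ _).trans_lt (dR_lt _ _ _ _ hx (by rw [hst]; omega))).le
  refine ⟨hord, hbd, fun i j hij => ?_⟩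
  have hlt : (z.2 i : ℕ) < z.2 j := p1 hij
  obtain ⟨a1, a2, a3, a4⟩ := group_exch hx hH hG hlt (z.2 j).2 ((p2 i).trans (p2 j).symm) rfl
  rw [hm] at a1 a2 a3 a4
  refine ⟨(a1.eqv fun k hk => ?_).mono (by omega) le_rfl, ?_, a2⟩
  · have b1 := hbd i
    have b2 := hbd j
    have b3 := le_dL (h + 1) 0 (w, L) (gst h (w, L) (z.2 i))
    have b4 := le_dL (h + 1) 0 (w, L) (gst h (w, L) (z.2 j))
    have b5 := hst i
    have b6 := hst j
    simp only [Function.comp]
    rw [swapIdx_out (by omega) (by omega)]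
  · have e : (fun g : Fin G => typ h (w ∘ swapIdx (dL (h + 1) 0 (w, L) (gst h (w, L) (z.2 i)))
        (dL (h + 1) 0 (w, L) (gst h (w, L) (z.2 j))) (len (h + 1) 0 (sh z.1.1).2), L) g) =
        fun g : Fin G => typ h (w, L) g := funext fun g => (a4 g g.2).1
    simp only
    rw [e, ← hz, a3]
    congr 1
    funext k
    rw [(a4 _ (z.2 k).2).2]

/-- A letter to which no rule applies. -/
def x0 : Ent := ⟨⟨false, false, .R, .R, some false, some false, none, false⟩, 0, 0, none⟩

theorem x0_nz {N : ℕ} (hN : 2 ≤ N) : ¬(sys N).Zero 0 1 fun _ => x0 := by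
  rintro ⟨g, h1, h2⟩
  have h3 : g 0 = x0 := by
    refine (Eqv.induct (Q := fun g => g 0 = x0) ?_ h1).1 rfl
    intro a b ha hs
    exfalso
    rcases hs with (⟨i, -, u, v, -⟩ | ⟨i, -, u, -⟩) | (⟨i, -, u, v, -⟩ | ⟨i, -, u, -⟩)
    · obtain rfl : i = 0 := by omega
      rw [ha] at v
      generalize b 0 = y at v
      generalize hx : x0 = z at v
      cases v with
      | u5 v => simpa [x0, v.1] using congrArg (·.q.kf) hx
      | u2 v => simpa [x0, v] using congrArg (·.q.tf) hx
      | act v => simpa [x0] using congrArg (·.oc) hx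
    · omega
    · obtain rfl : i = 0 := by omega
      rw [ha] at v
      generalize b 0 = y at v
      generalize hx : x0 = z at v
      cases v with
      | u5 v =>
        obtain ⟨-, -, rfl⟩ := v
        simpa [x0] using congrArg (·.q.kf) hx
      | u2 v => simpa [x0] using congrArg (·.n) hx
      | act v => simpa [x0] using congrArg (·.oc) hx
    · omega
  rcases h2 with ⟨i, -, u, v⟩ | ⟨i, -, u, -⟩
  · obtain rfl : i = 0 := by omega
    rw [h3] at v
    rcases v with v | v | v | ⟨β, v, w⟩ | v | v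
    · exact v (by constructor <;> simp [x0, KF.isKey])
    · simp [x0] at v; omega
    · simp [x0] at v; omega
    · simp [x0, demand] at v w; simp [v] at w
    · simp [x0, ZA] at v
    · simp [x0] at v
  · omega

theorem long_nz : ∀ D s : ℕ, ∃ L, D + 1 ≤ L ∧ ∃ w, ¬(sys (Nl s)).Zero 0 L w
  | 0, s => ⟨1, le_rfl, _, x0_nz (Nl_ge s)⟩
  | D + 1, s => by
    obtain ⟨L, hL, V, hV⟩ := long_nz D (s + 1)
    have hN := Nl_ge s
    obtain ⟨h1, h2⟩ := valid_liftW (o := 0) hN (i0 := 0) (i1 := L) (by omega)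
      fun i x y => inR_of_nz hV x y
    have := sound_nz hN (by omega) h1 fun h' => hV (h'.congr h2)
    refine ⟨Nl s * L, by nlinarith, _, by simpa using this⟩

end Vale.Agent.P192
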