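import Vale.Agent.P192.Move

/-! Nonzero words consist of cells of size exactly `N`. -/

namespace Vale.Agent.P192

variable {N lo hi : ℕ} {f : Wd}

theorem nz_uok (h : ¬(sys N).Zero lo hi f) {i : ℕ} (h1 : lo ≤ i) (h2 : i < hi) :
    ¬Zero1 N (f i) := fun hz => h (Sys.zero1 h1 h2 hz)

theorem sz_uok (h : ¬(sys N).Zero lo hi f) {i : ℕ} (h1 : lo ≤ i) (h2 : i < hi) :
    uok (f i).q := by
  by_contra hc
  exact nz_uok h h1 h2 (Or.inl hc)

theorem sz_alt (h : ¬(sys N).Zero lo hi f) {i : ℕ} (h1 : lo ≤ i) (h2 : i < hi) :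
    (f i).a < N := by
  by_contra hc
  exact nz_uok h h1 h2 (Or.inr (Or.inl (by omega)))

theorem sz_nlt (h : ¬(sys N).Zero lo hi f) {i : ℕ} (h1 : lo ≤ i) (h2 : i < hi) :
    (f i).n < N := by
  by_contra hc
  exact nz_uok h h1 h2 (Or.inr (Or.inr (Or.inl (by omega))))

theorem sz_dem (h : ¬(sys N).Zero lo hi f) {i : ℕ} (h1 : lo ≤ i) (h2 : i < hi) {β : Bool}
    (hd : demand (f i).q β) : (f i).n = if β then N - 1 else 0 := by
  by_contra hc
  exact nz_uok h h1 h2 (Or.inr (Or.inr (Or.inr (Or.inl ⟨β, hd, hc⟩))))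

theorem sz_n0 (h : ¬(sys N).Zero lo hi f) {i : ℕ} (h1 : lo ≤ i) (h2 : i < hi)
    (ht : (f i).q.tf = .R ∨ (f i).q.tf = .L) : (f i).n = 0 := by
  have := sz_dem h h1 h2 (β := false) (Or.inl ⟨by tauto, rfl⟩)
  simpa using this

theorem sz_nz_eqv {g : Wd} (h : ¬(sys N).Zero lo hi f) (e : (sys N).Eqv lo hi f g) :
    ¬(sys N).Zero lo hi g := fun hz => h (hz.of_eqv e)

theorem nz_compat (h : ¬(sys N).Zero lo hi f) {i : ℕ} (h1 : lo ≤ i) (h2 : i + 1 < hi) :
    compatS (f i).q.era (f (i + 1)).q := by
  by_contra hc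
  have hok : ¬∃ α, Pay.era (f i).q.era = .era α ∧ compatS α (f (i + 1)).q := by
    rintro ⟨α, e, hα⟩
    cases e
    exact hc hα
  have hs := @Step2.mk .chk (f i).q (f (i + 1)).q (.era (f i).q.era) (f i).a (f i).n (f i).oc
    (f (i + 1)).a (f (i + 1)).n (f (i + 1)).oc trivial trivial (fun _ => hok)
  have e1 : unext .chk (f i).q (.era (f i).q.era) = (f i).q := by simp [unext]
  have e2 : ins .chk (f (i + 1)).q (.era (f i).q.era) = (f (i + 1)).q.dm := by
    simp only [ins]
    rw [if_neg hok]
  rw [e1, e2] at hs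
  have hs' := (Sys.step2 (S := sys N) (f := f) h1 h2 hs).eqv
  have := (sz_uok (sz_nz_eqv h hs') (i := i + 1) (by omega) h2).doom
  simp at this

/-- Overwrite the data numbers. -/
def szA (f : Wd) (g : ℕ → ℕ) : Wd := fun j => { f j with a := g j }

theorem szA_self (f : Wd) : szA f (fun j => (f j).a) = f := rfl

theorem sz_swap_adj {s e i : ℕ} (hs : Sib f s e) (h1 : s ≤ i) (h2 : i < e) (g : ℕ → ℕ) :
    (sys N).Eqv s (e + 1) (szA f g) (szA f (g ∘ Equiv.swap i (i + 1))) := by
  have hq := hs i h1 h2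
  have hst := @Step2.mk .swd (f i).q (f (i + 1)).q .unit (g i) (f i).n (f i).oc
    (g (i + 1)) (f (i + 1)).n (f (i + 1)).oc hq.1 hq.2 (fun hc => by cases hc)
  refine Sys.Step.eqv (Or.inr ⟨i, h1, by omega, ?_, fun j hj hj' => ?_⟩)
  · simpa [szA, sys, unext, ins, da, dn] using hst
  · simp [szA, Equiv.swap_apply_of_ne_of_ne hj hj']

theorem sz_swap {s e i : ℕ} (hs : Sib f s e) (h1 : s ≤ i) (d : ℕ) (h2 : i + d ≤ e) (g : ℕ → ℕ) :
    (sys N).Eqv s (e + 1) (szA f g) (szA f (g ∘ Equiv.swap i (i + d))) := by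
  induction d generalizing g with
  | zero => simpa using Sys.Eqv.refl _
  | succ d ih =>
    rcases Nat.eq_zero_or_pos d with rfl | hd
    · simpa using sz_swap_adj hs h1 (by omega) g
    have a1 := sz_swap_adj (N := N) hs (i := i + d) (by omega) (by omega) g
    have a2 := ih (by omega) (g ∘ Equiv.swap (i + d) (i + d + 1))
    have a3 := sz_swap_adj (N := N) hs (i := i + d) (by omega) (by omega)
      ((g ∘ Equiv.swap (i + d) (i + d + 1)) ∘ Equiv.swap i (i + d))
    have e : ((g ∘ Equiv.swap (i + d) (i + d + 1)) ∘ Equiv.swap i (i + d)) ∘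
        Equiv.swap (i + d) (i + d + 1) = g ∘ Equiv.swap i (i + (d + 1)) := by
      funext j
      simp only [Function.comp, Equiv.swap_apply_def]
      congr 1
      split_ifs <;> omega
    rw [e] at a3
    exact (a1.trans a2).trans a3

theorem swap_a {s e i j : ℕ} (hs : Sib f s e) (h1 : s ≤ i) (h2 : i < j) (h3 : j ≤ e) :
    (sys N).Eqv s (e + 1) f
      (Function.update (Function.update f i { f i with a := (f j).a }) j
        { f j with a := (f i).a }) := by
  obtain ⟨d, rfl⟩ : ∃ d, j = i + d := ⟨j - i, by omega⟩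
  have := sz_swap (N := N) hs h1 d h3 (fun j => (f j).a)
  rw [szA_self] at this
  convert this using 1
  funext p
  by_cases hp : p = i + d
  · subst hp
    simp [szA]
  · by_cases hp' : p = i
    · subst hp'
      rw [Function.update_of_ne hp]
      simp [szA]
    · simp [szA, hp, hp', Equiv.swap_apply_of_ne_of_ne hp' hp]

theorem nz_ainj (h : ¬(sys N).Zero lo hi f) {s e i j : ℕ} (hs : Sib f s e) (hlo : lo ≤ s)
    (hhi : e < hi) (h1 : s ≤ i) (h2 : i < j) (h3 : j ≤ e) : (f i).a ≠ (f j).a := by
  intro ha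
  obtain ⟨d, rfl⟩ : ∃ d, j = i + 1 + d := ⟨j - i - 1, by omega⟩
  have := (sz_swap (N := N) hs (i := i + 1) (by omega) d h3 (fun j => (f j).a)).mono hlo
    (show e + 1 ≤ hi by omega)
  rw [szA_self] at this
  refine sz_nz_eqv h this (Sys.zero2 (i := i) (by omega) (by omega) ⟨(hs i h1 (by omega)).1, ?_⟩)
  have e1 : Equiv.swap (i + 1) (i + 1 + d) i = i :=
    Equiv.swap_apply_of_ne_of_ne (by omega) (by omega)
  simp [szA, e1, ha]

theorem sz_sib (h : ¬(sys N).Zero lo hi f) {s e : ℕ} (h1 : lo ≤ s) (h3 : e < hi)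
    (hm : ∀ j, s ≤ j → j < e → (f j).q.last = false) : Sib f s e := by
  intro j a b
  have := (nz_compat h (i := j) (by omega) (by omega)).1
  rw [RegG.era_last, hm j a b] at this
  exact ⟨hm j a b, this.symm⟩

theorem sz_card (h : ¬(sys N).Zero lo hi f) {s e : ℕ} (hs : Sib f s e) (h1 : lo ≤ s)
    (h3 : e < hi) : e + 1 - s ≤ N := by
  have := Finset.card_le_card_of_injOn (s := Finset.range (e + 1 - s)) (t := Finset.range N)
    (fun j => (f (s + j)).a)
    (fun j hj => by
      simp only [Finset.coe_range, Set.mem_Iio] at hj ⊢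
      exact sz_alt h (by omega) (by omega))
    (fun i hi' j hj hij => by
      simp only [Finset.coe_range, Set.mem_Iio] at hi' hj
      rcases lt_trichotomy i j with c | c | c
      · exact absurd hij (nz_ainj h hs h1 h3 (by omega) (by omega) (by omega))
      · exact c
      · exact absurd hij.symm (nz_ainj h hs h1 h3 (by omega) (by omega) (by omega)))
  simpa using this

theorem nz_last (h : ¬(sys N).Zero lo hi f) {s : ℕ} (h1 : lo ≤ s) (h2 : s + N < hi) :
    ∃ j < N, (f (s + j)).q.last = true := by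
  by_contra hc
  push Not at hc
  have hs : Sib f s (s + N) := sz_sib h h1 h2 fun j a b => by
    have := hc (j - s) (by omega)
    rw [show s + (j - s) = j by omega] at this
    simpa using this
  have := sz_card h hs h1 h2
  omega

theorem sz_flags {R L : ℕ → Prop} {s e : ℕ} (hse : s ≤ e) (hx : ∀ j, L j → ¬R j)
    (hok : ∀ j, s ≤ j → j < e → (R j ∧ ¬L (j + 1)) ∨ (¬R j ∧ L (j + 1))) (h0 : ¬L s)
    (h1 : ¬R e) : ∃ k, s ≤ k ∧ k ≤ e ∧ (∀ j, s ≤ j → j < k → R j) ∧ ¬R k ∧ ¬L k ∧
      ∀ j, k < j → j ≤ e → L j := by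
  classical
  have hex : ∃ k, s ≤ k ∧ ¬R k := ⟨e, hse, h1⟩
  have hk := Nat.find_spec hex
  have hmin : ∀ j, s ≤ j → j < Nat.find hex → R j := fun j a b => by
    by_contra hc
    exact Nat.find_min hex b ⟨a, hc⟩
  have hle : Nat.find hex ≤ e := Nat.find_min' hex ⟨hse, h1⟩
  generalize Nat.find hex = k at hk hmin hle
  refine ⟨k, hk.1, hle, hmin, hk.2, ?_, ?_⟩
  · rcases Nat.eq_or_lt_of_le hk.1 with c | c
    · exact c ▸ h0
    · obtain ⟨k, rfl⟩ : ∃ m, k = m + 1 := ⟨k - 1, by omega⟩
      rcases hok k (by omega) (by omega) with c | c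
      · exact c.2
      · exact absurd (hmin k (by omega) (by omega)) c.1
  · have : ∀ d, k + d + 1 ≤ e → L (k + d + 1) := by
      intro d
      induction d with
      | zero =>
        intro a
        rcases hok k hk.1 (by omega) with c | c
        · exact absurd c.1 hk.2
        · exact c.2
      | succ d ih =>
        intro a
        rcases hok (k + d + 1) (by omega) (by omega) with c | c
        · exact absurd c.1 (hx _ (ih (by omega)))
        · exact c.2
    intro j a b
    obtain ⟨d, rfl⟩ : ∃ d, j = k + d + 1 := ⟨j - k - 1, by omega⟩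
    exact this d b

/-- Put the token at `t` in state `τ` with counter `n`. -/
def szT (f : Wd) (t : ℕ) (τ : TF) (n : ℕ) : Wd := fun j =>
  { f j with q := (f j).q.setT (if j < t then .R else if j = t then τ else .L),
             n := if j = t then n else 0 }

theorem szT_u2 {s e t n : ℕ} (hs : Sib f s e) (h1 : s ≤ t) (h2 : t < e) (hn : n + 1 < N) :
    (sys N).Eqv s (e + 1) (szT f t .A n) (szT f t .B (n + 1)) := by
  have hst := @Step1.u2 N ((f t).q.setT .A) (f t).a n (f t).oc rfl (hs t h1 h2).1 hn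
  refine Sys.Step.eqv (Or.inl ⟨t, h1, by omega, ?_, fun j hj => ?_⟩)
  · simpa [szT, sys, RegG.setT] using hst
  · simp [szT, hj]

theorem szT_mv {s e t n : ℕ} (hs : Sib f s e) (h1 : s ≤ t) (h2 : t < e) :
    (sys N).Eqv s (e + 1) (szT f t .B n) (szT f (t + 1) .A n) := by
  have hq := hs t h1 h2
  have hst := @Step2.mk .mvc ((f t).q.setT .R) ((f (t + 1)).q.setT .L) .unit (f t).a n (f t).oc
    (f (t + 1)).a 0 (f (t + 1)).oc ⟨hq.1, rfl⟩ ⟨hq.2, rfl⟩ (fun hc => by cases hc)
  refine Sys.Step.eqv (Or.inr ⟨t, h1, by omega, ?_, fun j hj hj' => ?_⟩)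
  · simpa [szT, sys, unext, ins, da, dn, RegG.setT] using hst
  · have e1 : j < t + 1 ↔ j < t := by omega
    simp [szT, hj, hj', e1]

theorem szT_fwd {s e t n : ℕ} (hs : Sib f s e) (h1 : s ≤ t) (d : ℕ) (h2 : t + d ≤ e)
    (hn : n + d < N) : (sys N).Eqv s (e + 1) (szT f t .A n) (szT f (t + d) .A (n + d)) := by
  induction d with
  | zero => exact Sys.Eqv.refl _
  | succ d ih =>
    exact ((ih (by omega) (by omega)).trans
      (szT_u2 hs (by omega) (by omega) (by omega))).trans (szT_mv hs (by omega) (by omega))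

theorem szT_first {s e n : ℕ} (h : ¬(sys N).Zero s (e + 1) (szT f s .A n)) (hse : s ≤ e)
    (hs : (f s).q.first = true) : n = 0 := by
  have := sz_dem h (i := s) le_rfl (by omega) (β := false)
    (Or.inl ⟨Or.inr (Or.inr ⟨by simp [szT], by simpa [szT] using hs⟩), rfl⟩)
  simpa [szT] using this

theorem szT_last {s e n : ℕ} (h : ¬(sys N).Zero s (e + 1) (szT f e .A n)) (hse : s ≤ e)
    (he : (f e).q.last = true) : n = N - 1 := by
  have hu := sz_uok h (i := e) hse (by omega)
  have hf : (f e).q.first = false := by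
    by_contra hc
    have := hu.fl (by simpa [szT] using hc)
    simp [szT, he] at this
  have := sz_dem h (i := e) hse (by omega) (β := true)
    (Or.inr ⟨by simp [szT], by simpa [szT] using hf, by simpa [szT] using he, rfl⟩)
  simpa [szT] using this

theorem szT_homeA {s e t n : ℕ} (h : ¬(sys N).Zero s (e + 1) (szT f t .A n)) (hs : Sib f s e)
    (h1 : s ≤ t) (h2 : t ≤ e) (hc : e + 1 - s ≤ N) (hf : (f s).q.first = true)
    (he : (f e).q.last = true) :
    (sys N).Eqv s (e + 1) (szT f t .A n) (szT f s .A 0) ∧ e + 1 = s + N := by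
  have hn : n < N := by simpa [szT] using sz_nlt h h1 (show t < e + 1 by omega)
  have key : n = t - s := by
    rcases le_or_gt (t - s) n with c | c
    · have a := szT_fwd (N := N) (n := n - (t - s)) hs le_rfl (t - s) (by omega) (by omega)
      rw [show s + (t - s) = t by omega, show n - (t - s) + (t - s) = n by omega] at a
      have := szT_first (sz_nz_eqv h a.symm) (by omega) hf
      omega
    · have a := szT_fwd (N := N) (n := n) hs h1 (e - t) (by omega) (by omega)
      rw [show t + (e - t) = e by omega] at a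
      have := szT_last (sz_nz_eqv h a) (by omega) he
      omega
  constructor
  · have a := szT_fwd (N := N) (n := 0) hs le_rfl (t - s) (by omega) (by omega)
    rw [show s + (t - s) = t by omega, show 0 + (t - s) = n by omega] at a
    exact a.symm
  · have a := szT_fwd (N := N) (n := n) hs h1 (e - t) (by omega) (by omega)
    rw [show t + (e - t) = e by omega] at a
    have := szT_last (sz_nz_eqv h a) (by omega) he
    omega

theorem szT_home {s e : ℕ} (h : ¬(sys N).Zero s (e + 1) f) (hs : Sib f s e) (hse : s ≤ e)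
    (hf : (f s).q.first = true) (he : (f e).q.last = true) :
    (sys N).Sim s (e + 1) f (szT f s .A 0) ∧ e + 1 = s + N := by
  have hc := sz_card h hs le_rfl (show e < e + 1 by omega)
  obtain ⟨t, t1, t2, tR, tr, tl, tL⟩ := sz_flags (R := fun j => (f j).q.tf = .R)
    (L := fun j => (f j).q.tf = .L) hse (fun j a b => by rw [a] at b; cases b)
    (fun j a b => ((nz_compat h a (by omega)).2.1 (hs j a b).1).2.1)
    ((sz_uok h le_rfl (by omega)).fk hf).2 ((sz_uok h hse (by omega)).lk he).2.1
  have ag : Agree s (e + 1) f (szT f t (f t).q.tf (f t).n) := by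
    intro j a b
    rcases lt_trichotomy j t with c | c | c
    · have e1 := tR j a c
      have e2 := sz_n0 h a b (Or.inl e1)
      have e3 : j ≠ t := by omega
      simp only [szT, c, e3, if_true, if_false, ← e1, ← e2]
      rfl
    · subst c
      simp only [szT, lt_irrefl, if_true, if_false]
      rfl
    · have e1 := tL j c (by omega)
      have e2 := sz_n0 h a b (Or.inr e1)
      have e3 : j ≠ t := by omega
      have e4 : ¬j < t := by omega
      simp only [szT, e3, e4, if_false, ← e1, ← e2]
      rfl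
  have h' : ¬(sys N).Zero s (e + 1) (szT f t (f t).q.tf (f t).n) := fun hz =>
    h (Sys.Zero.of_sim (Sys.Sim.of_agree ag) hz)
  cases hτ : (f t).q.tf with
  | R => exact absurd hτ tr
  | L => exact absurd hτ tl
  | A =>
    rw [hτ] at ag h'
    obtain ⟨a, b⟩ := szT_homeA h' hs t1 t2 hc hf he
    exact ⟨(Sys.Sim.of_agree ag).trans a.sim, b⟩
  | B =>
    rw [hτ] at ag h'
    have te : t < e := by
      rcases Nat.eq_or_lt_of_le t2 with c | c
      · subst c
        exact absurd hτ ((sz_uok h hse (by omega)).lk he).2.2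
      · exact c
    have m := szT_mv (N := N) (n := (f t).n) hs t1 te
    obtain ⟨a, b⟩ := szT_homeA (sz_nz_eqv h' m) hs (by omega) (by omega) hc hf he
    exact ⟨(Sys.Sim.of_agree ag).trans (m.trans a).sim, b⟩

theorem nz_size (h : ¬(sys N).Zero lo hi f) {s e : ℕ} (h1 : lo ≤ s) (h2 : s ≤ e) (h3 : e < hi)
    (hs : (f s).q.first = true) (he : (f e).q.last = true)
    (hm : ∀ j, s ≤ j → j < e → (f j).q.last = false) : e + 1 = s + N :=
  (szT_home (fun hz => h (hz.mono h1 (by omega))) (sz_sib h h1 h3 hm) h2 hs he).2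

theorem sz_cell (h : ¬(sys N).Zero lo hi f) {s : ℕ} (h1 : lo ≤ s)
    (hs : (f s).q.first = true) (hex : ∃ j, s + j < hi ∧ (f (s + j)).q.last = true) :
    s + N ≤ hi ∧ 0 < N ∧ (f (s + (N - 1))).q.last = true ∧
      ∀ j, s ≤ j → j + 1 < s + N → (f j).q.last = false := by
  classical
  have hk := Nat.find_spec hex
  have hmin : ∀ j, s ≤ j → j < s + Nat.find hex → (f j).q.last = false := fun j a b => by
    have := Nat.find_min hex (m := j - s) (by omega)
    rw [show s + (j - s) = j by omega] at this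
    have c : j < hi := by omega
    simpa [c] using this
  generalize Nat.find hex = k at hk hmin
  have := nz_size h h1 (show s ≤ s + k by omega) hk.1 hs hk.2 hmin
  obtain rfl : N = k + 1 := by omega
  exact ⟨by omega, by omega, hk.2, fun j a b => hmin j a (by omega)⟩

theorem nz_shape {C : Wd} (hN : 2 ≤ N) (h : ¬(sys N).Zero 0 N C) (h1 : (C 0).q.first = true)
    (h2 : (C (N - 1)).q.last = true) : ∃ k, Shp N C k := by
  obtain ⟨-, -, -, hm⟩ := sz_cell h le_rfl h1 ⟨N - 1, by omega, by simpa using h2⟩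
  have hs : Sib C 0 (N - 1) := sz_sib h le_rfl (by omega) fun j a b => hm j a (by omega)
  obtain ⟨k, -, k2, kR, kr, kl, kL⟩ := sz_flags (R := fun j => (C j).q.kf = .R)
    (L := fun j => (C j).q.kf = .L) (Nat.zero_le (N - 1)) (fun j a b => by rw [a] at b; cases b)
    (fun j a b => by
      have := ((nz_compat h a (by omega)).2.1 (hs j a b).1).1
      simpa [KF.ok] using this)
    ((sz_uok h le_rfl (by omega)).fk h1).1 ((sz_uok h (Nat.zero_le _) (by omega)).lk h2).1
  refine ⟨k, by omega, fun j hj => ?_, fun j hj => kR j (Nat.zero_le _) hj,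
    fun j a b => kL j b (by omega), ?_⟩
  · rw [zero_add]
    constructor
    · rcases j with _ | j
      · simpa using h1
      · simpa using (hs j (Nat.zero_le _) (by omega)).2
    · by_cases c : j + 1 = N
      · rw [show j = N - 1 by omega, h2]
        simp only [true_eq_decide_iff]
        omega
      · rw [hm j (Nat.zero_le _) (by omega)]
        simp [c]
  · revert kr kl
    cases (C k).q.kf <;> simp [KF.isKey]

theorem nz_struct (hN : 2 ≤ N) (h : ¬(sys N).Zero lo hi f) {o : ℕ} (h1 : lo ≤ o)
    (ho : (f o).q.first = true) (i : ℕ) (hi' : o + N * (i + 1) < hi) :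
    (f (o + N * i)).q.first = true ∧ (f (o + N * i + (N - 1))).q.last = true := by
  have key : ∀ p, lo ≤ p → p + N < hi → (f p).q.first = true →
      (f (p + (N - 1))).q.last = true := by
    intro p a b c
    obtain ⟨j, hj, hl⟩ := nz_last h a b
    exact (sz_cell h a c ⟨j, by omega, hl⟩).2.2.1
  induction i with
  | zero => exact ⟨by simpa using ho, key _ (by omega) (by simpa using hi') (by simpa using ho)⟩
  | succ i ih =>
    rw [Nat.mul_succ] at hi'
    have hl := (ih (by omega)).2
    have e1 : o + N * i + (N - 1) + 1 = o + N * (i + 1) := by rw [Nat.mul_succ]; omega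
    have := (nz_compat h (i := o + N * i + (N - 1)) (by omega) (by omega)).1
    rw [RegG.era_last, hl, e1] at this
    exact ⟨this.symm, key _ (by omega) (by omega) this.symm⟩

theorem sz_sort {C : Wd} (hs : Sib C 0 (N - 1)) (hN : 0 < N) (g : ℕ → ℕ) (h1 : ∀ j < N, g j < N)
    (h2 : ∀ i < N, ∀ j < N, g i = g j → i = j) (m : ℕ) (hm : m ≤ N) :
    ∃ g' : ℕ → ℕ, (sys N).Eqv 0 N (szA C g) (szA C g') ∧ (∀ j < N, g' j < N) ∧
      (∀ i < N, ∀ j < N, g' i = g' j → i = j) ∧ ∀ j < m, g' j = j := by
  induction m with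
  | zero => exact ⟨g, Sys.Eqv.refl _, h1, h2, fun j hj => absurd hj (Nat.not_lt_zero j)⟩
  | succ m ih =>
    obtain ⟨g', a, b, c, d⟩ := ih (by omega)
    have hsurj : ∃ p < N, g' p = m := by
      have := Finset.surj_on_of_inj_on_of_card_le (s := Finset.range N) (t := Finset.range N)
        (fun j _ => g' j) (fun j hj => by simpa using b j (by simpa using hj))
        (fun i j hi' hj e => c i (by simpa using hi') j (by simpa using hj) e) le_rfl m
        (by simp; omega)
      obtain ⟨p, hp, e⟩ := this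
      exact ⟨p, by simpa using hp, e.symm⟩
    obtain ⟨p, hp, e⟩ := hsurj
    have hmp : m ≤ p := by
      by_contra hc
      have := d p (by omega)
      omega
    obtain ⟨r, rfl⟩ : ∃ r, p = m + r := ⟨p - m, by omega⟩
    have sw := sz_swap (N := N) hs (Nat.zero_le m) r (by omega) g'
    rw [show N - 1 + 1 = N by omega] at sw
    have hlt : ∀ j < N, Equiv.swap m (m + r) j < N := fun j hj => by
      rw [Equiv.swap_apply_def]
      split_ifs <;> omega
    refine ⟨_, a.trans sw, fun j hj => b _ (hlt j hj), fun i hi' j hj e' => ?_, fun j hj => ?_⟩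
    · exact (Equiv.swap m (m + r)).injective (c _ (hlt i hi') _ (hlt j hj) e')
    · rcases Nat.eq_or_lt_of_le (Nat.lt_succ_iff.mp hj) with c' | c'
      · subst c'
        simpa using e
      · have : Equiv.swap m (m + r) j = j := Equiv.swap_apply_of_ne_of_ne (by omega) (by omega)
        simp only [Function.comp, this]
        exact d j c'

theorem norm_tok {C : Wd} (h : ¬(sys N).Zero 0 N C) (hC : FL 0 N C) :
    (sys N).Sim 0 N C fun j =>
      { C j with q := (C j).q.setT (if j = 0 then .A else .L), a := j, n := 0 } := by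
  rcases Nat.eq_zero_or_pos N with rfl | hN
  · exact Sys.Sim.of_agree fun i _ b => absurd b (Nat.not_lt_zero i)
  have hs : Sib C 0 (N - 1) := sz_sib h le_rfl (by omega) fun j _ b => by
    have := (hC j (by omega)).2
    rw [zero_add] at this
    rw [this]
    simp only [decide_eq_false_iff_not]
    omega
  have hf : (C 0).q.first = true := by simpa using (hC 0 hN).1
  have hl : (C (N - 1)).q.last = true := by
    have := (hC (N - 1) (by omega)).2
    rw [zero_add] at this
    rw [this]
    simp only [decide_eq_true_eq]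
    omega
  have e1 : N - 1 + 1 = N := by omega
  have a := (szT_home (N := N) (s := 0) (e := N - 1) (by rwa [e1]) hs (Nat.zero_le _) hf hl).1
  rw [e1] at a
  obtain ⟨g, b, -, -, d⟩ := sz_sort (N := N) (C := szT C 0 .A 0) hs hN (fun j => (C j).a)
    (fun j hj => sz_alt h (Nat.zero_le _) hj)
    (fun i hi' j hj e => by
      rcases lt_trichotomy i j with c | c | c
      · exact absurd e (nz_ainj h hs le_rfl (by omega) (Nat.zero_le _) c (by omega))
      · exact c
      · exact absurd e.symm (nz_ainj h hs le_rfl (by omega) (Nat.zero_le _) c (by omega)))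
    N le_rfl
  refine (a.trans b.sim).trans (Sys.Sim.of_agree fun j _ hj => ?_)
  simp [szA, szT, d j hj]

theorem nz_tok (h : ¬(sys N).Zero lo hi f) {s e i j : ℕ} (hs : Sib f s e) (hlo : lo ≤ s)
    (hhi : e < hi) (h1 : s ≤ i) (h2 : i < j) (h3 : j ≤ e) (hq : (f i).q.tf = (f j).q.tf) :
    (f i).n = 0 ∧ (f j).n = 0 := by
  have key : (f j).q.tf = .R ∨ (f j).q.tf = .L := by
    by_cases hR : (f i).q.tf = .R
    · exact Or.inl (hq ▸ hR)
    · have step : ∀ p, s ≤ p → p < e → (f p).q.tf ≠ .R → (f (p + 1)).q.tf = .L := by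
        intro p a b c
        rcases ((nz_compat h (i := p) (by omega) (by omega)).2.1 (hs p a b).1).2.1 with d | d
        · exact absurd d.1 c
        · exact d.2
      have : ∀ d, i + d + 1 ≤ e → (f (i + d + 1)).q.tf = .L := by
        intro d
        induction d with
        | zero => exact fun a => step i h1 (by omega) hR
        | succ d ih =>
          intro a
          refine step (i + d + 1) (by omega) (by omega) ?_
          rw [ih (by omega)]
          exact fun c => by cases c
      obtain ⟨d, rfl⟩ : ∃ d, j = i + d + 1 := ⟨j - i - 1, by omega⟩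
      exact Or.inr (this d h3)
  exact ⟨sz_n0 h (by omega) (by omega) (hq ▸ key), sz_n0 h (by omega) (by omega) key⟩

end Vale.Agent.P192
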