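import Vale.Agent.P192.SoundK

/-! Key moves, lane moves, token moves and data swaps inside a valid cell. -/

namespace Vale.Agent.P192

variable {N : ℕ} {C C' : Wd} {j k t : ℕ} {c : Core} {m : KF Pay}

theorem sb_all_kf {z : Prop} {r : Reg} (m' : KF Pay) :
    SkAll m z { r with kf := m' } ↔ SkAll m z r :=
  ⟨fun h => ⟨h.1, h.2, h.3, fun tr a => by have := h.4 tr a; cases tr <;> exact this⟩,
    fun h => ⟨h.1, h.2, h.3, fun tr a => by have := h.4 tr a; cases tr <;> exact this⟩⟩

/-- A key move from `j` in `C` to `j + 1` in `C'`. -/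
theorem sb_move (hj : j + 1 < N) (ho : ∀ i, i ≠ j → i ≠ j + 1 → C' i = C i)
    (oc1 : (C' j).oc = (C j).oc) (oc2 : (C' (j + 1)).oc = (C (j + 1)).oc)
    (k1 : (C j).q.kf = m) (k2 : (C (j + 1)).q.kf = .L) (k3 : (C' j).q.kf = .R)
    (e : (C' (j + 1)).q = { (C (j + 1)).q with kf := m })
    (f1 : (C' j).q.first = (C j).q.first) (f2 : (C' j).q.last = (C j).q.last)
    (ha : SkAll m (skZ c) (C j).q ↔ SkAll m (skZ c) (C' j).q ∧ SkLeft m (C' j).q)
    (hu : (C j).q.u = skU m (C' j).q) (hv : ∀ tr : Trk, (C j).q.lane tr.lane = skV m tr (C' j).q) :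
    (SkK N C j c m ↔ SkK N C' (j + 1) c m) ∧ InOut N C j c C' (j + 1) c ∧
      InOut N C' (j + 1) c C j c := by
  have k4 : (C' (j + 1)).q.kf = m := by rw [e]
  have oc : ∀ i, (C' i).oc = (C i).oc := fun i => by
    by_cases a : i = j
    · rw [a, oc1]
    by_cases b : i = j + 1
    · rw [b, oc2]
    rw [ho i a b]
  have fl : ∀ i, (C' i).q.first = (C i).q.first ∧ (C' i).q.last = (C i).q.last := fun i => by
    by_cases a : i = j
    · rw [a]; exact ⟨f1, f2⟩
    by_cases b : i = j + 1
    · rw [b, e]; exact ⟨rfl, rfl⟩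
    rw [ho i a b]; exact ⟨rfl, rfl⟩
  have hU : Ul N C' (j + 1) = Ul N C j := sk_fm fun i _ => by
    rw [sk_vu, sk_vu, k1, k4]
    by_cases a : i = j
    · rw [a]; simp [hu]
    by_cases b : i = j + 1
    · rw [b, e]; simp
    rw [ho i a b]
    by_cases d : i < j
    · rw [if_pos d, if_pos (by omega)]
    · rw [if_neg d, if_neg (by omega)]
  have hT : ∀ tr, Tl N C' (j + 1) tr = Tl N C j tr := fun tr => sk_fm fun i _ => by
    rw [sk_vt, sk_vt, k1, k4]
    by_cases a : i = j
    · rw [a]; simp [hv]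
    by_cases b : i = j + 1
    · rw [b, e]; cases tr <;> simp [Trk.lane]
    rw [ho i a b]
    by_cases d : i < j
    · rw [if_pos d, if_pos (by omega)]
    · rw [if_neg d, if_neg (by omega)]
  refine ⟨⟨fun h => ?_, fun h => ?_⟩, sk_inout (k4.trans k1.symm) hU hT (oc _),
    sk_inout (k1.trans k4.symm) hU.symm (fun tr => (hT tr).symm) (oc _).symm⟩
  · refine ⟨hj, k4, h.kK, fun i hi => (fl i).1.trans (h.first i hi),
      fun i hi => (fl i).2.trans (h.last i hi), fun i hi => ?_, fun i hi hi' => ?_,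
      fun i a b => (oc i).trans (h.ocm i a b), (oc 0).trans h.oc0, h.ca, fun i hi => ?_,
      fun i hi => ?_⟩
    · by_cases a : i = j
      · rw [a, k3]
      rw [ho i a (by omega)]; exact h.kR i (by omega)
    · rw [ho i (by omega) (by omega)]; exact h.kL i hi (by omega)
    · by_cases a : i = j
      · rw [a]; exact (ha.1 (h.all j (by omega))).1
      by_cases b : i = j + 1
      · rw [b, e, sb_all_kf]; exact h.all _ hj
      rw [ho i a b]; exact h.all i hi
    · by_cases a : i = j
      · rw [a]; exact (ha.1 (h.all j (by omega))).2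
      rw [ho i a (by omega)]; exact h.left i (by omega)
  · refine ⟨by omega, k1, h.kK, fun i hi => (fl i).1.symm.trans (h.first i hi),
      fun i hi => (fl i).2.symm.trans (h.last i hi), fun i hi => ?_, fun i hi hi' => ?_,
      fun i a b => (oc i).symm.trans (h.ocm i a b), (oc 0).symm.trans h.oc0, h.ca,
      fun i hi => ?_, fun i hi => ?_⟩
    · rw [← ho i (by omega) (by omega)]; exact h.kR i (by omega)
    · by_cases b : i = j + 1
      · rw [b, k2]
      rw [← ho i (by omega) b]; exact h.kL i hi (by omega)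
    · by_cases a : i = j
      · rw [a]; exact ha.2 ⟨h.all j (by omega), h.left j (by omega)⟩
      by_cases b : i = j + 1
      · have := h.all _ hj
        rw [e, sb_all_kf] at this
        rw [b]; exact this
      rw [← ho i a b]; exact h.all i hi
    · rw [← ho i (by omega) (by omega)]; exact h.left i (by omega)

/-- A lane move between `j` and `j + 1`. -/
theorem sb_lane (h : SkK N C k c m) (hj : j + 1 < N) (l : Lane)
    (ho : ∀ i, i ≠ j → i ≠ j + 1 → C' i = C i)
    (oc1 : (C' j).oc = (C j).oc) (oc2 : (C' (j + 1)).oc = (C (j + 1)).oc)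
    (e1 : (C' j).q = (C j).q.setL l ((C (j + 1)).q.lane l))
    (e2 : (C' (j + 1)).q = (C (j + 1)).q.setL l ((C j).q.lane l))
    (h0 : (C j).q.lane l = none ∨ (C (j + 1)).q.lane l = none)
    (h1 : (C j).q.lane l ≠ none ∨ (C (j + 1)).q.lane l ≠ none)
    (hu : l = .u → ¬(C (j + 1)).q.kf.isKey) : SkK N C' k c m ∧ InOut N C k c C' k c := by
  have oc : ∀ i, (C' i).oc = (C i).oc := fun i => by
    by_cases a : i = j
    · rw [a, oc1]
    by_cases b : i = j + 1
    · rw [b, oc2]
    rw [ho i a b]
  have ex : ∀ i, ∃ v, (C' i).q = (C i).q.setL l v := fun i => by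
    by_cases a : i = j
    · rw [a]; exact ⟨_, e1⟩
    by_cases b : i = j + 1
    · rw [b]; exact ⟨_, e2⟩
    rw [ho i a b]; exact ⟨_, (RegG.setL_lane _ l).symm⟩
  have kf : ∀ i, (C' i).q.kf = (C i).q.kf := fun i => by obtain ⟨v, e⟩ := ex i; simp [e]
  have oth : ∀ i l', l' ≠ l → (C' i).q.lane l' = (C i).q.lane l' := fun i l' a => by
    obtain ⟨v, e⟩ := ex i; rw [e, RegG.lane_setL_ne _ a]
  have mv : (List.range N).filterMap (fun i => (C' i).q.lane l) =
      (List.range N).filterMap (fun i => (C i).q.lane l) :=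
    filterMap_move hj (by simp [e1]) (by simp [e2]) h0 fun i _ a b => by rw [ho i a b]
  have core : (∀ i < N, SkAll m (skZ c) (C' i).q) → (∀ i < k, SkLeft m (C' i).q) →
      Ul N C' k = Ul N C k → (∀ tr, Tl N C' k tr = Tl N C k tr) →
      SkK N C' k c m ∧ InOut N C k c C' k c := fun a b d e =>
    ⟨⟨h.hk, (kf k).trans h.km, h.kK,
      fun i hi => by obtain ⟨v, e⟩ := ex i; simpa [e] using h.first i hi,
      fun i hi => by obtain ⟨v, e⟩ := ex i; simpa [e] using h.last i hi,
      fun i hi => (kf i).trans (h.kR i hi), fun i hi hi' => (kf i).trans (h.kL i hi hi'),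
      fun i a b => (oc i).trans (h.ocm i a b), (oc 0).trans h.oc0, h.ca, a, b⟩,
      sk_inout (kf k) d e (oc _)⟩
  have dm : ∀ i < N, (C' i).q.doom = false := fun i hi => by
    obtain ⟨v, e⟩ := ex i; simpa [e] using (h.all i hi).doom
  have a1 := h.all j (by omega)
  have a2 := h.all (j + 1) hj
  by_cases hl : l = .u
  · subst hl
    simp only [RegG.lane_u] at h0 h1 mv
    have hz : ¬skZ c := fun z => by simp [a1.uS z, a2.uS z] at h1
    have hF : ¬m.isF → m ≠ .sm .opnL → False := fun x y => by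
      simp [a1.uO x y, a2.uO x y] at h1
    have hjk : k ≤ j := by
      by_contra hlt
      have hne : j + 1 ≠ k := fun x => hu rfl (by rw [x, h.km]; exact h.kK)
      have b1 := h.left j (by omega)
      have b2 := h.left (j + 1) (by omega)
      by_cases x : m.isF
      · simp [b1.uF x, b2.uF x] at h0
      · by_cases y : m = .sm .opnL
        · simp [b1.uE y, b2.uE y] at h1
        · exact hF x y
    have trk : ∀ i (tr : Trk), (C' i).q.lane tr.lane = (C i).q.lane tr.lane := fun i tr =>
      oth i _ (by cases tr <;> simp [Trk.lane])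
    refine core (fun i hi => ⟨dm i hi, fun x y => (hF x y).elim, fun z => (hz z).elim,
      fun tr x => by rw [trk]; exact (h.all i hi).hol tr x⟩)
      (fun i hi => by rw [ho i (by omega) (by omega)]; exact h.left i hi) ?_
      (fun tr => sk_fm fun i _ => ?_)
    · refine filterMap_move hj ?_ ?_ ?_ fun i _ a b => ?_
      · rw [sk_vu, sk_vu, if_neg (by omega), if_neg (by omega), e1]; rfl
      · rw [sk_vu, sk_vu, if_neg (by omega), if_neg (by omega), e2]; rfl
      · rw [sk_vu, sk_vu, if_neg (by omega), if_neg (by omega)]; exact h0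
      · rw [sk_vu, sk_vu, kf, ho i a b]
    · rw [sk_vt, sk_vt, kf, trk]
      by_cases d : i < k
      · rw [ho i (by omega) (by omega)]
      · rw [if_neg d, if_neg d]
  · obtain ⟨tr, rfl⟩ : ∃ tr : Trk, l = tr.lane := by
      cases l
      · exact ⟨.d, rfl⟩
      · exact ⟨.b, rfl⟩
      · exact absurd rfl hl
    have hop : m.opent = some tr := by
      by_contra x
      simp [a1.hol tr x, a2.hol tr x] at h0
    have hm : m = .sm (.opnR (some tr)) ∨ m = .sm (.dresp tr) := by
      cases m with
      | sm tg => cases tg <;> simp_all [KF.opent]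
      | _ => simp [KF.opent] at hop
    have uu : ∀ i, (C' i).q.u = (C i).q.u := fun i => oth i .u (Ne.symm hl)
    have sU : ∀ q, skU m q = q.u := fun q => by rcases hm with x | x <;> simp [skU, x]
    have sV : ∀ tr' q, skV m tr' q = q.lane tr'.lane := fun tr' q => by
      rcases hm with x | x <;> simp [skV, x]
    have ne : ∀ tr' : Trk, tr' ≠ tr → tr'.lane ≠ tr.lane := fun tr' x => by
      cases tr <;> cases tr' <;> simp_all [Trk.lane]
    refine core (fun i hi => ⟨dm i hi, fun x y => (uu i).trans ((h.all i hi).uO x y),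
      fun z => (uu i).trans ((h.all i hi).uS z), fun tr' x => ?_⟩)
      (fun i _ => ?_) (sk_fm fun i _ => ?_) (fun tr' => ?_)
    · rw [oth i _ (ne tr' fun y => x (y ▸ hop))]; exact (h.all i hi).hol tr' x
    · rcases hm with x | x <;> exact ⟨by simp [x, KF.isF], by simp [x], by simp [x], by simp [x]⟩
    · rw [sk_vu, sk_vu, kf, h.km, sU, sU, uu]
    · have v1 : ∀ D : Wd, (D k).q.kf = m → vt D k tr' = fun i => (D i).q.lane tr'.lane :=
        fun D x => funext fun i => by rw [sk_vt, x, sV, ite_self]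
      rw [Tl, Tl, v1 C h.km, v1 C' ((kf k).trans h.km)]
      by_cases x : tr' = tr
      · rw [x]; exact mv
      · exact sk_fm fun i _ => oth i _ (ne tr' x)

theorem SkT.eq_of_tok (h : SkT N C t) (hj : j < N) (h1 : (C j).q.tf ≠ .R)
    (h2 : (C j).q.tf ≠ .L) : j = t := by
  rcases lt_trichotomy j t with a | a | a
  · exact absurd (h.tR j a) h1
  · exact a
  · exact absurd (h.tL j hj a) h2

/-- A token move from `j` in `C` to `j + 1` in `C'`. -/
theorem sb_tok (hj : j + 1 < N) (ho : ∀ i, i ≠ j → i ≠ j + 1 → C' i = C i)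
    (a1 : (C' j).a = (C j).a) (a2 : (C' (j + 1)).a = (C (j + 1)).a)
    (n1 : (C' j).n = (C (j + 1)).n) (n2 : (C' (j + 1)).n = (C j).n)
    (t1 : (C j).q.tf = .B) (t2 : (C (j + 1)).q.tf = .L) (t3 : (C' j).q.tf = .R)
    (t4 : (C' (j + 1)).q.tf = .A) : SkT N C j ↔ SkT N C' (j + 1) := by
  have aa : ∀ i, (C' i).a = (C i).a := fun i => by
    by_cases a : i = j
    · rw [a, a1]
    by_cases b : i = j + 1
    · rw [b, a2]
    rw [ho i a b]
  constructor
  · intro h
    have hk := h.tK
    rw [t1] at hk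
    refine ⟨hj, fun i hi => ?_, fun i hi hi' => ?_, Or.inl ⟨t4, ?_⟩, fun i hi hi' => ?_,
      fun i hi => by rw [aa]; exact h.alt i hi,
      fun i hi i' hi' => by rw [aa, aa]; exact h.ainj i hi i' hi'⟩
    · by_cases a : i = j
      · rw [a, t3]
      rw [ho i a (by omega)]; exact h.tR i (by omega)
    · rw [ho i (by omega) (by omega)]; exact h.tL i hi (by omega)
    · rw [n2]; simpa using (hk.resolve_left (by simp)).2.1
    · by_cases a : i = j
      · rw [a, n1]; exact h.n0 _ hj (by omega)
      rw [ho i a hi']; exact h.n0 i hi a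
  · intro h
    have hk := h.tK
    rw [t4] at hk
    refine ⟨by omega, fun i hi => ?_, fun i hi hi' => ?_, Or.inr ⟨t1, ?_, hj⟩,
      fun i hi hi' => ?_, fun i hi => by rw [← aa]; exact h.alt i hi,
      fun i hi i' hi' => by rw [← aa, ← aa]; exact h.ainj i hi i' hi'⟩
    · rw [← ho i (by omega) (by omega)]; exact h.tR i (by omega)
    · by_cases b : i = j + 1
      · rw [b, t2]
      rw [← ho i (by omega) b]; exact h.tL i hi (by omega)
    · rw [← n2]; exact (hk.resolve_right (by simp)).2
    · by_cases b : i = j + 1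
      · rw [b, ← n1]; exact h.n0 _ (by omega) (by omega)
      rw [← ho i hi' b]; exact h.n0 i hi b

/-- A data swap. -/
theorem sb_swd (h : SkT N C t) (hj : j + 1 < N) (ho : ∀ i, i ≠ j → i ≠ j + 1 → C' i = C i)
    (a1 : (C' j).a = (C (j + 1)).a) (a2 : (C' (j + 1)).a = (C j).a)
    (n1 : (C' j).n = (C j).n) (n2 : (C' (j + 1)).n = (C (j + 1)).n)
    (t1 : (C' j).q.tf = (C j).q.tf) (t2 : (C' (j + 1)).q.tf = (C (j + 1)).q.tf) : SkT N C' t := by
  have aa : ∀ i, (C' i).a = (C (Equiv.swap j (j + 1) i)).a := fun i => by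
    by_cases a : i = j
    · rw [a, a1, Equiv.swap_apply_left]
    by_cases b : i = j + 1
    · rw [b, a2, Equiv.swap_apply_right]
    rw [ho i a b, Equiv.swap_apply_of_ne_of_ne a b]
  have lt : ∀ i < N, Equiv.swap j (j + 1) i < N := fun i hi => by
    rw [Equiv.swap_apply_def]; split_ifs <;> omega
  have tn : ∀ i, (C' i).q.tf = (C i).q.tf ∧ (C' i).n = (C i).n := fun i => by
    by_cases a : i = j
    · rw [a]; exact ⟨t1, n1⟩
    by_cases b : i = j + 1
    · rw [b]; exact ⟨t2, n2⟩
    rw [ho i a b]; exact ⟨rfl, rfl⟩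
  exact ⟨h.ht, fun i hi => (tn i).1.trans (h.tR i hi),
    fun i hi hi' => (tn i).1.trans (h.tL i hi hi'), by rw [(tn t).1, (tn t).2]; exact h.tK,
    fun i hi hi' => (tn i).2.trans (h.n0 i hi hi'), fun i hi => by rw [aa]; exact h.alt _ (lt i hi),
    fun i hi i' hi' e => by
      rw [aa, aa] at e
      exact (Equiv.swap j (j + 1)).injective (h.ainj _ (lt i hi) _ (lt i' hi') e)⟩

/-- Adjacent siblings of a valid cell are compatible. -/
theorem sb_compat (h : SkK N C k c m) (h' : SkT N C t) (hj : j + 1 < N) :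
    compatS (C j).q.era (C (j + 1)).q := by
  have l1 : (C j).q.last = false := by rw [h.last j (by omega)]; simp; omega
  have f1 : (C (j + 1)).q.first = false := by rw [h.first _ hj]; simp
  refine ⟨by simp [l1, f1], fun _ => ⟨?_, ?_, fun x y => ?_⟩, fun x => by simp [l1] at x⟩
  · simp only [KF.ok, RegG.era_kf, KF.era_eq_R, ne_eq]
    have hK := h.kK
    by_cases a : j < k
    · refine Or.inl ⟨h.kR j a, fun x => ?_⟩
      by_cases b : j + 1 = k
      · rw [b, h.km] at x; rw [x] at hK; exact hK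
      · rw [h.kR _ (by omega)] at x; cases x
    · refine Or.inr ⟨fun x => ?_, h.kL _ hj (by omega)⟩
      by_cases b : j = k
      · rw [b, h.km] at x; rw [x] at hK; exact hK
      · rw [h.kL _ (by omega) (by omega)] at x; cases x
  · simp only [TF.ok, RegG.era_tf]
    have hK := h'.tK
    by_cases a : j < t
    · refine Or.inl ⟨h'.tR j a, fun x => ?_⟩
      by_cases b : j + 1 = t
      · rw [b] at x; simp [x] at hK
      · rw [h'.tR _ (by omega)] at x; cases x
    · refine Or.inr ⟨fun x => ?_, h'.tL _ hj (by omega)⟩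
      by_cases b : j = t
      · rw [b] at x; simp [x] at hK
      · rw [h'.tL _ (by omega) (by omega)] at x; cases x
  · have e := h.eq_of_key hj x
    rw [e, h.km] at y
    by_cases z : m = .sm .opnL
    · exact (h.left j (by omega)).uE z
    · exact (h.all j (by omega)).uO y z

end Vale.Agent.P192
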