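import Vale.Agent.P192.SoundAAux
import Vale.Agent.P192.SoundBAux

/-! Soundness of unary rules inside a valid cell. -/

namespace Vale.Agent.P192

variable {N : ℕ} {C D : Wd} {j k t : ℕ} {c c' : Core} {m m' : KF Pay}

theorem sa_all (op : m'.opent = m.opent) (emp : saE m' c' → saE m c) {r : Reg}
    (h : SkAll m (skZ c) r) : SkAll m' (skZ c') r := by
  have e : saE m' c' → r.u = none := fun x => (emp x).elim (fun y => h.uO y.1 y.2) h.uS
  exact ⟨h.doom, fun x y => e (Or.inl ⟨x, y⟩), fun x => e (Or.inr x),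
    fun tr x => h.hol tr (op ▸ x)⟩

/-- Changing the key in place. -/
theorem sa_rekey (h : SkK N C k c m) (ho : ∀ i, i ≠ k → D i = C i)
    (e : (D k).q = { (C k).q with kf := m' }) (h0 : (D 0).oc = some c') (hk : k = 0 ∨ k + 1 = N)
    (kK : m'.isKey) (ca : compatA m' c') (op : m'.opent = m.opent) (emp : saE m' c' → saE m c)
    (hl : k = 0 ∨ ((∀ r, SkLeft m' r) ∧ (∀ r, skU m' r = skU m r) ∧
      ∀ tr r, skV m' tr r = skV m tr r)) :
    SkK N D k c' m' ∧ Ul N D k = Ul N C k ∧ ∀ tr, Tl N D k tr = Tl N C k tr := by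
  have km : (D k).q.kf = m' := by rw [e]
  have one : ∀ {P : Reg → Prop} (i : ℕ), P (C i).q → (P (C k).q → P { (C k).q with kf := m' }) →
      P (D i).q := fun i x y => by
    by_cases a : i = k
    · rw [a] at x; rw [a, e]; exact y x
    · rw [ho i a]; exact x
  refine ⟨⟨h.hk, km, kK, fun i hi => one (P := fun r => r.first = _) i (h.first i hi) id,
    fun i hi => one (P := fun r => r.last = _) i (h.last i hi) id,
    fun i hi => by rw [ho i (by omega)]; exact h.kR i hi,
    fun i hi hi' => by rw [ho i (by omega)]; exact h.kL i hi hi',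
    fun i a b => by rw [ho i (by omega)]; exact h.ocm i a b, h0, ca,
    fun i hi => one i (sa_all op emp (h.all i hi)) (sb_all_kf m').2, fun i hi => ?_⟩,
    sk_fm fun i _ => ?_, fun tr => sk_fm fun i _ => ?_⟩
  · rcases hl with x | x
    · omega
    · exact x.1 _
  · rw [sk_vu, sk_vu, km, h.km]
    by_cases a : i = k
    · rw [a, e]; simp
    rw [ho i a]
    rcases hl with x | x
    · simp [x]
    · rw [x.2.1]
  · rw [sk_vt, sk_vt, km, h.km]
    by_cases a : i = k
    · rw [a, e]; cases tr <;> simp [Trk.lane]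
    rw [ho i a]
    rcases hl with x | x
    · simp [x]
    · rw [x.2.2]

theorem sa_tcongr (h : SkT N C t) (ho : ∀ i, i ≠ j → D i = C i) (e1 : (D j).q.tf = (C j).q.tf)
    (e2 : (D j).a = (C j).a) (e3 : (D j).n = (C j).n) : SkT N D t :=
  h.congr fun i _ => by
    by_cases a : i = j
    · rw [a]; exact ⟨e1, e2, e3⟩
    · rw [ho i a]; exact ⟨rfl, rfl, rfl⟩

/-- A change of key and core at the first letter. -/
theorem sa_home (hN : 2 ≤ N) (h : CV N C 0 t c) (ho : ∀ i, i ≠ 0 → D i = C i)
    (e : D 0 = ⟨{ (C 0).q with kf := m' }, (C 0).a, (C 0).n, some c'⟩)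
    (H : SaH (C 0).q.kf c m' c') : CV N D 0 t c' ∧ InOut N C 0 c D 0 c' := by
  obtain ⟨b1, b2, b3⟩ := sa_rekey (D := D) h.skK ho (by rw [e]) (by rw [e]) (Or.inl rfl) H.kK
    H.ca H.op H.emp (Or.inl rfl)
  have km := b1.km
  refine ⟨sk_cv b1 (sa_tcongr h.skT ho (by rw [e]) (by rw [e]) (by rw [e])),
    by rw [km, H.cL], by rw [km, H.cR], b2, by rw [km]; exact H.pvL, by rw [km]; exact H.pvR,
    fun tr => by rw [b3], fun U => ?_⟩
  simp only [phi, km, b3, H.op, ho (N - 1) (by omega)]
  rcases H.ph with x | x | x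
  · exact Or.inl (by rw [x])
  · exact Or.inr (Or.inl (Step1.u5 x))
  · exact Or.inr (Or.inr (Step1.u5 x))

/-- A relayed operation at the last letter. -/
theorem sa_relay (hN : 2 ≤ N) (h : CV N C k t c) (hk : k + 1 = N) (ho : ∀ i, i ≠ k → D i = C i)
    {q : Reg} {ph ph' : Ph} {o : Op} {p p' : Pay} {a n : ℕ} {c1 c1' : Core}
    (e1 : C k = ⟨q.full (.tr ph o) p, a, n, some c1⟩)
    (e2 : D k = ⟨q.full (.tr ph' o) p', a, n, some c1'⟩)
    (hs : (ph = .A ∧ ph' = .B ∧ Act o p c1 p' c1') ∨ (ph = .B ∧ ph' = .A ∧ Act o p' c1' p c1)) :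
    CV N D k t c ∧ InOut N C k c D k c := by
  have hK := h.skK
  have km : (C k).q.kf = .fu (.tr ph o) p := by rw [e1]; rfl
  rw [km] at hK
  obtain ⟨b1, b2, b3⟩ := sa_rekey (D := D) (m' := .fu (.tr ph' o) p') hK ho
    (by rw [e1, e2]; rfl) (by rw [ho 0 (by omega)]; exact h.oc0) (Or.inr hk) trivial hK.ca rfl
    (fun _ => Or.inl ⟨id, by simp⟩) (Or.inr ⟨fun r => ⟨fun x => x.elim, by simp, by simp, by simp⟩,
      fun r => by simp [skU], fun tr r => by simp [skV]⟩)
  have km' := b1.km
  obtain ⟨ro, q0, rfl, hsh⟩ := hK.ca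
  refine ⟨sk_cv b1 (sa_tcongr h.skT ho (by rw [e1, e2]; rfl) (by rw [e1, e2]) (by rw [e1, e2])),
    by rw [km, km']; rfl, by rw [km, km']; rfl, b2, by rw [km, km']; exact sa_pvL rfl rfl,
    by rw [km, km']; exact sa_pvR rfl rfl, fun tr => by rw [b3], fun U => ?_⟩
  have hk' : N - 1 = k := by omega
  have o1 : (C k).oc = some c1 := by rw [e1]
  have o2 : (D k).oc = some c1' := by rw [e2]
  simp only [phi, km, km', b3, hk', o1, o2, phiq, KF.opent]
  rcases hs with ⟨rfl, rfl, x⟩ | ⟨rfl, rfl, x⟩
  · exact Or.inr (Or.inl (Step1.act hsh x))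
  · exact Or.inr (Or.inr (Step1.act hsh x))

theorem sa_bval (k : ℕ) (l : List Bool) :
    bval (List.replicate k false ++ true :: l) = bval (List.replicate k true ++ false :: l) + 1 := by
  induction k with
  | zero => simp [bval]; omega
  | succ k ih => simp [List.replicate_succ, bval, ih]; omega

theorem sa_split {v : ℕ → Option Bool} (hk : k < N) {β γ : Bool} (h1 : ∀ i < k, v i = some β)
    (h2 : v k = some γ) : (List.range N).filterMap v =
      List.replicate k β ++ γ :: ((List.range (N - (k + 1))).map (k + 1 + ·)).filterMap v := by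
  have e : (List.range k).filterMap v = List.replicate k β := by
    rw [List.filterMap_congr (g := fun _ => some β) fun i hi => h1 i (List.mem_range.1 hi)]
    simp
  conv_lhs => rw [show N = (k + 1) + (N - (k + 1)) by omega, List.range_add, List.range_succ]
  simp [List.filterMap_append, e, h2]

/-- The carry stops at `k`. -/
theorem sa_car (hk : k < N) (ho : ∀ i, i ≠ k → D i = C i) (hu : U5 (C k).q (D k).q)
    (oc : (D k).oc = (C k).oc) :
    (SkK N C k c (.sm .car) → SkK N D k c (.sm .ret)) ∧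
    (SkK N D k c (.sm .ret) → SkK N C k c (.sm .car)) ∧
    (SkK N C k c (.sm .car) → InOut N C k c D k c ∧ InOut N D k c C k c) := by
  obtain ⟨k1, b1, e⟩ := hu
  have k2 : (D k).q.kf = .sm .ret := by rw [e]; rfl
  have oc' : ∀ i, (D i).oc = (C i).oc := fun i => by
    by_cases a : i = k
    · rw [a, oc]
    · rw [ho i a]
  have fl : ∀ i, (D i).q.first = (C i).q.first ∧ (D i).q.last = (C i).q.last := fun i => by
    by_cases a : i = k
    · rw [a, e]; exact ⟨rfl, rfl⟩
    · rw [ho i a]; exact ⟨rfl, rfl⟩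
  refine ⟨fun h => ?_, fun h => ?_, fun h => ?_⟩
  · refine ⟨hk, k2, trivial, fun i hi => (fl i).1.trans (h.first i hi),
      fun i hi => (fl i).2.trans (h.last i hi),
      fun i hi => by rw [ho i (by omega)]; exact h.kR i hi,
      fun i hi hi' => by rw [ho i (by omega)]; exact h.kL i hi hi',
      fun i a b => (oc' i).trans (h.ocm i a b), (oc' 0).trans h.oc0, h.ca, fun i hi => ?_,
      fun i hi => ?_⟩
    · have x : SkAll (.sm .ret) (skZ c) (C i).q :=
        sa_all (m := .sm .car) (m' := .sm .ret) rfl (fun _ => Or.inl ⟨id, by simp⟩) (h.all i hi)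
      by_cases a : i = k
      · rw [a] at x; rw [a, e]
        exact ⟨x.1, x.2, x.3, fun tr y => by
          have := x.4 tr y
          cases tr
          · exact this
          · simp [Trk.lane]⟩
      · rw [ho i a]; exact x
    · rw [ho i (by omega)]
      exact ⟨fun x => x.elim, by simp, by simp, fun _ => (h.left i hi).bC (Or.inl rfl)⟩
  · refine ⟨hk, k1, trivial, fun i hi => (fl i).1.symm.trans (h.first i hi),
      fun i hi => (fl i).2.symm.trans (h.last i hi),
      fun i hi => by rw [← ho i (by omega)]; exact h.kR i hi,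
      fun i hi hi' => by rw [← ho i (by omega)]; exact h.kL i hi hi',
      fun i a b => (oc' i).symm.trans (h.ocm i a b), (oc' 0).symm.trans h.oc0, h.ca,
      fun i hi => ?_, fun i hi => ?_⟩
    · have x : SkAll (.sm .car) (skZ c) (D i).q :=
        sa_all (m := .sm .ret) (m' := .sm .car) rfl (fun _ => Or.inl ⟨id, by simp⟩) (h.all i hi)
      by_cases a : i = k
      · rw [a, e] at x; rw [a]
        exact ⟨x.1, x.2, x.3, fun tr y => by
          have := x.4 tr y
          cases tr
          · exact this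
          · simp [Trk.lane, b1]⟩
      · rw [← ho i a]; exact x
    · rw [← ho i (by omega)]
      exact ⟨fun x => x.elim, by simp, by simp, fun _ => (h.left i hi).bC (Or.inr rfl)⟩
  · have hU : Ul N D k = Ul N C k := sk_fm fun i _ => by
      rw [sk_vu, sk_vu, k1, k2]
      by_cases a : i = k
      · rw [a, e]; simp
      · rw [ho i a]; simp [skU]
    have hd : Tl N D k .d = Tl N C k .d := sk_fm fun i _ => by
      rw [sk_vt, sk_vt, k1, k2]
      by_cases a : i = k
      · rw [a, e]; simp [Trk.lane]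
      · rw [ho i a]; simp [skV]
    have t1 := sa_split (v := vt C k .b) (β := true) (γ := false) hk
      (fun i hi => by rw [sk_vt, k1]; simp [hi, skV]) (by rw [sk_vt]; simp [Trk.lane, b1])
    have t2 := sa_split (v := vt D k .b) (β := false) (γ := true) hk
      (fun i hi => by
        rw [sk_vt, k2, ho i (by omega)]
        simp [hi, skV, Trk.lane, (h.left i hi).bC (Or.inl rfl)])
      (by rw [sk_vt, e]; simp [Trk.lane])
    have t3 : ((List.range (N - (k + 1))).map (k + 1 + ·)).filterMap (vt D k .b) =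
        ((List.range (N - (k + 1))).map (k + 1 + ·)).filterMap (vt C k .b) :=
      List.filterMap_congr fun i hi => by
        obtain ⟨i, -, rfl⟩ := List.mem_map.1 hi
        rw [sk_vt, sk_vt, if_neg (by omega), if_neg (by omega), ho _ (by omega)]
    rw [t3] at t2
    have len : ∀ tr, (Tl N D k tr).length = (Tl N C k tr).length := fun tr => by
      cases tr
      · rw [hd]
      · simp only [Tl]; rw [t1, t2]; simp
    have val : bval (Tl N D k .b) = bval (Tl N C k .b) + 1 := by
      simp only [Tl]; rw [t1, t2, sa_bval]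
    have lt : bval (Tl N C k .b) + 1 < 2 ^ N := by
      rw [← val]
      exact (bval_lt _).trans_le (Nat.pow_le_pow_right (by norm_num) (filterMap_length_le N _))
    obtain ⟨q0, rfl, x1, x2⟩ := h.ca
    have st : ∀ U, Step1 (2 ^ N) (phi N U C k (.LC q0)) (phi N U D k (.LC q0)) := fun U => by
      simp only [phi, k1, k2, hd, oc', phiq, KF.opent, reduceCtorEq, if_false, List.nil_append,
        val]
      exact Step1.u2 x1 x2 lt
    exact ⟨⟨by rw [k1, k2]; rfl, by rw [k1, k2]; rfl, hU, by rw [k1, k2]; exact sa_pvL rfl rfl,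
      by rw [k1, k2]; exact sa_pvR rfl rfl, len, fun U => Or.inr (Or.inl (st U))⟩,
      ⟨by rw [k1, k2]; rfl, by rw [k1, k2]; rfl, hU.symm, by rw [k1, k2]; exact sa_pvL rfl rfl,
      by rw [k1, k2]; exact sa_pvR rfl rfl, fun tr => (len tr).symm,
      fun U => Or.inr (Or.inr (st U))⟩⟩

/-- The token changes its phase. -/
theorem sa_u2 (h : CV N C k t c) (hj : j < N) (ho : ∀ i, i ≠ j → D i = C i)
    (e : skE (C j).q (D j).q) (ea : (D j).a = (C j).a) (oc : (D j).oc = (C j).oc)
    (hs : ((C j).q.tf = .A ∧ (D j).q.tf = .B ∧ (D j).n = (C j).n + 1 ∧ (D j).n < N) ∨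
      ((C j).q.tf = .B ∧ (D j).q.tf = .A ∧ (C j).n = (D j).n + 1)) :
    CV N D k t c ∧ InOut N C k c D k c := by
  have hT := h.skT
  obtain ⟨b1, b2⟩ := sk_same (C' := D) h.skK fun i _ => by
    by_cases a : i = j
    · rw [a]; exact ⟨e, oc⟩
    · rw [ho i a]; exact ⟨rfl, rfl⟩
  obtain rfl : j = t := hT.eq_of_tok hj (by rcases hs with x | x <;> simp [x.1])
    (by rcases hs with x | x <;> simp [x.1])
  have aa : ∀ i, (D i).a = (C i).a := fun i => by
    by_cases a : i = j
    · rw [a, ea]
    · rw [ho i a]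
  refine ⟨sk_cv b1 ⟨hj, fun i hi => by rw [ho i (by omega)]; exact hT.tR i hi,
    fun i hi hi' => by rw [ho i (by omega)]; exact hT.tL i hi hi', ?_,
    fun i hi hi' => by rw [ho i hi']; exact hT.n0 i hi hi',
    fun i hi => by rw [aa]; exact hT.alt i hi,
    fun i hi i' hi' => by rw [aa, aa]; exact hT.ainj i hi i' hi'⟩, b2⟩
  have := hT.tK
  rcases hs with x | x
  · have y := (this.resolve_right (by simp [x.1])).2
    exact Or.inr ⟨x.2.1, by omega, by omega⟩
  · have y := (this.resolve_left (by simp [x.1])).2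
    exact Or.inl ⟨x.2.1, by omega⟩

theorem sa_act (hN : 2 ≤ N) (h : CV N C k t c) (hd : (phiq (C k).q.kf c).doom = false)
    (hj : j < N) (ho : ∀ i, i ≠ j → D i = C i) {o ro q p c1 p' c1' a n} (hsh : shape o ro q)
    (ha : Act o p c1 p' c1')
    (hs : (C j = ⟨merge .A o ro q p, a, n, some c1⟩ ∧ D j = ⟨merge .B o ro q p', a, n, some c1'⟩) ∨
      (D j = ⟨merge .A o ro q p, a, n, some c1⟩ ∧ C j = ⟨merge .B o ro q p', a, n, some c1'⟩)) :
    ∃ c', CV N D k t c' ∧ InOut N C k c D k c' := by
  have hK := h.skK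
  cases ro with
  | relay =>
    have hq : q.last = true := by cases o <;> exact hsh
    have mg : ∀ ph p, merge ph o .relay q p = q.full (.tr ph o) p := fun ph p => by
      cases ph <;> cases o <;> rfl
    simp only [mg] at hs
    have hl : j + 1 = N := by
      have := h.last j hj
      rcases hs with x | x
      · simpa [x.1, hq] using this
      · simpa [x.2, hq] using this
    obtain rfl : j = k := hK.eq_of_key hj (by
      rcases hs with x | x
      · rw [x.1]; trivial
      · rw [x.2]; trivial)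
    rcases hs with x | x
    · exact ⟨_, sa_relay hN h hl ho x.1 x.2 (Or.inl ⟨rfl, rfl, ha⟩)⟩
    · exact ⟨_, sa_relay hN h hl ho x.2 x.1 (Or.inr ⟨rfl, rfl, ha⟩)⟩
  | home =>
    have hz : q.first = true → j = 0 := fun hq => by
      have := h.first j hj
      rcases hs with x | x
      · simpa [x.1, hq] using this
      · simpa [x.2, hq] using this
    have ca := h.ca
    have oc0 := h.oc0
    cases o with
    | chk => cases ha
    | small =>
      obtain rfl := hz hsh
      obtain ⟨t0, t1, rfl, rfl, f, b⟩ := sa_small ha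
      simp only [merge] at hs
      obtain rfl : 0 = k := hK.eq_of_key hj (by
        rcases hs with x | x
        · rw [x.1]; trivial
        · rw [x.2]; trivial)
      rcases hs with ⟨x, y⟩ | ⟨y, x⟩
      · rw [x] at ca oc0
        obtain rfl : c1 = c := by simpa using oc0
        exact ⟨_, sa_home hN h ho (by rw [x, y]; rfl) (by rw [x]; exact f ca)⟩
      · rw [x] at ca oc0
        obtain rfl : c1' = c := by simpa using oc0
        exact ⟨_, sa_home hN h ho (by rw [x, y]; rfl) (by rw [x]; exact b ca)⟩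
    | load β =>
      obtain ⟨hq, t0, pt, k0, hl, hb⟩ := hsh
      obtain rfl := hz hq
      obtain ⟨rfl, f, b⟩ := sa_load ha hl hb
      have ld : ldOf q.kf = pt := by simp [k0, ldOf, hl]
      simp only [merge, if_true, ld] at hs
      obtain rfl : 0 = k := hK.eq_of_key hj (by
        rcases hs with x | x
        · rw [x.1]; simp only [k0]; trivial
        · rw [x.2]; trivial)
      rcases hs with ⟨x, y⟩ | ⟨y, x⟩
      · rw [x] at ca oc0 hd
        obtain rfl : c1 = c := by simpa using oc0
        simp only [k0] at ca hd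
        exact ⟨_, sa_home hN h ho (by rw [x, y]; rfl) (by rw [x]; simp only [k0]; exact f ca hd)⟩
      · rw [x] at ca oc0
        obtain rfl : c1' = c := by simpa using oc0
        exact ⟨_, sa_home (m' := .sm t0) hN h ho (by rw [x, y, ← k0]; rfl)
          (by rw [x]; exact b ca)⟩

theorem sound_in1 {N : ℕ} (hN : 2 ≤ N) {C : Wd} {k t : ℕ} {c : Core} (h : CV N C k t c)
    (hd : (phiq (C k).q.kf c).doom = false) {j : ℕ} (hj : j < N) {x : Ent}
    (hs : Step1 N (C j) x ∨ Step1 N x (C j)) :
    ∃ k' t' c', CV N (Function.update C j x) k' t' c' ∧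
      InOut N C k c (Function.update C j x) k' c' := by
  have ho : ∀ i, i ≠ j → Function.update C j x i = C i := fun i a => by simp [a]
  have d1 : Function.update C j x j = x := by simp
  generalize Function.update C j x = D at ho d1 ⊢
  generalize e1 : C j = x0 at hs
  have hK := h.skK
  rcases hs with hs | hs
  · cases hs with
    | u5 hu =>
      have k1 : (C j).q.kf = .sm .car := by rw [e1]; exact hu.1
      obtain rfl : j = k := hK.eq_of_key hj (by rw [k1]; trivial)
      rw [k1] at hK
      obtain ⟨b1, -, b3⟩ := sa_car (c := c) hj ho (by rw [e1, d1]; exact hu) (by rw [e1, d1])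
      exact ⟨_, _, _, sk_cv (b1 hK) (sa_tcongr h.skT ho (by simp [e1, d1, hu.2.2])
        (by rw [e1, d1]) (by rw [e1, d1])), (b3 hK).1⟩
    | u2 a b d =>
      exact ⟨_, _, _, sa_u2 h hj ho (by rw [e1, d1]; rfl) (by rw [e1, d1]) (by rw [e1, d1])
        (Or.inl (by rw [e1, d1]; exact ⟨a, rfl, rfl, d⟩))⟩
    | act a b =>
      obtain ⟨c', x⟩ := sa_act hN h hd hj ho a b (Or.inl ⟨e1, d1⟩)
      exact ⟨_, _, _, x⟩
  · cases hs with
    | u5 hu =>
      have k1 : (C j).q.kf = .sm .ret := by rw [e1]; simp [hu.2.2]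
      obtain rfl : j = k := hK.eq_of_key hj (by rw [k1]; trivial)
      rw [k1] at hK
      obtain ⟨-, b2, b3⟩ := sa_car (C := D) (D := C) (c := c) hj (fun i a => (ho i a).symm)
        (by rw [e1, d1]; exact hu) (by rw [e1, d1])
      exact ⟨_, _, _, sk_cv (b2 hK) (sa_tcongr h.skT ho (by simp [e1, d1, hu.2.2])
        (by rw [e1, d1]) (by rw [e1, d1])), (b3 (b2 hK)).2⟩
    | u2 a b d =>
      exact ⟨_, _, _, sa_u2 h hj ho (by rw [e1, d1]; rfl) (by rw [e1, d1]) (by rw [e1, d1])
        (Or.inr (by rw [e1, d1]; exact ⟨rfl, a, rfl⟩))⟩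
    | act a b =>
      obtain ⟨c', x⟩ := sa_act hN h hd hj ho a b (Or.inr ⟨d1, e1⟩)
      exact ⟨_, _, _, x⟩

end Vale.Agent.P192
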