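import Vale.Agent.P192.SoundK

/-! Changes of the key and the core at the first letter of a cell. -/

namespace Vale.Agent.P192

/-- The upper lane must be empty. -/
def saE (m : KF Pay) (c : Core) : Prop := (¬m.isF ∧ m ≠ .sm .opnL) ∨ skZ c

/-- An admissible change of key and core. -/
structure SaH (m : KF Pay) (c : Core) (m' : KF Pay) (c' : Core) : Prop where
  kK : m'.isKey
  ca : compatA m' c'
  op : m'.opent = m.opent
  emp : saE m' c' → saE m c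
  cL : m'.clsL = m.clsL
  cR : m'.clsR = m.clsR
  pvL : ∀ m0 c0, PV m0 c0 m c → PV m0 c0 m' c'
  pvR : ∀ m0 c0, PV m c m0 c0 → PV m' c' m0 c0
  ph : phiq m' c' = phiq m c ∨ U5 (phiq m c) (phiq m' c') ∨ U5 (phiq m' c') (phiq m c)

variable {m m' : KF Pay} {c c' : Core}

theorem sa_pvL (h : m.clsR = 0) (h' : m'.clsR = 0) (m0 : KF Pay) (c0 : Core) :
    PV m0 c0 m c → PV m0 c0 m' c' := by
  rintro (x | ⟨κ, ph, q, -, -, x | ⟨r, x, -⟩⟩ | ⟨κ, ph, q, ph', r, -, -, -, x, -⟩)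
  · exact Or.inl ⟨x.1, h'⟩
  · simp [x, KF.clsR] at h
  · simp [x, KF.clsR] at h
  · omega

theorem sa_pvR (h : m.clsL = 0) (h' : m'.clsL = 0) (m0 : KF Pay) (c0 : Core) :
    PV m c m0 c0 → PV m' c' m0 c0 := by
  rintro (x | ⟨κ, ph, q, -, x, -⟩ | ⟨κ, ph, q, ph', r, -, -, x, -⟩)
  · exact Or.inl ⟨h', x.2⟩
  · simp [x, KF.clsL] at h
  · omega

/-- Starting work on the left. -/
theorem sa_pvR_start {κ q q'} (h : m.clsL = 2) (h' : m'.clsL = 2) (w : ¬m.isW) (w' : m'.isW)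
    (m0 : KF Pay) (c0 : Core) :
    (PV m (.LS κ .A .L q) m0 c0 → PV m' (.LS κ .B .L q') m0 c0) ∧
      (PV m' (.LS κ .B .L q') m0 c0 → PV m (.LS κ .A .L q) m0 c0) := by
  constructor
  · rintro (x | ⟨κ, ph, q, -, x, -⟩ | ⟨κ1, ph, q1, ph', r, e, e', -, x, y⟩)
    · omega
    · simp [x, KF.clsL] at h
    · cases e
      refine Or.inr (Or.inr ⟨_, _, _, ph', r, rfl, e', h', x, Or.inr (Or.inl ?_)⟩)
      rcases y with y | y | y
      · exact ⟨w', y.2.1, y.2.2.symm⟩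
      · exact absurd y.1 w
      · cases y.2.2.1
  · rintro (x | ⟨κ, ph, q, -, x, -⟩ | ⟨κ1, ph, q1, ph', r, e, e', -, x, y⟩)
    · omega
    · simp [x, KF.clsL] at h'
    · cases e
      refine Or.inr (Or.inr ⟨_, _, _, ph', r, rfl, e', h, x, Or.inl ?_⟩)
      rcases y with y | y | y
      · exact absurd w' y.1
      · exact ⟨w, y.2.1, y.2.2.symm⟩
      · exact absurd w' y.1

/-- Finishing work on the right. -/
theorem sa_pvL_end {κ q q'} (h : m.clsR = 2) (h' : m'.clsR = 2) (w : m.isW) (w' : ¬m'.isW)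
    (m0 : KF Pay) (c0 : Core) :
    (PV m0 c0 m (.LS κ .A .R q) → PV m0 c0 m' (.LS κ .B .R q')) ∧
      ((κ = .chk → ∀ p, m ≠ .fu .respR p) →
        PV m0 c0 m' (.LS κ .B .R q') → PV m0 c0 m (.LS κ .A .R q)) := by
  constructor
  · rintro (x | ⟨κ, ph, q, -, -, x | ⟨r, x, -⟩⟩ | ⟨κ1, ph, q1, ph', r, e, e', x, -, y⟩)
    · omega
    · simp [x, KF.clsR] at h
    · simp [x, KF.clsR] at h
    · cases e'
      refine Or.inr (Or.inr ⟨_, _, _, _, _, e, rfl, x, h', Or.inl ?_⟩)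
      rcases y with y | y | y
      · exact absurd w y.2.1
      · exact absurd w y.2.1
      · exact ⟨y.1, w', y.2.2.1⟩
  · rintro hc (x | ⟨κ, ph, q, -, -, x | ⟨r, x, -⟩⟩ | ⟨κ1, ph, q1, ph', r, e, e', x, -, y⟩)
    · omega
    · simp [x, KF.clsR] at h'
    · simp [x, KF.clsR] at h'
    · cases e'
      refine Or.inr (Or.inr ⟨_, _, _, _, _, e, rfl, x, h, Or.inr (Or.inr ?_)⟩)
      rcases y with y | y | y
      · exact ⟨y.1, w, y.2.2, fun a p b => absurd b (hc a p)⟩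
      · cases y.2.2
      · exact absurd y.2.1 w'

/-- Quiet keys on both sides. -/
theorem sa_quiet (kK : m'.isKey) (ca : compatA m' c') (l : m.clsL = 0) (l' : m'.clsL = 0)
    (r : m.clsR = 0) (r' : m'.clsR = 0)
    (ph : phiq m' c' = phiq m c ∨ U5 (phiq m c) (phiq m' c') ∨ U5 (phiq m' c') (phiq m c)) :
    SaH m c m' c' := by
  refine ⟨kK, ca, by rw [KF.opent_of_clsR _ r, KF.opent_of_clsR _ r'], fun _ => Or.inl ⟨?_, ?_⟩,
    l'.trans l.symm, r'.trans r.symm, sa_pvL r r', sa_pvR l l', ph⟩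
  · cases m with
    | sm t => cases t <;> simp_all [KF.isF, KF.clsL]
    | _ => simp [KF.isF]
  · rintro rfl; simp [KF.clsL] at l

theorem sa_trk {κ : Kind} {t : Trk} (h : κ.wop = some (.sw t)) : κ.trk = some t := by
  cases κ <;> simp_all [Kind.wop, Kind.trk]

theorem sa_skZ {κ ph ph' q q'} : skZ (.LS κ ph .L q) → skZ (.LS κ ph' .L q') := by
  rintro ⟨κ', _, _, e, h⟩
  cases e
  exact ⟨_, _, _, rfl, h⟩

theorem sa_small {p p' : Pay} (h : Act .small p c p' c') : ∃ t t', p = .tag t ∧ p' = .tag t' ∧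
    (compatA (.sm t : KF Pay) c → SaH (.sm t) c (.sm t') c') ∧
      (compatA (.sm t' : KF Pay) c' → SaH (.sm t') c' (.sm t) c) := by
  cases h with
  | s1 h =>
    exact ⟨_, _, rfl, rfl,
      fun _ => sa_quiet trivial ⟨_, rfl⟩ rfl rfl rfl rfl (Or.inr (Or.inl h)),
      fun _ => sa_quiet trivial ⟨_, rfl⟩ rfl rfl rfl rfl (Or.inr (Or.inr h))⟩
  | s2 h =>
    exact ⟨_, _, rfl, rfl, fun _ => sa_quiet trivial ⟨_, rfl, h⟩ rfl rfl rfl rfl (Or.inl rfl),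
      fun _ => sa_quiet trivial ⟨_, rfl⟩ rfl rfl rfl rfl (Or.inl rfl)⟩
  | s3 h =>
    refine ⟨_, _, rfl, rfl, fun _ => ⟨trivial, ⟨_, _, _, rfl, rfl, h⟩, rfl,
      fun _ => Or.inl ⟨id, by simp⟩, rfl, rfl, fun m0 c0 => ?_, sa_pvR rfl rfl, Or.inl rfl⟩,
      fun _ => ⟨trivial, ⟨_, rfl⟩, rfl, fun _ => Or.inl ⟨id, by simp⟩, rfl, rfl,
      fun m0 c0 => ?_, sa_pvR rfl rfl, Or.inl rfl⟩⟩
    · rintro (x | ⟨κ, ph, q, e, e', x | ⟨r, x, -⟩⟩ | ⟨κ, ph, q, ph', r, -, -, -, x, -⟩)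
      · cases x.2
      · cases x
        exact Or.inr (Or.inl ⟨_, _, _, e, e', Or.inr ⟨_, rfl, rfl⟩⟩)
      · cases x
      · cases x
    · rintro (x | ⟨κ, ph, q, e, e', x | ⟨r, -, x⟩⟩ | ⟨κ, ph, q, ph', r, -, -, -, x, -⟩)
      · cases x.2
      · cases x
      · cases x
        exact Or.inr (Or.inl ⟨_, _, _, e, e', Or.inl rfl⟩)
      · cases x
  | s4 =>
    refine ⟨_, _, rfl, rfl, fun x => ⟨trivial, x, rfl,
      fun y => y.imp (fun y => (y.1 trivial).elim) id, rfl, rfl, sa_pvL rfl rfl,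
      fun m0 c0 => ?_, Or.inl rfl⟩,
      fun x => ⟨trivial, x, rfl, fun y => y.imp (fun y => (y.2 rfl).elim) id, rfl, rfl,
      sa_pvL rfl rfl, fun m0 c0 => ?_, Or.inl rfl⟩⟩
    all_goals
      rintro (x | ⟨κ, ph, q, -, x, -⟩ | x)
      · cases x.1
      · cases x
      · exact Or.inr (Or.inr x)
  | s5 h1 h2 =>
    exact ⟨_, _, rfl, rfl, fun _ => ⟨trivial, ⟨_, _, rfl, h1, h2⟩, rfl,
      fun y => y.imp (fun y => (y.1 trivial).elim) sa_skZ, rfl, rfl, sa_pvL rfl rfl,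
      fun m0 c0 => (sa_pvR_start (by rfl) (by rfl) (by exact id) (by trivial) m0 c0).1, Or.inl rfl⟩,
      fun _ => ⟨trivial, ⟨_, _, _, rfl, by simp⟩, rfl,
      fun y => y.imp (fun y => (y.2 rfl).elim) sa_skZ, rfl, rfl, sa_pvL rfl rfl,
      fun m0 c0 => (sa_pvR_start (by rfl) (by rfl) (by exact id) (by trivial) m0 c0).2, Or.inl rfl⟩⟩
  | s6 h1 h2 =>
    exact ⟨_, _, rfl, rfl, fun _ => ⟨trivial, ⟨_, _, _, rfl, sa_trk h1, by simp⟩, rfl,
      fun _ => Or.inl ⟨id, by simp⟩, rfl, rfl,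
      fun m0 c0 => (sa_pvL_end (by rfl) (by rfl) (by trivial) (by exact id) m0 c0).1, sa_pvR rfl rfl, Or.inl rfl⟩,
      fun _ => ⟨trivial, ⟨_, _, rfl, h1, h2⟩, rfl, fun _ => Or.inl ⟨id, by simp⟩, rfl, rfl,
      fun m0 c0 => (sa_pvL_end (by rfl) (by rfl) (by trivial) (by exact id) m0 c0).2 (by simp), sa_pvR rfl rfl,
      Or.inl rfl⟩⟩
  | s7 h1 h2 =>
    exact ⟨_, _, rfl, rfl,
      fun _ => sa_quiet trivial ⟨_, rfl, h1, h2⟩ rfl rfl rfl rfl (Or.inl rfl),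
      fun _ => sa_quiet trivial ⟨_, rfl⟩ rfl rfl rfl rfl (Or.inl rfl)⟩
  | s8 h1 h2 =>
    exact ⟨_, _, rfl, rfl, fun _ => sa_quiet trivial ⟨_, rfl⟩ rfl rfl rfl rfl (Or.inl rfl),
      fun _ => sa_quiet trivial ⟨_, rfl, h1, h2⟩ rfl rfl rfl rfl (Or.inl rfl)⟩
  | s9 h =>
    exact ⟨_, _, rfl, rfl, fun _ => sa_quiet trivial ⟨_, rfl, h⟩ rfl rfl rfl rfl (Or.inl rfl),
      fun _ => sa_quiet trivial ⟨_, rfl⟩ rfl rfl rfl rfl (Or.inl rfl)⟩
  | s10 =>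
    exact ⟨_, _, rfl, rfl, fun _ => sa_quiet trivial ⟨_, _, rfl⟩ rfl rfl rfl rfl (Or.inl rfl),
      fun _ => sa_quiet trivial ⟨_, rfl⟩ rfl rfl rfl rfl (Or.inl rfl)⟩

theorem sa_load {β : Ph} {p p' : Pay} (h : Act (.load β) p c p' c') {t : Tag} {pt : PTag}
    (hl : t.ld = some pt) (hb : t.beta = β) : p = .unit ∧
    (compatA (.sm t : KF Pay) c → (phiq (.sm t) c).doom = false →
      SaH (.sm t) c (.fu pt p') c') ∧
      (compatA (.fu pt p' : KF Pay) c' → SaH (.fu pt p') c' (.sm t) c) := by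
  have ht : (t = .opnL ∧ pt = .respL) ∨ (t = .opnR none ∧ pt = .respR) ∨
      ∃ o, t = .pend β o ∧ pt = .tr β o := by
    subst hb
    rcases t with _ | _ | _ | _ | _ | _ | (_ | _) | _ | _ | _ | _ | _ | _ | _ <;>
      simp_all [Tag.ld, Tag.beta, eq_comm]
  cases h with
  | l1 h1 h2 =>
    refine ⟨rfl, ?_⟩
    rcases ht with ⟨rfl, rfl⟩ | ⟨rfl, rfl⟩ | ⟨o, rfl, rfl⟩
    · exact ⟨fun _ _ => ⟨trivial, ⟨_, _, rfl, h1, h2⟩, rfl, fun _ => Or.inr ⟨_, _, _, rfl, h1⟩,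
        rfl, rfl, sa_pvL rfl rfl, fun m0 c0 => (sa_pvR_start (by rfl) (by rfl) (by exact id) (by trivial) m0 c0).1,
        Or.inl rfl⟩,
        fun _ => ⟨trivial, ⟨_, _, _, rfl, by simp⟩, rfl, fun _ => Or.inl ⟨id, by simp⟩, rfl, rfl,
        sa_pvL rfl rfl, fun m0 c0 => (sa_pvR_start (by rfl) (by rfl) (by exact id) (by trivial) m0 c0).2, Or.inl rfl⟩⟩
    all_goals exact ⟨fun x => by simp [compatA] at x, fun x => by simp [compatA] at x⟩
  | l2 h1 h2 h3 =>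
    refine ⟨rfl, ?_⟩
    rcases ht with ⟨rfl, rfl⟩ | ⟨rfl, rfl⟩ | ⟨o, rfl, rfl⟩
    rotate_left
    · refine ⟨fun _ hd => ⟨trivial, ⟨_, _, rfl, h1, h2⟩, rfl, fun _ => Or.inl ⟨id, by simp⟩,
        rfl, rfl, fun m0 c0 => (sa_pvL_end (by rfl) (by rfl) (by trivial) (by exact id) m0 c0).2 ?_, sa_pvR rfl rfl,
        Or.inl rfl⟩,
        fun _ => ⟨trivial, ⟨_, _, _, rfl, h1, by simp⟩, rfl, fun _ => Or.inl ⟨id, by simp⟩, rfl,
        rfl, fun m0 c0 => (sa_pvL_end (by rfl) (by rfl) (by trivial) (by exact id) m0 c0).1, sa_pvR rfl rfl, Or.inl rfl⟩⟩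
      rintro rfl
      have := h3 rfl
      simp only [phiq, ins, if_neg this] at hd
      simp at hd
    all_goals exact ⟨fun x => by simp [compatA] at x, fun x => by simp [compatA] at x⟩
  | l3 h1 =>
    refine ⟨rfl, ?_⟩
    rcases ht with ⟨rfl, rfl⟩ | ⟨rfl, rfl⟩ | ⟨o, rfl, rfl⟩
    rotate_right
    · refine ⟨fun x _ => ?_, fun x => ?_⟩
      · obtain ⟨ro, q, e⟩ := x
        cases e
        exact sa_quiet trivial ⟨_, _, rfl, h1⟩ rfl rfl rfl rfl (Or.inl rfl)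
      · obtain ⟨ro, q, e, -⟩ := x
        cases e
        exact sa_quiet trivial ⟨_, _, rfl⟩ rfl rfl rfl rfl (Or.inl rfl)
    all_goals exact ⟨fun x => by simp [compatA] at x, fun x => by simp [compatA] at x⟩

end Vale.Agent.P192
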