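import Vale.Agent.P192.SoundBAux

/-! Soundness of binary rules between siblings of a valid cell. -/

namespace Vale.Agent.P192

variable {N : ℕ} {C D : Wd} {j k t : ℕ} {c : Core}

theorem sb_two {P : ℕ → Prop} (ho : ∀ i, i ≠ j → i ≠ j + 1 → P i) (h1 : P j) (h2 : P (j + 1))
    (i : ℕ) : P i := by
  by_cases a : i = j
  · rw [a]; exact h1
  by_cases b : i = j + 1
  · rw [b]; exact h2
  exact ho i a b

theorem sb_left_fu (pt : PTag) (p : Pay) (q : Reg) : SkLeft (.fu pt p) q :=
  ⟨fun x => x.elim, by simp, by simp, by simp⟩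

theorem sb_fwd (h : CV N C k t c) (hj : j + 1 < N) {κ : Kind} {q r : Reg} {p : Pay}
    {a n a' n' : ℕ} {oc oc' : Option Core} (hQ : QL κ q) (hP : PR κ r) (hS : okS κ r p)
    (e1 : C j = ⟨unext κ q p, a, n, oc⟩) (e2 : C (j + 1) = ⟨r, a', n', oc'⟩)
    (ho : ∀ i, i ≠ j → i ≠ j + 1 → D i = C i) (d1 : D j = ⟨q, da κ a a', dn κ n n', oc⟩)
    (d2 : D (j + 1) = ⟨ins κ r p, da κ a' a, dn κ n' n, oc'⟩) :
    ∃ k' t', CV N D k' t' c ∧ InOut N C k c D k' c := by
  have hK := h.skK
  have hT := h.skT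
  have l1 : q.last = false := by
    have := h.last j (by omega)
    rw [e1] at this
    simp only [unext_last] at this
    rw [this]; simp; omega
  have m1 : (unext κ q p).doom = false := by simpa [e1] using h.doom j (by omega)
  have tc : (unext κ q p).tf = q.tf → (ins κ r p).tf = r.tf → κ ≠ .swd → κ ≠ .mvc → SkT N D t :=
    fun x y u v => hT.congr fun i _ => sb_two (j := j) (P := fun i =>
      (D i).q.tf = (C i).q.tf ∧ (D i).a = (C i).a ∧ (D i).n = (C i).n)
      (fun i a b => by rw [ho i a b]; exact ⟨rfl, rfl, rfl⟩)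
      (by simp [e1, d1, x, da, dn, u, v]) (by simp [e2, d2, y, da, dn, u, v]) i
  have sc : skE (unext κ q p) q → skE r (ins κ r p) →
      SkK N D k c (C k).q.kf ∧ InOut N C k c D k c := fun x y =>
    sk_same hK fun i _ => sb_two (j := j)
      (P := fun i => skE (C i).q (D i).q ∧ (D i).oc = (C i).oc)
      (fun i a b => by rw [ho i a b]; exact ⟨rfl, rfl⟩)
      (by rw [e1, d1]; exact ⟨x, rfl⟩) (by rw [e2, d2]; exact ⟨y, rfl⟩) i
  cases κ with
  | mvS =>
    obtain ⟨tg, rfl⟩ : ∃ tg, p = .tag tg := by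
      cases p <;> first | exact ⟨_, rfl⟩ | simp [unext] at m1
    simp only [unext, ins] at *
    obtain ⟨s1, s2⟩ := sk_src tg q (skZ c)
    obtain ⟨s2, s3, s4, s5⟩ := s2 m1
    have k1 : (C j).q.kf = .sm tg := by rw [e1]; exact s2
    obtain rfl : j = k := hK.eq_of_key (by omega) (by rw [k1]; trivial)
    rw [k1] at hK
    obtain ⟨b1, b2, -⟩ := sb_move (C := C) (C' := D) (c := c) hj ho (by rw [e1, d1])
      (by rw [e2, d2]) k1 (by rw [e2]; exact hP.2) (by rw [d1]; exact hQ.2)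
      (by rw [e2, d2]; rfl) (by simp [e1, d1]) (by simp [e1, d1]) (by rw [e1, d1]; exact s1)
      (by rw [e1, d1]; exact s4) (by rw [e1, d1]; exact s5)
    exact ⟨_, _, sk_cv (b1.1 hK) (tc s3 rfl (by simp) (by simp)), b2⟩
  | mvP pt =>
    simp only [unext, ins] at *
    have k1 : (C j).q.kf = .fu pt p := by rw [e1]; rfl
    obtain rfl : j = k := hK.eq_of_key (by omega) (by rw [k1]; trivial)
    rw [k1] at hK
    obtain ⟨b1, b2, -⟩ := sb_move (C := C) (C' := D) (c := c) hj ho (by rw [e1, d1])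
      (by rw [e2, d2]) k1 (by rw [e2]; exact hP.2) (by rw [d1]; exact hQ.2)
      (by rw [e2, d2]; rfl) (by simp [e1, d1]) (by simp [e1, d1])
      (by rw [e1, d1]; simp only [sb_left_fu, and_true]; exact sb_all_kf (.fu pt p))
      (by simp [e1, d1, skU]) (by simp [e1, d1, skV])
    exact ⟨_, _, sk_cv (b1.1 hK) (tc rfl rfl (by simp) (by simp)), b2⟩
  | lm l =>
    obtain ⟨β, rfl⟩ : ∃ β, p = .bit β := by
      cases p <;> first | exact ⟨_, rfl⟩ | simp [unext] at m1
    simp only [unext, ins] at *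
    obtain ⟨b1, b2⟩ := sb_lane (C' := D) hK hj l ho (by rw [e1, d1]) (by rw [e2, d2])
      (by simp only [e1, e2, d1, RegG.setL_setL, hP.2.1]; rw [← hQ.2, RegG.setL_lane])
      (by simp [e1, e2, d2]) (Or.inr (by rw [e2]; exact hP.2.1)) (Or.inl (by simp [e1]))
      (by rw [e2]; exact hP.2.2)
    exact ⟨_, _, sk_cv b1 (tc (by simp) (by simp) (by simp) (by simp)), b2⟩
  | chk =>
    have hp : p = .era q.era := by
      by_contra x
      simp [unext, x] at m1
    have := sb_compat hK hT hj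
    rw [e1, e2] at this
    simp only [unext, if_pos hp] at this
    exact (hS rfl ⟨_, hp, this⟩).elim
  | swd =>
    obtain ⟨b1, b2⟩ := sc rfl rfl
    exact ⟨_, _, sk_cv b1 (sb_swd hT hj ho (by simp [e2, d1, da]) (by simp [e1, d2, da])
      (by simp [e1, d1, dn]) (by simp [e2, d2, dn]) (by simp [e1, d1, unext])
      (by simp [e2, d2, ins])), b2⟩
  | eqd =>
    obtain ⟨b1, b2⟩ := sc rfl rfl
    exact ⟨_, _, sk_cv b1 (tc rfl rfl (by simp) (by simp)), b2⟩
  | mvc =>
    obtain ⟨b1, b2⟩ := sc rfl rfl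
    have t1 : (C j).q.tf = .B := by rw [e1]; rfl
    obtain rfl : j = t := hT.eq_of_tok (by omega) (by simp [t1]) (by simp [t1])
    exact ⟨_, _, sk_cv b1 ((sb_tok hj ho (by simp [e1, d1, da]) (by simp [e2, d2, da])
      (by simp [e2, d1, dn]) (by simp [e1, d2, dn]) t1 (by rw [e2]; exact hP.2)
      (by rw [d1]; exact hQ.2) (by rw [d2]; rfl)).1 hT), b2⟩
  | _ => simp [QL, l1] at hQ

theorem sb_bwd (h : CV N C k t c) (hj : j + 1 < N) {κ : Kind} {q r : Reg} {p : Pay}
    {a n a' n' : ℕ} {oc oc' : Option Core} (hQ : QL κ q) (hP : PR κ r) (hS : okS κ r p)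
    (e1 : C j = ⟨q, da κ a a', dn κ n n', oc⟩)
    (e2 : C (j + 1) = ⟨ins κ r p, da κ a' a, dn κ n' n, oc'⟩)
    (ho : ∀ i, i ≠ j → i ≠ j + 1 → D i = C i) (d1 : D j = ⟨unext κ q p, a, n, oc⟩)
    (d2 : D (j + 1) = ⟨r, a', n', oc'⟩) :
    ∃ k' t', CV N D k' t' c ∧ InOut N C k c D k' c := by
  have hK := h.skK
  have hT := h.skT
  have ho' : ∀ i, i ≠ j → i ≠ j + 1 → C i = D i := fun i a b => (ho i a b).symm
  have l1 : q.last = false := by
    have := h.last j (by omega)
    rw [e1] at this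
    simp only at this
    rw [this]; simp; omega
  have m1 : (ins κ r p).doom = false := by simpa [e2] using h.doom _ hj
  have tc : (unext κ q p).tf = q.tf → (ins κ r p).tf = r.tf → κ ≠ .swd → κ ≠ .mvc → SkT N D t :=
    fun x y u v => hT.congr fun i _ => sb_two (j := j) (P := fun i =>
      (D i).q.tf = (C i).q.tf ∧ (D i).a = (C i).a ∧ (D i).n = (C i).n)
      (fun i a b => by rw [ho i a b]; exact ⟨rfl, rfl, rfl⟩)
      (by simp [e1, d1, x, da, dn, u, v]) (by simp [e2, d2, y, da, dn, u, v]) i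
  have sc : skE q (unext κ q p) → skE (ins κ r p) r →
      SkK N D k c (C k).q.kf ∧ InOut N C k c D k c := fun x y =>
    sk_same hK fun i _ => sb_two (j := j)
      (P := fun i => skE (C i).q (D i).q ∧ (D i).oc = (C i).oc)
      (fun i a b => by rw [ho i a b]; exact ⟨rfl, rfl⟩)
      (by rw [e1, d1]; exact ⟨x, rfl⟩) (by rw [e2, d2]; exact ⟨y, rfl⟩) i
  cases κ with
  | mvS =>
    obtain ⟨tg, rfl⟩ : ∃ tg, p = .tag tg := by
      cases p <;> first | exact ⟨_, rfl⟩ | simp [ins] at m1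
    simp only [unext, ins] at *
    have k1 : (C (j + 1)).q.kf = .sm tg := by rw [e2]; rfl
    obtain rfl : j + 1 = k := hK.eq_of_key hj (by rw [k1]; trivial)
    rw [k1] at hK
    obtain ⟨s1, s2⟩ := sk_src tg q (skZ c)
    have a1 := hK.all j (by omega)
    have a2 := hK.left j (by omega)
    rw [e1] at a1 a2
    obtain ⟨s2, s3, s4, s5⟩ := s2 (s1.2 ⟨a1, a2⟩).doom
    obtain ⟨b1, -, b2⟩ := sb_move (C := D) (C' := C) (c := c) (m := .sm tg) hj ho'
      (by rw [e1, d1]) (by rw [e2, d2]) (by rw [d1]; exact s2) (by rw [d2]; exact hP.2)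
      (by rw [e1]; exact hQ.2) (by rw [e2, d2]; rfl) (by simp [e1, d1]) (by simp [e1, d1])
      (by rw [e1, d1]; exact s1) (by rw [e1, d1]; exact s4) (by rw [e1, d1]; exact s5)
    exact ⟨_, _, sk_cv (b1.2 hK) (tc s3 rfl (by simp) (by simp)), b2⟩
  | mvP pt =>
    simp only [unext, ins] at *
    have k1 : (C (j + 1)).q.kf = .fu pt p := by rw [e2]; rfl
    obtain rfl : j + 1 = k := hK.eq_of_key hj (by rw [k1]; trivial)
    rw [k1] at hK
    obtain ⟨b1, -, b2⟩ := sb_move (C := D) (C' := C) (c := c) (m := .fu pt p) hj ho'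
      (by rw [e1, d1]) (by rw [e2, d2]) (by rw [d1]; rfl) (by rw [d2]; exact hP.2)
      (by rw [e1]; exact hQ.2) (by rw [e2, d2]; rfl) (by simp [e1, d1]) (by simp [e1, d1])
      (by rw [e1, d1]; simp only [sb_left_fu, and_true]; exact sb_all_kf (.fu pt p))
      (by simp [e1, d1, skU]) (by simp [e1, d1, skV])
    exact ⟨_, _, sk_cv (b1.2 hK) (tc rfl rfl (by simp) (by simp)), b2⟩
  | lm l =>
    obtain ⟨β, rfl⟩ : ∃ β, p = .bit β := by
      cases p <;> first | exact ⟨_, rfl⟩ | simp [ins] at m1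
    simp only [unext, ins] at *
    obtain ⟨b1, b2⟩ := sb_lane (C' := D) hK hj l ho (by rw [e1, d1]) (by rw [e2, d2])
      (by simp [e1, e2, d1])
      (by simp only [e1, e2, d2, RegG.setL_setL, hQ.2]; rw [← hP.2.1, RegG.setL_lane])
      (Or.inl (by rw [e1]; exact hQ.2)) (Or.inr (by simp [e2]))
      (by rw [e2]; simpa using hP.2.2)
    exact ⟨_, _, sk_cv b1 (tc (by simp) (by simp) (by simp) (by simp)), b2⟩
  | chk =>
    have := hS rfl
    simp only [ins, if_neg this] at m1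
    simp at m1
  | swd =>
    obtain ⟨b1, b2⟩ := sc rfl rfl
    exact ⟨_, _, sk_cv b1 (sb_swd hT hj ho (by simp [e2, d1, da]) (by simp [e1, d2, da])
      (by simp [e1, d1, dn]) (by simp [e2, d2, dn]) (by simp [e1, d1, unext])
      (by simp [e2, d2, ins])), b2⟩
  | eqd =>
    obtain ⟨b1, b2⟩ := sc rfl rfl
    exact ⟨_, _, sk_cv b1 (tc rfl rfl (by simp) (by simp)), b2⟩
  | mvc =>
    obtain ⟨b1, b2⟩ := sc rfl rfl
    have t1 : (C (j + 1)).q.tf = .A := by rw [e2]; rfl
    obtain rfl : j + 1 = t := hT.eq_of_tok hj (by simp [t1]) (by simp [t1])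
    exact ⟨_, _, sk_cv b1 ((sb_tok hj ho' (by simp [e1, d1, da]) (by simp [e2, d2, da])
      (by simp [e1, d2, dn]) (by simp [e2, d1, dn]) (by rw [d1]; rfl) (by rw [d2]; exact hP.2)
      (by rw [e1]; exact hQ.2) t1).2 hT), b2⟩
  | _ => simp [QL, l1] at hQ

theorem sound_in2 {N : ℕ} {C : Wd} {k t : ℕ} {c : Core} (h : CV N C k t c) {j : ℕ}
    (hj : j + 1 < N) {x y : Ent}
    (hs : Step2 (C j) (C (j + 1)) x y ∨ Step2 x y (C j) (C (j + 1))) :
    ∃ k' t', CV N (Function.update (Function.update C j x) (j + 1) y) k' t' c ∧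
      InOut N C k c (Function.update (Function.update C j x) (j + 1) y) k' c := by
  have ho : ∀ i, i ≠ j → i ≠ j + 1 →
      Function.update (Function.update C j x) (j + 1) y i = C i := fun i a b => by simp [a, b]
  have d1 : Function.update (Function.update C j x) (j + 1) y j = x := by simp
  have d2 : Function.update (Function.update C j x) (j + 1) y (j + 1) = y := by simp
  generalize Function.update (Function.update C j x) (j + 1) y = D at ho d1 d2 ⊢
  generalize e1 : C j = x0 at hs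
  generalize e2 : C (j + 1) = y0 at hs
  rcases hs with hs | hs
  · cases hs with
    | mk hQ hP hS => exact sb_fwd h hj hQ hP hS e1 e2 ho d1 d2
  · cases hs with
    | mk hQ hP hS => exact sb_bwd h hj hQ hP hS e1 e2 ho d1 d2

end Vale.Agent.P192
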