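import Vale.Agent.P192.SoundCAux

/-! Soundness of the boundary rule `dh`. -/

namespace Vale.Agent.P192

variable {N : ℕ} {C D W F : Wd} {k t k' t' : ℕ} {c c' : Core}

theorem sC_swapU_ne (q : Reg) {tr tr' : Trk} (h : tr' ≠ tr) :
    (q.swapU tr).lane tr'.lane = q.lane tr'.lane := by
  cases tr <;> cases tr' <;> first | rfl | exact absurd rfl h

theorem sC_dh_views {tr : Trk} (e : ∀ j, j ≠ k → W j = F j)
    (eW : (W k).q = ((F k).q.swapU tr).key (.wrk (.sw tr))) (eF : (F k).q.kf = .sm .ful)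
    (hk : k + 1 = N) : Ul N W k = Tl N F k tr ∧ Tl N W k tr = Ul N F k ∧
      ∀ tr', tr' ≠ tr → Tl N W k tr' = Tl N F k tr' := by
  have pF : sCplain (F k).q.kf := by rw [eF]; simp [sCplain]
  have eK : (W k).q.kf = .sm (.wrk (.sw tr)) := by rw [eW]; rfl
  refine ⟨sC_fm_congr fun j hj => ?_, sC_fm_congr fun j hj => ?_,
    fun tr' h => sC_fm_congr fun j hj => ?_⟩
  · rw [sC_vt_plain pF]
    by_cases hjk : j = k
    · subst hjk; rw [sC_vu_ge le_rfl, eW]; simp
    · have : j < k := by omega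
      cases tr <;> simp [vu, eK, this, e j hjk, Trk.lane]
  · rw [sC_vu_plain pF]
    by_cases hjk : j = k
    · subst hjk; rw [sC_vt_ge le_rfl, eW]; simp
    · have : j < k := by omega
      simp [vt, eK, this, e j hjk]
  · rw [sC_vt_plain pF]
    by_cases hjk : j = k
    · subst hjk; rw [sC_vt_ge le_rfl, eW, RegG.key_lane, sC_swapU_ne _ h]
    · have : j < k := by omega
      simp [vt, eK, e j hjk, h.symm]

theorem sC_dh_rel {tr : Trk} {κ : Kind} {q0 r0 : Reg} {D' : Wd} (e : ∀ j, j ≠ k → W j = F j)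
    (eW : (W k).q = ((F k).q.swapU tr).key (.wrk (.sw tr))) (eF : (F k).q.kf = .sm .ful)
    (hk : k + 1 = N) (eo : (F (N - 1)).oc = (W (N - 1)).oc) (hw : κ.wop = some (.sw tr))
    (hq : QL κ q0) (hr : PR κ r0) (eD : (D 0).q.kf = .sm (.opnR (some tr)))
    (eD' : (D' 0).q.kf = .sm (.dresp tr)) (eT : ∀ tr', Tl N D' 0 tr' = Tl N D 0 tr')
    (eo' : (D' (N - 1)).oc = (D (N - 1)).oc) (hT : Tl N D 0 tr = []) (U : List Bool) :
    Step2 (phi N U W k (.LS κ .B .L q0)) (phi N (Ul N W k) D 0 (.LS κ .A .R r0))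
      (phi N U F k (.LS κ .B .L q0)) (phi N (Ul N F k) D' 0 (.LS κ .A .R r0)) := by
  obtain ⟨v1, v2, v3⟩ := sC_dh_views e eW eF hk
  have eK : (W k).q.kf = .sm (.wrk (.sw tr)) := by rw [eW]; rfl
  have hok : okS κ r0 .unit := by rintro rfl; simp [Kind.wop] at hw
  simp only [phi, eK, eF, eD, eD', eT, eo, eo', phiq, KF.opent]
  cases tr with
  | d =>
    obtain rfl : κ = .swd := by cases κ <;> simp_all [Kind.wop]
    have := Step2.mk (a := bval (Tl N W k .d)) (n := bval (Tl N W k .b)) (oc := (W (N - 1)).oc)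
      (a' := bval (Ul N W k)) (n' := bval (Tl N D 0 .b)) (oc' := (D (N - 1)).oc) hq hr hok
    simpa [da, dn, hT, ← v1, ← v2, ← v3 .b (by simp)] using this
  | b =>
    obtain rfl : κ = .mvc := by cases κ <;> simp_all [Kind.wop]
    have := Step2.mk (a := bval (Tl N W k .d)) (n := bval (Tl N W k .b)) (oc := (W (N - 1)).oc)
      (a' := bval (Tl N D 0 .d)) (n' := bval (Ul N W k)) (oc' := (D (N - 1)).oc) hq hr hok
    simpa [da, dn, hT, ← v1, ← v2, ← v3 .d (by simp)] using this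

/-- If the upper lane on the left is full then the open track on the right is empty. -/
theorem sC_empty (h' : CV N D 0 t' c') (hp : PairV N C k c D 0 c') {tr : Trk}
    (ho : (D 0).q.kf.opent = some tr) (hU : (Ul N C k).length = N) : Tl N D 0 tr = [] := by
  have c1 := hp.2
  have c2 : ∀ tr', tr' ≠ tr → (Tl N D 0 tr').length = N := fun tr' h =>
    sC_len_full fun j hj => by
      rw [sC_vt_ge (Nat.zero_le j)]
      exact h'.hol tr' (by rw [ho]; simpa using h.symm) j hj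
  rw [← List.length_eq_zero_iff]
  cases tr with
  | d => have := c2 .b (by simp); omega
  | b => have := c2 .d (by simp); omega

theorem sC_wop_trk {κ : Kind} {tr : Trk} (h : κ.wop = some (.sw tr)) : κ.trk = some tr := by
  cases κ <;> simp_all [Kind.wop, Kind.trk]

theorem sC_unext_dh {q : Reg} {p : Pay} (h : (unext .dh q p).doom = false) :
    ∃ tr, p = .trk tr ∧ q.lane tr.lane ≠ none ∧
      unext .dh q p = (q.swapU tr).key (.wrk (.sw tr)) := by
  cases p with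
  | trk tr =>
    simp only [unext, src] at h ⊢
    split_ifs at h ⊢ with h1
    · exact ⟨tr, rfl, h1.2, rfl⟩
    · simp at h
  | _ => simp [unext] at h

theorem sC_ins_dh {q : Reg} {p : Pay} (h : (ins .dh q p).doom = false) :
    ∃ tr, p = .trk tr ∧ q.kf = .sm (.opnR (some tr)) ∧ ins .dh q p = q.key (.dresp tr) := by
  cases p with
  | trk tr =>
    simp only [ins] at h ⊢
    split_ifs at h ⊢ with h1
    · exact ⟨tr, rfl, h1, rfl⟩
    · simp at h
  | _ => simp [ins] at h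

theorem sC_dh_f (hN : 2 ≤ N) (h : CV N C k t c) (h' : CV N D k' t' c')
    (hp : PairV N C k c D k' c') {q : Reg} {p : Pay} (hq : QL .dh q) (hr : PR .dh (D 0).q)
    (e : (C (N - 1)).q = unext .dh q p) :
    sCout N C k t c D k' t' c' (sCupd C (N - 1) q) (sCupd D 0 (ins .dh (D 0).q p)) := by
  obtain ⟨tr, rfl, hl, e0⟩ := sC_unext_dh (e ▸ h.doom (N - 1) (by omega))
  rw [e0] at e
  obtain ⟨-, tr0, hr⟩ := hr
  obtain ⟨-, hq, hqu⟩ := hq
  have e1 : (C (N - 1)).q.kf = .sm (.wrk (.sw tr)) := by rw [e]; rfl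
  obtain rfl : k = N - 1 := h.sC_pos (by omega) (by rw [e1]; trivial)
  obtain rfl : k' = 0 := h'.sC_pos (by omega) (by rw [hr]; trivial)
  have pv := hp.1
  rw [hr, e1] at pv
  obtain ⟨κ, ph, q0, ph', r0, rfl, rfl, -, e4⟩ := sC_PV_open pv rfl
  obtain rfl : ph' = .A := by simpa [KF.isW] using e4
  obtain ⟨κ1, q1, e5, h1, hq0⟩ : compatA (P := Pay) (.sm (.wrk (.sw tr))) (.LS κ ph .L q0) :=
    e1 ▸ h.ca
  obtain ⟨rfl, rfl, rfl⟩ : κ = κ1 ∧ ph = .B ∧ q0 = q1 := by simpa using e5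
  obtain ⟨κ1, ph1, r1, e6, h2, hr0⟩ :
      compatA (P := Pay) (.sm (.opnR (some tr0))) (.LS κ .A .R r0) := hr ▸ h'.ca
  obtain ⟨rfl, rfl, rfl⟩ : κ = κ1 ∧ .A = ph1 ∧ r0 = r1 := by simpa using e6
  have h3 := sC_wop_trk h1
  obtain rfl : tr = tr0 := by rw [h3] at h2; simpa using h2
  have e3 : ins .dh (D 0).q (.trk tr) = sCkey (D 0).q (.sm (.dresp tr)) := by
    simp only [ins, hr, if_true]; rfl
  have hol := h.hol
  rw [e1] at hol
  have cv : CV N (sCupd C (N - 1) q) (N - 1) t (.LS κ .B .L q0) := by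
    refine h.sC_upd (by rw [e]; simp) (by rw [e]; simp) (by rw [e]; simp) (by rw [e]; simp)
      (fun a => absurd rfl a) (m := .sm .ful) (by rw [sCupd_same, hq]) trivial
      ⟨κ, .B, q0, rfl, fun _ => hq0⟩
      (fun _ i hi => ?_) (by simp) (fun a => absurd trivial a) ?_ (by simp) (fun tr' _ i hi => ?_)
      (by simp)
    · rw [sCupd_ne _ _ (by omega)]; exact h.uF (by rw [e1]; trivial) i hi
    · intro κ' ph' q' a b
      obtain ⟨rfl, -, -⟩ : κ = κ' ∧ .B = ph' ∧ q0 = q' := by simpa using a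
      rw [h3] at b; simp at b
    · by_cases hi' : i = N - 1
      · subst hi'
        rw [sCupd_same]
        by_cases ht : tr' = tr
        · rw [ht]; exact hl
        · have := hol tr' (by simp [KF.opent]) (N - 1) hi
          rwa [e, RegG.key_lane, sC_swapU_ne _ ht] at this
      · rw [sCupd_ne _ _ hi']; exact hol tr' (by simp [KF.opent]) i hi
  have cv' : CV N (sCupd D 0 (sCkey (D 0).q (.sm (.dresp tr)))) 0 t' (.LS κ .A .R r0) :=
    h'.sC_key trivial ⟨κ, r0, rfl, h1, hr0 rfl⟩ id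
      (h'.uO (by rw [hr]; exact id) (by rw [hr]; simp))
      (fun tr' a => h'.hol tr' (by rw [hr]; exact a)) (by simp)
  have ev : ∀ j, j ≠ N - 1 → C j = sCupd C (N - 1) q j := fun j hj => (sCupd_ne _ _ hj).symm
  have eW : (C (N - 1)).q = ((sCupd C (N - 1) q (N - 1)).q.swapU tr).key (.wrk (.sw tr)) := by
    rw [sCupd_same, e]
  have eF : (sCupd C (N - 1) q (N - 1)).q.kf = .sm .ful := by rw [sCupd_same, hq]
  obtain ⟨v1, v2, v3⟩ := sC_dh_views ev eW eF (by omega : N - 1 + 1 = N)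
  have pF : sCplain (sCupd C (N - 1) q (N - 1)).q.kf := by rw [eF]; simp [sCplain]
  have l1 : ∀ tr', (Tl N (sCupd C (N - 1) q) (N - 1) tr').length = N := fun tr' =>
    sC_Tl_full pF (cv.hol tr' (by rw [eF]; simp [KF.opent]))
  have l2 : (Ul N (sCupd C (N - 1) q) (N - 1)).length = N := sC_len_full fun j hj => by
    rw [sC_vu_plain pF]
    by_cases hj' : j = N - 1
    · rw [hj', sCupd_same]; exact hqu
    · exact cv.uF (by rw [eF]; trivial) j (by omega)
  have l3 : (Ul N C (N - 1)).length = N := by rw [v1, l1]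
  have p0 : sCplain (D 0).q.kf := by rw [hr]; simp [sCplain]
  have p1 : sCplain (.sm (.dresp tr)) := by simp [sCplain]
  have t2 := sC_Tl_key (N := N) p0 p1
  rw [e3]
  refine ⟨cv, cv', ⟨?_, by rw [l2, t2, t2, ← hp.2, l3]⟩, by rw [eF, e1]; rfl,
    by rw [sCupd_same, hr]; rfl, fun m c0 => sC_PV_right (by rw [e1]; rfl) (by rw [eF]; rfl),
    fun m c0 => sC_PV_left (by rw [hr]; rfl) (by rw [sCupd_same]; rfl), fun tr' => ?_,
    sC_Ul_key p0 p1, fun U => Or.inr (Or.inl ?_)⟩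
  · rw [eF, sCupd_same]
    exact Or.inr (Or.inr ⟨κ, .B, q0, .A, r0, rfl, rfl, rfl, rfl, Or.inr (Or.inr ⟨id, trivial, rfl,
      by rintro rfl; simp [Kind.wop] at h1⟩)⟩)
  · by_cases ht : tr' = tr
    · rw [ht, v2, l1, l2]
    · rw [v3 tr' ht]
  · exact sC_dh_rel ev eW eF (by omega) (by simp) h1 hq0 (hr0 rfl) hr (by simp) t2 (by simp)
      (sC_empty h' hp (by rw [hr]; rfl) l3) U

theorem sC_dh_b (hN : 2 ≤ N) (h : CV N C k t c) (h' : CV N D k' t' c')
    (hp : PairV N C k c D k' c') {r : Reg} {p : Pay} (hq : QL .dh (C (N - 1)).q)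
    (e : (D 0).q = ins .dh r p) :
    sCout N C k t c D k' t' c' (sCupd C (N - 1) (unext .dh (C (N - 1)).q p)) (sCupd D 0 r) := by
  obtain ⟨tr, rfl, hr, e0⟩ := sC_ins_dh (e ▸ h'.doom 0 (by omega))
  rw [e0] at e
  obtain ⟨-, hq, hqu⟩ := hq
  have e1 : (D 0).q.kf = .sm (.dresp tr) := by rw [e]; rfl
  obtain rfl : k = N - 1 := h.sC_pos (by omega) (by rw [hq]; trivial)
  obtain rfl : k' = 0 := h'.sC_pos (by omega) (by rw [e1]; trivial)
  have pv := hp.1
  rw [hq, e1] at pv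
  obtain ⟨κ, ph, q0, ph', r0, rfl, rfl, -, e4⟩ := sC_PV_open pv rfl
  obtain rfl : ph = .B := by simpa [KF.isW] using e4
  obtain ⟨κ1, r1, e5, h1, hr0⟩ : compatA (P := Pay) (.sm (.dresp tr)) (.LS κ ph' .R r0) :=
    e1 ▸ h'.ca
  obtain ⟨rfl, rfl, rfl⟩ : κ = κ1 ∧ ph' = .A ∧ r0 = r1 := by simpa using e5
  obtain ⟨κ1, ph1, q1, e6, hq0⟩ : compatA (P := Pay) (.sm .ful) (.LS κ .B .L q0) := hq ▸ h.ca
  obtain ⟨rfl, rfl, rfl⟩ : κ = κ1 ∧ .B = ph1 ∧ q0 = q1 := by simpa using e6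
  have h3 := sC_wop_trk h1
  have hol := h.hol
  rw [hq] at hol
  have e2 : r = sCkey (D 0).q (.sm (.opnR (some tr))) := by rw [e]; exact sCkey_key r _ hr
  have e3 : unext .dh (C (N - 1)).q (.trk tr) =
      ((C (N - 1)).q.swapU tr).key (.wrk (.sw tr)) := by
    simp only [unext, src]
    rw [if_pos ⟨hqu, hol tr (by simp [KF.opent]) _ (by omega)⟩]
  rw [e2, e3]
  set q' := ((C (N - 1)).q.swapU tr).key (.wrk (.sw tr)) with hq'
  have eK : (sCupd C (N - 1) q' (N - 1)).q.kf = .sm (.wrk (.sw tr)) := by rw [sCupd_same]; rfl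
  have cv : CV N (sCupd C (N - 1) q') (N - 1) t (.LS κ .B .L q0) := by
    refine h.sC_upd (by simp [hq']) (by simp [hq']) (by simp [hq']) (by simp [hq'])
      (fun a => absurd rfl a) eK trivial ⟨κ, q0, rfl, h1, hq0 rfl⟩
      (fun _ i hi => ?_) (by simp) (fun a => absurd trivial a) ?_ (by simp) (fun tr' _ i hi => ?_)
      (by simp)
    · rw [sCupd_ne _ _ (by omega)]; exact h.uF (by rw [hq]; trivial) i hi
    · intro κ' ph' q' a b
      obtain ⟨rfl, -, -⟩ : κ = κ' ∧ .B = ph' ∧ q0 = q' := by simpa using a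
      rw [h3] at b; simp at b
    · by_cases hi' : i = N - 1
      · subst hi'
        rw [sCupd_same, hq', RegG.key_lane]
        by_cases ht : tr' = tr
        · rw [ht, RegG.swapU_lane]; exact hqu
        · rw [sC_swapU_ne _ ht]; exact hol tr' (by simp [KF.opent]) (N - 1) hi
      · rw [sCupd_ne _ _ hi']; exact hol tr' (by simp [KF.opent]) i hi
  have cv' : CV N (sCupd D 0 (sCkey (D 0).q (.sm (.opnR (some tr))))) 0 t' (.LS κ .A .R r0) :=
    h'.sC_key trivial ⟨κ, .A, r0, rfl, h3, fun _ => hr0⟩ id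
      (h'.uO (by rw [e1]; exact id) (by rw [e1]; simp))
      (fun tr' a => h'.hol tr' (by rw [e1]; exact a)) (by simp)
  have ev : ∀ j, j ≠ N - 1 → sCupd C (N - 1) q' j = C j := fun j hj => sCupd_ne _ _ hj
  have eW : (sCupd C (N - 1) q' (N - 1)).q = ((C (N - 1)).q.swapU tr).key (.wrk (.sw tr)) := by
    rw [sCupd_same]
  obtain ⟨v1, v2, v3⟩ := sC_dh_views ev eW hq (by omega : N - 1 + 1 = N)
  have pF : sCplain (C (N - 1)).q.kf := by rw [hq]; simp [sCplain]
  have l1 : ∀ tr', (Tl N C (N - 1) tr').length = N := fun tr' =>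
    sC_Tl_full pF (hol tr' (by simp [KF.opent]))
  have l2 : (Ul N C (N - 1)).length = N := sC_len_full fun j hj => by
    rw [sC_vu_plain pF]
    by_cases hj' : j = N - 1
    · rw [hj']; exact hqu
    · exact h.uF (by rw [hq]; trivial) j (by omega)
  have p0 : sCplain (D 0).q.kf := by rw [e1]; simp [sCplain]
  have p1 : sCplain (.sm (.opnR (some tr))) := by simp [sCplain]
  have t2 := sC_Tl_key (N := N) p0 p1
  refine ⟨cv, cv', ⟨?_, by rw [v1, l1, t2, t2, ← hp.2, l2]⟩, by rw [eK, hq]; rfl,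
    by rw [sCupd_same, e1]; rfl, fun m c0 => sC_PV_right (by rw [hq]; rfl) (by rw [eK]; rfl),
    fun m c0 => sC_PV_left (by rw [e1]; rfl) (by rw [sCupd_same]; rfl), fun tr' => ?_,
    sC_Ul_key p0 p1, fun U => Or.inr (Or.inr ?_)⟩
  · rw [eK, sCupd_same]
    exact Or.inr (Or.inr ⟨κ, .B, q0, .A, r0, rfl, rfl, rfl, rfl, Or.inr (Or.inl ⟨trivial, id, rfl⟩)⟩)
  · by_cases ht : tr' = tr
    · rw [ht, v2, l1, l2]
    · rw [v3 tr' ht]
  · exact sC_dh_rel ev eW hq (by omega) (by simp) h1 (hq0 rfl) hr0 (by simp) e1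
      (fun tr' => (t2 tr').symm) (by simp)
      (by rw [t2]; exact sC_empty h' hp (by rw [e1]; rfl) l2) U

end Vale.Agent.P192
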