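import Vale.Agent.P192.SoundCB
import Vale.Agent.P192.SoundCD

/-! Soundness of binary rules across the boundary of two valid cells.

The left letter is last, the right one first, so only `hs, opn, hand, dh, cross, chk` occur. -/

namespace Vale.Agent.P192

section

variable {N : ℕ} {C D A B : Wd} {k t k' t' : ℕ} {c c' : Core}

theorem sC_fm_last {n : ℕ} {v v' : ℕ → Option Bool} {β : Bool} (h : ∀ j < n, v j = v' j)
    (h1 : v n = some β) (h2 : v' n = none) :
    (List.range (n + 1)).filterMap v = (List.range (n + 1)).filterMap v' ++ [β] := by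
  simp [List.range_succ, List.filterMap_append, h1, h2, sC_fm_congr h]

theorem sC_fm_first {n : ℕ} {v v' : ℕ → Option Bool} {β : Bool}
    (h : ∀ j, v (j + 1) = v' (j + 1)) (h1 : v 0 = some β) (h2 : v' 0 = none) :
    (List.range (n + 1)).filterMap v = β :: (List.range (n + 1)).filterMap v' := by
  simp [List.range_succ_eq_map, List.filterMap_map, h1, h2, h]

theorem sC_cross_left {β : Bool} (hk : k < N) (e : ∀ j, j ≠ N - 1 → A j = B j)
    (eA : (A (N - 1)).q = (B (N - 1)).q.setL .u (some β)) (eB : (B (N - 1)).q.u = none) :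
    (A k).q.kf = (B k).q.kf ∧ Ul N A k = Ul N B k ++ [β] ∧ ∀ tr, Tl N A k tr = Tl N B k tr := by
  have eK : (A k).q.kf = (B k).q.kf := by
    by_cases h : k = N - 1
    · rw [h, eA]; simp
    · rw [e k h]
  obtain ⟨n, rfl⟩ : ∃ n, N = n + 1 := ⟨N - 1, by omega⟩
  simp only [Nat.add_sub_cancel] at e eA eB
  refine ⟨eK, sC_fm_last (fun j hj => ?_) ?_ ?_, fun tr => sC_fm_congr fun j hj => ?_⟩
  · simp only [vu, eK, e j (by omega)]
  · rw [sC_vu_ge (by omega), eA]; rfl
  · rw [sC_vu_ge (by omega), eB]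
  · by_cases h : j = n
    · rw [h, sC_vt_ge (by omega), sC_vt_ge (by omega), eA]; simp
    · simp only [vt, eK, e j h]

theorem sC_cross_right {β : Bool} {tr : Trk} (hN : 0 < N) (e : ∀ j, j ≠ 0 → A j = B j)
    (eA : (A 0).q = (B 0).q.setL tr.lane (some β)) (eB : (B 0).q.lane tr.lane = none) :
    Ul N A 0 = Ul N B 0 ∧ Tl N A 0 tr = β :: Tl N B 0 tr ∧
      ∀ tr', tr' ≠ tr → Tl N A 0 tr' = Tl N B 0 tr' := by
  obtain ⟨n, rfl⟩ : ∃ n, N = n + 1 := ⟨N - 1, by omega⟩
  refine ⟨sC_fm_congr fun j _ => ?_, sC_fm_first (fun j => ?_) ?_ ?_,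
    fun tr' h => sC_fm_congr fun j _ => ?_⟩
  · rw [sC_vu_ge (by omega), sC_vu_ge (by omega)]
    by_cases h : j = 0
    · rw [h, eA]; simp
    · rw [e j h]
  · rw [sC_vt_ge (by omega), sC_vt_ge (by omega), e _ (by omega)]
  · rw [sC_vt_ge le_rfl, eA]; simp
  · rw [sC_vt_ge le_rfl, eB]
  · rw [sC_vt_ge (by omega), sC_vt_ge (by omega)]
    by_cases h' : j = 0
    · rw [h', eA, RegG.lane_setL_ne]
      cases tr <;> cases tr' <;> simp_all [Trk.lane]
    · rw [e j h']

/-- The decoded pair and the count do not see a crossing bit. -/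
theorem sC_cross_phi {β : Bool} {tr : Trk} {A' B' : Wd} (hk : k < N)
    (e : ∀ j, j ≠ N - 1 → A j = B j) (eA : (A (N - 1)).q = (B (N - 1)).q.setL .u (some β))
    (eB : (B (N - 1)).q.u = none) (eo : (A (N - 1)).oc = (B (N - 1)).oc)
    (e' : ∀ j, j ≠ 0 → B' j = A' j) (eB' : (B' 0).q = (A' 0).q.setL tr.lane (some β))
    (eA' : (A' 0).q.lane tr.lane = none) (eo' : (A' (N - 1)).oc = (B' (N - 1)).oc)
    (ho : (A' 0).q.kf = .sm (.opnR (some tr))) :
    (Ul N A k).length + (Tl N A' 0 .d).length + (Tl N A' 0 .b).length =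
      (Ul N B k).length + (Tl N B' 0 .d).length + (Tl N B' 0 .b).length ∧
    (∀ U, phi N U A k c = phi N U B k c) ∧
      phi N (Ul N A k) A' 0 c' = phi N (Ul N B k) B' 0 c' := by
  obtain ⟨v1, v2, v3⟩ := sC_cross_left hk e eA eB
  obtain ⟨-, w2, w3⟩ := sC_cross_right (N := N) (by omega) e' eB' eA'
  have ho' : (B' 0).q.kf = .sm (.opnR (some tr)) := by rw [eB', RegG.setL_kf, ho]
  refine ⟨?_, fun U => by simp only [phi, v1, v3, eo], ?_⟩
  · cases tr with
    | d => rw [v2, w2, w3 .b (by simp)]; simp; omega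
    | b => rw [v2, w2, w3 .d (by simp)]; simp; omega
  · simp only [phi, ho, ho', eo', v2, KF.opent]
    cases tr with
    | d => simp [w2, w3 .b (by simp)]
    | b => simp [w2, w3 .d (by simp)]

theorem sC_unext_cross {tr : Trk} {q : Reg} {p : Pay} (h : (unext (.cross tr) q p).doom = false) :
    ∃ β, p = .bit β := by
  cases p <;> simp_all [unext]

theorem sC_ins_cross {tr : Trk} {q : Reg} {p : Pay} (h : (ins (.cross tr) q p).doom = false) :
    ∃ β, p = .bit β := by
  cases p <;> simp_all [ins]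

/-- Changing the last upper slot. -/
theorem CV.sC_setU (h : CV N C k t c) {q : Reg} {v : Option Bool}
    (e : q = (C (N - 1)).q.setL .u v)
    (uO : v = none ∨ (((C k).q.kf.isF ∨ (C k).q.kf = .sm .opnL) ∧
      ∀ κ ph q0, c = .LS κ ph .L q0 → κ.trk ≠ none)) : CV N (sCupd C (N - 1) q) k t c := by
  have hk := h.hk
  have eK : (sCupd C (N - 1) q k).q.kf = (C k).q.kf := sCupd_proj (·.kf) _ _ _ (by simp [e])
  have f : ∀ i < k, sCupd C (N - 1) q i = C i := fun i hi => sCupd_ne _ _ (by omega)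
  have g : v = none → (∀ i < N, (C i).q.u = none) → ∀ i < N, (sCupd C (N - 1) q i).q.u = none := by
    intro a b i hi
    by_cases hi' : i = N - 1
    · rw [hi', sCupd_same, e, a]; rfl
    · rw [sCupd_ne _ _ hi']; exact b i hi
  refine h.sC_upd (by simp [e]) (by simp [e]) (by simp [e]) (by simp [e]) (fun _ => by simp [e]) eK
    h.kK h.ca (fun a i hi => by rw [f i hi]; exact h.uF a i hi)
    (fun a i hi => by rw [f i hi]; exact h.uE a i hi) (fun a b => ?_) (fun κ ph q0 a b => ?_)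
    (fun a i hi => by rw [f i hi]; exact h.uQ a i hi) (fun tr a i hi => ?_)
    (fun a i hi => by rw [f i hi]; exact h.bC a i hi)
  · rcases uO with u | ⟨u | u, -⟩
    · exact g u (h.uO a b)
    · exact absurd u a
    · exact absurd u b
  · rcases uO with u | ⟨-, u⟩
    · exact g u (h.uS κ ph q0 a b)
    · exact absurd b (u κ ph q0 a)
  · rw [sCupd_proj (·.lane tr.lane) _ _ _ (by simp [e])]; exact h.hol tr a i hi

/-- Changing the first slot of the open track. -/
theorem CV.sC_setT (h : CV N D 0 t c) {q : Reg} {v : Option Bool} {tr : Trk}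
    (e : q = (D 0).q.setL tr.lane v) (ho : (D 0).q.kf = .sm (.opnR (some tr))) :
    CV N (sCupd D 0 q) 0 t c := by
  have eK : (sCupd D 0 q 0).q.kf = (D 0).q.kf := sCupd_proj (·.kf) _ _ _ (by simp [e])
  have f : ∀ i, (sCupd D 0 q i).q.u = (D i).q.u := fun i => sCupd_proj (·.u) _ _ _ (by simp [e])
  refine h.sC_upd (by simp [e]) (by simp [e]) (by simp [e]) (by simp [e]) (fun _ => by simp [e]) eK
    h.kK h.ca (by simp) (by simp) (fun a b i hi => by rw [f]; exact h.uO a b i hi)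
    (fun κ ph q0 a b i hi => by rw [f]; exact h.uS κ ph q0 a b i hi) (by simp)
    (fun tr' a i hi => ?_) (by simp)
  have hne : tr'.lane ≠ tr.lane := by
    rw [ho] at a
    cases tr <;> cases tr' <;> simp_all [Trk.lane, KF.opent]
  rw [sCupd_proj (·.lane tr'.lane) _ _ _ (by rw [e, RegG.lane_setL_ne _ hne])]
  exact h.hol tr' a i hi

theorem sC_cross_f (hN : 2 ≤ N) (h : CV N C k t c) (h' : CV N D k' t' c')
    (hp : PairV N C k c D k' c') {tr : Trk} {q : Reg} {p : Pay} (hq : QL (.cross tr) q)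
    (hr : PR (.cross tr) (D 0).q) (e : (C (N - 1)).q = unext (.cross tr) q p) :
    sCout N C k t c D k' t' c' (sCupd C (N - 1) q) (sCupd D 0 (ins (.cross tr) (D 0).q p)) := by
  obtain ⟨β, rfl⟩ := sC_unext_cross (e ▸ h.doom (N - 1) (by omega))
  obtain ⟨-, hr, hr'⟩ := hr
  replace hq := hq.2
  obtain rfl : k' = 0 := h'.sC_pos (by omega) (by rw [hr]; trivial)
  replace e : (C (N - 1)).q = q.setL .u (some β) := e
  have e2 : q = (C (N - 1)).q.setL .u none := by
    rw [e, RegG.setL_setL, ← hq]; rfl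
  set r' := ins (.cross tr) (D 0).q (.bit β) with hr0
  have e3 : r' = (D 0).q.setL tr.lane (some β) := rfl
  have ev : ∀ j, j ≠ N - 1 → C j = sCupd C (N - 1) q j := fun j hj => (sCupd_ne _ _ hj).symm
  have ev' : ∀ j, j ≠ 0 → sCupd D 0 r' j = D j := fun j hj => sCupd_ne _ _ hj
  have eA : (C (N - 1)).q = (sCupd C (N - 1) q (N - 1)).q.setL .u (some β) := by
    rw [sCupd_same, e]
  have eB : (sCupd C (N - 1) q (N - 1)).q.u = none := by rw [sCupd_same, hq]
  have eB' : (sCupd D 0 r' 0).q = (D 0).q.setL tr.lane (some β) := by rw [sCupd_same, e3]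
  obtain ⟨v1, -, v3⟩ := sC_cross_left h.hk ev eA eB
  obtain ⟨w1, -, -⟩ := sC_cross_right (N := N) (by omega) ev' eB' hr'
  obtain ⟨x1, x2, x3⟩ := sC_cross_phi (c := c) (c' := c') h.hk ev eA eB (by simp) ev' eB' hr'
    (by simp) hr
  have w0 : (sCupd D 0 r' 0).q.kf = (D 0).q.kf := by rw [eB']; simp
  exact ⟨h.sC_setU e2 (Or.inl rfl), h'.sC_setT e3 hr, ⟨by rw [← v1, w0]; exact hp.1,
    by rw [← x1]; exact hp.2⟩, by rw [v1], by rw [w0], fun _ _ a => by rw [← v1]; exact a,
    fun _ _ a => by rw [w0]; exact a, fun tr' => by rw [v3], w1,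
    fun U => Or.inl ⟨(x2 U).symm, x3.symm⟩⟩

theorem sC_cross_b (hN : 2 ≤ N) (h : CV N C k t c) (h' : CV N D k' t' c')
    (hp : PairV N C k c D k' c') {tr : Trk} {r : Reg} {p : Pay}
    (hq : QL (.cross tr) (C (N - 1)).q) (hr : PR (.cross tr) r)
    (e : (D 0).q = ins (.cross tr) r p) :
    sCout N C k t c D k' t' c' (sCupd C (N - 1) (unext (.cross tr) (C (N - 1)).q p))
      (sCupd D 0 r) := by
  obtain ⟨β, rfl⟩ := sC_ins_cross (e ▸ h'.doom 0 (by omega))
  obtain ⟨-, hr, hr'⟩ := hr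
  replace hq := hq.2
  replace e : (D 0).q = r.setL tr.lane (some β) := e
  have e1 : (D 0).q.kf = .sm (.opnR (some tr)) := by rw [e, RegG.setL_kf, hr]
  obtain rfl : k' = 0 := h'.sC_pos (by omega) (by rw [e1]; trivial)
  have e2 : r = (D 0).q.setL tr.lane none := by
    rw [e, RegG.setL_setL, ← hr', RegG.setL_lane]
  set q' := unext (.cross tr) (C (N - 1)).q (.bit β) with hq0
  have e3 : q' = (C (N - 1)).q.setL .u (some β) := rfl
  have ev : ∀ j, j ≠ N - 1 → sCupd C (N - 1) q' j = C j := fun j hj => sCupd_ne _ _ hj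
  have ev' : ∀ j, j ≠ 0 → D j = sCupd D 0 r j := fun j hj => (sCupd_ne _ _ hj).symm
  have eA : (sCupd C (N - 1) q' (N - 1)).q = (C (N - 1)).q.setL .u (some β) := by
    rw [sCupd_same, e3]
  have eB' : (D 0).q = (sCupd D 0 r 0).q.setL tr.lane (some β) := by rw [sCupd_same, e]
  have eA' : (sCupd D 0 r 0).q.lane tr.lane = none := by rw [sCupd_same, hr']
  have w0 : (sCupd D 0 r 0).q.kf = (D 0).q.kf := by rw [eB']; simp
  obtain ⟨v1, -, v3⟩ := sC_cross_left h.hk ev eA hq
  obtain ⟨w1, -, -⟩ := sC_cross_right (N := N) (by omega) ev' eB' eA'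
  obtain ⟨x1, x2, x3⟩ := sC_cross_phi (c := c) (c' := c') h.hk ev eA hq (by simp) ev' eB' eA'
    (by simp) (by rw [w0, e1])
  have pv := hp.1
  rw [e1] at pv
  obtain ⟨κ, ph, q0, ph', r0, rfl, rfl, cl, -⟩ := sC_PV_open pv rfl
  obtain ⟨κ1, ph1, r1, e6, h2, -⟩ :
      compatA (P := Pay) (.sm (.opnR (some tr))) (.LS κ ph' .R r0) := e1 ▸ h'.ca
  obtain ⟨rfl, -, -⟩ : κ = κ1 ∧ ph' = ph1 ∧ r0 = r1 := by simpa using e6
  have hF : (C k).q.kf.isF ∨ (C k).q.kf = .sm .opnL := by
    have ca := h.ca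
    generalize (C k).q.kf = m at ca cl
    cases m with
    | sm tg => cases tg <;> first | (simp [KF.clsL] at cl; done) | simp [KF.isF]
    | fu pt p =>
      cases pt with
      | respL =>
        obtain ⟨κ1, q1, a, b, -⟩ := ca
        obtain ⟨rfl, -, -⟩ : κ = κ1 ∧ ph = .B ∧ q0 = q1 := by simpa using a
        rw [h2] at b; simp at b
      | _ => simp [KF.clsL] at cl
    | _ => simp [KF.clsL] at cl
  refine ⟨h.sC_setU e3 (Or.inr ⟨hF, fun κ' ph' q' a => ?_⟩), h'.sC_setT e2 e1,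
    ⟨by rw [v1, w0]; exact hp.1,
    by rw [x1]; exact hp.2⟩, by rw [v1], by rw [w0], fun _ _ a => by rw [v1]; exact a,
    fun _ _ a => by rw [w0]; exact a, fun tr' => by rw [v3], w1.symm,
    fun U => Or.inl ⟨x2 U, x3⟩⟩
  obtain ⟨rfl, -, -⟩ : κ = κ' ∧ ph = ph' ∧ q0 = q' := by simpa using a
  rw [h2]; simp

theorem sC_compat (hN : 2 ≤ N) (h : CV N C k t c) (h' : CV N D k' t' c')
    (hp : PairV N C k c D k' c') : compatS (C (N - 1)).q.era (D 0).q := by
  have hl : (C (N - 1)).q.last = true := by rw [h.last _ (by omega)]; simp; omega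
  refine ⟨by rw [RegG.era_last, hl, h'.first 0 (by omega)]; rfl, fun a => ?_, fun _ =>
    ⟨fun a b => ?_, fun a b => ?_, fun a b tr e => ?_⟩⟩
  · rw [RegG.era_last, hl] at a; simp at a
  · obtain rfl : k = N - 1 := h.sC_pos (by omega) (by simpa using a)
    obtain rfl : k' = 0 := h'.sC_pos (by omega) b
    simpa using sC_PV_cls hp.1
  · obtain rfl : k' = 0 := h'.sC_pos (by omega) b
    intro ho
    have c1 := hp.2
    have c2 : ∀ tr, (Tl N D 0 tr).length = N := fun tr => sC_len_full fun j hj => by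
      rw [sC_vt_ge (Nat.zero_le j)]
      exact h'.hol tr (by rw [ho]; simp) j hj
    rw [c2, c2] at c1
    have c3 : Ul N C k = [] := List.length_eq_zero_iff.1 (by omega)
    have := filterMap_eq_nil.1 c3 (N - 1) (by omega)
    rw [sC_vu_ge (by have := h.hk; omega)] at this
    exact a this
  · have a' : (C (N - 1)).q.kf = .sm .ful := by simpa using a
    obtain rfl : k = N - 1 := h.sC_pos (by omega) (by rw [a']; trivial)
    obtain rfl : k' = 0 := h'.sC_pos (by omega) (by rw [e]; trivial)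
    have l2 : (Ul N C (N - 1)).length = N := sC_len_full fun j hj => by
      rw [sC_vu_plain (by rw [a']; simp [sCplain])]
      by_cases hj' : j = N - 1
      · rw [hj']; exact b
      · exact h.uF (by rw [a']; trivial) j (by omega)
    have := filterMap_eq_nil.1 (sC_empty h' hp (by rw [e]; rfl) l2) 0 (by omega)
    rwa [sC_vt_ge le_rfl] at this

theorem sC_inv {x y x' y' : Ent} (h : Step2 x y x' y') (hl : x.q.last = true ∨ x'.q.last = true) :
    ∃ κ p, QL κ x'.q ∧ PR κ y.q ∧ okS κ y.q p ∧ x.q = unext κ x'.q p ∧ y'.q = ins κ y.q p ∧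
      (κ = .hs ∨ κ = .opn ∨ κ = .hand ∨ κ = .dh ∨ (∃ tr, κ = .cross tr) ∨ κ = .chk) ∧
      x'.a = x.a ∧ x'.n = x.n ∧ x'.oc = x.oc ∧ y'.a = y.a ∧ y'.n = y.n ∧ y'.oc = y.oc := by
  rcases h with @⟨κ, q, r, p, a, n, oc, a', n', oc', hq, hr, hk⟩
  have hl' : q.last = true := by simpa using hl
  refine ⟨κ, p, hq, hr, hk, rfl, rfl, ?_⟩
  cases κ <;> simp_all [QL, da, dn]

theorem sC_upd_eq {j : ℕ} {x : Ent} (e1 : x.a = (C j).a) (e2 : x.n = (C j).n)
    (e3 : x.oc = (C j).oc) : Function.update C j x = sCupd C j x.q := by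
  unfold sCupd
  congr 1
  ext1 <;> simp [e1, e2, e3]

end

theorem sound_bd {N : ℕ} (hN : 2 ≤ N) {C D : Wd} {k t k' t' : ℕ} {c c' : Core}
    (h : CV N C k t c) (h' : CV N D k' t' c') (hp : PairV N C k c D k' c')
    (hd : (phiq (C k).q.kf c).doom = false) (hd' : (phiq (D k').q.kf c').doom = false)
    {x y : Ent} (hs : Step2 (C (N - 1)) (D 0) x y ∨ Step2 x y (C (N - 1)) (D 0))
    {C' D' : Wd} (hC : C' = Function.update C (N - 1) x) (hD : D' = Function.update D 0 y) :
    CV N C' k t c ∧ CV N D' k' t' c' ∧ PairV N C' k c D' k' c' ∧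
      (C' k).q.kf.clsR = (C k).q.kf.clsR ∧ (D' k').q.kf.clsL = (D k').q.kf.clsL ∧
      (∀ m c0, PV m c0 (C k).q.kf c → PV m c0 (C' k).q.kf c) ∧
      (∀ m c0, PV (D k').q.kf c' m c0 → PV (D' k').q.kf c' m c0) ∧
      (∀ tr, (Tl N C' k tr).length = (Tl N C k tr).length) ∧ Ul N D' k' = Ul N D k' ∧
      ∀ U, (phi N U C' k c = phi N U C k c ∧
          phi N (Ul N C' k) D' k' c' = phi N (Ul N C k) D k' c') ∨
        Step2 (phi N U C k c) (phi N (Ul N C k) D k' c') (phi N U C' k c)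
          (phi N (Ul N C' k) D' k' c') ∨
        Step2 (phi N U C' k c) (phi N (Ul N C' k) D' k' c') (phi N U C k c)
          (phi N (Ul N C k) D k' c') := by
  have _ := hd'
  have hl : (C (N - 1)).q.last = true := by rw [h.last _ (by omega)]; simp; omega
  change sCout N C k t c D k' t' c' C' D'
  rcases hs with hs | hs
  · obtain ⟨κ, p, hq, hr, hk, e, e', hκ, a1, a2, a3, b1, b2, b3⟩ := sC_inv hs (Or.inl hl)
    rw [hC, hD, sC_upd_eq a1 a2 a3, sC_upd_eq b1 b2 b3, e']
    rcases hκ with rfl | rfl | rfl | rfl | ⟨tr, rfl⟩ | rfl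
    · exact sC_hs_f hN h h' hp hq hr e
    · exact sC_opn_f hN h h' hp hq hr e
    · exact sC_hand_f hN h h' hp hd hq hr e
    · exact sC_dh_f hN h h' hp hq hr e
    · exact sC_cross_f hN h h' hp hq hr e
    · exfalso
      have hdm := h.doom (N - 1) (by omega)
      by_cases hp' : p = .era x.q.era
      · have e1 : (C (N - 1)).q = x.q := by rw [e]; simp only [unext]; rw [if_pos hp']
        exact hk rfl ⟨_, hp', e1 ▸ sC_compat hN h h' hp⟩
      · rw [e] at hdm
        simp [unext, hp'] at hdm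
  · obtain ⟨κ, p, hq, hr, hk, e, e', hκ, a1, a2, a3, b1, b2, b3⟩ := sC_inv hs (Or.inr hl)
    rw [hC, hD, sC_upd_eq a1.symm a2.symm a3.symm, sC_upd_eq b1.symm b2.symm b3.symm, e]
    rcases hκ with rfl | rfl | rfl | rfl | ⟨tr, rfl⟩ | rfl
    · exact sC_hs_b hN h h' hp hq hr e'
    · exact sC_opn_b hN h h' hp hq hr e'
    · exact sC_hand_b hN h h' hp hq hr e'
    · exact sC_dh_b hN h h' hp hq e'
    · exact sC_cross_b hN h h' hp hq hr e'
    · exfalso
      have hdm := h'.doom 0 (by omega)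
      rw [e'] at hdm
      simp only [ins] at hdm
      rw [if_neg (hk rfl)] at hdm
      simp at hdm

end Vale.Agent.P192
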