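import Vale.Agent.P192.Move

/-! Auxiliary facts for the soundness of boundary rules: register updates and plain views. -/

namespace Vale.Agent.P192

variable {N : ℕ} {C D : Wd} {k t k' t' : ℕ} {c c' : Core}

/-- Replace the register at position `j`. -/
def sCupd (C : Wd) (j : ℕ) (q : Reg) : Wd := Function.update C j { C j with q := q }

@[simp] theorem sCupd_same (C : Wd) (j : ℕ) (q : Reg) : (sCupd C j q j).q = q := by
  simp [sCupd]

theorem sCupd_ne (C : Wd) {i j : ℕ} (q : Reg) (h : i ≠ j) : sCupd C j q i = C i := by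
  simp [sCupd, h]

@[simp] theorem sCupd_a (C : Wd) (j i : ℕ) (q : Reg) : (sCupd C j q i).a = (C i).a := by
  by_cases h : i = j
  · subst h; simp [sCupd]
  · rw [sCupd_ne _ _ h]

@[simp] theorem sCupd_n (C : Wd) (j i : ℕ) (q : Reg) : (sCupd C j q i).n = (C i).n := by
  by_cases h : i = j
  · subst h; simp [sCupd]
  · rw [sCupd_ne _ _ h]

@[simp] theorem sCupd_oc (C : Wd) (j i : ℕ) (q : Reg) : (sCupd C j q i).oc = (C i).oc := by
  by_cases h : i = j
  · subst h; simp [sCupd]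
  · rw [sCupd_ne _ _ h]

/-- A projection of the register that is not changed by the update. -/
theorem sCupd_proj {X : Type} (F : Reg → X) (C : Wd) (j i : ℕ) {q : Reg} (e : F q = F (C j).q) :
    F (sCupd C j q i).q = F (C i).q := by
  by_cases h : i = j
  · subst h; rw [sCupd_same, e]
  · rw [sCupd_ne _ _ h]

theorem CV.sC_pos (h : CV N C k t c) {j : ℕ} (hj : j < N) (hK : (C j).q.kf.isKey) : k = j := by
  rcases lt_trichotomy j k with a | a | a
  · rw [h.kR j a] at hK; exact hK.elim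
  · exact a.symm
  · rw [h.kL j hj a] at hK; exact hK.elim

theorem CV.sC_upd (h : CV N C k t c) {j : ℕ} {q : Reg} (e1 : q.first = (C j).q.first)
    (e2 : q.last = (C j).q.last) (e3 : q.tf = (C j).q.tf) (e4 : q.doom = (C j).q.doom)
    (e5 : j ≠ k → q.kf = (C j).q.kf) {m : KF Pay} (em : (sCupd C j q k).q.kf = m)
    (kK : m.isKey) (ca : compatA m c)
    (uF : m.isF → ∀ i < k, (sCupd C j q i).q.u ≠ none)
    (uE : m = .sm .opnL → ∀ i < k, (sCupd C j q i).q.u = none)
    (uO : ¬m.isF → m ≠ .sm .opnL → ∀ i < N, (sCupd C j q i).q.u = none)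
    (uS : ∀ κ ph q0, c = .LS κ ph .L q0 → κ.trk = none → ∀ i < N, (sCupd C j q i).q.u = none)
    (uQ : m = .sm (.wrk .eq) → ∀ i < k, (sCupd C j q i).q.u = (sCupd C j q i).q.d)
    (hol : ∀ tr : Trk, m.opent ≠ some tr → ∀ i < N, (sCupd C j q i).q.lane tr.lane ≠ none)
    (bC : (m = .sm .car ∨ m = .sm .ret) → ∀ i < k, (sCupd C j q i).q.b = some false) :
    CV N (sCupd C j q) k t c := by
  have f1 := fun i => sCupd_proj (·.first) C j i e1
  have f2 := fun i => sCupd_proj (·.last) C j i e2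
  have f3 := fun i => sCupd_proj (·.tf) C j i e3
  have f4 := fun i => sCupd_proj (·.doom) C j i e4
  have f5 : ∀ i, i ≠ k → (sCupd C j q i).q.kf = (C i).q.kf := by
    intro i hi
    by_cases hij : i = j
    · subst hij; rw [sCupd_same, e5 hi]
    · rw [sCupd_ne _ _ hij]
  subst em
  refine ⟨h.hk, h.ht, fun i hi => by rw [f4, h.doom i hi], fun i hi => by rw [f1, h.first i hi],
    fun i hi => by rw [f2, h.last i hi], fun i hi => by rw [f5 i (by omega), h.kR i hi],
    fun i hi hi' => by rw [f5 i (by omega), h.kL i hi hi'], kK,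
    fun i hi => by rw [f3, h.tR i hi], fun i hi hi' => by rw [f3, h.tL i hi hi'], ?_,
    fun i hi hi' => by rw [sCupd_n, h.n0 i hi hi'], fun i hi => by rw [sCupd_a]; exact h.alt i hi,
    fun i hi i' hi' e => h.ainj i hi i' hi' (by simpa using e),
    fun i hi hi' => by rw [sCupd_oc, h.ocm i hi hi'], by rw [sCupd_oc, h.oc0], ca, uF, uE, uO, uS,
    uQ, hol, bC⟩
  rw [f3, sCupd_n]; exact h.tK

/-- Replace the key field only. -/
def sCkey (q : Reg) (m : KF Pay) : Reg := { q with kf := m }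

@[simp] theorem sCkey_kf (q : Reg) (m : KF Pay) : (sCkey q m).kf = m := rfl

theorem sCkey_key (q : Reg) (t : Tag) {m : KF Pay} (e : q.kf = m) : q = sCkey (q.key t) m := by
  subst e; rfl

theorem sCkey_full (q : Reg) (pt : PTag) (p : Pay) {m : KF Pay} (e : q.kf = m) :
    q = sCkey (q.full pt p) m := by
  subst e; rfl

theorem sCupd_key_u (C : Wd) (j i : ℕ) (m : KF Pay) :
    (sCupd C j (sCkey (C j).q m) i).q.u = (C i).q.u := sCupd_proj (·.u) C j i rfl

theorem sCupd_key_lane (C : Wd) (j i : ℕ) (m : KF Pay) (l : Lane) :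
    (sCupd C j (sCkey (C j).q m) i).q.lane l = (C i).q.lane l :=
  sCupd_proj (·.lane l) C j i (by cases l <;> rfl)

theorem CV.sC_key (h : CV N C k t c) {m : KF Pay} (kK : m.isKey) (ca : compatA m c)
    (uF : ¬m.isF) (uE : ∀ i < N, (C i).q.u = none)
    (hol : ∀ tr : Trk, m.opent ≠ some tr → ∀ i < N, (C i).q.lane tr.lane ≠ none)
    (bC : m ≠ .sm .car ∧ m ≠ .sm .ret) : CV N (sCupd C k (sCkey (C k).q m)) k t c := by
  have hk := h.hk
  refine h.sC_upd rfl rfl rfl rfl (fun e => absurd rfl e) (by simp) kK ca (fun e => absurd e uF)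
    (fun _ i hi => by rw [sCupd_key_u]; exact uE i (by omega))
    (fun _ _ i hi => by rw [sCupd_key_u]; exact uE i hi)
    (fun _ _ _ _ _ i hi => by rw [sCupd_key_u]; exact uE i hi) ?_
    (fun tr e i hi => by rw [sCupd_key_lane]; exact hol tr e i hi) ?_
  · rintro rfl; exact absurd trivial uF
  · rintro (e | e)
    · exact absurd e bC.1
    · exact absurd e bC.2

/-- Keys that do not modify the views. -/
def sCplain (m : KF Pay) : Prop := (∀ t, m ≠ .sm (.wrk (.sw t))) ∧ m ≠ .sm .car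

theorem sC_vu_plain (h : sCplain (C k).q.kf) (j : ℕ) : vu C k j = (C j).q.u := by
  simp [vu, h.1]

theorem sC_vt_plain (h : sCplain (C k).q.kf) (tr : Trk) (j : ℕ) :
    vt C k tr j = (C j).q.lane tr.lane := by
  simp [vt, h.1, h.2]

theorem sC_vu_ge {j : ℕ} (h : k ≤ j) : vu C k j = (C j).q.u := by
  have : ¬j < k := by omega
  simp [vu, this]

theorem sC_vt_ge {j : ℕ} (h : k ≤ j) (tr : Trk) : vt C k tr j = (C j).q.lane tr.lane := by
  have : ¬j < k := by omega
  simp [vt, this]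

theorem sC_fm_congr {v v' : ℕ → Option Bool} (h : ∀ j < N, v j = v' j) :
    (List.range N).filterMap v = (List.range N).filterMap v' :=
  List.filterMap_congr fun j hj => h j (List.mem_range.1 hj)

theorem sC_len_full {v : ℕ → Option Bool} (h : ∀ j < N, v j ≠ none) :
    ((List.range N).filterMap v).length = N := by
  rw [filterMap_full h]; simp

theorem sC_Ul_key {m : KF Pay} (h : sCplain (C k).q.kf) (hm : sCplain m) :
    Ul N (sCupd C k (sCkey (C k).q m)) k = Ul N C k := by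
  refine sC_fm_congr fun j _ => ?_
  rw [sC_vu_plain h, sC_vu_plain (by simpa using hm), sCupd_key_u]

theorem sC_Tl_key {m : KF Pay} (h : sCplain (C k).q.kf) (hm : sCplain m) (tr : Trk) :
    Tl N (sCupd C k (sCkey (C k).q m)) k tr = Tl N C k tr := by
  refine sC_fm_congr fun j _ => ?_
  rw [sC_vt_plain h, sC_vt_plain (by simpa using hm), sCupd_key_lane]

theorem sC_Ul_nil (h : sCplain (C k).q.kf) (hu : ∀ j < N, (C j).q.u = none) : Ul N C k = [] :=
  filterMap_eq_nil.2 fun j hj => by rw [sC_vu_plain h, hu j hj]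

theorem sC_Tl_full (h : sCplain (C k).q.kf) {tr : Trk}
    (hu : ∀ j < N, (C j).q.lane tr.lane ≠ none) : (Tl N C k tr).length = N :=
  sC_len_full fun j hj => by rw [sC_vt_plain h]; exact hu j hj

theorem sC_Tl_le (tr : Trk) : (Tl N C k tr).length ≤ N := filterMap_length_le _ _

theorem sC_Ul_le : (Ul N C k).length ≤ N := filterMap_length_le _ _

theorem sC_PV_right {m m1 m2 : KF Pay} {c0 c1 : Core} (h1 : m1.clsR = 0) (h2 : m2.clsR = 0)
    (h : PV m c0 m1 c1) : PV m c0 m2 c1 := by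
  rcases h with h | ⟨κ, ph, q, -, -, h | ⟨r, h, -⟩⟩ | ⟨κ, ph, q, ph', r, -, -, -, h, -⟩
  · exact Or.inl ⟨h.1, h2⟩
  · rw [h] at h1; simp [KF.clsR] at h1
  · rw [h] at h1; simp [KF.clsR] at h1
  · omega

theorem sC_PV_left {m m1 m2 : KF Pay} {c0 c1 : Core} (h1 : m1.clsL = 0) (h2 : m2.clsL = 0)
    (h : PV m1 c1 m c0) : PV m2 c1 m c0 := by
  rcases h with h | ⟨κ, ph, q, -, h, -⟩ | ⟨κ, ph, q, ph', r, -, -, h, -, -⟩
  · exact Or.inl ⟨h2, h.2⟩
  · rw [h] at h1; simp [KF.clsL] at h1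
  · omega

theorem sC_PV_cls {m m' : KF Pay} (h : PV m c m' c') : m.clsL = m'.clsR := by
  rcases h with h | ⟨κ, ph, q, -, h, h' | ⟨r, h', -⟩⟩ | ⟨κ, ph, q, ph', r, -, -, h, h', -⟩
  · rw [h.1, h.2]
  · rw [h, h']; rfl
  · rw [h, h']; rfl
  · rw [h, h']

/-- The open alternative of `PV`. -/
theorem sC_PV_open {m m' : KF Pay} (h : PV m c m' c') (h2 : m'.clsR = 2) :
    ∃ κ ph q ph' r, c = .LS κ ph .L q ∧ c' = .LS κ ph' .R r ∧ m.clsL = 2 ∧
    ((¬m.isW ∧ ¬m'.isW ∧ ph = ph') ∨ (m.isW ∧ ¬m'.isW ∧ ph' = .A) ∨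
      (¬m.isW ∧ m'.isW ∧ ph = .B ∧ (κ = .chk → ∀ p, m' = .fu .respR p → p = .era q.era))) := by
  rcases h with h | ⟨κ, ph, q, -, h, h' | ⟨r, h', -⟩⟩ | ⟨κ, ph, q, ph', r, a, b, h, h', e⟩
  · omega
  · rw [h'] at h2; simp [KF.clsR] at h2
  · rw [h'] at h2; simp [KF.clsR] at h2
  · exact ⟨κ, ph, q, ph', r, a, b, h, e⟩

/-- The closed alternative of `PV`. -/
theorem sC_PV_half {m' : KF Pay} (h : PV (.sm .half) c m' c') :
    ∃ κ ph q, c = .LS κ ph .L q ∧
      (m' = .sm (.got κ ph) ∨ ∃ r, m' = .sm (.acc κ.trk) ∧ c' = .LS κ ph .R r) := by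
  rcases h with h | ⟨κ, ph, q, a, -, b⟩ | ⟨κ, ph, q, ph', r, a, b, h, h', e⟩
  · simp [KF.clsL] at h
  · exact ⟨κ, ph, q, a, b⟩
  · simp [KF.clsL] at h

/-- The relation between two decoded pairs. -/
def sCrel (x y x' y' : Ent) : Prop := (x' = x ∧ y' = y) ∨ Step2 x y x' y' ∨ Step2 x' y' x y

/-- The conclusion of the soundness statement. -/
def sCout (N : ℕ) (C : Wd) (k t : ℕ) (c : Core) (D : Wd) (k' t' : ℕ) (c' : Core) (C' D' : Wd) :
    Prop :=
  CV N C' k t c ∧ CV N D' k' t' c' ∧ PairV N C' k c D' k' c' ∧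
    (C' k).q.kf.clsR = (C k).q.kf.clsR ∧ (D' k').q.kf.clsL = (D k').q.kf.clsL ∧
    (∀ m c0, PV m c0 (C k).q.kf c → PV m c0 (C' k).q.kf c) ∧
    (∀ m c0, PV (D k').q.kf c' m c0 → PV (D' k').q.kf c' m c0) ∧
    (∀ tr, (Tl N C' k tr).length = (Tl N C k tr).length) ∧ Ul N D' k' = Ul N D k' ∧
    ∀ U, sCrel (phi N U C k c) (phi N (Ul N C k) D k' c') (phi N U C' k c)
      (phi N (Ul N C' k) D' k' c')

/-- Both keys change and nothing else. -/
theorem sC_out_keys (hp : PairV N C k c D k' c') {m0 m0' m m' : KF Pay} (e : (C k).q.kf = m0)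
    (e' : (D k').q.kf = m0') (cv : CV N (sCupd C k (sCkey (C k).q m)) k t c)
    (cv' : CV N (sCupd D k' (sCkey (D k').q m')) k' t' c') (pv : PV m c m' c')
    (p0 : sCplain m0) (p0' : sCplain m0') (p1 : sCplain m) (p1' : sCplain m')
    (r0 : m0.clsR = 0) (r1 : m.clsR = 0) (l0 : m0'.clsL = 0) (l1 : m'.clsL = 0)
    (op : m'.opent = m0'.opent ∨ Ul N C k = [])
    (ph : ∀ a n oc a' n' oc', sCrel ⟨phiq m0 c, a, n, oc⟩ ⟨phiq m0' c', a', n', oc'⟩
      ⟨phiq m c, a, n, oc⟩ ⟨phiq m' c', a', n', oc'⟩) :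
    sCout N C k t c D k' t' c' (sCupd C k (sCkey (C k).q m))
      (sCupd D k' (sCkey (D k').q m')) := by
  subst e e'
  have u1 := sC_Ul_key (N := N) p0 p1
  have u2 := sC_Ul_key (N := N) p0' p1'
  have t1 := sC_Tl_key (N := N) p0 p1
  have t2 := sC_Tl_key (N := N) p0' p1'
  refine ⟨cv, cv', ⟨by simpa using pv, by rw [u1, t2, t2]; exact hp.2⟩, by simp [r0, r1],
    by simp [l0, l1], fun m c0 h => sC_PV_right r0 (by simpa using r1) h,
    fun m c0 h => sC_PV_left l0 (by simpa using l1) h, fun tr => by rw [t1], u2, fun U => ?_⟩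
  simp only [phi, sCupd_same, sCkey_kf, u1, t1, t2, sCupd_oc, KF.opent_of_clsR _ r0,
    KF.opent_of_clsR _ r1]
  rcases op with op | op
  · rw [op]; exact ph _ _ _ _ _ _
  · simp only [op, ite_self]; exact ph _ _ _ _ _ _

end Vale.Agent.P192
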