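import Vale.Agent.P192.SoundCAux

/-! Soundness of the boundary rules that only change the two keys. -/

namespace Vale.Agent.P192

variable {N : ℕ} {C D : Wd} {k t k' t' : ℕ} {c c' : Core}

theorem sC_unext_hs {q : Reg} {p : Pay} (h : (unext .hs q p).doom = false) :
    ∃ κ ph, p = .tag (.pre κ ph) := by
  cases p with
  | tag t => cases t <;> simp_all [unext]
  | _ => simp [unext] at h

theorem sC_ins_hs {q : Reg} {p : Pay} (h : (ins .hs q p).doom = false) :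
    ∃ κ ph, p = .tag (.pre κ ph) := by
  cases p with
  | tag t => cases t <;> simp_all [ins]
  | _ => simp [ins] at h

theorem sC_hs_f (hN : 2 ≤ N) (h : CV N C k t c) (h' : CV N D k' t' c')
    (hp : PairV N C k c D k' c') {q : Reg} {p : Pay} (hq : QL .hs q) (hr : PR .hs (D 0).q)
    (e : (C (N - 1)).q = unext .hs q p) :
    sCout N C k t c D k' t' c' (sCupd C (N - 1) q) (sCupd D 0 (ins .hs (D 0).q p)) := by
  obtain ⟨κ, ph, rfl⟩ := sC_unext_hs (e ▸ h.doom (N - 1) (by omega))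
  have e1 : (C (N - 1)).q.kf = .sm (.pre κ ph) := by rw [e]; rfl
  obtain rfl : k = N - 1 := h.sC_pos (by omega) (by rw [e1]; trivial)
  obtain rfl : k' = 0 := h'.sC_pos (by omega) (by rw [hr.2]; trivial)
  have e2 : q = sCkey (C (N - 1)).q (.sm .half) := by rw [e]; exact sCkey_key q _ hq.2
  obtain ⟨q0, rfl, hq0⟩ : compatA (P := Pay) (.sm (.pre κ ph)) c := e1 ▸ h.ca
  obtain ⟨r0, rfl⟩ : compatA (P := Pay) (.sm .idle) c' := hr.2 ▸ h'.ca
  rw [e2]
  refine sC_out_keys (m' := .sm (.got κ ph)) hp e1 hr.2 (h.sC_key trivial ⟨κ, ph, q0, rfl, hq0⟩ id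
    (h.uO (by rw [e1]; exact id) (by rw [e1]; simp)) (fun tr _ => h.hol tr (by rw [e1]; simp [KF.opent]))
    (by simp)) (h'.sC_key trivial ⟨r0, rfl⟩ id
    (h'.uO (by rw [hr.2]; exact id) (by rw [hr.2]; simp))
    (fun tr _ => h'.hol tr (by rw [hr.2]; simp [KF.opent])) (by simp))
    (Or.inr (Or.inl ⟨κ, ph, q0, rfl, rfl, Or.inl rfl⟩)) (by simp [sCplain]) (by simp [sCplain])
    (by simp [sCplain]) (by simp [sCplain]) rfl rfl rfl rfl (Or.inl rfl)
    fun _ _ _ _ _ _ => Or.inl ⟨rfl, rfl⟩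

theorem sC_hs_b (hN : 2 ≤ N) (h : CV N C k t c) (h' : CV N D k' t' c')
    (hp : PairV N C k c D k' c') {r : Reg} {p : Pay} (hq : QL .hs (C (N - 1)).q) (hr : PR .hs r)
    (e : (D 0).q = ins .hs r p) :
    sCout N C k t c D k' t' c' (sCupd C (N - 1) (unext .hs (C (N - 1)).q p)) (sCupd D 0 r) := by
  obtain ⟨κ, ph, rfl⟩ := sC_ins_hs (e ▸ h'.doom 0 (by omega))
  have e1 : (D 0).q.kf = .sm (.got κ ph) := by rw [e]; rfl
  obtain rfl : k = N - 1 := h.sC_pos (by omega) (by rw [hq.2]; trivial)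
  obtain rfl : k' = 0 := h'.sC_pos (by omega) (by rw [e1]; trivial)
  have e2 : r = sCkey (D 0).q (.sm .idle) := by rw [e]; exact sCkey_key r _ hr.2
  have pv := hp.1
  rw [hq.2, e1] at pv
  obtain ⟨κ', ph', q0, rfl, e3 | ⟨_, e3, -⟩⟩ := sC_PV_half pv
  swap
  · simp at e3
  obtain ⟨rfl, rfl⟩ : κ = κ' ∧ ph = ph' := by simpa using e3
  obtain ⟨κ1, ph1, q1, e4, hq0⟩ : compatA (P := Pay) (.sm .half) (.LS κ ph .L q0) := hq.2 ▸ h.ca
  obtain ⟨rfl, rfl, rfl⟩ : κ = κ1 ∧ ph = ph1 ∧ q0 = q1 := by simpa using e4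
  obtain ⟨r0, rfl⟩ : compatA (P := Pay) (.sm (.got κ ph)) c' := e1 ▸ h'.ca
  rw [e2]
  refine sC_out_keys (m := .sm (.pre κ ph)) hp hq.2 e1 (h.sC_key trivial ⟨q0, rfl, hq0⟩ id
    (h.uO (by rw [hq.2]; exact id) (by rw [hq.2]; simp))
    (fun tr _ => h.hol tr (by rw [hq.2]; simp [KF.opent]))
    (by simp)) (h'.sC_key trivial ⟨r0, rfl⟩ id
    (h'.uO (by rw [e1]; exact id) (by rw [e1]; simp))
    (fun tr _ => h'.hol tr (by rw [e1]; simp [KF.opent])) (by simp))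
    (Or.inl ⟨rfl, rfl⟩) (by simp [sCplain]) (by simp [sCplain])
    (by simp [sCplain]) (by simp [sCplain]) rfl rfl rfl rfl (Or.inl rfl)
    fun _ _ _ _ _ _ => Or.inl ⟨rfl, rfl⟩

theorem sC_opn_f (hN : 2 ≤ N) (h : CV N C k t c) (h' : CV N D k' t' c')
    (hp : PairV N C k c D k' c') {q : Reg} {p : Pay} (hq : QL .opn q) (hr : PR .opn (D 0).q)
    (e : (C (N - 1)).q = unext .opn q p) :
    sCout N C k t c D k' t' c' (sCupd C (N - 1) q) (sCupd D 0 (ins .opn (D 0).q p)) := by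
  have e1 : (C (N - 1)).q.kf = .sm .half := by rw [e]; rfl
  obtain ⟨-, o, hr⟩ := hr
  obtain rfl : k = N - 1 := h.sC_pos (by omega) (by rw [e1]; trivial)
  obtain rfl : k' = 0 := h'.sC_pos (by omega) (by rw [hr]; trivial)
  have e2 : q = sCkey (C (N - 1)).q (.sm .opnL) := by rw [e]; exact sCkey_key q _ hq.2.1
  have e3 : ins .opn (D 0).q p = sCkey (D 0).q (.sm (.opnR o)) := by
    simp only [ins, hr, opnOf]; rfl
  have pv := hp.1
  rw [hr, e1] at pv
  obtain ⟨κ, ph, q0, rfl, e4 | ⟨r0, e4, rfl⟩⟩ := sC_PV_half pv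
  · simp at e4
  have ca : compatA (P := Pay) (.sm .half) (.LS κ ph .L q0) := e1 ▸ h.ca
  have ca' : compatA (P := Pay) (.sm (.acc o)) (.LS κ ph .R r0) := hr ▸ h'.ca
  have hu := h.uO (by rw [e1]; exact id) (by rw [e1]; simp)
  rw [e2, e3]
  refine sC_out_keys hp e1 hr (h.sC_key trivial ca id hu
    (fun tr _ => h.hol tr (by rw [e1]; simp [KF.opent]))
    (by simp)) (h'.sC_key trivial ca' id
    (h'.uO (by rw [hr]; exact id) (by rw [hr]; simp))
    (fun tr _ => h'.hol tr (by rw [hr]; simp [KF.opent])) (by simp))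
    (Or.inr (Or.inr ⟨κ, ph, q0, ph, r0, rfl, rfl, rfl, rfl, Or.inl ⟨id, id, rfl⟩⟩))
    (by simp [sCplain]) (by simp [sCplain])
    (by simp [sCplain]) (by simp [sCplain]) rfl rfl rfl rfl
    (Or.inr (sC_Ul_nil (by rw [e1]; simp [sCplain]) hu))
    fun _ _ _ _ _ _ => Or.inl ⟨rfl, rfl⟩

theorem sC_opn_b (hN : 2 ≤ N) (h : CV N C k t c) (h' : CV N D k' t' c')
    (hp : PairV N C k c D k' c') {r : Reg} {p : Pay} (hq : QL .opn (C (N - 1)).q) (hr : PR .opn r)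
    (e : (D 0).q = ins .opn r p) :
    sCout N C k t c D k' t' c' (sCupd C (N - 1) (unext .opn (C (N - 1)).q p)) (sCupd D 0 r) := by
  obtain ⟨-, o, hr⟩ := hr
  obtain ⟨-, hq, hq'⟩ := hq
  have e0 : (D 0).q = r.key (.opnR o) := by rw [e]; simp only [ins, hr, opnOf]
  have e1 : (D 0).q.kf = .sm (.opnR o) := by rw [e0]; rfl
  obtain rfl : k = N - 1 := h.sC_pos (by omega) (by rw [hq]; trivial)
  obtain rfl : k' = 0 := h'.sC_pos (by omega) (by rw [e1]; trivial)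
  have e2 : r = sCkey (D 0).q (.sm (.acc o)) := by rw [e0]; exact sCkey_key r _ hr
  have pv := hp.1
  rw [hq, e1] at pv
  obtain ⟨κ, ph, q0, ph', r0, rfl, rfl, -, e4⟩ := sC_PV_open pv rfl
  obtain rfl : ph = ph' := by simpa [KF.isW] using e4
  have ca : compatA (P := Pay) (.sm .opnL) (.LS κ ph .L q0) := hq ▸ h.ca
  have ca' : compatA (P := Pay) (.sm (.opnR o)) (.LS κ ph .R r0) := e1 ▸ h'.ca
  have ho : κ.trk = o := by
    obtain ⟨κ1, ph1, r1, e5, e6, -⟩ := ca'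
    obtain ⟨rfl, -, -⟩ : κ = κ1 ∧ ph = ph1 ∧ r0 = r1 := by simpa using e5
    exact e6
  have hu : ∀ j < N, (C j).q.u = none := by
    intro j hj
    by_cases hj' : j = N - 1
    · rw [hj', hq']
    · exact h.uE hq j (by omega)
  have hU : Ul N C (N - 1) = [] := sC_Ul_nil (by rw [hq]; simp [sCplain]) hu
  have hfull : ∀ tr : Trk, ∀ j < N, (D j).q.lane tr.lane ≠ none := by
    intro tr j hj
    have c1 := hp.2
    have c2 := sC_Tl_le (N := N) (C := D) (k := 0) .d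
    have c3 := sC_Tl_le (N := N) (C := D) (k := 0) .b
    rw [hU, List.length_nil] at c1
    have c4 : (Tl N D 0 tr).length = N := by cases tr <;> omega
    rw [← sC_vt_ge (Nat.zero_le j)]
    exact full_of_length c4 j hj
  rw [e2]
  refine sC_out_keys (m := .sm .half) hp hq e1 (h.sC_key trivial ca id hu
    (fun tr _ => h.hol tr (by rw [hq]; simp [KF.opent]))
    (by simp)) (h'.sC_key trivial ca' id
    (h'.uO (by rw [e1]; exact id) (by rw [e1]; simp)) (fun tr _ => hfull tr) (by simp))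
    (Or.inr (Or.inl ⟨κ, ph, q0, rfl, rfl, Or.inr ⟨r0, by rw [ho], rfl⟩⟩))
    (by simp [sCplain]) (by simp [sCplain])
    (by simp [sCplain]) (by simp [sCplain]) rfl rfl rfl rfl (Or.inr hU)
    fun _ _ _ _ _ _ => Or.inl ⟨rfl, rfl⟩

/-- The decoded step of a handshake with payload. -/
theorem sC_hand_rel {κ : Kind} {q r : Reg} {p : Pay} (h1 : κ.trk = none) (hq : QL κ q)
    (hr : PR κ r) (hc : κ = .chk → p = .era q.era) (a n : ℕ) (oc : Option Core) (a' n' : ℕ)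
    (oc' : Option Core) :
    ((⟨q, a, n, oc⟩ : Ent) = ⟨unext κ q p, a, n, oc⟩ ∧
      (⟨ins κ r p, a', n', oc'⟩ : Ent) = ⟨r, a', n', oc'⟩) ∨
    Step2 ⟨unext κ q p, a, n, oc⟩ ⟨r, a', n', oc'⟩ ⟨q, a, n, oc⟩ ⟨ins κ r p, a', n', oc'⟩ := by
  by_cases hk : okS κ r p
  · right
    have := Step2.mk (a := a) (n := n) (oc := oc) (a' := a') (n' := n') (oc' := oc') hq hr hk
    have d1 : κ ≠ .swd := by rintro rfl; simp [Kind.trk] at h1
    have d2 : κ ≠ .mvc := by rintro rfl; simp [Kind.trk] at h1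
    simpa [da, dn, d1, d2] using this
  · left
    simp only [okS, not_forall, not_not] at hk
    obtain ⟨rfl, hk⟩ := hk
    have e1 : unext .chk q p = q := by simp only [unext]; rw [if_pos (hc rfl)]
    have e2 : ins .chk r p = r := by simp only [ins]; rw [if_pos hk]
    rw [e1, e2]
    exact ⟨rfl, rfl⟩

theorem sC_hand_f (hN : 2 ≤ N) (h : CV N C k t c) (h' : CV N D k' t' c')
    (hp : PairV N C k c D k' c') (hd : (phiq (C k).q.kf c).doom = false) {q : Reg} {p : Pay}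
    (hq : QL .hand q) (hr : PR .hand (D 0).q) (e : (C (N - 1)).q = unext .hand q p) :
    sCout N C k t c D k' t' c' (sCupd C (N - 1) q) (sCupd D 0 (ins .hand (D 0).q p)) := by
  have e1 : (C (N - 1)).q.kf = .fu .respL p := by rw [e]; rfl
  replace hr := hr.2
  obtain rfl : k = N - 1 := h.sC_pos (by omega) (by rw [e1]; trivial)
  obtain rfl : k' = 0 := h'.sC_pos (by omega) (by rw [hr]; trivial)
  have e2 : q = sCkey (C (N - 1)).q (.sm .opnL) := by rw [e]; exact sCkey_full q _ _ hq.2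
  have pv := hp.1
  rw [hr, e1] at pv
  obtain ⟨κ, ph, q0, ph', r0, rfl, rfl, -, e4⟩ := sC_PV_open pv rfl
  obtain rfl : ph' = .A := by simpa [KF.isW] using e4
  obtain ⟨κ1, q1, e5, h1, hq0⟩ : compatA (P := Pay) (.fu .respL p) (.LS κ ph .L q0) := e1 ▸ h.ca
  obtain ⟨rfl, rfl, rfl⟩ : κ = κ1 ∧ ph = .B ∧ q0 = q1 := by simpa using e5
  obtain ⟨κ1, ph1, r1, e6, -, hr0⟩ : compatA (P := Pay) (.sm (.opnR none)) (.LS κ .A .R r0) :=
    hr ▸ h'.ca
  obtain ⟨rfl, rfl, rfl⟩ : κ = κ1 ∧ .A = ph1 ∧ r0 = r1 := by simpa using e6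
  have hc : κ = .chk → p = .era q0.era := by
    rintro rfl
    by_contra hne
    rw [e1] at hd
    simp [phiq, unext, hne] at hd
  rw [e2]
  refine sC_out_keys (m' := .fu .respR p) hp e1 hr (h.sC_key trivial ⟨κ, .B, q0, rfl, fun _ => hq0⟩
    id (h.uO (by rw [e1]; exact id) (by rw [e1]; simp))
    (fun tr _ => h.hol tr (by rw [e1]; simp [KF.opent]))
    (by simp)) (h'.sC_key trivial ⟨κ, r0, rfl, h1, hr0 rfl⟩ id
    (h'.uO (by rw [hr]; exact id) (by rw [hr]; simp))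
    (fun tr _ => h'.hol tr (by rw [hr]; simp [KF.opent])) (by simp))
    (Or.inr (Or.inr ⟨κ, .B, q0, .A, r0, rfl, rfl, rfl, rfl, Or.inr (Or.inr ⟨id, trivial, rfl,
      fun hk p' hp' => by cases hp'; exact hc hk⟩)⟩))
    (by simp [sCplain]) (by simp [sCplain])
    (by simp [sCplain]) (by simp [sCplain]) rfl rfl rfl rfl (Or.inl rfl)
    fun a n oc a' n' oc' => ?_
  rcases sC_hand_rel h1 hq0 (hr0 rfl) hc a n oc a' n' oc' with e | e
  · exact Or.inl e
  · exact Or.inr (Or.inl e)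

theorem sC_hand_b (hN : 2 ≤ N) (h : CV N C k t c) (h' : CV N D k' t' c')
    (hp : PairV N C k c D k' c') {r : Reg} {p : Pay} (hq : QL .hand (C (N - 1)).q)
    (hr : PR .hand r) (e : (D 0).q = ins .hand r p) :
    sCout N C k t c D k' t' c' (sCupd C (N - 1) (unext .hand (C (N - 1)).q p)) (sCupd D 0 r) := by
  replace hr := hr.2
  replace hq := hq.2
  have e1 : (D 0).q.kf = .fu .respR p := by rw [e]; rfl
  obtain rfl : k = N - 1 := h.sC_pos (by omega) (by rw [hq]; trivial)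
  obtain rfl : k' = 0 := h'.sC_pos (by omega) (by rw [e1]; trivial)
  have e2 : r = sCkey (D 0).q (.sm (.opnR none)) := by rw [e]; exact sCkey_full r _ _ hr
  have pv := hp.1
  rw [hq, e1] at pv
  obtain ⟨κ, ph, q0, ph', r0, rfl, rfl, -, e4⟩ := sC_PV_open pv rfl
  obtain ⟨rfl, hc⟩ : ph = .B ∧ (κ = .chk → p = .era q0.era) := by simpa [KF.isW] using e4
  obtain ⟨κ1, r1, e5, h1, hr0⟩ : compatA (P := Pay) (.fu .respR p) (.LS κ ph' .R r0) := e1 ▸ h'.ca
  obtain ⟨rfl, rfl, rfl⟩ : κ = κ1 ∧ ph' = .A ∧ r0 = r1 := by simpa using e5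
  obtain ⟨κ1, ph1, q1, e6, hq0⟩ : compatA (P := Pay) (.sm .opnL) (.LS κ .B .L q0) := hq ▸ h.ca
  obtain ⟨rfl, rfl, rfl⟩ : κ = κ1 ∧ .B = ph1 ∧ q0 = q1 := by simpa using e6
  rw [e2]
  refine sC_out_keys (m := .fu .respL p) hp hq e1 (h.sC_key trivial ⟨κ, q0, rfl, h1, hq0 rfl⟩
    id (h.uS κ .B q0 rfl h1)
    (fun tr _ => h.hol tr (by rw [hq]; simp [KF.opent]))
    (by simp)) (h'.sC_key trivial ⟨κ, .A, r0, rfl, h1, fun _ => hr0⟩ id
    (h'.uO (by rw [e1]; exact id) (by rw [e1]; simp))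
    (fun tr _ => h'.hol tr (by rw [e1]; simp [KF.opent])) (by simp))
    (Or.inr (Or.inr ⟨κ, .B, q0, .A, r0, rfl, rfl, rfl, rfl, Or.inr (Or.inl ⟨trivial, id, rfl⟩)⟩))
    (by simp [sCplain]) (by simp [sCplain])
    (by simp [sCplain]) (by simp [sCplain]) rfl rfl rfl rfl (Or.inl rfl)
    fun a n oc a' n' oc' => ?_
  rcases sC_hand_rel h1 (hq0 rfl) hr0 hc a n oc a' n' oc' with e | e
  · exact Or.inl ⟨e.1.symm, e.2.symm⟩
  · exact Or.inr (Or.inr e)

end Vale.Agent.P192
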