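import Vale.Agent.P192.SoundCAux

/-! Soundness of unary zero conditions: the pieces. -/

namespace Vale.Agent.P192

variable {N : ℕ} {C D : Wd} {k t k' t' : ℕ} {c c' : Core}

theorem sG_uok (hN : 2 ≤ N) (h : CV N C k t c) {j : ℕ} (hj : j < N)
    (ka : ∀ β, (C j).q.kf = .sm (.all β) → (C j).q.b ≠ some (!β))
    (ke : (C j).q.last = true → (C j).q.kf = .sm (.wrk .eq) → (C j).q.u ≠ none →
      (C j).q.u ≠ (C j).q.d) : uok (C j).q := by
  have hk := h.hk
  have ht := h.ht
  refine ⟨h.doom j hj, fun a => ?_, fun a => ?_, fun a => ?_, fun a b e => ?_, fun a tr b => ?_,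
    ka, ke⟩
  · rw [h.first j hj] at a
    rw [h.last j hj]
    simp only [decide_eq_true_eq, decide_eq_false_iff_not] at a ⊢
    omega
  · rw [h.first j hj] at a
    obtain rfl : j = 0 := by simpa using a
    constructor
    · by_cases e : k = 0
      · subst e; intro e; have := h.kK; rw [e] at this; exact this
      · rw [h.kR 0 (by omega)]; simp
    · by_cases e : t = 0
      · subst e; rcases h.tK with e | e <;> simp [e.1]
      · rw [h.tR 0 (by omega)]; simp
  · rw [h.last j hj] at a
    have a' : j + 1 = N := by simpa using a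
    constructor
    · by_cases e : k = j
      · subst e; intro e; have := h.kK; rw [e] at this; exact this
      · rw [h.kL j hj (by omega)]; simp
    · by_cases e : t = j
      · subst e
        rcases h.tK with e | e
        · simp [e.1]
        · omega
      · rw [h.tL j hj (by omega)]; simp
  · obtain rfl := h.sC_pos hj a
    exact h.uO b e k hj
  · obtain rfl := h.sC_pos hj a
    exact h.hol tr b k hj

theorem sG_ka (h : CV N C k t c) {β : Bool} (e : (C k).q.kf = .sm (.all β))
    (eb : (C k).q.b = some (!β)) (U : List Bool) : Zero1 (2 ^ N) (phi N U C k c) := by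
  obtain ⟨q, rfl, hq⟩ : compatA (P := Pay) (.sm (.all β)) c := e ▸ h.ca
  have pl : sCplain (C k).q.kf := by rw [e]; simp [sCplain]
  have hb : (bval (Tl N C k .b)).testBit k = !β := by
    rw [testBit_bval, Tl, filterMap_full fun j hj => by
      rw [sC_vt_plain pl]; exact h.hol .b (by rw [e]; simp [KF.opent]) j hj]
    have hk := h.hk
    simp [List.getD_eq_getElem?_getD, hk, sC_vt_plain pl, Trk.lane, eb]
  refine Or.inr (Or.inr (Or.inr (Or.inl ⟨β, by simpa [phi, e, phiq] using hq, ?_⟩)))
  simp only [phi, e, KF.opent]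
  intro e'
  simp only [reduceCtorEq, if_false, List.nil_append] at e'
  rw [e'] at hb
  have hk := h.hk
  cases β <;> simp [hk] at hb

theorem sG_ke (h : CV N C k t c) (hk : k + 1 = N) (e : (C k).q.kf = .sm (.wrk .eq))
    (hu : (C k).q.u ≠ none) (hd : (C k).q.u = (C k).q.d) (U : List Bool)
    (h' : CV N D k' t' c') (hp : PairV N C k c D k' c') :
    Zero2 (phi N U C k c) (phi N (Ul N C k) D k' c') := by
  obtain ⟨κ, q, rfl, hw, hq⟩ : compatA (P := Pay) (.sm (.wrk .eq)) c := e ▸ h.ca
  obtain rfl : κ = .eqd := by cases κ <;> simp_all [Kind.wop]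
  have pl : sCplain (C k).q.kf := by rw [e]; simp [sCplain]
  have c2 : (D k').q.kf.clsR = 2 := by rw [← sC_PV_cls hp.1, e]; rfl
  obtain ⟨κ, ph, q0, ph', r0, e1, rfl, -, -⟩ := sC_PV_open hp.1 c2
  obtain ⟨rfl, -, -⟩ : .eqd = κ ∧ .B = ph ∧ q = q0 := by simpa using e1
  have eD : (D k').q.kf = .sm (.opnR (some .d)) := by
    have ca := h'.ca
    generalize (D k').q.kf = m at ca c2
    cases m with
    | sm tg =>
      cases tg with
      | opnR o =>
        obtain ⟨κ1, ph1, r1, a, b, -⟩ := ca
        obtain ⟨rfl, -, -⟩ : .eqd = κ1 ∧ ph' = ph1 ∧ r0 = r1 := by simpa using a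
        rw [← b]; rfl
      | dresp tr =>
        obtain ⟨κ1, r1, a, b, -⟩ := ca
        obtain ⟨rfl, -, -⟩ : .eqd = κ1 ∧ ph' = .A ∧ r0 = r1 := by simpa using a
        simp [Kind.wop] at b
      | _ => simp [KF.clsR] at c2
    | fu pt p =>
      cases pt with
      | respR =>
        obtain ⟨κ1, r1, a, b, -⟩ := ca
        obtain ⟨rfl, -, -⟩ : .eqd = κ1 ∧ ph' = .A ∧ r0 = r1 := by simpa using a
        simp [Kind.trk] at b
      | _ => simp [KF.clsR] at c2
    | _ => simp [KF.clsR] at c2
  have pl' : sCplain (D k').q.kf := by rw [eD]; simp [sCplain]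
  have l1 : (Ul N C k).length = N := sC_len_full fun j hj => by
    rw [sC_vu_plain pl]
    by_cases hj' : j = k
    · rw [hj']; exact hu
    · exact h.uF (by rw [e]; trivial) j (by omega)
  have l2 : (Tl N D k' .b).length = N := sC_Tl_full pl' (h'.hol .b (by rw [eD]; simp [KF.opent]))
  have l3 : Tl N D k' .d = [] := List.length_eq_zero_iff.1 (by have := hp.2; omega)
  have l4 : Ul N C k = Tl N C k .d := sC_fm_congr fun j hj => by
    rw [sC_vu_plain pl, sC_vt_plain pl]
    by_cases hj' : j = k
    · rw [hj']; exact hd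
    · exact h.uQ e j (by omega)
  refine ⟨by simpa [phi, e, phiq, unext, QL] using hq, ?_⟩
  simp [phi, e, eD, KF.opent, l3, l4]

theorem sG_n (h : CV N C k t c) {j : ℕ} (hj : j < N) : (C j).n < N := by
  by_cases e : j = t
  · subst e; rcases h.tK with a | a <;> omega
  · rw [h.n0 j hj e]; omega

theorem sG_demand (h : CV N C k t c) {j : ℕ} (hj : j < N) {β : Bool} (hd : demand (C j).q β) :
    (C j).n = if β then N - 1 else 0 := by
  by_cases e : j = t
  · subst e
    have f := h.first j hj
    have l := h.last j hj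
    rcases h.tK with a | a
    · rcases hd with ⟨b | b | b, rfl⟩ | ⟨-, -, b, rfl⟩
      · simp [a.1] at b
      · simp [a.1] at b
      · rw [f] at b
        have : j = 0 := by simpa using b.2
        rw [a.2, this]; rfl
      · rw [l] at b
        have : j + 1 = N := by simpa using b
        simp only [a.2, if_true]; omega
    · rcases hd with ⟨b | b | b, rfl⟩ | ⟨b, -⟩ <;> simp [a.1] at b
  · rcases hd with ⟨-, rfl⟩ | ⟨b, -⟩
    · simp [h.n0 j hj e]
    · rcases lt_or_gt_of_ne e with a | a
      · simp [h.tR j a] at b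
      · simp [h.tL j hj a] at b

theorem sG_phiq_free (m : KF Pay) (q : Reg) : phiq m (.free q) = q := by
  cases m with
  | sm tg => cases tg <;> rfl
  | fu pt p => cases pt <;> rfl
  | _ => rfl

theorem sG_ZA (h : CV N C k t c) {j : ℕ} (hj : j < N) (hz : ZA (C j).q.era (C j).oc)
    (U : List Bool) : Zero1 (2 ^ N) (phi N U C k c) := by
  rcases hz with ⟨a, b⟩ | ⟨a, b, e⟩
  · rw [RegG.era_first, h.first j hj] at a
    obtain rfl : j = 0 := by simpa using a
    rcases b c h.oc0 with b | ⟨q, rfl, b⟩
    · exfalso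
      apply b
      rw [RegG.era_kf, compatA_era]
      by_cases e : k = 0
      · subst e; exact h.ca
      · rw [h.kR 0 (by omega)]; trivial
    · exact Or.inl (by simpa [phi, sG_phiq_free] using b)
  · rw [RegG.era_first, h.first j hj] at a
    rw [RegG.era_last, h.last j hj] at b
    simp only [decide_eq_false_iff_not] at a b
    exact absurd (h.ocm j (by omega) (by omega)) e

theorem sG_relay (h : CV N C k t c) {j : ℕ} (hj : j + 1 = N) {p : Pay}
    (e : (C j).q.kf = .fu (.tr .A .chk) p) (hz : ∀ α, p = .era α → ZA α (C j).oc)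
    (U : List Bool) : Zero1 (2 ^ N) (phi N U C k c) := by
  obtain rfl : k = j := h.sC_pos (by omega) (by rw [e]; trivial)
  obtain ⟨ro, q, rfl, hs⟩ : compatA (P := Pay) (.fu (.tr .A .chk) p) c := e ▸ h.ca
  have e1 : (phi N U C k (.LA1 .chk ro q)).q = merge .A .chk ro q p := by simp [phi, e, phiq]
  have e2 : (phi N U C k (.LA1 .chk ro q)).oc = (C k).oc := by
    simp only [phi]; congr 2; omega
  unfold Zero1
  rw [e1, e2]
  cases ro with
  | relay => exact Or.inr (Or.inr (Or.inr (Or.inr (Or.inr ⟨hs, p, rfl, hz⟩))))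
  | home =>
    simp only [merge]
    split_ifs with hp
    · exact Or.inr (Or.inr (Or.inr (Or.inr (Or.inl (hz _ hp)))))
    · exact Or.inl fun a => by simpa using a.doom

theorem sG_soundZ1 (hN : 2 ≤ N) (h : CV N C k t c) {j : ℕ} (hj : j < N) (hz : Zero1 N (C j)) :
    (∀ U, Zero1 (2 ^ N) (phi N U C k c)) ∨ ((C k).q.kf.clsL ≠ 0 ∧
      ∀ U D k' t' c', CV N D k' t' c' → PairV N C k c D k' c' →
        Zero2 (phi N U C k c) (phi N (Ul N C k) D k' c')) := by
  rcases hz with hz | hz | hz | ⟨β, a, b⟩ | hz | ⟨a, p, b, hz⟩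
  · by_cases ka : ∀ β, (C j).q.kf = .sm (.all β) → (C j).q.b ≠ some (!β)
    · by_cases ke : (C j).q.last = true → (C j).q.kf = .sm (.wrk .eq) → (C j).q.u ≠ none →
          (C j).q.u ≠ (C j).q.d
      · exact absurd (sG_uok hN h hj ka ke) hz
      · simp only [not_forall, not_not] at ke
        obtain ⟨a, b, e, e'⟩ := ke
        obtain rfl : k = j := h.sC_pos hj (by rw [b]; trivial)
        rw [h.last k hj] at a
        exact Or.inr ⟨by rw [b]; simp [KF.clsL], fun U D k' t' c' h' hp =>
          sG_ke h (by simpa using a) b e e' U h' hp⟩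
    · simp only [not_forall, not_not] at ka
      obtain ⟨β, a, b⟩ := ka
      obtain rfl : k = j := h.sC_pos hj (by rw [a]; trivial)
      exact Or.inl (sG_ka h a b)
  · exact absurd (h.alt j hj) (by omega)
  · exact absurd (sG_n h hj) (by omega)
  · exact absurd (sG_demand h hj a) b
  · exact Or.inl (sG_ZA h hj hz)
  · rw [h.last j hj] at a
    exact Or.inl (sG_relay h (by simpa using a) b hz)

theorem sG_cv_lift (hN : 2 ≤ N) {x : Ent} (hx : InR (2 ^ N) x) :
    CV N (lift N x) 0 0 (.free x.q) ∧ Ul N (lift N x) 0 = [] ∧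
      (∀ t, (Tl N (lift N x) 0 t).length = N) ∧ ∀ U, phi N U (lift N x) 0 (.free x.q) = x := by
  have pl : sCplain (lift N x 0).q.kf := by simp [lift, sCplain]
  have hol : ∀ tr : Trk, ∀ j < N, (lift N x j).q.lane tr.lane ≠ none := by
    intro tr j _; cases tr <;> simp [lift, Trk.lane]
  refine ⟨⟨by omega, by omega, fun j _ => ?_, fun j _ => rfl, fun j _ => rfl, by simp,
    fun j _ a => by simp [lift, a.ne'], by simp [lift, KF.isKey], by simp,
    fun j _ a => by simp [lift, a.ne'], Or.inl ⟨by simp [lift], rfl⟩, fun j _ _ => rfl,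
    fun j a => a, fun i _ j _ a => a, fun j a b => ?_, by simp [lift], ⟨x.q, rfl⟩, by simp,
    by simp, fun _ _ _ _ => rfl, fun _ _ _ _ _ _ _ => rfl, by simp, fun tr _ => hol tr, by simp⟩,
    sC_Ul_nil pl fun _ _ => rfl, fun tr => sC_Tl_full pl (hol tr), fun U => ?_⟩
  · have := hx.1
    have := hx.2
    simp only [lift, decide_eq_false_iff_not]; omega
  · have e1 : j ≠ 0 := by omega
    have e2 : j + 1 ≠ N := by omega
    simp [lift, e1, e2]
  · have e1 : N - 1 ≠ 0 := by omega
    have e2 : N - 1 + 1 = N := by omega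
    have t1 : Tl N (lift N x) 0 .d = (List.range N).map x.a.testBit := by
      rw [← List.filterMap_eq_map]
      exact sC_fm_congr fun j _ => by rw [sC_vt_plain pl]; rfl
    have t2 : Tl N (lift N x) 0 .b = (List.range N).map x.n.testBit := by
      rw [← List.filterMap_eq_map]
      exact sC_fm_congr fun j _ => by rw [sC_vt_plain pl]; rfl
    have o1 : (lift N x 0).q.kf.opent = none := by simp [lift, KF.opent]
    have o2 : (lift N x (N - 1)).oc = x.oc := by simp [lift, e1, e2]
    simp only [phi, sG_phiq_free, o1, o2, t1, t2, reduceCtorEq, if_false, List.nil_append,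
      bval_testBit N _ hx.1, bval_testBit N _ hx.2]

theorem sG_congr {C' : Wd} (h : CV N C k t c) (e : ∀ j < N, C' j = C j) :
    CV N C' k t c ∧ Ul N C' k = Ul N C k ∧ (∀ tr, Tl N C' k tr = Tl N C k tr) ∧
      ∀ U, phi N U C' k c = phi N U C k c := by
  have hk := h.hk
  have ht := h.ht
  have ek := e k hk
  have t1 : ∀ tr, Tl N C' k tr = Tl N C k tr := fun tr =>
    sC_fm_congr fun j hj => by simp only [vt, ek, e j hj]
  refine ⟨⟨hk, ht, fun j a => by rw [e j a]; exact h.doom j a,
    fun j a => by rw [e j a]; exact h.first j a, fun j a => by rw [e j a]; exact h.last j a,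
    fun j a => by rw [e j (by omega)]; exact h.kR j a,
    fun j a b => by rw [e j a]; exact h.kL j a b, by rw [ek]; exact h.kK,
    fun j a => by rw [e j (by omega)]; exact h.tR j a,
    fun j a b => by rw [e j a]; exact h.tL j a b, by rw [e t ht]; exact h.tK,
    fun j a b => by rw [e j a]; exact h.n0 j a b, fun j a => by rw [e j a]; exact h.alt j a,
    fun i a j b => by rw [e i a, e j b]; exact h.ainj i a j b,
    fun j a b => by rw [e j (by omega)]; exact h.ocm j a b,
    by rw [e 0 (by omega)]; exact h.oc0, by rw [ek]; exact h.ca,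
    fun a j b => by rw [e j (by omega)]; exact h.uF (ek ▸ a) j b,
    fun a j b => by rw [e j (by omega)]; exact h.uE (ek ▸ a) j b,
    fun a a' j b => by rw [e j b]; exact h.uO (ek ▸ a) (ek ▸ a') j b,
    fun κ ph q a a' j b => by rw [e j b]; exact h.uS κ ph q a a' j b,
    fun a j b => by rw [e j (by omega)]; exact h.uQ (ek ▸ a) j b,
    fun tr a j b => by rw [e j b]; exact h.hol tr (ek ▸ a) j b,
    fun a j b => by rw [e j (by omega)]; exact h.bC (ek ▸ a) j b⟩,
    sC_fm_congr fun j hj => by simp only [vu, ek, e j hj], t1, fun U => ?_⟩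
  simp only [phi, ek, t1, e (N - 1) (by omega)]

end Vale.Agent.P192
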