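import Vale.Agent.P192.SoundA
import Vale.Agent.P192.SoundB
import Vale.Agent.P192.SoundC
import Vale.Agent.P192.SoundGAux

/-! Soundness of zero conditions, the standard cell, and global soundness. -/

namespace Vale.Agent.P192

variable {N : ℕ}

theorem soundZ1 (hN : 2 ≤ N) {C : Wd} {k t : ℕ} {c : Core} (h : CV N C k t c) {j : ℕ}
    (hj : j < N) (hz : Zero1 N (C j)) :
    (∀ U, Zero1 (2 ^ N) (phi N U C k c)) ∨ ((C k).q.kf.clsL ≠ 0 ∧
      ∀ U D k' t' c', CV N D k' t' c' → PairV N C k c D k' c' →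
        Zero2 (phi N U C k c) (phi N (Ul N C k) D k' c')) :=
  sG_soundZ1 hN h hj hz

theorem cv_lift (hN : 2 ≤ N) {x : Ent} (hx : InR (2 ^ N) x) :
    CV N (lift N x) 0 0 (.free x.q) ∧ Ul N (lift N x) 0 = [] ∧
      (∀ t, (Tl N (lift N x) 0 t).length = N) ∧ ∀ U, phi N U (lift N x) 0 (.free x.q) = x :=
  sG_cv_lift hN hx

/-- Validity and decoding only depend on the positions `j < N` of a cell. -/
theorem CV.congr {C C' : Wd} {k t : ℕ} {c : Core} (h : CV N C k t c) (e : ∀ j < N, C' j = C j) :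
    CV N C' k t c ∧ Ul N C' k = Ul N C k ∧ (∀ tr, Tl N C' k tr = Tl N C k tr) ∧
      ∀ U, phi N U C' k c = phi N U C k c :=
  sG_congr h e

/-- The cell is valid with its own key position and core. -/
def sGcv (N : ℕ) (C : Wd) : Prop := ∃ t, CV N C (kpos C) t (cor C)

/-- The pair condition with the cells' own key positions and cores. -/
def sGpv (N : ℕ) (C D : Wd) : Prop := PairV N C (kpos C) (cor C) D (kpos D) (cor D)

/-- What the left neighbour sees of a change of a cell. -/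
structure sGL (N : ℕ) (C C' : Wd) : Prop where
  cR : (keyOf C').clsR = (keyOf C).clsR
  pv : ∀ m c0, PV m c0 (keyOf C) (cor C) → PV m c0 (keyOf C') (cor C')
  len : ∀ tr, (Tl N C' (kpos C') tr).length = (Tl N C (kpos C) tr).length

/-- What the right neighbour sees of a change of a cell. -/
structure sGR (N : ℕ) (C C' : Wd) : Prop where
  cL : (keyOf C').clsL = (keyOf C).clsL
  pv : ∀ m c0, PV (keyOf C) (cor C) m c0 → PV (keyOf C') (cor C') m c0
  ul : Ul N C' (kpos C') = Ul N C (kpos C)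

theorem sG_of_cv {C C' : Wd} {k t : ℕ} {c : Core} (h : CV N C k t c) (e : ∀ j < N, C' j = C j) :
    sGcv N C' ∧ kpos C' = k ∧ cor C' = c ∧ C' k = C k ∧ Ul N C' k = Ul N C k ∧
      (∀ tr, Tl N C' k tr = Tl N C k tr) ∧ ∀ U, phi N U C' k c = phi N U C k c := by
  obtain ⟨a, b⟩ := h.congr e
  exact ⟨⟨t, by rw [a.kpos_eq, a.cor_eq]; exact a⟩, a.kpos_eq, a.cor_eq, e k h.hk, b⟩

theorem sG_same {C C' : Wd} (h : sGcv N C) (e : ∀ j < N, C' j = C j) :
    sGcv N C' ∧ sGL N C C' ∧ sGR N C C' ∧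
      ∀ U, phi N U C' (kpos C') (cor C') = phi N U C (kpos C) (cor C) := by
  obtain ⟨t, h⟩ := h
  obtain ⟨a, b, c, d, e1, e2, e3⟩ := sG_of_cv h e
  have k : keyOf C' = keyOf C := by rw [keyOf, b, d]; rfl
  refine ⟨a, ⟨by rw [k], by rw [k, c]; exact fun _ _ a => a, by rw [b]; simp [e2]⟩,
    ⟨by rw [k], by rw [k, c]; exact fun _ _ a => a, by rw [b, e1]⟩, by rw [b, c]; exact e3⟩

theorem sG_pv {C C' D D' : Wd} (h : sGpv N C D) (a : sGR N C C') (b : sGL N D D') :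
    sGpv N C' D' :=
  ⟨b.pv _ _ (a.pv _ _ h.1), by rw [a.ul, b.len, b.len]; exact h.2⟩

theorem sG_indep {C : Wd} (h : (keyOf C).clsR = 0) (U U' : List Bool) :
    phi N U C (kpos C) (cor C) = phi N U' C (kpos C) (cor C) := by
  have := KF.opent_of_clsR _ h
  unfold keyOf at this
  simp [phi, this]

/-- Changing the cells `i ≤ i' ≤ i2` of a valid region. -/
theorem sG_build {o o' i0 i1 i i2 : ℕ} {f g : Wd} (h : Valid N o i0 i1 f) (h0 : i0 ≤ i)
    (h1 : i ≤ i2) (h2 : i2 < i1)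
    (e : ∀ i', i0 ≤ i' → i' < i1 → (i' < i ∨ i2 < i') → ∀ j < N,
      cell N o' g i' j = cell N o f i' j)
    (cv : ∀ i', i ≤ i' → i' ≤ i2 → sGcv N (cell N o' g i'))
    (pv : ∀ i', i ≤ i' → i' + 1 ≤ i2 → sGpv N (cell N o' g i') (cell N o' g (i' + 1)))
    (hL : sGL N (cell N o f i) (cell N o' g i)) (hR : sGR N (cell N o f i2) (cell N o' g i2)) :
    Valid N o' i0 i1 g ∧
      (∀ i', i0 ≤ i' → i' < i1 → (i' < i ∨ i2 < i') → Phi N o' g i' = Phi N o f i') ∧
      Phi N o' g i = phi N (Ul N (cell N o f (i - 1)) (kpos (cell N o f (i - 1)))) (cell N o' g i)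
        (kpos (cell N o' g i)) (cor (cell N o' g i)) := by
  have s := fun i' a b c => sG_same (h.cv i' a b) (e i' a b c)
  have sL : ∀ i', i0 ≤ i' → i' < i1 → (i' ≤ i ∨ i2 < i') →
      sGL N (cell N o f i') (cell N o' g i') := by
    intro i' a b c
    by_cases d : i' = i
    · rw [d]; exact hL
    · exact (s i' a b (by omega)).2.1
  have sR : ∀ i', i0 ≤ i' → i' < i1 → (i' < i ∨ i2 ≤ i') →
      sGR N (cell N o f i') (cell N o' g i') := by
    intro i' a b c
    by_cases d : i' = i2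
    · rw [d]; exact hR
    · exact (s i' a b (by omega)).2.2.1
  have ql : (keyOf (cell N o' g i0)).clsR = 0 := by
    rw [(sL i0 le_rfl (by omega) (by omega)).cR, h.ql]
  have key : ∀ i', i0 ≤ i' → i' < i1 → (i' ≤ i ∨ i2 < i') → Phi N o' g i' =
      phi N (Ul N (cell N o f (i' - 1)) (kpos (cell N o f (i' - 1)))) (cell N o' g i')
        (kpos (cell N o' g i')) (cor (cell N o' g i')) := by
    intro i' a b c
    by_cases d : i' = i0
    · rw [d]; exact sG_indep ql _ _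
    · rw [← (sR (i' - 1) (by omega) (by omega) (by omega)).ul]; rfl
  refine ⟨⟨fun i' a b => ?_, fun i' a b => ?_, ql, ?_⟩, fun i' a b c => ?_,
    key i h0 (by omega) (Or.inl le_rfl)⟩
  · by_cases d : i' < i ∨ i2 < i'
    · exact (s i' a b d).1
    · exact cv i' (by omega) (by omega)
  · by_cases d : i ≤ i' ∧ i' + 1 ≤ i2
    · exact pv i' d.1 d.2
    · exact sG_pv (h.pv i' a b) (sR i' a (by omega) (by omega))
        (sL (i' + 1) (by omega) b (by omega))
  · rw [(sR (i1 - 1) (by omega) (by omega) (by omega)).cL, h.qr]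
  · rw [key i' a b (by omega), (s i' a b c).2.2.2]; rfl

theorem sG_pos_lt {o i i1 j : ℕ} (hi : i < i1) (hj : j < N) : o + N * i + j < o + N * i1 := by
  have : N * (i + 1) ≤ N * i1 := Nat.mul_le_mul_left _ hi
  rw [Nat.mul_add] at this
  omega

theorem sG_pos_ge {o i i0 : ℕ} (hi : i0 ≤ i) (j : ℕ) : o + N * i0 ≤ o + N * i + j := by
  have : N * i0 ≤ N * i := Nat.mul_le_mul_left _ hi
  omega

theorem sG_pos_ne {o i i' j j' : ℕ} (hi : i' ≠ i) (hj : j < N) (hj' : j' < N) :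
    o + N * i' + j' ≠ o + N * i + j := by
  rcases lt_or_gt_of_ne hi with a | a
  · have := sG_pos_lt (o := o) a hj'; omega
  · have := sG_pos_lt (o := o) a hj; omega

theorem sG_pos_dec {o i0 i1 p : ℕ} (hN : 0 < N) (h0 : o + N * i0 ≤ p) (h1 : p < o + N * i1) :
    ∃ i j, i0 ≤ i ∧ i < i1 ∧ j < N ∧ p = o + N * i + j := by
  refine ⟨(p - o) / N, (p - o) % N, ?_, ?_, Nat.mod_lt _ hN, ?_⟩
  · rw [Nat.le_div_iff_mul_le hN, Nat.mul_comm]; omega
  · rw [Nat.div_lt_iff_lt_mul hN, Nat.mul_comm]; omega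
  · have := Nat.div_add_mod (p - o) N; omega

theorem Valid.congr {o i0 i1 : ℕ} {f g : Wd} (hi : i0 < i1) (h : Valid N o i0 i1 f)
    (e : Agree (o + N * i0) (o + N * i1) f g) :
    Valid N o i0 i1 g ∧ Agree i0 i1 (Phi N o f) (Phi N o g) := by
  have e' : ∀ i', i0 ≤ i' → i' < i1 → ∀ j < N, cell N o g i' j = cell N o f i' j :=
    fun i' a b j hj => (e _ (sG_pos_ge a j) (sG_pos_lt b hj)).symm
  have s := sG_same (h.cv i0 le_rfl hi) (e' i0 le_rfl hi)
  obtain ⟨a, b, c⟩ := sG_build (g := g) h le_rfl le_rfl hi (fun i' a b _ => e' i' a b)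
    (fun i' a b => by rw [show i' = i0 by omega]; exact s.1) (fun i' a b => by omega) s.2.1 s.2.2.1
  refine ⟨a, fun i' x y => ?_⟩
  by_cases d : i' = i0
  · rw [d, c, s.2.2.2]; rfl
  · exact (b i' x y (by omega)).symm

theorem valid_liftW (hN : 2 ≤ N) {o i0 i1 : ℕ} (hi : i0 < i1) {V : Wd}
    (hV : ∀ i, i0 ≤ i → i < i1 → InR (2 ^ N) (V i)) :
    Valid N o i0 i1 (liftW N o V) ∧ Agree i0 i1 (Phi N o (liftW N o V)) V := by
  have e : ∀ i, ∀ j < N, cell N o (liftW N o V) i j = lift N (V i) j := by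
    intro i j hj
    have e1 : o + N * i + j - o = j + N * i := by omega
    simp only [cell, liftW, e1]
    rw [Nat.add_mul_div_left _ _ (by omega), Nat.add_mul_mod_self_left, Nat.div_eq_of_lt hj,
      Nat.mod_eq_of_lt hj, Nat.zero_add]
  have s := fun i a b => sG_of_cv (cv_lift hN (hV i a b)).1 (e i)
  have k : ∀ i, i0 ≤ i → i < i1 → keyOf (cell N o (liftW N o V) i) = .sm .idle := by
    intro i a b
    rw [keyOf, (s i a b).2.1, e i 0 (by omega)]
    simp [lift]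
  refine ⟨⟨fun i a b => (s i a b).1, fun i a b => ⟨Or.inl ⟨?_, ?_⟩, ?_⟩, ?_, ?_⟩, fun i a b => ?_⟩
  · have := k i a (by omega); unfold keyOf at this; rw [this]; rfl
  · have := k (i + 1) (by omega) b; unfold keyOf at this; rw [this]; rfl
  · obtain ⟨-, a1, -, -, a2, -⟩ := s i a (by omega)
    obtain ⟨-, b1, -, -, -, b2, -⟩ := s (i + 1) (by omega) b
    have c1 := (cv_lift hN (hV i a (by omega))).2.1
    have c2 := (cv_lift hN (hV (i + 1) (by omega) b)).2.2.1
    rw [a1, b1, a2, b2, b2, c1, c2, c2]; simp; omega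
  · rw [k i0 le_rfl hi]; rfl
  · rw [k (i1 - 1) (by omega) (by omega)]; rfl
  · obtain ⟨-, a1, a2, -, -, -, a3⟩ := s i a b
    simp only [Phi]
    rw [a1, a2, a3, (cv_lift hN (hV i a b)).2.2.2]

theorem sG_sim1 {X : Type} {S : Sys X} {i0 i1 i : ℕ} {F G : ℕ → X} (h0 : i0 ≤ i) (h1 : i < i1)
    (e : ∀ i', i0 ≤ i' → i' < i1 → i' ≠ i → G i' = F i')
    (h : G i = F i ∨ S.s1 (F i) (G i) ∨ S.s1 (G i) (F i)) : S.Sim i0 i1 F G := by
  have ag : Agree i0 i1 (Function.update F i (G i)) G := by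
    intro i' a b
    by_cases d : i' = i
    · simp [d]
    · simp [d, e i' a b d]
  rcases h with h | h | h
  · refine Sys.Sim.of_agree fun i' a b => ?_
    by_cases d : i' = i
    · rw [d, h]
    · rw [e i' a b d]
  · exact ⟨_, (Sys.step1 h0 h1 h).eqv, ag⟩
  · exact ⟨_, (Sys.step1' h0 h1 h).eqv.symm, ag⟩

theorem sG_sim2 {X : Type} {S : Sys X} {i0 i1 i : ℕ} {F G : ℕ → X} (h0 : i0 ≤ i) (h1 : i + 1 < i1)
    (e : ∀ i', i0 ≤ i' → i' < i1 → i' ≠ i → i' ≠ i + 1 → G i' = F i')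
    (h : (G i = F i ∧ G (i + 1) = F (i + 1)) ∨ S.s2 (F i) (F (i + 1)) (G i) (G (i + 1)) ∨
      S.s2 (G i) (G (i + 1)) (F i) (F (i + 1))) : S.Sim i0 i1 F G := by
  have ag : Agree i0 i1 (Function.update (Function.update F i (G i)) (i + 1) (G (i + 1))) G := by
    intro i' a b
    by_cases d : i' = i + 1
    · simp [d]
    · by_cases d' : i' = i
      · simp [d']
      · simp [d, d', e i' a b d' d]
  rcases h with h | h | h
  · refine Sys.Sim.of_agree fun i' a b => ?_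
    by_cases d : i' = i
    · rw [d, h.1]
    · by_cases d' : i' = i + 1
      · rw [d', h.2]
      · rw [e i' a b d d']
  · exact ⟨_, (Sys.step2 h0 h1 h).eqv, ag⟩
  · exact ⟨_, (Sys.step2' h0 h1 h).eqv.symm, ag⟩

theorem sG_doom {o i0 i1 i : ℕ} {f : Wd} (hz : ¬(sys (2 ^ N)).Zero i0 i1 (Phi N o f))
    (h0 : i0 ≤ i) (h1 : i < i1) :
    (phiq (cell N o f i (kpos (cell N o f i))).q.kf (cor (cell N o f i))).doom = false := by
  by_contra hd
  exact hz (Sys.zero1 h0 h1 (Or.inl fun a => hd a.doom))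

/-- A step inside one cell. -/
theorem sG_inner {o i0 i1 i : ℕ} {f g : Wd} (h : Valid N o i0 i1 f) (h0 : i0 ≤ i) (h1 : i < i1)
    (e : ∀ i', i' ≠ i → ∀ j < N, cell N o g i' j = cell N o f i' j) {C' : Wd}
    (e' : ∀ j < N, cell N o g i j = C' j) {k' t' : ℕ} {c' : Core} (cv : CV N C' k' t' c')
    (io : InOut N (cell N o f i) (kpos (cell N o f i)) (cor (cell N o f i)) C' k' c') :
    Valid N o i0 i1 g ∧ (sys (2 ^ N)).Sim i0 i1 (Phi N o f) (Phi N o g) := by
  obtain ⟨a1, a2, a3, a4, a5, a6, a7⟩ := sG_of_cv cv e'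
  have k : keyOf (cell N o g i) = (C' k').q.kf := by rw [keyOf, a2, a4]
  obtain ⟨a, b, c⟩ := sG_build (g := g) h h0 le_rfl h1 (fun i' _ _ d => e i' (by omega))
    (fun i' a b => by rw [show i' = i by omega]; exact a1) (fun i' a b => by omega)
    ⟨by rw [k]; exact io.cR, by rw [k, a3]; exact io.pvL, fun tr => by rw [a2, a6]; exact io.len tr⟩
    ⟨by rw [k]; exact io.cL, by rw [k, a3]; exact io.pvR, by rw [a2, a5]; exact io.ul⟩
  refine ⟨a, sG_sim1 h0 h1 (fun i' x y z => b i' x y (by omega)) ?_⟩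
  rw [c, a2, a3, a7]
  exact io.ph _

/-- A step across the boundary of two cells. -/
theorem sG_bd (hN : 2 ≤ N) {o i0 i1 i : ℕ} {f g : Wd} (h : Valid N o i0 i1 f)
    (hz : ¬(sys (2 ^ N)).Zero i0 i1 (Phi N o f)) (h0 : i0 ≤ i) (h1 : i + 1 < i1)
    (e : ∀ i', i' ≠ i → i' ≠ i + 1 → ∀ j < N, cell N o g i' j = cell N o f i' j) {x y : Ent}
    (e1 : ∀ j < N, cell N o g i j = Function.update (cell N o f i) (N - 1) x j)
    (e2 : ∀ j < N, cell N o g (i + 1) j = Function.update (cell N o f (i + 1)) 0 y j)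
    (hs : Step2 (cell N o f i (N - 1)) (cell N o f (i + 1) 0) x y ∨
      Step2 x y (cell N o f i (N - 1)) (cell N o f (i + 1) 0)) :
    Valid N o i0 i1 g ∧ (sys (2 ^ N)).Sim i0 i1 (Phi N o f) (Phi N o g) := by
  obtain ⟨t, cv⟩ := h.cv i h0 (by omega)
  obtain ⟨t', cv'⟩ := h.cv (i + 1) (by omega) h1
  obtain ⟨s1, s2, s3, s4, s5, s6, s7, s8, s9, s10⟩ := sound_bd hN cv cv' (h.pv i h0 h1)
    (sG_doom hz h0 (by omega)) (sG_doom hz (by omega) h1) hs rfl rfl
  obtain ⟨a1, a2, a3, a4, a5, a6, a7⟩ := sG_of_cv s1 e1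
  obtain ⟨b1, b2, b3, b4, b5, b6, b7⟩ := sG_of_cv s2 e2
  obtain ⟨a, b, c⟩ := sG_build (g := g) (i2 := i + 1) h h0 (by omega) h1
    (fun i' _ _ d => e i' (by omega) (by omega))
    (fun i' a b => by
      rcases (show i' = i ∨ i' = i + 1 by omega) with d | d
      · rw [d]; exact a1
      · rw [d]; exact b1)
    (fun i' a b => by
      rw [show i' = i by omega, sGpv, PairV, a2, a3, b2, b3, a4, b4, a5, b6, b6]; exact s3)
    ⟨by rw [keyOf, a2, a4]; exact s4, by rw [keyOf, keyOf, a2, a3, a4]; exact s6,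
      fun tr => by rw [a2, a6]; exact s8 tr⟩
    ⟨by rw [keyOf, b2, b4]; exact s5, by rw [keyOf, keyOf, b2, b3, b4]; exact s7,
      by rw [b2, b5]; exact s9⟩
  refine ⟨a, sG_sim2 h0 h1 (fun i' x y z w => b i' x y (by omega)) ?_⟩
  have c' : Phi N o g (i + 1) = phi N (Ul N (cell N o g i) (kpos (cell N o g i)))
    (cell N o g (i + 1)) (kpos (cell N o g (i + 1))) (cor (cell N o g (i + 1))) := rfl
  rw [c, c', a2, a3, b2, b3, a7, a5, b7]
  exact s10 _

theorem sound_step (hN : 2 ≤ N) {o i0 i1 : ℕ} (hi : i0 < i1) {f g : Wd} (h : Valid N o i0 i1 f)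
    (hz : ¬(sys (2 ^ N)).Zero i0 i1 (Phi N o f))
    (hs : (sys N).Step (o + N * i0) (o + N * i1) f g ∨
      (sys N).Step (o + N * i0) (o + N * i1) g f) :
    Valid N o i0 i1 g ∧ (sys (2 ^ N)).Sim i0 i1 (Phi N o f) (Phi N o g) := by
  have _ := hi
  have hs' : (∃ p, o + N * i0 ≤ p ∧ p < o + N * i1 ∧ (Step1 N (f p) (g p) ∨ Step1 N (g p) (f p)) ∧
      ∀ j, j ≠ p → g j = f j) ∨ ∃ p, o + N * i0 ≤ p ∧ p + 1 < o + N * i1 ∧
      (Step2 (f p) (f (p + 1)) (g p) (g (p + 1)) ∨ Step2 (g p) (g (p + 1)) (f p) (f (p + 1))) ∧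
      ∀ j, j ≠ p → j ≠ p + 1 → g j = f j := by
    rcases hs with (⟨p, a, b, c, d⟩ | ⟨p, a, b, c, d⟩) | (⟨p, a, b, c, d⟩ | ⟨p, a, b, c, d⟩)
    · exact Or.inl ⟨p, a, b, Or.inl c, d⟩
    · exact Or.inr ⟨p, a, b, Or.inl c, d⟩
    · exact Or.inl ⟨p, a, b, Or.inr c, fun j x => (d j x).symm⟩
    · exact Or.inr ⟨p, a, b, Or.inr c, fun j x y => (d j x y).symm⟩
  rcases hs' with ⟨p, a, b, c, d⟩ | ⟨p, a, b, c, d⟩
  · obtain ⟨i, j, h0, h1, hj, rfl⟩ := sG_pos_dec (by omega) a b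
    obtain ⟨t, cv⟩ := h.cv i h0 h1
    obtain ⟨k', t', c', cv', io⟩ := sound_in1 hN cv (sG_doom hz h0 h1) hj c
    refine sG_inner h h0 h1 (fun i' x j' y => d _ (sG_pos_ne x hj y)) (fun j' _ => ?_) cv' io
    by_cases x : j' = j
    · simp [x, cell]
    · rw [Function.update_of_ne x]; exact d _ (by omega)
  · obtain ⟨i, j, h0, h1, hj, rfl⟩ := sG_pos_dec (by omega) a (show p < o + N * i1 by omega)
    by_cases hj' : j + 1 < N
    · obtain ⟨t, cv⟩ := h.cv i h0 h1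
      obtain ⟨k', t', cv', io⟩ := sound_in2 cv hj' c
      refine sG_inner h h0 h1 (fun i' x j' y => d _ (sG_pos_ne x hj y) (sG_pos_ne x hj' y))
        (fun j' _ => ?_) cv' io
      by_cases x : j' = j + 1
      · simp [x, cell, Nat.add_assoc]
      · rw [Function.update_of_ne x]
        by_cases y : j' = j
        · simp [y, cell]
        · rw [Function.update_of_ne y]; exact d _ (by omega) (by omega)
    · obtain rfl : j = N - 1 := by omega
      have ep : o + N * i + (N - 1) + 1 = o + N * (i + 1) + 0 := by rw [Nat.mul_add]; omega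
      rw [ep] at b c d
      have h2 : i + 1 < i1 := by
        by_contra x
        have : N * i1 ≤ N * (i + 1) := Nat.mul_le_mul_left _ (by omega)
        omega
      refine sG_bd hN h hz h0 h2
        (fun i' x x' j' y => d _ (sG_pos_ne x hj y) (sG_pos_ne x' (by omega) y))
        (fun j' y => ?_) (fun j' y => ?_) c
      · by_cases x : j' = N - 1
        · simp [x, cell]
        · rw [Function.update_of_ne x]
          exact d _ (by omega) (sG_pos_ne (by omega) (by omega) y)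
      · by_cases x : j' = 0
        · simp [x, cell]
        · rw [Function.update_of_ne x]
          exact d _ (sG_pos_ne (by omega) hj y) (by omega)

theorem sound_pzero (hN : 2 ≤ N) {o i0 i1 : ℕ} (hi : i0 < i1) {f : Wd} (h : Valid N o i0 i1 f)
    (hz : (sys N).PZero (o + N * i0) (o + N * i1) f) : (sys (2 ^ N)).Zero i0 i1 (Phi N o f) := by
  have _ := hi
  rcases hz with ⟨p, a, b, c⟩ | ⟨p, a, b, c⟩
  · obtain ⟨i, j, h0, h1, hj, rfl⟩ := sG_pos_dec (by omega) a b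
    obtain ⟨t, cv⟩ := h.cv i h0 h1
    rcases soundZ1 hN cv hj c with z | ⟨z1, z2⟩
    · exact Sys.zero1 h0 h1 (z _)
    · have h2 : i + 1 < i1 := by
        by_contra x
        have := h.qr
        rw [show i1 - 1 = i by omega] at this
        exact z1 this
      obtain ⟨t', cv'⟩ := h.cv (i + 1) (by omega) h2
      exact Sys.zero2 h0 h2 (z2 _ _ _ _ _ cv' (h.pv i h0 h2))
  · obtain ⟨i, j, h0, h1, hj, rfl⟩ := sG_pos_dec (by omega) a (show p < o + N * i1 by omega)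
    obtain ⟨t, cv⟩ := h.cv i h0 h1
    have l : (cell N o f i j).q.last = false := c.1
    rw [cv.last j hj] at l
    have l' : j + 1 ≠ N := by simpa using l
    have := cv.ainj j hj (j + 1) (by omega) c.2
    omega

theorem sound_eqv (hN : 2 ≤ N) {o i0 i1 : ℕ} (hi : i0 < i1) {f g : Wd} (h : Valid N o i0 i1 f)
    (hz : ¬(sys (2 ^ N)).Zero i0 i1 (Phi N o f))
    (hs : (sys N).Sim (o + N * i0) (o + N * i1) f g) :
    Valid N o i0 i1 g ∧ (sys (2 ^ N)).Sim i0 i1 (Phi N o f) (Phi N o g) := by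
  obtain ⟨g', a, b⟩ := hs
  have q := (Sys.Eqv.induct
    (Q := fun g => Valid N o i0 i1 g ∧ (sys (2 ^ N)).Sim i0 i1 (Phi N o f) (Phi N o g))
    (fun g g' x y => by
      obtain ⟨u, v⟩ := sound_step hN hi x.1 (fun z => hz (Sys.Zero.of_sim x.2 z)) y
      exact ⟨u, x.2.trans v⟩) a).1 ⟨h, Sys.Sim.refl _⟩
  obtain ⟨u, v⟩ := q.1.congr hi b
  exact ⟨u, q.2.trans (Sys.Sim.of_agree v)⟩

theorem sound_nz (hN : 2 ≤ N) {o i0 i1 : ℕ} (hi : i0 < i1) {f : Wd} (h : Valid N o i0 i1 f)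
    (hz : ¬(sys (2 ^ N)).Zero i0 i1 (Phi N o f)) :
    ¬(sys N).Zero (o + N * i0) (o + N * i1) f := by
  rintro ⟨g, a, b⟩
  obtain ⟨u, v⟩ := sound_eqv hN hi h hz a.sim
  exact hz (Sys.Zero.of_sim v (sound_pzero hN hi u b))

end Vale.Agent.P192
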