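import Vale.Agent.P192.Move

/-! A split form of cell validity, shared by the soundness proofs inside a cell. -/

namespace Vale.Agent.P192

/-- The core forces an empty upper lane. -/
def skZ (c : Core) : Prop := ∃ κ ph q, c = .LS κ ph .L q ∧ κ.trk = none

/-- Conditions on every register of a cell with key `m`. -/
structure SkAll (m : KF Pay) (z : Prop) (q : Reg) : Prop where
  doom : q.doom = false
  uO : ¬m.isF → m ≠ .sm .opnL → q.u = none
  uS : z → q.u = none
  hol : ∀ tr : Trk, m.opent ≠ some tr → q.lane tr.lane ≠ none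

/-- Conditions on the registers to the left of the key `m`. -/
structure SkLeft (m : KF Pay) (q : Reg) : Prop where
  uF : m.isF → q.u ≠ none
  uE : m = .sm .opnL → q.u = none
  uQ : m = .sm (.wrk .eq) → q.u = q.d
  bC : (m = .sm .car ∨ m = .sm .ret) → q.b = some false

/-- Token and data part of validity. -/
structure SkT (N : ℕ) (C : Wd) (t : ℕ) : Prop where
  ht : t < N
  tR : ∀ j < t, (C j).q.tf = .R
  tL : ∀ j < N, t < j → (C j).q.tf = .L
  tK : ((C t).q.tf = .A ∧ (C t).n = t) ∨ ((C t).q.tf = .B ∧ (C t).n = t + 1 ∧ t + 1 < N)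
  n0 : ∀ j < N, j ≠ t → (C j).n = 0
  alt : ∀ j < N, (C j).a < N
  ainj : ∀ i < N, ∀ j < N, (C i).a = (C j).a → i = j

/-- Key part of validity. -/
structure SkK (N : ℕ) (C : Wd) (k : ℕ) (c : Core) (m : KF Pay) : Prop where
  hk : k < N
  km : (C k).q.kf = m
  kK : m.isKey
  first : ∀ j < N, (C j).q.first = decide (j = 0)
  last : ∀ j < N, (C j).q.last = decide (j + 1 = N)
  kR : ∀ j < k, (C j).q.kf = .R
  kL : ∀ j < N, k < j → (C j).q.kf = .L
  ocm : ∀ j, 0 < j → j + 1 < N → (C j).oc = none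
  oc0 : (C 0).oc = some c
  ca : compatA m c
  all : ∀ j < N, SkAll m (skZ c) (C j).q
  left : ∀ j < k, SkLeft m (C j).q

variable {N : ℕ} {C C' : Wd} {k k' t t' : ℕ} {c c' : Core} {m m' : KF Pay}

theorem CV.skT (h : CV N C k t c) : SkT N C t := ⟨h.ht, h.tR, h.tL, h.tK, h.n0, h.alt, h.ainj⟩

theorem CV.skK (h : CV N C k t c) : SkK N C k c (C k).q.kf :=
  ⟨h.hk, rfl, h.kK, h.first, h.last, h.kR, h.kL, h.ocm, h.oc0, h.ca,
    fun j hj => ⟨h.doom j hj, fun a b => h.uO a b j hj,
      fun ⟨κ, ph, q, e, e'⟩ => h.uS κ ph q e e' j hj, fun tr a => h.hol tr a j hj⟩,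
    fun j hj => ⟨fun a => h.uF a j hj, fun a => h.uE a j hj, fun a => h.uQ a j hj,
      fun a => h.bC a j hj⟩⟩

theorem sk_cv (h : SkK N C k c m) (h' : SkT N C t) : CV N C k t c := by
  obtain rfl := h.km
  exact ⟨h.hk, h'.ht, fun j hj => (h.all j hj).doom, h.first, h.last, h.kR, h.kL, h.kK, h'.tR,
    h'.tL, h'.tK, h'.n0, h'.alt, h'.ainj, h.ocm, h.oc0, h.ca,
    fun a j hj => (h.left j hj).uF a, fun a j hj => (h.left j hj).uE a,
    fun a b j hj => (h.all j hj).uO a b,
    fun κ ph q e e' j hj => (h.all j hj).uS ⟨κ, ph, q, e, e'⟩,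
    fun a j hj => (h.left j hj).uQ a, fun tr a j hj => (h.all j hj).hol tr a,
    fun a j hj => (h.left j hj).bC a⟩

theorem SkT.congr (h : SkT N C t)
    (e : ∀ j < N, (C' j).q.tf = (C j).q.tf ∧ (C' j).a = (C j).a ∧ (C' j).n = (C j).n) :
    SkT N C' t := by
  have ht := h.ht
  refine ⟨ht, fun j hj => ?_, fun j hj hj' => ?_, ?_, fun j hj hj' => ?_, fun j hj => ?_,
    fun i hi j hj => ?_⟩
  · rw [(e j (by omega)).1]; exact h.tR j hj
  · rw [(e j hj).1]; exact h.tL j hj hj'
  · rw [(e t ht).1, (e t ht).2.2]; exact h.tK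
  · rw [(e j hj).2.2]; exact h.n0 j hj hj'
  · rw [(e j hj).2.1]; exact h.alt j hj
  · rw [(e j hj).2.1, (e i hi).2.1]; exact h.ainj i hi j hj

/-- The position of a key field that is a key. -/
theorem SkK.eq_of_key (h : SkK N C k c m) {j : ℕ} (hj : j < N) (hK : (C j).q.kf.isKey) :
    j = k := by
  rcases lt_trichotomy j k with a | a | a
  · rw [h.kR j a] at hK; exact hK.elim
  · exact a
  · rw [h.kL j hj a] at hK; exact hK.elim

/-- The upper view of a register to the left of the key. -/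
def skU (m : KF Pay) (q : Reg) : Option Bool :=
  if m = .sm (.wrk (.sw .d)) then q.d else if m = .sm (.wrk (.sw .b)) then q.b else q.u

/-- The track view of a register to the left of the key. -/
def skV (m : KF Pay) (t : Trk) (q : Reg) : Option Bool :=
  if m = .sm (.wrk (.sw t)) then q.u else if m = .sm .car ∧ t = .b then some true
  else q.lane t.lane

theorem sk_vu (j : ℕ) : vu C k j = if j < k then skU (C k).q.kf (C j).q else (C j).q.u := by
  unfold vu skU; by_cases h : j < k <;> simp [h]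

theorem sk_vt (tr : Trk) (j : ℕ) :
    vt C k tr j = if j < k then skV (C k).q.kf tr (C j).q else (C j).q.lane tr.lane := by
  unfold vt skV; by_cases h : j < k <;> simp [h]

theorem sk_fm {v v' : ℕ → Option Bool} (h : ∀ j < N, v' j = v j) :
    (List.range N).filterMap v' = (List.range N).filterMap v :=
  List.filterMap_congr fun j hj => h j (List.mem_range.1 hj)

/-- Nothing visible changes. -/
theorem sk_inout (hm : (C' k').q.kf = (C k).q.kf) (hu : Ul N C' k' = Ul N C k)
    (ht : ∀ tr, Tl N C' k' tr = Tl N C k tr) (ho : (C' (N - 1)).oc = (C (N - 1)).oc) :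
    InOut N C k c C' k' c := by
  refine ⟨by rw [hm], by rw [hm], hu, fun _ _ h => by rwa [hm], fun _ _ h => by rwa [hm],
    fun tr => by rw [ht], fun U => Or.inl ?_⟩
  simp only [phi, hm, ht, ho]

/-- Registers agree except for the token field. -/
def skE (q q' : Reg) : Prop := q' = q.setT q'.tf

theorem skE_refl (q : Reg) : skE q q := rfl

theorem skE_setT (q : Reg) (t : TF) : skE q (q.setT t) := rfl

theorem skE_setT' (q : Reg) (t : TF) : skE (q.setT t) q := rfl

/-- Only token and data fields change. -/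
theorem sk_same (h : SkK N C k c m)
    (e : ∀ j < N, skE (C j).q (C' j).q ∧ (C' j).oc = (C j).oc) :
    SkK N C' k c m ∧ InOut N C k c C' k c := by
  have hk := h.hk
  have hm : (C' k).q.kf = (C k).q.kf := by rw [(e k hk).1]; rfl
  refine ⟨⟨hk, hm.trans h.km, h.kK, fun j hj => ?_, fun j hj => ?_, fun j hj => ?_,
    fun j hj hj' => ?_, fun j h0 hj => ?_, ?_, h.ca, fun j hj => ?_, fun j hj => ?_⟩,
    sk_inout hm (sk_fm fun j hj => ?_) (fun tr => sk_fm fun j hj => ?_) (e _ (by omega)).2⟩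
  · rw [(e j hj).1]; exact h.first j hj
  · rw [(e j hj).1]; exact h.last j hj
  · rw [(e j (by omega)).1]; exact h.kR j hj
  · rw [(e j hj).1]; exact h.kL j hj hj'
  · rw [(e j (by omega)).2]; exact h.ocm j h0 hj
  · rw [(e 0 (by omega)).2]; exact h.oc0
  · rw [(e j hj).1]
    obtain ⟨a, b, c, d⟩ := h.all j hj
    exact ⟨a, b, c, fun tr x => by simpa using d tr x⟩
  · rw [(e j (by omega)).1]
    obtain ⟨a, b, c, d⟩ := h.left j hj
    exact ⟨a, b, c, d⟩
  · rw [sk_vu, sk_vu, hm, (e j hj).1]; rfl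
  · rw [sk_vt, sk_vt, hm, (e j hj).1]; simp [skV]

/-- The source register of a key move. -/
theorem sk_src (tg : Tag) (q : Reg) (z : Prop) :
    (SkAll (.sm tg) z (src tg q) ↔ SkAll (.sm tg) z q ∧ SkLeft (.sm tg) q) ∧
      ((src tg q).doom = false → (src tg q).kf = .sm tg ∧ (src tg q).tf = q.tf ∧
        (src tg q).u = skU (.sm tg) q ∧ ∀ tr : Trk, (src tg q).lane tr.lane = skV (.sm tg) tr q) := by
  have A : ∀ (m : KF Pay) (z : Prop) (q : Reg), SkAll m z q ↔ q.doom = false ∧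
      (¬m.isF → m ≠ .sm .opnL → q.u = none) ∧ (z → q.u = none) ∧
      (m.opent ≠ some .d → q.d ≠ none) ∧ (m.opent ≠ some .b → q.b ≠ none) := fun m z q =>
    ⟨fun h => ⟨h.1, h.2, h.3, h.4 .d, h.4 .b⟩, fun h => ⟨h.1, h.2.1, h.2.2.1, fun tr => by
      cases tr
      · exact h.2.2.2.1
      · exact h.2.2.2.2⟩⟩
  have L : ∀ (m : KF Pay) (q : Reg), SkLeft m q ↔ (m.isF → q.u ≠ none) ∧
      (m = .sm .opnL → q.u = none) ∧ (m = .sm (.wrk .eq) → q.u = q.d) ∧
      ((m = .sm .car ∨ m = .sm .ret) → q.b = some false) := fun m q =>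
    ⟨fun h => ⟨h.1, h.2, h.3, h.4⟩, fun h => ⟨h.1, h.2.1, h.2.2.1, h.2.2.2⟩⟩
  have T : ∀ P : Trk → Prop, (∀ tr, P tr) ↔ P .d ∧ P .b := fun P =>
    ⟨fun h => ⟨h _, h _⟩, fun h tr => by cases tr; exacts [h.1, h.2]⟩
  rw [A, A, L, T]
  rcases tg with _ | _ | _ | _ | _ | _ | _ | _ | (⟨_ | _⟩ | _) | _ | _ | _ | _ | _ <;>
    simp only [src] <;> (try split_ifs) <;>
    simp_all [KF.isF, KF.opent, skU, skV, Trk.lane, RegG.swapU, RegG.dm, RegG.setL, RegG.key,
      RegG.lane] <;> tauto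

end Vale.Agent.P192
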