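import Mathlib

/-! P192, part II: definitions for the Steinberg group argument. -/

namespace Vale.Agent.P192

open Matrix
open scoped commutatorElement

/-- A finite homogeneous binomial presentation of a ring of characteristic two. -/
structure Pres (X R : Type) [Ring R] where
  gen : X → R
  E : Set (List X × List X)
  Z : Set (List X)
  finE : E.Finite
  finZ : Z.Finite
  lenE : ∀ p ∈ E, p.1.length = p.2.length
  neZ : ∀ u ∈ Z, u ≠ []
  two : (2 : R) = 0
  hE : ∀ p ∈ E, (p.1.map gen).prod = (p.2.map gen).prod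
  hZ : ∀ u ∈ Z, (u.map gen).prod = 0
  univ : ∀ (S : Type) [Ring S] (φ : X → S), (2 : S) = 0 →
    (∀ p ∈ E, (p.1.map φ).prod = (p.2.map φ).prod) → (∀ u ∈ Z, (u.map φ).prod = 0) →
    ∃ f : R →+* S, ∀ x, f (gen x) = φ x
  ind : ∀ Q : R → Prop, Q 0 → Q 1 → (∀ x, Q (gen x)) → (∀ a b, Q a → Q b → Q (a + b)) →
    (∀ a b, Q a → Q b → Q (a * b)) → ∀ a, Q a

/-- An augmentation to `ZMod 2` all of whose matrix rings over the kernel are nil. -/
structure Loc (R : Type) [Ring R] where
  ε : R →+* ZMod 2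
  two : (2 : R) = 0
  nil : ∀ (ι : Type) [Fintype ι] [DecidableEq ι] (M : Matrix ι ι R),
    (∀ i j, ε (M i j) = 0) → IsNilpotent M

/-- The Steinberg relations. -/
structure IsSt {ι R G : Type} [Ring R] [Group G] (x : ι → ι → R → G) : Prop where
  add : ∀ i j, i ≠ j → ∀ a b, x i j (a + b) = x i j a * x i j b
  comm : ∀ i j k l, i ≠ j → k ≠ l → j ≠ k → i ≠ l → ∀ a b, Commute (x i j a) (x k l b)
  mul : ∀ i j k, i ≠ j → j ≠ k → i ≠ k → ∀ a b, ⁅x i j a, x j k b⁆ = x i k (a * b)

section
variable {ι R G : Type} [Ring R] [Group G]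

/-- The subgroup generated by all root elements. -/
def allX (x : ι → ι → R → G) : Subgroup G :=
  Subgroup.closure {g | ∃ i j r, i ≠ j ∧ g = x i j r}

/-- The relative subgroup. -/
def relN (ε : R →+* ZMod 2) (x : ι → ι → R → G) : Subgroup G :=
  Subgroup.closure {g | ∃ h ∈ allX x, ∃ i j a, i ≠ j ∧ ε a = 0 ∧ g = h * x i j a * h⁻¹}

/-- Relative upper unipotent subgroup. -/
def Uup (rk : ι → ℕ) (ε : R →+* ZMod 2) (x : ι → ι → R → G) : Subgroup G :=
  Subgroup.closure {g | ∃ i j a, rk i < rk j ∧ ε a = 0 ∧ g = x i j a}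

/-- Relative lower unipotent subgroup. -/
def Ulo (rk : ι → ℕ) (ε : R →+* ZMod 2) (x : ι → ι → R → G) : Subgroup G :=
  Subgroup.closure {g | ∃ i j a, rk j < rk i ∧ ε a = 0 ∧ g = x i j a}

/-- Dennis-Stein element (characteristic two), `u = 1 + a * b`. -/
def dsT (x : ι → ι → R → G) (i j : ι) (a b : R) (u : Rˣ) : G :=
  x j i (b * ↑u⁻¹) * x i j a * x j i b * x i j (↑u⁻¹ * a)

/-- Pairs (element of the torus part, its diagonal). -/
def HD [DecidableEq ι] (ε : R →+* ZMod 2) (x : ι → ι → R → G) : Subgroup (G × (ι → Rˣ)) :=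
  Subgroup.closure {z | ∃ (i j : ι) (a b : R) (u v : Rˣ), i ≠ j ∧ (ε a = 0 ∨ ε b = 0) ∧
    (u : R) = 1 + a * b ∧ (v : R) = 1 + b * a ∧
    z = (dsT x i j a b u, Function.update (Function.update (1 : ι → Rˣ) i u) j v⁻¹)}

end

section
variable {ι R : Type} [Fintype ι] [DecidableEq ι] [Ring R]

/-- Elementary matrix as a unit. -/
def el (i j : ι) (r : R) : (Matrix ι ι R)ˣ :=
  if h : i = j then 1 else
    ⟨1 + single i j r, 1 - single i j r, by
      have : single i j r * single i j r = (0 : Matrix ι ι R) :=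
        single_mul_single_of_ne _ _ _ _ (Ne.symm h) _
      rw [mul_sub, add_mul, add_mul, this]; simp, by
      have : single i j r * single i j r = (0 : Matrix ι ι R) :=
        single_mul_single_of_ne _ _ _ _ (Ne.symm h) _
      rw [mul_add, sub_mul, sub_mul, this]; simp⟩

theorem el_val {i j : ι} (h : i ≠ j) (r : R) :
    ((el i j r : (Matrix ι ι R)ˣ) : Matrix ι ι R) = 1 + single i j r := by
  simp [el, h]

/-- Diagonal matrix as a unit. -/
def diagU : (ι → Rˣ) →* (Matrix ι ι R)ˣ where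
  toFun d := ⟨diagonal fun i => (d i : R), diagonal fun i => ((d i)⁻¹ : Rˣ), by
    simp [diagonal_mul_diagonal], by simp [diagonal_mul_diagonal]⟩
  map_one' := by ext i j; simp
  map_mul' d e := Units.ext (by simp [diagonal_mul_diagonal])

theorem diagU_val (d : ι → Rˣ) :
    ((diagU d : (Matrix ι ι R)ˣ) : Matrix ι ι R) = diagonal fun i => (d i : R) := rfl

/-- The relative elementary group. -/
def Gam (L : Loc R) (ι : Type) [Fintype ι] [DecidableEq ι] : Subgroup (Matrix ι ι R)ˣ :=
  relN L.ε (el (ι := ι) (R := R))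

/-- Congruent to the identity modulo the augmentation ideal. -/
def Cong (L : Loc R) (M : Matrix ι ι R) : Prop := ∀ i j, L.ε ((M - 1) i j) = 0

/-- The inclusion matrix of an embedding. -/
def incM (R : Type) [Ring R] {κ : Type} (e : κ ↪ ι) : Matrix ι κ R := fun i k => if i = e k then 1 else 0

theorem incM_mul {κ : Type} [Fintype κ] [DecidableEq κ] (e : κ ↪ ι) :
    (incM R e)ᵀ * incM R e = 1 := by
  ext k l
  simp only [mul_apply, transpose_apply, incM, one_apply]
  rw [Finset.sum_eq_single (e k)]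
  · simp
  · intro b _ hb; simp [hb]
  · simp

/-- Extension by the identity along an embedding of index types. -/
def extM {κ : Type} [Fintype κ] [DecidableEq κ] (e : κ ↪ ι) : Matrix κ κ R →* Matrix ι ι R where
  toFun M := 1 + incM R e * (M - 1) * (incM R e)ᵀ
  map_one' := by simp
  map_mul' M M' := by
    have h := incM_mul (R := R) e
    have : incM R e * (M - 1) * (incM R e)ᵀ * (incM R e * (M' - 1) * (incM R e)ᵀ) =
        incM R e * ((M - 1) * (M' - 1)) * (incM R e)ᵀ := by
      simp only [Matrix.mul_assoc]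
      rw [← Matrix.mul_assoc (incM R e)ᵀ, h, Matrix.one_mul]
    rw [add_mul, mul_add, mul_add, this, one_mul, one_mul, mul_one]
    have e2 : M * M' - 1 = (M' - 1) + (M - 1) + (M - 1) * (M' - 1) := by noncomm_ring
    rw [e2, Matrix.mul_add, Matrix.mul_add, Matrix.add_mul, Matrix.add_mul]
    abel

/-- Extension by the identity, on units. -/
def extU {κ : Type} [Fintype κ] [DecidableEq κ] (e : κ ↪ ι) :
    (Matrix κ κ R)ˣ →* (Matrix ι ι R)ˣ := Units.map (extM e)

/-- Matrices equal to the identity outside `S × S`. -/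
def Supp (R : Type) [Ring R] (S : Finset ι) : Subgroup (Matrix ι ι R)ˣ where
  carrier := {g | ∀ i j, (i ∉ S ∨ j ∉ S) → (g : Matrix ι ι R) i j = (1 : Matrix ι ι R) i j}
  one_mem' := fun _ _ _ => rfl
  mul_mem' := by
    intro g h hg hh i j hij
    rw [Units.val_mul, mul_apply]
    rcases hij with hi | hj
    · simp only [fun k => hg i k (Or.inl hi)]
      rw [← mul_apply, Matrix.one_mul, hh i j (Or.inl hi)]
    · simp only [fun k => hh k j (Or.inr hj)]
      rw [← mul_apply, Matrix.mul_one, hg i j (Or.inr hj)]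
  inv_mem' := by
    intro g hg i j hij
    rcases hij with hi | hj
    · have h1 : ((g : Matrix ι ι R) * (g⁻¹ : (Matrix ι ι R)ˣ)) i j = (1 : Matrix ι ι R) i j := by
        rw [Units.mul_inv]
      rw [mul_apply] at h1
      simp only [fun k => hg i k (Or.inl hi)] at h1
      rwa [← mul_apply, Matrix.one_mul] at h1
    · have h1 : (((g⁻¹ : (Matrix ι ι R)ˣ) : Matrix ι ι R) * g) i j = (1 : Matrix ι ι R) i j := by
        rw [Units.inv_mul]
      rw [mul_apply] at h1
      simp only [fun k => hg k j (Or.inr hj)] at h1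
      rwa [← mul_apply, Matrix.mul_one] at h1

/-- Matrices whose columns in `T` are those of the identity. -/
def Fix (R : Type) [Ring R] (T : Finset ι) : Subgroup (Matrix ι ι R)ˣ where
  carrier := {g | ∀ i, ∀ j ∈ T, (g : Matrix ι ι R) i j = (1 : Matrix ι ι R) i j}
  one_mem' := fun _ _ _ => rfl
  mul_mem' := by
    intro g h hg hh i j hj
    rw [Units.val_mul, mul_apply]
    simp only [fun k => hh k j hj]
    rw [← mul_apply, Matrix.mul_one, hg i j hj]
  inv_mem' := by
    intro g hg i j hj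
    have h1 : (((g⁻¹ : (Matrix ι ι R)ˣ) : Matrix ι ι R) * g) i j = (1 : Matrix ι ι R) i j := by
      rw [Units.inv_mul]
    rw [mul_apply] at h1
    simp only [fun k => hg k j hj] at h1
    rwa [← mul_apply, Matrix.mul_one] at h1

end

/-- A canonical rational two-cocycle on a subgroup. -/
def IsCan {Γ : Type} [Group Γ] (S : Subgroup Γ) (c : Γ → Γ → ℚ) : Prop :=
  (∀ x ∈ S, ∀ y ∈ S, ∀ z ∈ S, c x y + c (x * y) z = c x (y * z) + c y z) ∧
    ∀ x ∈ S, ∀ k : ℕ, c x (x ^ k) = 0

/-- Invariance of a cocycle on the relative elementary group under elementary conjugation. -/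
def ElInv {R : Type} [Ring R] (L : Loc R) (ι : Type) [Fintype ι] [DecidableEq ι]
    (c : (Matrix ι ι R)ˣ → (Matrix ι ι R)ˣ → ℚ) : Prop :=
  ∀ a b : ι, a ≠ b → ∀ x ∈ Gam L ι, ∀ y ∈ Gam L ι,
    c (el a b 1 * x * (el a b 1)⁻¹) (el a b 1 * y * (el a b 1)⁻¹) = c x y

end Vale.Agent.P192
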