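import Vale.Agent.P192.StWords

/-! A finitely presented group with Steinberg generators over `R`. -/

namespace Vale.Agent.P192

open scoped commutatorElement

section El

open Matrix

variable {ι R : Type} [Fintype ι] [DecidableEq ι] [Ring R]

theorem sp_el_add {i j : ι} (h : i ≠ j) (a b : R) :
    (el i j (a + b) : (Matrix ι ι R)ˣ) = el i j a * el i j b := by
  apply Units.ext
  have h0 : single i j a * single i j b = (0 : Matrix ι ι R) :=
    single_mul_single_of_ne _ _ _ _ h.symm _
  rw [Units.val_mul, el_val h, el_val h, el_val h, single_add, add_mul, mul_add, mul_add, h0]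
  simp only [one_mul, mul_one]
  abel

theorem sp_el_isSt : IsSt (el (ι := ι) (R := R)) where
  add := fun _ _ h a b => sp_el_add h a b
  comm := fun i j k l hij hkl hjk hil a b => by
    have h0 : single i j a * single k l b = (0 : Matrix ι ι R) :=
      single_mul_single_of_ne _ _ _ _ hjk _
    have h1 : single k l b * single i j a = (0 : Matrix ι ι R) :=
      single_mul_single_of_ne _ _ _ _ hil.symm _
    apply Units.ext
    simp only [Units.val_mul, el_val hij, el_val hkl, add_mul, mul_add, h0, h1, one_mul, mul_one]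
    abel
  mul := fun i j k hij hjk hik a b => by
    have h0 : single i j a * single j k b = (single i k (a * b) : Matrix ι ι R) :=
      single_mul_single_same _ _ _ _ _
    have h1 : single j k b * single i j a = (0 : Matrix ι ι R) :=
      single_mul_single_of_ne _ _ _ _ hik.symm _
    have h2 : single i k (a * b) * single j k b = (0 : Matrix ι ι R) :=
      single_mul_single_of_ne _ _ _ _ hjk.symm _
    have h3 : single i k (a * b) * single i j a = (0 : Matrix ι ι R) :=
      single_mul_single_of_ne _ _ _ _ hik.symm _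
    have key : (el i j a * el j k b : (Matrix ι ι R)ˣ) =
        el i k (a * b) * el j k b * el i j a := by
      apply Units.ext
      simp only [Units.val_mul, el_val hij, el_val hjk, el_val hik, add_mul, mul_add, h0, h1, h2,
        h3, one_mul, mul_one, zero_mul]
      abel
    rw [commutatorElement_def, key]
    group

end El

section St

variable {ι R G : Type} [Ring R] [Group G] {x : ι → ι → R → G}

theorem IsSt.sp_zero (h : IsSt x) {i j : ι} (hij : i ≠ j) : x i j 0 = 1 := by
  have := h.add i j hij 0 0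
  rw [add_zero] at this
  exact left_eq_mul.1 this

theorem IsSt.sp_comp (h : IsSt x) {S : Type} [Ring S] (f : S →+* R) :
    IsSt fun i j s => x i j (f s) where
  add := fun i j hij a b => by rw [map_add, h.add i j hij]
  comm := fun i j k l hij hkl hjk hil a b => h.comm i j k l hij hkl hjk hil _ _
  mul := fun i j k hij hjk hik a b => by rw [map_mul, h.mul i j k hij hjk hik]

end St

section Ext

variable {α G : Type} [Group G]

open scoped IsMulCommutative in
theorem sp_addext (y : α → G) (hy : ∀ a b, Commute (y a) (y b)) :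
    ∃ z : FreeAbelianGroup α → G, (∀ a b, z (a + b) = z a * z b) ∧
      ∀ a, z (FreeAbelianGroup.of a) = y a := by
  have : IsMulCommutative (Subgroup.closure (Set.range y)) :=
    Subgroup.isMulCommutative_closure (by rintro _ ⟨a, rfl⟩ _ ⟨b, rfl⟩; exact hy a b)
  let φ : FreeAbelianGroup α →+ Additive (Subgroup.closure (Set.range y)) :=
    FreeAbelianGroup.lift fun a => Additive.ofMul ⟨y a, Subgroup.subset_closure ⟨a, rfl⟩⟩
  refine ⟨fun a => (φ a).toMul, fun a b => by dsimp only; rw [map_add]; rfl, fun a => ?_⟩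
  simp [φ]

theorem sp_zero {z : FreeAbelianGroup α → G} (h : ∀ a b, z (a + b) = z a * z b) : z 0 = 1 := by
  have := h 0 0
  rw [add_zero] at this
  exact left_eq_mul.1 this

theorem sp_neg {z : FreeAbelianGroup α → G} (h : ∀ a b, z (a + b) = z a * z b)
    (a : FreeAbelianGroup α) : z (-a) = (z a)⁻¹ := by
  have := h a (-a)
  rw [add_neg_cancel, sp_zero h] at this
  exact (eq_inv_of_mul_eq_one_right this.symm)

theorem sp_commute {z : FreeAbelianGroup α → G} (h : ∀ a b, z (a + b) = z a * z b) {c : G}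
    (hc : ∀ a, Commute (z (FreeAbelianGroup.of a)) c) (a : FreeAbelianGroup α) :
    Commute (z a) c := by
  induction a using FreeAbelianGroup.induction_on with
  | zero => rw [sp_zero h]; exact Commute.one_left _
  | of a => exact hc a
  | neg a ih => rw [sp_neg h]; exact ih.inv_left
  | add a b ha hb => rw [h]; exact ha.mul_left hb

theorem sp_br_left {a a' b c c' : G} (h : ⁅a, b⁆ = c) (h' : ⁅a', b⁆ = c') (hc : Commute a c') :
    ⁅a * a', b⁆ = c' * c := by
  have e : ⁅a * a', b⁆ = a * ⁅a', b⁆ * a⁻¹ * ⁅a, b⁆ := by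
    simp only [commutatorElement_def]; group
  rw [e, h, h', hc.eq, mul_inv_cancel_right]

theorem sp_br_right {a b b' c c' : G} (h : ⁅a, b⁆ = c) (h' : ⁅a, b'⁆ = c') (hc : Commute b c') :
    ⁅a, b * b'⁆ = c * c' := by
  have e : ⁅a, b * b'⁆ = ⁅a, b⁆ * (b * ⁅a, b'⁆ * b⁻¹) := by
    simp only [commutatorElement_def]; group
  rw [e, h, h', hc.eq, mul_inv_cancel_right]

theorem sp_br_inv_left {a b c : G} (h : ⁅a, b⁆ = c) (hc : Commute a c) : ⁅a⁻¹, b⁆ = c⁻¹ := by
  have e : ⁅a⁻¹, b⁆ = a⁻¹ * ⁅a, b⁆⁻¹ * a := by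
    simp only [commutatorElement_def]; group
  rw [e, h, hc.inv_inv.eq, inv_mul_cancel_right]

theorem sp_br_inv_right {a b c : G} (h : ⁅a, b⁆ = c) (hc : Commute b c) : ⁅a, b⁻¹⁆ = c⁻¹ := by
  have e : ⁅a, b⁻¹⁆ = b⁻¹ * ⁅a, b⁆⁻¹ * b := by
    simp only [commutatorElement_def]; group
  rw [e, h, hc.inv_inv.eq, inv_mul_cancel_right]

end Ext

section Free

variable {X G : Type} [Group G] {g : Fin 5 → Fin 5 → Option X → G}

/-- Root elements over the free ring. -/
theorem sp_free (h : Base g) : ∃ z : Fin 5 → Fin 5 → FreeAbelianGroup (FreeMonoid X) → G,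
    IsSt z ∧ ∀ i j, i ≠ j → ∀ w, z i j (FreeAbelianGroup.of w) = xw g w.toList i j := by
  have h0 : ∀ i j : Fin 5, ∃ z : FreeAbelianGroup (FreeMonoid X) → G, i ≠ j →
      (∀ a b, z (a + b) = z a * z b) ∧ ∀ w, z (FreeAbelianGroup.of w) = xw g w.toList i j := by
    intro i j
    by_cases hij : i = j
    · exact ⟨fun _ => 1, fun h => absurd hij h⟩
    · obtain ⟨z, hz⟩ := sp_addext (fun w : FreeMonoid X => xw g w.toList i j)
        fun a b => xw_comm h i j i j hij hij (Ne.symm hij) hij _ _
      exact ⟨z, fun _ => hz⟩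
  choose z hz using h0
  have hadd := fun i j hij => (hz i j hij).1
  have hof := fun i j hij => (hz i j hij).2
  have hcomm : ∀ i j k l, i ≠ j → k ≠ l → j ≠ k → i ≠ l → ∀ a b,
      Commute (z i j a) (z k l b) := by
    intro i j k l hij hkl hjk hil a b
    refine sp_commute (hadd i j hij) (fun w => (sp_commute (hadd k l hkl) (fun w' => ?_) b).symm) a
    rw [hof i j hij, hof k l hkl]
    exact (xw_comm h i j k l hij hkl hjk hil _ _).symm
  refine ⟨z, ⟨hadd, hcomm, fun i j k hij hjk hik a b => ?_⟩, hof⟩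
  induction a using FreeAbelianGroup.induction_on with
  | zero => rw [zero_mul, sp_zero (hadd i j hij), sp_zero (hadd i k hik),
      commutatorElement_one_left]
  | of w =>
    induction b using FreeAbelianGroup.induction_on with
    | zero => rw [mul_zero, sp_zero (hadd j k hjk), sp_zero (hadd i k hik),
        commutatorElement_one_right]
    | of w' =>
      rw [FreeAbelianGroup.of_mul_of, hof i j hij, hof j k hjk, hof i k hik,
        xw_mul h i j k hij hjk hik]
      rfl
    | neg w' ih =>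
      rw [mul_neg, sp_neg (hadd j k hjk), sp_neg (hadd i k hik)]
      exact sp_br_inv_right ih (hcomm j k i k hjk hik hik.symm hjk _ _)
    | add b b' hb hb' =>
      rw [mul_add, hadd j k hjk, hadd i k hik]
      exact sp_br_right hb hb' (hcomm j k i k hjk hik hik.symm hjk _ _)
  | neg w ih =>
    rw [neg_mul, sp_neg (hadd i j hij), sp_neg (hadd i k hik)]
    exact sp_br_inv_left ih (hcomm i j i k hij hik hij.symm hik _ _)
  | add a a' ha ha' =>
    rw [add_mul, add_comm (a * b), hadd i j hij, hadd i k hik]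
    exact sp_br_left ha ha' (hcomm i j i k hij hik hij.symm hik _ _)

/-- The congruence defined by a Steinberg system. -/
def spCon {F : Type} [Ring F] {z : Fin 5 → Fin 5 → F → G} (hz : IsSt z) : RingCon F where
  r a b := ∀ i j, i ≠ j → z i j a = z i j b
  iseqv := ⟨fun _ _ _ _ => rfl, fun h i j hij => (h i j hij).symm,
    fun h h' i j hij => (h i j hij).trans (h' i j hij)⟩
  mul' := fun {a a' b b'} h h' i k hik => by
    obtain ⟨j, h1, h2, -⟩ := sw_fresh i k i k
    rw [← hz.mul i j k h1.symm h2 hik, ← hz.mul i j k h1.symm h2 hik, h i j h1.symm, h' j k h2]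
  add' := fun {a a' b b'} h h' i j hij => by
    rw [hz.add i j hij, hz.add i j hij, h i j hij, h' i j hij]

theorem sp_quot {F : Type} [Ring F] {z : Fin 5 → Fin 5 → F → G} (hz : IsSt z) :
    ∃ y : Fin 5 → Fin 5 → (spCon hz).Quotient → G, IsSt y ∧
      ∀ i j, i ≠ j → ∀ a, y i j ((spCon hz).mk' a) = z i j a := by
  choose s hs using (spCon hz).mk'_surjective
  have key : ∀ i j, i ≠ j → ∀ a, z i j (s ((spCon hz).mk' a)) = z i j a := fun i j hij a =>
    (spCon hz).eq.1 (hs ((spCon hz).mk' a)) i j hij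
  refine ⟨fun i j q => z i j (s q), ⟨fun i j hij a b => ?_,
    fun i j k l hij hkl hjk hil a b => hz.comm i j k l hij hkl hjk hil _ _,
    fun i j k hij hjk hik a b => ?_⟩, key⟩
  · rw [← hz.add i j hij, ← key i j hij (s a + s b), map_add, hs, hs]
  · rw [hz.mul i j k hij hjk hik, ← key i k hik (s a * s b), map_mul, hs, hs]

/-- Root elements over the presented ring. -/
theorem sp_descend {R : Type} [Ring R] (P : Pres X R) (h : Base g)
    (hE : ∀ p ∈ P.E, ∀ i j, i ≠ j → xw g p.1 i j = xw g p.2 i j)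
    (hZ : ∀ u ∈ P.Z, ∀ i j, i ≠ j → xw g u i j = 1) :
    ∃ x : Fin 5 → Fin 5 → R → G, IsSt x ∧ (∀ i j, i ≠ j → x i j 1 = g i j none) ∧
      ∀ i j, i ≠ j → ∀ a, x i j (P.gen a) = g i j (some a) := by
  obtain ⟨z, hz, hof⟩ := sp_free h
  obtain ⟨y, hy, hyz⟩ := sp_quot hz
  have hprod : ∀ u : List X,
      (u.map fun a => (spCon hz).mk' (FreeAbelianGroup.of (FreeMonoid.of a))).prod =
        (spCon hz).mk' (FreeAbelianGroup.of (FreeMonoid.ofList u)) := by
    intro u
    induction u with
    | nil => exact (map_one (spCon hz).mk').symm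
    | cons a u ih =>
      rw [List.map_cons, List.prod_cons, ih, ← map_mul, FreeAbelianGroup.of_mul_of]
      rfl
  refine (P.univ (spCon hz).Quotient
    (fun a => (spCon hz).mk' (FreeAbelianGroup.of (FreeMonoid.of a))) ?_ ?_ ?_).elim
    fun f hf => ?_
  rotate_right
  · refine ⟨fun i j r => y i j (f r), hy.sp_comp f, fun i j hij => ?_, fun i j hij a => ?_⟩
    · dsimp only
      rw [map_one, ← map_one (spCon hz).mk', hyz i j hij]
      exact hof i j hij 1
    · dsimp only
      rw [hf, hyz i j hij]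
      exact hof i j hij _
  · rw [← one_add_one_eq_two, ← map_one (spCon hz).mk', ← map_add, ← map_zero (spCon hz).mk']
    refine (spCon hz).eq.2 fun i j hij => ?_
    rw [hz.add i j hij, hz.sp_zero hij, ← FreeAbelianGroup.of_one, hof i j hij]
    exact xw_sq h i j hij _
  · intro p hp
    rw [hprod, hprod]
    refine (spCon hz).eq.2 fun i j hij => ?_
    rw [hof i j hij, hof i j hij]
    exact hE p hp i j hij
  · intro u hu
    rw [hprod, ← map_zero (spCon hz).mk']
    refine (spCon hz).eq.2 fun i j hij => ?_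
    rw [hof i j hij, hz.sp_zero hij]
    exact hZ u hu i j hij

theorem sp_xw_eq {R : Type} [Ring R] {x : Fin 5 → Fin 5 → R → G} (hx : IsSt x) (gen : X → R)
    (w : List X) (i j : Fin 5) (hij : i ≠ j) :
    xw (fun i j o => x i j (o.elim 1 gen)) w i j = x i j (w.map gen).prod := by
  induction w generalizing i j with
  | nil => rfl
  | cons a w ih =>
    cases w with
    | nil => simp [xw]
    | cons b w =>
      rw [xw, ih _ _ (mid_ne i j).2, hx.mul i _ j (mid_ne i j).1.symm (mid_ne i j).2 hij]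
      rfl

end Free

/-- Impose finitely many of the relations that hold in a quotient. -/
theorem sp_pres {α H : Type} [Finite α] [Group H] (π₀ : FreeGroup α →* H)
    (W : Set (FreeGroup α)) (hW : W.Finite) :
    ∃ (G : Type) (_ : Group G) (m : FreeGroup α →* G) (π : G →* H),
      Group.IsFinitelyPresented G ∧ Function.Surjective m ∧ (∀ a, π (m a) = π₀ a) ∧
      ∀ a ∈ W, ∀ b ∈ W, π₀ a = π₀ b → m a = m b := by
  let rels : Set (FreeGroup α) := Set.image2 (fun a b => a * b⁻¹) W W ∩ π₀.ker
  have hfin : Finite rels := ((hW.image2 _ hW).inter_of_left _).to_subtype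
  refine ⟨PresentedGroup rels, inferInstance, PresentedGroup.mk rels,
    QuotientGroup.lift (Subgroup.normalClosure rels) π₀
      (Subgroup.normalClosure_le_normal Set.inter_subset_right),
    inferInstance, PresentedGroup.mk_surjective rels, fun a => rfl, fun a ha b hb hab => ?_⟩
  refine PresentedGroup.mk_eq_mk_of_mul_inv_mem ⟨Set.mem_image2_of_mem ha hb, ?_⟩
  simp [hab]

theorem sp_el_map {ι R S : Type} [Fintype ι] [DecidableEq ι] [Ring R] [Ring S] (c : R →+* S)
    (i j : ι) (r : R) :
    Units.map (c.mapMatrix (m := ι)).toMonoidHom (el i j r) = el i j (c r) := by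
  by_cases h : i = j
  · simp [el, h]
  · apply Units.ext
    rw [Units.coe_map, el_val h, el_val h]
    simp [Matrix.map_add, Matrix.map_single]

theorem exists_stgroup {X R : Type} [Finite X] [Ring R] (P : Pres X R) :
    ∃ (G : Type) (_ : Group G) (x : Fin 5 → Fin 5 → R → G)
      (π : G →* (Matrix (Fin 5) (Fin 5) R)ˣ),
      Group.IsFinitelyPresented G ∧ IsSt x ∧ allX x = ⊤ ∧
      (∀ i j r, i ≠ j → π (x i j r) = el i j r) ∧
      Finite (Subgroup.closure {g | ∃ i j, i ≠ j ∧ g = x i j 1}) := by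
  have hel := sp_el_isSt (ι := Fin 5) (R := R)
  let ψ : FreeGroup (Fin 5 × Fin 5) →* (Matrix (Fin 5) (Fin 5) (ZMod 2))ˣ :=
    FreeGroup.lift fun p => el p.1 p.2 1
  obtain ⟨S, hS, hSf⟩ := (Subgroup.fg_iff _).1
    ((Group.fg_iff_subgroup_fg ψ.ker).1 (Subgroup.fg_of_index_ne_zero ψ.ker))
  let e : FreeGroup (Fin 5 × Fin 5) →* FreeGroup (Fin 5 × Fin 5 × Option X) :=
    FreeGroup.map fun p => (p.1, p.2, none)
  let π₀ : FreeGroup (Fin 5 × Fin 5 × Option X) →* (Matrix (Fin 5) (Fin 5) R)ˣ :=
    FreeGroup.lift fun p => el p.1 p.2.1 (p.2.2.elim 1 P.gen)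
  let g₀ : Fin 5 → Fin 5 → Option X → FreeGroup (Fin 5 × Fin 5 × Option X) :=
    fun i j o => FreeGroup.of (i, j, o)
  have hπ : ∀ i j o, π₀ (g₀ i j o) = el i j (o.elim 1 P.gen) := fun i j o =>
    FreeGroup.lift_apply_of
  have hπw : ∀ w i j, i ≠ j → π₀ (xw g₀ w i j) = el i j (w.map P.gen).prod := fun w i j hij => by
    rw [map_xw]
    simp only [hπ]
    exact sp_xw_eq hel P.gen w i j hij
  let U : Set (List X) := Prod.fst '' P.E ∪ Prod.snd '' P.E ∪ P.Z
  have hU : U.Finite := ((P.finE.image _).union (P.finE.image _)).union P.finZ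
  let W : Set (FreeGroup (Fin 5 × Fin 5 × Option X)) := {1} ∪ Set.range FreeGroup.of ∪
    Set.image2 (· * ·) (Set.range FreeGroup.of) (Set.range FreeGroup.of) ∪
    Set.image2 (fun a b : FreeGroup (Fin 5 × Fin 5 × Option X) => ⁅a, b⁆)
      (Set.range FreeGroup.of) (Set.range FreeGroup.of) ∪
    Set.image2 (fun u (p : Fin 5 × Fin 5) => xw g₀ u p.1 p.2) U Set.univ ∪ e '' S
  have hW : W.Finite :=
    (((((Set.finite_singleton _).union (Set.finite_range _)).union
      ((Set.finite_range _).image2 _ (Set.finite_range _))).union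
      ((Set.finite_range _).image2 _ (Set.finite_range _))).union
      (hU.image2 _ Set.finite_univ)).union (hSf.image _)
  have w1 : (1 : FreeGroup (Fin 5 × Fin 5 × Option X)) ∈ W := .inl (.inl (.inl (.inl (.inl rfl))))
  have w2 : ∀ p, FreeGroup.of p ∈ W := fun p => .inl (.inl (.inl (.inl (.inr ⟨p, rfl⟩))))
  have w3 : ∀ p q, FreeGroup.of p * FreeGroup.of q ∈ W := fun p q =>
    .inl (.inl (.inl (.inr (Set.mem_image2_of_mem ⟨p, rfl⟩ ⟨q, rfl⟩))))
  have w4 : ∀ p q, ⁅FreeGroup.of p, FreeGroup.of q⁆ ∈ W := fun p q =>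
    .inl (.inl (.inr ⟨_, ⟨p, rfl⟩, _, ⟨q, rfl⟩, rfl⟩))
  have w5 : ∀ u ∈ U, ∀ i j, xw g₀ u i j ∈ W := fun u hu i j =>
    .inl (.inr (Set.mem_image2_of_mem (f := fun u (p : Fin 5 × Fin 5) => xw g₀ u p.1 p.2) hu
      (Set.mem_univ (i, j))))
  obtain ⟨G, _, m, π, hfp, hsurj, hπm, hm⟩ := sp_pres π₀ W hW
  have hB : Base fun i j o => m (g₀ i j o) := by
    refine ⟨fun i j hij o => ?_, fun i j k l hij hkl hjk hil o o' => ?_,
      fun i j k hij hjk hik o => ?_, fun i j k hij hjk hik o => ?_⟩
    · rw [← map_mul, ← map_one m]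
      refine hm _ (w3 _ _) _ w1 ?_
      rw [map_mul, map_one, hπ, ← hel.add i j hij, ← two_mul, P.two, zero_mul, hel.sp_zero hij]
    · rw [Commute, SemiconjBy, ← map_mul, ← map_mul]
      refine hm _ (w3 _ _) _ (w3 _ _) ?_
      rw [map_mul, map_mul, hπ, hπ]
      exact hel.comm i j k l hij hkl hjk hil _ _
    · rw [← map_commutatorElement]
      refine hm _ (w4 _ _) _ (w2 _) ?_
      rw [map_commutatorElement, hπ, hπ, hπ, hel.mul i j k hij hjk hik]
      simp
    · rw [← map_commutatorElement]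
      refine hm _ (w4 _ _) _ (w2 _) ?_
      rw [map_commutatorElement, hπ, hπ, hπ, hel.mul i j k hij hjk hik]
      simp
  obtain ⟨x, hx, hx1, hxg⟩ := sp_descend P hB (fun p hp i j hij => by
    rw [← map_xw m, ← map_xw m]
    refine hm _ (w5 _ (.inl (.inl ⟨p, hp, rfl⟩)) _ _) _ (w5 _ (.inl (.inr ⟨p, hp, rfl⟩)) _ _) ?_
    rw [hπw _ _ _ hij, hπw _ _ _ hij, P.hE p hp]) (fun u hu i j hij => by
    rw [← map_xw m, ← map_one m]
    refine hm _ (w5 _ (.inr hu) _ _) _ w1 ?_
    rw [hπw _ _ _ hij, P.hZ u hu, hel.sp_zero hij, map_one])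
  refine ⟨G, inferInstance, x, π, hfp, hx, ?_, ?_, ?_⟩
  · rw [eq_top_iff, ← MonoidHom.range_eq_top.2 hsurj, MonoidHom.range_eq_map,
      ← FreeGroup.closure_range_of, MonoidHom.map_closure, Subgroup.closure_le]
    rintro _ ⟨_, ⟨⟨i, j, o⟩, rfl⟩, rfl⟩
    by_cases hij : i = j
    · have : m (FreeGroup.of (i, j, o)) = m 1 := hm _ (w2 _) _ w1 (by
        rw [map_one]
        exact (hπ i j o).trans (by simp [el, hij]))
      rw [this, map_one]
      exact one_mem _
    · refine Subgroup.subset_closure ⟨i, j, o.elim 1 P.gen, hij, ?_⟩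
      cases o with
      | none => exact (hx1 i j hij).symm
      | some a => exact (hxg i j hij a).symm
  · intro i j r hij
    revert i j
    refine P.ind (fun r => ∀ i j : Fin 5, i ≠ j → π (x i j r) = el i j r) ?_ ?_ ?_ ?_ ?_ r
    · intro i j hij
      rw [hx.sp_zero hij, map_one, hel.sp_zero hij]
    · intro i j hij
      rw [hx1 i j hij, hπm, hπ]
      rfl
    · intro a i j hij
      rw [hxg i j hij, hπm, hπ]
      rfl
    · intro a b ha hb i j hij
      rw [hx.add i j hij, map_mul, ha i j hij, hb i j hij, hel.add i j hij]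
    · intro a b ha hb i k hik
      obtain ⟨j, h1, h2, -⟩ := sw_fresh i k i k
      rw [← hx.mul i j k h1.symm h2 hik, map_commutatorElement, ha i j h1.symm, hb j k h2,
        hel.mul i j k h1.symm h2 hik]
  · let c : ZMod 2 →+* R := ZMod.castHom (ringChar.dvd (by exact_mod_cast P.two)) R
    have hfac : π₀.comp e = (Units.map (c.mapMatrix (m := Fin 5)).toMonoidHom).comp ψ := by
      refine FreeGroup.ext_hom _ _ fun p => ?_
      simp only [MonoidHom.comp_apply, e, ψ, FreeGroup.map.of, FreeGroup.lift_apply_of, sp_el_map,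
        map_one]
      exact hπ p.1 p.2 none
    have hle : ψ.ker ≤ (m.comp e).ker := by
      rw [← hS, Subgroup.closure_le]
      intro s hs
      have hs' : ψ s = 1 := by
        have : s ∈ ψ.ker := hS ▸ Subgroup.subset_closure hs
        exact this
      change m (e s) = 1
      rw [← map_one m]
      refine hm _ (.inr ⟨s, hs, rfl⟩) _ w1 ?_
      rw [map_one, ← MonoidHom.comp_apply, hfac, MonoidHom.comp_apply, hs', map_one]
    have : (m.comp e).ker.FiniteIndex := Subgroup.finiteIndex_of_le hle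
    have : Finite (m.comp e).range :=
      Finite.of_equiv _ (QuotientGroup.quotientKerEquivRange (m.comp e)).toEquiv
    refine Finite.of_injective _ (Subgroup.inclusion_injective (K := (m.comp e).range) ?_)
    rw [Subgroup.closure_le]
    rintro _ ⟨i, j, hij, rfl⟩
    exact ⟨FreeGroup.of (i, j), (hx1 i j hij).symm⟩

end Vale.Agent.P192
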