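import Vale.Agent.P192.St

/-! Root elements for words, from finitely many base relations (five indices). -/

namespace Vale.Agent.P192

open scoped commutatorElement

/-- A middle index. -/
def mid (i j : Fin 5) : Fin 5 := if 0 ≠ i ∧ 0 ≠ j then 0 else if 1 ≠ i ∧ 1 ≠ j then 1 else 2

theorem mid_ne (i j : Fin 5) : mid i j ≠ i ∧ mid i j ≠ j := by
  revert i j; decide

variable {X G : Type} [Group G]

/-- Root element of a word. -/
def xw (g : Fin 5 → Fin 5 → Option X → G) : List X → Fin 5 → Fin 5 → G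
  | [], i, j => g i j none
  | [a], i, j => g i j (some a)
  | a :: b :: w, i, j => ⁅g i (mid i j) (some a), xw g (b :: w) (mid i j) j⁆

/-- The base relations, among generators only. -/
structure Base (g : Fin 5 → Fin 5 → Option X → G) : Prop where
  sq : ∀ i j, i ≠ j → ∀ o, g i j o * g i j o = 1
  comm : ∀ i j k l, i ≠ j → k ≠ l → j ≠ k → i ≠ l → ∀ o o', Commute (g i j o) (g k l o')
  mulL : ∀ i j k, i ≠ j → j ≠ k → i ≠ k → ∀ o, ⁅g i j none, g j k o⁆ = g i k o
  mulR : ∀ i j k, i ≠ j → j ≠ k → i ≠ k → ∀ o, ⁅g i j o, g j k none⁆ = g i k o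

theorem map_xw {H : Type} [Group H] (f : G →* H) (g : Fin 5 → Fin 5 → Option X → G)
    (w : List X) (i j : Fin 5) : f (xw g w i j) = xw (fun i j o => f (g i j o)) w i j := by
  induction w generalizing i j with
  | nil => rfl
  | cons a w ih =>
    cases w with
    | nil => rfl
    | cons b w => rw [xw, xw, map_commutatorElement, ih]

theorem sw_fresh (i j k l : Fin 5) : ∃ m, m ≠ i ∧ m ≠ j ∧ m ≠ k ∧ m ≠ l := by
  revert i j k l; decide

theorem sw_comm_br {a b c : G} (h1 : Commute a c) (h2 : Commute b c) : Commute ⁅a, b⁆ c :=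
  ((h1.mul_left h2).mul_left h1.inv_left).mul_left h2.inv_left

theorem sw_key {α β γ : G} (h1 : Commute α γ) (h2 : Commute ⁅α, β⁆ ⁅β, γ⁆)
    (h3 : Commute ⁅β, γ⁆ γ) : ⁅α, ⁅β, γ⁆⁆ = ⁅⁅α, β⁆, γ⁆ := by
  have h4 : Commute ⁅⁅α, β⁆, γ⁆ ⁅β, γ⁆ := sw_comm_br h2 h3.symm
  have e0 : α⁻¹ * γ * α = γ := by rw [mul_assoc, ← h1.eq, inv_mul_cancel_left]
  have e0' : α⁻¹ * γ⁻¹ * α = γ⁻¹ := by rw [mul_assoc, ← h1.inv_right.eq, inv_mul_cancel_left]
  have e1 : α * ⁅β, γ⁆ * α⁻¹ = ⁅α, β⁆ * ⁅β, γ⁆ * ⁅α, β⁆⁻¹ * ⁅⁅α, β⁆, γ⁆ := by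
    calc α * ⁅β, γ⁆ * α⁻¹ = α * (β * (α⁻¹ * γ * α) * β⁻¹ * (α⁻¹ * γ⁻¹ * α)) * α⁻¹ := by
          rw [e0, e0', commutatorElement_def]
      _ = _ := by simp only [commutatorElement_def]; group
  rw [h2.eq, mul_inv_cancel_right, ← h4.eq] at e1
  rw [commutatorElement_def α, e1, mul_inv_cancel_right]

/-- Commutator relations up to total degree `e`. -/
def SwC (g : Fin 5 → Fin 5 → Option X → G) (e : ℕ) : Prop :=
  ∀ i j k, i ≠ j → j ≠ k → i ≠ k → ∀ w w' : List X, w.length + w'.length ≤ e →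
    ⁅xw g w i j, xw g w' j k⁆ = xw g (w ++ w') i k

/-- Commutation relations up to degrees `e`, `e'`. -/
def SwB (g : Fin 5 → Fin 5 → Option X → G) (e e' : ℕ) : Prop :=
  ∀ i j k l, i ≠ j → k ≠ l → j ≠ k → i ≠ l → ∀ w w' : List X, w.length ≤ e → w'.length ≤ e' →
    Commute (xw g w i j) (xw g w' k l)

variable {g : Fin 5 → Fin 5 → Option X → G}

theorem SwB.symm {e e' : ℕ} (h : SwB g e e') : SwB g e' e :=
  fun i j k l hij hkl hjk hil w w' hw hw' =>
    (h k l i j hkl hij hil.symm hjk.symm w' w hw' hw).symm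

theorem sw_short (w : List X) (hw : w.length ≤ 1) :
    ∃ o, ∀ i j, xw g w i j = g i j o := by
  match w, hw with
  | [], _ => exact ⟨none, fun _ _ => rfl⟩
  | [a], _ => exact ⟨some a, fun _ _ => rfl⟩

theorem sw_B1 (h : Base g) : SwB g 1 1 := by
  intro i j k l hij hkl hjk hil w w' hw hw'
  obtain ⟨o, ho⟩ := sw_short (g := g) w hw
  obtain ⟨o', ho'⟩ := sw_short (g := g) w' hw'
  rw [ho, ho']
  exact h.comm i j k l hij hkl hjk hil o o'

theorem sw_C1 (h : Base g) : SwC g 1 := by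
  intro i j k hij hjk hik w w' hw
  match w, w', hw with
  | [], [], _ => exact h.mulL i j k hij hjk hik none
  | [], [a], _ => exact h.mulL i j k hij hjk hik (some a)
  | [a], [], _ => exact h.mulR i j k hij hjk hik (some a)
  | _ :: _, _ :: _, hw => simp at hw; omega
  | _ :: _ :: _, [], hw => simp at hw
  | [], _ :: _ :: _, hw => simp at hw

theorem sw_shift {e : ℕ} (hC : SwC g e) (hB : SwB g e e) {i j l k : Fin 5} (hij : i ≠ j)
    (hil : i ≠ l) (hik : i ≠ k) (hjl : j ≠ l) (hjk : j ≠ k) (hlk : l ≠ k) (a v b : List X)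
    (h1 : a.length + v.length ≤ e) (h2 : v.length + b.length ≤ e) :
    ⁅xw g a i j, xw g (v ++ b) j k⁆ = ⁅xw g (a ++ v) i l, xw g b l k⁆ := by
  have e1 := hC i j l hij hjl hil a v h1
  have e2 := hC j l k hjl hlk hjk v b h2
  rw [← e1, ← e2]
  refine sw_key (hB i j l k hij hlk hjl hik a b (by omega) (by omega)) ?_ ?_
  · rw [e1, e2]
    exact hB i l j k hil hjk hjl.symm hik _ _ (by simpa using h1) (by simpa using h2)
  · rw [e2]
    exact hB j k l k hjk hlk hlk.symm hjk _ _ (by simpa using h2) (by omega)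

theorem sw_mid {e : ℕ} (hC : SwC g e) (hB : SwB g e e) {i j l k : Fin 5} (hij : i ≠ j)
    (hil : i ≠ l) (hik : i ≠ k) (hjk : j ≠ k) (hlk : l ≠ k) (a b : List X)
    (h1 : a.length ≤ e) (h2 : b.length ≤ e) :
    ⁅xw g a i j, xw g b j k⁆ = ⁅xw g a i l, xw g b l k⁆ := by
  rcases eq_or_ne j l with rfl | hjl
  · rfl
  · simpa using sw_shift hC hB hij hil hik hjl hjk hlk a [] b (by simpa using h1)
      (by simpa using h2)

theorem sw_cons (a : X) {w : List X} (hw : w ≠ []) (i j : Fin 5) :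
    xw g (a :: w) i j = ⁅xw g [a] i (mid i j), xw g w (mid i j) j⁆ := by
  obtain ⟨b, w, rfl⟩ := List.exists_cons_of_ne_nil hw
  rfl

theorem sw_Cne {e : ℕ} (hC : SwC g e) (hB : SwB g e e) {i j k : Fin 5} (hij : i ≠ j)
    (hjk : j ≠ k) (hik : i ≠ k) {w w' : List X} (hw : w ≠ []) (hw' : w' ≠ [])
    (h : w.length + w'.length ≤ e + 1) :
    ⁅xw g w i j, xw g w' j k⁆ = xw g (w ++ w') i k := by
  obtain ⟨a, v, rfl⟩ := List.exists_cons_of_ne_nil hw
  have hl : 0 < w'.length := List.length_pos_iff.2 hw'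
  obtain ⟨l, hl1, hl2, hl3, -⟩ := sw_fresh i k (mid i k) i
  simp only [List.length_cons] at h
  rw [List.cons_append, sw_cons a (w := v ++ w') (by simp [hw']),
    sw_shift hC hB (mid_ne i k).1.symm hl1.symm hik hl3.symm (mid_ne i k).2 hl2 [a] v w'
      (by simp; omega) (by omega)]
  exact sw_mid hC hB hij hl1.symm hik hjk hl2 _ _ (by simp; omega) (by omega)

theorem sw_Bstep {e e' : ℕ} (he : 1 ≤ e) (hC : SwC g e) (hB : SwB g e e) (hB' : SwB g e e') :
    SwB g (e + 1) e' := by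
  intro i j k l hij hkl hjk hil w w' hw hw'
  rcases le_or_gt w.length e with h | h
  · exact hB' i j k l hij hkl hjk hil w w' h hw'
  obtain ⟨m, h1, h2, h3, h4⟩ := sw_fresh i j k l
  match w, hw, h with
  | a :: v, hw, h =>
    simp only [List.length_cons] at hw h
    have hv : v ≠ [] := List.length_pos_iff.1 (by omega)
    rw [show a :: v = [a] ++ v from rfl,
      ← sw_Cne hC hB h1.symm h2 hij (by simp) hv (by simp; omega)]
    exact sw_comm_br (hB' i m k l h1.symm hkl h3 hil _ _ (by simpa using he) hw')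
      (hB' m j k l h2 hkl hjk h4 _ _ (by omega) hw')

theorem sw_Cstep {e : ℕ} (he : 1 ≤ e) (hC : SwC g e) (hB : SwB g e e)
    (hB' : SwB g (e + 1) (e + 1)) : SwC g (e + 1) := by
  intro i j k hij hjk hik w w' hw
  rcases le_or_gt (w.length + w'.length) e with h | h
  · exact hC i j k hij hjk hik w w' h
  obtain ⟨l, h1, h2, h3, -⟩ := sw_fresh i j k k
  match w, w', hw, h with
  | [], a :: v, hw, h =>
    simp only [List.length_cons, List.length_nil] at hw h
    have hv : v ≠ [] := List.length_pos_iff.1 (by omega)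
    have e1 := hC i j l hij h2.symm h1.symm [] [a] (by simpa using he)
    have e2 := sw_Cne hC hB h2.symm h3 hjk (w := [a]) (by simp) hv (by simp; omega)
    have e3 := sw_Cne hC hB h1.symm h3 hik (w := [a]) (by simp) hv (by simp; omega)
    simp only [List.nil_append, List.cons_append] at e1 e2 e3 ⊢
    rw [← e3, ← e2, ← e1]
    refine sw_key (hB' i j l k hij h3 h2.symm hik _ _ (by simp) (by omega)) ?_ ?_
    · rw [e1, e2]
      exact hB' i l j k h1.symm hjk h2 hik _ _ (by simp) (by simp; omega)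
    · rw [e2]
      exact hB' j k l k hjk h3 h3.symm hjk _ _ (by simp; omega) (by omega)
  | a :: v, [], hw, h =>
    simp only [List.length_cons, List.length_nil] at hw h
    have hv : v ≠ [] := List.length_pos_iff.1 (by omega)
    have e1 := sw_Cne hC hB h1.symm h2 hij (w := [a]) (by simp) hv (by simp; omega)
    have e2 := hC l j k h2 hjk h3 v [] (by simp; omega)
    have e3 := sw_Cne hC hB h1.symm h3 hik (w := [a]) (by simp) hv (by simp; omega)
    simp only [List.nil_append, List.cons_append, List.append_nil] at e1 e2 e3 ⊢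
    rw [← e3, ← e1, ← e2]
    refine (sw_key (hB' i l j k h1.symm hjk h2 hik _ _ (by simp) (by simp)) ?_ ?_).symm
    · rw [e1, e2]
      exact hB' i j l k hij h3 h2.symm hik _ _ (by simp; omega) (by omega)
    · rw [e2]
      exact hB' l k j k h3 hjk hjk.symm h3 _ _ (by omega) (by simp)
  | a :: v, b :: v', hw, _ => exact sw_Cne hC hB hij hjk hik (by simp) (by simp) hw

theorem sw_all (h : Base g) (e : ℕ) : SwC g (e + 1) ∧ SwB g (e + 1) (e + 1) := by
  induction e with
  | zero => exact ⟨sw_C1 h, sw_B1 h⟩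
  | succ e ih =>
    have h1 := sw_Bstep (by omega) ih.1 ih.2 ih.2
    have h2 := sw_Bstep (by omega) ih.1 ih.2 h1.symm
    exact ⟨sw_Cstep (by omega) ih.1 ih.2 h2, h2⟩

theorem xw_comm {g : Fin 5 → Fin 5 → Option X → G} (h : Base g) (i j k l : Fin 5) (hij : i ≠ j)
    (hkl : k ≠ l) (hjk : j ≠ k) (hil : i ≠ l) (w w' : List X) :
    Commute (xw g w i j) (xw g w' k l) :=
  (sw_all h (w.length + w'.length)).2 i j k l hij hkl hjk hil w w' (by omega) (by omega)

theorem xw_mul {g : Fin 5 → Fin 5 → Option X → G} (h : Base g) (i j k : Fin 5) (hij : i ≠ j)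
    (hjk : j ≠ k) (hik : i ≠ k) (w w' : List X) :
    ⁅xw g w i j, xw g w' j k⁆ = xw g (w ++ w') i k :=
  (sw_all h (w.length + w'.length)).1 i j k hij hjk hik w w' (by omega)

theorem xw_sq {g : Fin 5 → Fin 5 → Option X → G} (h : Base g) (i j : Fin 5) (hij : i ≠ j)
    (w : List X) : xw g w i j * xw g w i j = 1 := by
  obtain ⟨m, h1, h2, -⟩ := sw_fresh i j i j
  have e1 := xw_mul h i m j h1.symm h2 hij [] w
  have e2 := xw_comm h i j i m hij h1.symm hij.symm h1.symm w []
  have e3 : xw g [] i m * xw g [] i m = 1 := h.sq i m h1.symm none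
  rw [List.nil_append] at e1
  have e4 : ∀ α β : G, ⁅α * α, β⁆ = α * ⁅α, β⁆ * α⁻¹ * ⁅α, β⁆ := fun α β => by
    simp only [commutatorElement_def]; group
  have e5 := e4 (xw g [] i m) (xw g w m j)
  rw [e3, e1, ← e2.eq, mul_inv_cancel_right, commutatorElement_one_left] at e5
  exact e5.symm

end Vale.Agent.P192
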