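import Vale.Agent.P192.K1
import Vale.Agent.P192.Amalg

/-! Stability: an invariant canonical cocycle on `Gam L (Fin 5)` extends to any index set.

PROOF PLAN. Write `G J := Gam L ι ⊓ Supp R J`, `P J T := G J ⊓ Fix R T`; all torsion (`cong_tors`).
Lemma LEV: two canonical cocycles on `P J T` (`T ⊆ J`) that agree on `G (J \ T)` agree on `P J T`
(`exists_lev`, `IsCan.abel` with `x' = lev x`; `lev (x ^ k) = lev x ^ k`).
Induction on `r ≥ 5`, `r ≤ card ι`: there is a family `c J`, `J.card = r`, with (a) `IsCan (G J)`,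
(b) `c J = c J'` on `G (J ∩ J')`, (c) invariance of `c J` under conjugation by `el a b 1`,
`a ≠ b ∈ J`, (d) `c J (extU e x) (extU e y) = c0 x y` when `univ.map e ⊆ J`.
Base `r = 5`: transport `c0` along any bijection `Fin 5 ≃ J` (`extU_supp`, `ext_mem_iff`,
`extU_injective`); `c0` is invariant under `extU σ` for permutations `σ` of `Fin 5` since a
transposition acts as conjugation by `el i j 1 * el j i 1 * el i j 1` (characteristic two); a
bijection between subsets of `Fin 5` extends to a permutation (`Equiv.extendSubtype` or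
`Function.Embedding.exists_extension`-type lemmas). It is convenient to prove first: for
`e e' : κ ↪ Fin 5`, `c0 (extU e x) (extU e y) = c0 (extU e' x) (extU e' y)`.
Step: `J.card = r + 1 ≥ 6`. `d k := c (J \ {k}) ∘ lev_k` is canonical on `P J {k}`; `d k = d k'` on
`P J {k, k'}` by LEV and (b). Pick distinct `k1..k5 ∈ J` and a sixth index; `can_exists` with left
family `k1 k2 k3`, right family `k4 k5` (`factor` gives all factorisations). The new `c J` agrees
with `c (J \ {k})` on `G (J \ {k})` for every `k ∈ J`: for `k ∈ {k1, k2, k3}` directly, otherwise by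
`can_unique` in `G (J \ {k})` with `Fix {k1}, Fix {k2}, Fix {k3}`. (b), (d) follow; (c) by
`can_unique` with three indices outside `{a, b}`, LEV and the inductive (c). Finally `J = univ`. -/

namespace Vale.Agent.P192

open Matrix

variable {R : Type} [Ring R]

section aux
variable {ι : Type} [Fintype ι] [DecidableEq ι]

abbrev stabG (L : Loc R) (J : Finset ι) : Subgroup (Matrix ι ι R)ˣ := Gam L ι ⊓ Supp R J
abbrev stabP (L : Loc R) (J T : Finset ι) : Subgroup (Matrix ι ι R)ˣ :=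
  Gam L ι ⊓ Supp R J ⊓ Fix R T

theorem stab_tors (L : Loc R) {S : Subgroup (Matrix ι ι R)ˣ} (hS : S ≤ Gam L ι) :
    ∀ x ∈ S, IsOfFinOrder x := fun _ hx => cong_tors L (cong_of_mem L (hS hx))

theorem stab_supp_mono {J J' : Finset ι} (h : J ⊆ J') : Supp R J ≤ Supp R J' :=
  fun _ hx i j hij => hx i j (hij.imp (fun a b => a (h b)) fun a b => a (h b))

theorem stabG_mono (L : Loc R) {J J' : Finset ι} (h : J ⊆ J') : stabG L J ≤ stabG L J' :=
  inf_le_inf_left _ (stab_supp_mono h)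

theorem stab_supp_inter {J J' : Finset ι} {x : (Matrix ι ι R)ˣ} (h : x ∈ Supp R J)
    (h' : x ∈ Supp R J') : x ∈ Supp R (J ∩ J') := by
  intro i j hij
  by_cases h1 : i ∈ J ∧ j ∈ J
  · refine h' i j ?_
    simp only [Finset.mem_inter] at hij
    tauto
  · exact h i j (by tauto)

theorem stab_fix_mono {T T' : Finset ι} (h : T ⊆ T') : Fix R T' ≤ Fix R T :=
  fun _ hx i j hj => hx i j (h hj)

theorem stabG_le_P (L : Loc R) (J T : Finset ι) : stabG L (J \ T) ≤ stabP L J T :=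
  fun _ hx => ⟨stabG_mono L Finset.sdiff_subset hx, fun i j hj =>
    hx.2 i j (Or.inr (by simp [hj]))⟩

theorem stab_lev (L : Loc R) {J T : Finset ι} (hT : T ⊆ J)
    {c c' : (Matrix ι ι R)ˣ → (Matrix ι ι R)ˣ → ℚ} (h : IsCan (stabP L J T) c)
    (h' : IsCan (stabP L J T) c')
    (hc : ∀ x ∈ stabG L (J \ T), ∀ y ∈ stabG L (J \ T), c x y = c' x y) :
    ∀ x ∈ stabP L J T, ∀ y ∈ stabP L J T, c x y = c' x y := by
  obtain ⟨lev, V, hV, hcomm, hmul, hmem, hid, hdiv⟩ := exists_lev L J T hT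
  have ht := stab_tors L (S := stabP L J T) (inf_le_left.trans inf_le_left)
  have hpow : ∀ x ∈ stabP L J T, ∀ k : ℕ, lev x ^ k = lev (x ^ k) := by
    intro x hx k
    induction k with
    | zero => rw [pow_zero, pow_zero, hid 1 (one_mem _)]
    | succ k ih => rw [pow_succ, pow_succ, ih, hmul _ (pow_mem hx k) _ hx]
  have hk : ∀ x ∈ stabP L J T, ∀ k : ℕ, x ^ k * (lev x ^ k)⁻¹ ∈ V := fun x hx k => by
    rw [hpow x hx]; exact hdiv _ (pow_mem hx k)
  intro x hx y hy
  have h3 : ∀ k : ℕ, (x * y) ^ k * ((lev x * lev y) ^ k)⁻¹ ∈ V := fun k => by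
    rw [← hmul x hx y hy]; exact hk _ (mul_mem hx hy) k
  rw [h.abel ht hV hcomm hx hy (stabG_le_P L J T (hmem x hx)) (stabG_le_P L J T (hmem y hy))
      (hk x hx) (hk y hy) h3,
    h'.abel ht hV hcomm hx hy (stabG_le_P L J T (hmem x hx)) (stabG_le_P L J T (hmem y hy))
      (hk x hx) (hk y hy) h3]
  exact hc _ (hmem x hx) _ (hmem y hy)

theorem stab_uniq (L : Loc R) {J K : Finset ι} (hK : K ⊆ J) (h3 : 3 ≤ K.card) (h4 : 4 ≤ J.card)
    {c c' : (Matrix ι ι R)ˣ → (Matrix ι ι R)ˣ → ℚ} (h : IsCan (stabG L J) c)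
    (h' : IsCan (stabG L J) c')
    (hc : ∀ k ∈ K, ∀ x ∈ stabG L (J.erase k), ∀ y ∈ stabG L (J.erase k), c x y = c' x y) :
    ∀ x ∈ stabG L J, ∀ y ∈ stabG L J, c x y = c' x y := by
  obtain ⟨k1, h1, k2, h2, k3, h3', n12, n13, n23⟩ := Finset.two_lt_card.1 (show 2 < K.card from h3)
  obtain ⟨k, hkJ, hk⟩ := Finset.exists_mem_notMem_of_card_lt_card
    (show ({k1, k2, k3} : Finset ι).card < J.card from
      lt_of_le_of_lt Finset.card_le_three (by omega))
  simp only [Finset.mem_insert, Finset.mem_singleton, not_or] at hk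
  have hι : 2 ≤ Fintype.card ι := le_trans (by omega) (Finset.card_le_univ J)
  have key : ∀ k ∈ K, ∀ x ∈ stabP L J {k}, ∀ y ∈ stabP L J {k}, c x y - c' x y = 0 := by
    intro k hk x hx y hy
    rw [sub_eq_zero]
    refine stab_lev L (by simpa using hK hk) (h.mono inf_le_left) (h'.mono inf_le_left) ?_ x hx y hy
    rw [Finset.sdiff_singleton_eq_erase]
    exact hc k hk
  intro x hx y hy
  rw [← sub_eq_zero]
  refine can_unique (S := stabG L J) (Pa := stabP L J {k1}) (Pb := stabP L J {k2})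
    (Pc := stabP L J {k3}) inf_le_left inf_le_left inf_le_left (stab_tors L inf_le_left)
    (fun g hg => ?_) (fun g hg => ?_) (h.sub h') (key k1 h1) (key k2 h2) (key k3 h3') x hx y hy
  · obtain ⟨p, hp, q, hq, e⟩ := factor L hι J {k1, k2} {k3} (by simp [n13.symm, n23.symm]) k hkJ
      (by simp [hk.1, hk.2.1]) (by simp [hk.2.2]) hg
    exact ⟨p, ⟨⟨hp.1, stab_fix_mono (by simp) hp.2⟩, ⟨hp.1, stab_fix_mono (by simp) hp.2⟩⟩,
      q, hq, e⟩
  · exact factor L hι J {k1} {k2} (by simp [n12]) k hkJ (by simp [hk.1]) (by simp [hk.2.1]) hg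

theorem stab_conj_mem (L : Loc R) {a b : ι} (hab : a ≠ b) {x : (Matrix ι ι R)ˣ}
    (hx : x ∈ Gam L ι) : el a b 1 * x * (el a b 1)⁻¹ ∈ Gam L ι := by
  induction hx using Subgroup.closure_induction with
  | mem g hg =>
    obtain ⟨h, hh, i, j, r, hij, hr, rfl⟩ := hg
    refine Subgroup.subset_closure ⟨el a b 1 * h,
      mul_mem (Subgroup.subset_closure ⟨a, b, 1, hab, rfl⟩) hh, i, j, r, hij, hr, by group⟩
  | one => simp
  | mul x y _ _ hx hy =>
    have := mul_mem hx hy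
    rwa [show el a b 1 * x * (el a b 1)⁻¹ * (el a b 1 * y * (el a b 1)⁻¹) =
      el a b 1 * (x * y) * (el a b (1 : R))⁻¹ by group] at this
  | inv x _ hx =>
    have := inv_mem hx
    rwa [show (el a b 1 * x * (el a b 1)⁻¹)⁻¹ = el a b 1 * x⁻¹ * (el a b (1 : R))⁻¹ by group]
      at this

theorem stab_el_supp {J : Finset ι} {a b : ι} (hab : a ≠ b) (ha : a ∈ J) (hb : b ∈ J) :
    el a b (1 : R) ∈ Supp R J := by
  intro i j hij
  rw [el_val hab, Matrix.add_apply, Matrix.single_apply, if_neg, add_zero]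
  rintro ⟨rfl, rfl⟩
  tauto

theorem stab_conj_G (L : Loc R) {J : Finset ι} {a b : ι} (hab : a ≠ b) (ha : a ∈ J) (hb : b ∈ J)
    {x : (Matrix ι ι R)ˣ} (hx : x ∈ stabG L J) : el a b 1 * x * (el a b 1)⁻¹ ∈ stabG L J :=
  ⟨stab_conj_mem L hab hx.1, (Supp R J).mul_mem ((Supp R J).mul_mem (stab_el_supp hab ha hb) hx.2)
    ((Supp R J).inv_mem (stab_el_supp hab ha hb))⟩

theorem stab_swap (L : Loc R) {i j : ι} (hij : i ≠ j) (x : (Matrix ι ι R)ˣ) :
    extU (Equiv.swap i j).toEmbedding x =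
      (el i j 1 * el j i 1 * el i j 1) * x * (el i j 1 * el j i 1 * el i j 1)⁻¹ := by
  have h2 : (1 : R) + 1 = 0 := by rw [one_add_one_eq_two]; exact L.two
  have hw : ((el i j 1 * el j i 1 * el i j 1 : (Matrix ι ι R)ˣ) : Matrix ι ι R) =
      incM R (Equiv.swap i j).toEmbedding := by
    rw [Units.val_mul, Units.val_mul, el_val hij, el_val hij.symm]
    simp only [add_mul, mul_add, one_mul, mul_one, single_mul_single_same,
      single_mul_single_of_ne _ _ _ _ hij.symm]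
    ext a b
    simp only [Matrix.add_apply, Matrix.single_apply, Matrix.one_apply, incM,
      Equiv.coe_toEmbedding, Matrix.zero_apply, Equiv.swap_apply_def]
    by_cases h1 : b = i
    · subst h1
      by_cases h3 : a = b
      · subst h3; simp [hij, hij.symm, h2]
      · by_cases h4 : a = j
        · subst h4; simp [hij, hij.symm]
        · simp [hij.symm, h3, h4, Ne.symm h3, Ne.symm h4]
    · by_cases h2' : b = j
      · subst h2'
        by_cases h3 : a = i
        · subst h3; simp [hij, hij.symm, h2]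
        · by_cases h4 : a = b
          · subst h4; simp [hij, hij.symm, h2]
          · simp [hij, hij.symm, h3, h4, Ne.symm h3, Ne.symm h4]
      · simp [h1, h2', Ne.symm h1, Ne.symm h2']
  have h1 := incM_mul (R := R) (Equiv.swap i j).toEmbedding
  generalize el i j 1 * el j i 1 * el i j (1 : R) = w at hw
  have hinv : ((w⁻¹ : (Matrix ι ι R)ˣ) : Matrix ι ι R) =
      (incM R (Equiv.swap i j).toEmbedding)ᵀ := by
    rw [← hw] at h1
    exact Units.inv_eq_of_mul_eq_one_left (by rw [← hw]; exact h1)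
  apply Units.ext
  rw [Units.val_mul, Units.val_mul, hinv, hw]
  change 1 + incM R _ * ((x : Matrix ι ι R) - 1) * (incM R _)ᵀ = _
  rw [← hinv, ← hw, Matrix.mul_sub, Matrix.sub_mul, Matrix.mul_one, Units.mul_inv]
  abel

theorem stab_refl (x : (Matrix ι ι R)ˣ) : extU (Equiv.refl ι).toEmbedding x = x := by
  apply Units.ext
  ext a b
  exact extM_apply (Equiv.refl ι).toEmbedding (x : Matrix ι ι R) a b

theorem stab_perm (L : Loc R) {c : (Matrix ι ι R)ˣ → (Matrix ι ι R)ˣ → ℚ} (hi : ElInv L ι c)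
    (h3 : 3 ≤ Fintype.card ι) (σ : Equiv.Perm ι) :
    ∀ x ∈ Gam L ι, ∀ y ∈ Gam L ι, c (extU σ.toEmbedding x) (extU σ.toEmbedding y) = c x y := by
  induction σ using Equiv.Perm.swap_induction_on with
  | one => intro x _ y _; exact congrArg₂ c (stab_refl x) (stab_refl y)
  | swap_mul f i j hij ih =>
    intro x hx y hy
    have e : ∀ z : (Matrix ι ι R)ˣ, extU (Equiv.swap i j * f).toEmbedding z =
        extU (Equiv.swap i j).toEmbedding (extU f.toEmbedding z) := fun z => by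
      rw [extU_comp]; rfl
    have hx' := (ext_mem_iff L h3 f.toEmbedding x).2 hx
    have hy' := (ext_mem_iff L h3 f.toEmbedding y).2 hy
    rw [e, e, ← ih x hx y hy, stab_swap L hij, stab_swap L hij]
    generalize extU f.toEmbedding x = u at hx' ⊢
    generalize extU f.toEmbedding y = v at hy' ⊢
    have e2 : ∀ z : (Matrix ι ι R)ˣ, (el i j 1 * el j i 1 * el i j 1) * z *
        (el i j 1 * el j i 1 * el i j 1)⁻¹ = el i j 1 * (el j i 1 * (el i j 1 * z * (el i j 1)⁻¹) *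
        (el j i 1)⁻¹) * (el i j (1 : R))⁻¹ := fun z => by group
    rw [e2, e2, hi i j hij _ (stab_conj_mem L hij.symm (stab_conj_mem L hij hx')) _
      (stab_conj_mem L hij.symm (stab_conj_mem L hij hy')),
      hi j i hij.symm _ (stab_conj_mem L hij hx') _ (stab_conj_mem L hij hy'),
      hi i j hij _ hx' _ hy']

theorem stab_base (L : Loc R) {c0 : (Matrix (Fin 5) (Fin 5) R)ˣ → (Matrix (Fin 5) (Fin 5) R)ˣ → ℚ}
    (hi : ElInv L (Fin 5) c0) (e e' : Fin 5 ↪ ι) {x y x' y' : (Matrix (Fin 5) (Fin 5) R)ˣ}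
    (hx : x ∈ Gam L (Fin 5)) (hy : y ∈ Gam L (Fin 5)) (ex : extU e x = extU e' x')
    (ey : extU e y = extU e' y') : c0 x' y' = c0 x y := by
  let K := Finset.univ.map e ∩ Finset.univ.map e'
  let i : K ↪ ι := Function.Embedding.subtype _
  have hK : Finset.univ.map i = K := by
    ext a; simp [i]
  have hf : ∀ g : Fin 5 ↪ ι, K ⊆ Finset.univ.map g → ∃ f : K ↪ Fin 5, f.trans g = i := by
    intro g hg
    have : ∀ k : K, ∃ a, g a = k.1 := fun k => by simpa using hg k.2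
    choose f hf using this
    refine ⟨⟨f, fun a b hab => Subtype.ext ?_⟩, ?_⟩
    · rw [← hf a, ← hf b, hab]
    · ext k; exact hf k
  obtain ⟨f, hf1⟩ := hf e Finset.inter_subset_left
  obtain ⟨f', hf2⟩ := hf e' Finset.inter_subset_right
  obtain ⟨σ, hσ⟩ := Equiv.Perm.exists_extending_pair f f' f.injective f'.injective
  have key : ∀ z z' : (Matrix (Fin 5) (Fin 5) R)ˣ, extU e z = extU e' z' →
      z' = extU σ.toEmbedding z := by
    intro z z' h
    have h1 : extU e z ∈ Supp R (Finset.univ.map i) := by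
      rw [hK]
      exact stab_supp_inter ((extU_supp e _).2 ⟨z, rfl⟩) ((extU_supp e' _).2 ⟨z', h.symm⟩)
    obtain ⟨z0, hz0⟩ := (extU_supp i _).1 h1
    have h2 : extU f z0 = z := extU_injective e (by rw [extU_comp, hf1, hz0])
    have h3 : extU f' z0 = z' := extU_injective e' (by rw [extU_comp, hf2, hz0, h])
    rw [← h2, ← h3, extU_comp]
    congr 2
    ext k
    exact congrArg _ (hσ k).symm
  rw [key x x' ex, key y y' ey]
  exact stab_perm L hi (by simp) σ x hx y hy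

structure StabFam (L : Loc R) (c0 : (Matrix (Fin 5) (Fin 5) R)ˣ → (Matrix (Fin 5) (Fin 5) R)ˣ → ℚ)
    (r : ℕ) (c : Finset ι → (Matrix ι ι R)ˣ → (Matrix ι ι R)ˣ → ℚ) : Prop where
  can : ∀ J, J.card = r → IsCan (stabG L J) (c J)
  agree : ∀ J J', J.card = r → J'.card = r → ∀ x ∈ stabG L J, ∀ y ∈ stabG L J,
    x ∈ stabG L J' → y ∈ stabG L J' → c J x y = c J' x y
  inv : ∀ J, J.card = r → ∀ a ∈ J, ∀ b ∈ J, a ≠ b → ∀ x ∈ stabG L J, ∀ y ∈ stabG L J,
    c J (el a b 1 * x * (el a b 1)⁻¹) (el a b 1 * y * (el a b 1)⁻¹) = c J x y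
  ext : ∀ J, J.card = r → ∀ e : Fin 5 ↪ ι, Finset.univ.map e ⊆ J → ∀ x ∈ Gam L (Fin 5),
    ∀ y ∈ Gam L (Fin 5), c J (extU e x) (extU e y) = c0 x y

theorem stab_fam_five (L : Loc R)
    {c0 : (Matrix (Fin 5) (Fin 5) R)ˣ → (Matrix (Fin 5) (Fin 5) R)ˣ → ℚ}
    (h0 : IsCan (Gam L (Fin 5)) c0) (hi : ElInv L (Fin 5) c0) (h5 : 5 ≤ Fintype.card ι) :
    ∃ c : Finset ι → (Matrix ι ι R)ˣ → (Matrix ι ι R)ˣ → ℚ, StabFam L c0 5 c := by
  have hE : ∀ J : Finset ι, ∃ e : Fin 5 ↪ ι, J.card = 5 → Finset.univ.map e = J := by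
    intro J
    by_cases hJ : J.card = 5
    · refine ⟨(J.equivFinOfCardEq hJ).symm.toEmbedding.trans (Function.Embedding.subtype _),
        fun _ => ?_⟩
      rw [← Finset.map_map, Finset.map_univ_equiv]
      ext a; simp
    · obtain ⟨e⟩ := Function.Embedding.nonempty_of_card_le
        (show Fintype.card (Fin 5) ≤ Fintype.card ι by simpa using h5)
      exact ⟨e, fun h => absurd h hJ⟩
  choose E hE using hE
  let p : Finset ι → (Matrix ι ι R)ˣ → (Matrix (Fin 5) (Fin 5) R)ˣ :=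
    fun J => Function.invFun (extU (R := R) (E J))
  have hp : ∀ J z, p J (extU (E J) z) = z := fun J =>
    Function.leftInverse_invFun (extU_injective (E J))
  have hm : ∀ J, J.card = 5 → ∀ x ∈ stabG L J, ∃ z ∈ Gam L (Fin 5), extU (E J) z = x := by
    intro J hJ x hx
    obtain ⟨z, rfl⟩ := (extU_supp (E J) x).1 (by rw [hE J hJ]; exact hx.2)
    exact ⟨z, (ext_mem_iff L (by simp) _ z).1 hx.1, rfl⟩
  refine ⟨fun J x y => c0 (p J x) (p J y), fun J hJ => h0.comap (p J) ?_ ?_, ?_, ?_, ?_⟩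
  · intro x hx
    obtain ⟨z, hz, rfl⟩ := hm J hJ x hx
    rwa [hp]
  · intro x hx y hy
    obtain ⟨z, hz, rfl⟩ := hm J hJ x hx
    obtain ⟨w, hw, rfl⟩ := hm J hJ y hy
    rw [← map_mul, hp, hp, hp]
  · intro J J' hJ hJ' x hx y hy hx' hy'
    obtain ⟨z', hz', ez⟩ := hm J' hJ' x hx'
    obtain ⟨w', hw', ew⟩ := hm J' hJ' y hy'
    obtain ⟨z, hz, rfl⟩ := hm J hJ x hx
    obtain ⟨w, hw, rfl⟩ := hm J hJ y hy
    simp only [hp]
    rw [← ez, ← ew, hp, hp]
    exact stab_base L hi _ _ hz' hw' ez ew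
  · intro J hJ a ha b hb hab x hx y hy
    obtain ⟨z, hz, rfl⟩ := hm J hJ x hx
    obtain ⟨w, hw, rfl⟩ := hm J hJ y hy
    rw [← hE J hJ] at ha hb
    obtain ⟨a', -, rfl⟩ := Finset.mem_map.1 ha
    obtain ⟨b', -, rfl⟩ := Finset.mem_map.1 hb
    simp only [← extU_el, ← map_inv, ← map_mul, hp]
    exact hi a' b' (fun e => hab (by rw [e])) z hz w hw
  · intro J hJ e he x hx y hy
    have hG : ∀ z ∈ Gam L (Fin 5), extU e z ∈ stabG L J := fun z hz =>
      ⟨(ext_mem_iff L (by simp) e z).2 hz, stab_supp_mono he ((extU_supp e _).2 ⟨z, rfl⟩)⟩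
    obtain ⟨z, hz, ez⟩ := hm J hJ _ (hG x hx)
    obtain ⟨w, hw, ew⟩ := hm J hJ _ (hG y hy)
    rw [← ez, ← ew, hp, hp]
    exact stab_base L hi _ _ hx hy ez.symm ew.symm

theorem stab_sup (L : Loc R) {J K : Finset ι} (h2 : 2 ≤ K.card) (h3 : 3 ≤ J.card) :
    stabG L J ≤ ⨆ k : K, stabP L J {k.1} := by
  intro g hg
  obtain ⟨k1, h1, k2, h2', n12⟩ := Finset.one_lt_card.1 (show 1 < K.card from h2)
  obtain ⟨k, hkJ, hk⟩ := Finset.exists_mem_notMem_of_card_lt_card
    (show ({k1, k2} : Finset ι).card < J.card from lt_of_le_of_lt Finset.card_le_two (by omega))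
  simp only [Finset.mem_insert, Finset.mem_singleton, not_or] at hk
  have hι : 2 ≤ Fintype.card ι := le_trans (by omega) (Finset.card_le_univ J)
  obtain ⟨p, hp, q, hq, rfl⟩ :=
    factor L hι J {k1} {k2} (by simp [n12]) k hkJ (by simp [hk.1]) (by simp [hk.2]) hg
  exact mul_mem (le_iSup (fun k : K => stabP L J {k.1}) ⟨k1, h1⟩ hp)
    (le_iSup (fun k : K => stabP L J {k.1}) ⟨k2, h2'⟩ hq)

theorem stab_glue (L : Loc R)
    {c0 : (Matrix (Fin 5) (Fin 5) R)ˣ → (Matrix (Fin 5) (Fin 5) R)ˣ → ℚ} {r : ℕ} (hr : 5 ≤ r)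
    {c : Finset ι → (Matrix ι ι R)ˣ → (Matrix ι ι R)ˣ → ℚ} (h : StabFam L c0 r c)
    (J : Finset ι) (hJ : J.card = r + 1) :
    ∃ c' : (Matrix ι ι R)ˣ → (Matrix ι ι R)ˣ → ℚ, IsCan (stabG L J) c' ∧
      ∀ k ∈ J, ∀ x ∈ stabG L (J.erase k), ∀ y ∈ stabG L (J.erase k),
        c' x y = c (J.erase k) x y := by
  have hc : ∀ k ∈ J, (J.erase k).card = r := fun k hk => by
    rw [Finset.card_erase_of_mem hk, hJ]; rfl
  have hd : ∀ k : ι, ∃ d : (Matrix ι ι R)ˣ → (Matrix ι ι R)ˣ → ℚ, k ∈ J →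
      IsCan (stabP L J {k}) d ∧ ∀ x ∈ stabG L (J.erase k), ∀ y ∈ stabG L (J.erase k),
        d x y = c (J.erase k) x y := by
    intro k
    by_cases hk : k ∈ J
    · obtain ⟨lev, V, -, -, hmul, hmem, hid, -⟩ := exists_lev L J {k} (by simpa using hk)
      rw [Finset.sdiff_singleton_eq_erase] at hmem hid
      refine ⟨fun x y => c (J.erase k) (lev x) (lev y), fun _ =>
        ⟨(h.can _ (hc k hk)).comap lev hmem hmul, fun x hx y hy => ?_⟩⟩
      exact congrArg₂ (c (J.erase k)) (hid x hx) (hid y hy)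
    · exact ⟨fun _ _ => 0, fun h => absurd h hk⟩
  choose d hd using hd
  have hdd : ∀ k ∈ J, ∀ k' ∈ J, ∀ x ∈ stabP L J {k} ⊓ stabP L J {k'},
      ∀ y ∈ stabP L J {k} ⊓ stabP L J {k'}, d k x y = d k' x y := by
    intro k hk k' hk' x hx y hy
    have hm : ∀ z ∈ stabP L J {k} ⊓ stabP L J {k'}, z ∈ stabP L J {k, k'} := fun z hz =>
      ⟨hz.1.1, fun i j hj => by
        rcases Finset.mem_insert.1 hj with rfl | hj
        · exact hz.1.2 i j (Finset.mem_singleton_self _)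
        · exact hz.2.2 i j hj⟩
    refine stab_lev L (J := J) (T := {k, k'}) (by simp [Finset.insert_subset_iff, hk, hk'])
      ((hd k hk).1.mono (inf_le_inf_left _ (stab_fix_mono (by simp))))
      ((hd k' hk').1.mono (inf_le_inf_left _ (stab_fix_mono (by simp)))) ?_ x (hm x hx) y (hm y hy)
    intro x hx y hy
    have s1 : J \ {k, k'} ⊆ J.erase k := fun a ha => by
      simp only [Finset.mem_sdiff, Finset.mem_insert, Finset.mem_singleton, not_or] at ha
      simp [ha.1, ha.2.1]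
    have s2 : J \ {k, k'} ⊆ J.erase k' := fun a ha => by
      simp only [Finset.mem_sdiff, Finset.mem_insert, Finset.mem_singleton, not_or] at ha
      simp [ha.1, ha.2.2]
    rw [(hd k hk).2 x (stabG_mono L s1 hx) y (stabG_mono L s1 hy),
      (hd k' hk').2 x (stabG_mono L s2 hx) y (stabG_mono L s2 hy)]
    exact h.agree _ _ (hc k hk) (hc k' hk') x (stabG_mono L s1 hx) y (stabG_mono L s1 hy)
      (stabG_mono L s2 hx) (stabG_mono L s2 hy)
  obtain ⟨K1, hK1, c1⟩ := Finset.exists_subset_card_eq (show 3 ≤ J.card by omega)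
  obtain ⟨K2, hK2, c2⟩ := Finset.exists_subset_card_eq (show 2 ≤ (J \ K1).card by
    rw [Finset.card_sdiff_of_subset hK1]; omega)
  have hK2J : K2 ⊆ J := hK2.trans Finset.sdiff_subset
  obtain ⟨k6, hk6, hk6'⟩ := Finset.exists_mem_notMem_of_card_lt_card
    (show (K1 ∪ K2).card < J.card from lt_of_le_of_lt (Finset.card_union_le _ _) (by omega))
  rw [Finset.mem_union, not_or] at hk6'
  have hι : 2 ≤ Fintype.card ι := le_trans (by omega) (Finset.card_le_univ J)
  have n1 : Nonempty K1 := (Finset.card_pos.1 (by omega)).coe_sort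
  have n2 : Nonempty K2 := (Finset.card_pos.1 (by omega)).coe_sort
  obtain ⟨c', hc', hc''⟩ := can_exists (A := K1) (B := K2) (S := stabG L J)
    (fun k => stabP L J {k.1}) (fun k => stabP L J {k.1}) (fun _ => inf_le_left)
    (fun _ => inf_le_left) (stab_tors L inf_le_left) (fun k => d k.1) (fun k => d k.1)
    (fun k => (hd k.1 (hK1 k.2)).1) (fun k => (hd k.1 (hK2J k.2)).1)
    (fun i i' x hx y hy => hdd _ (hK1 i.2) _ (hK1 i'.2) x
      ⟨Subgroup.mem_iInf.1 hx i, Subgroup.mem_iInf.1 hx i'⟩ y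
      ⟨Subgroup.mem_iInf.1 hy i, Subgroup.mem_iInf.1 hy i'⟩)
    (fun i i' x hx y hy => hdd _ (hK2J i.2) _ (hK2J i'.2) x
      ⟨Subgroup.mem_iInf.1 hx i, Subgroup.mem_iInf.1 hx i'⟩ y
      ⟨Subgroup.mem_iInf.1 hy i, Subgroup.mem_iInf.1 hy i'⟩)
    (fun i j => hdd _ (hK1 i.2) _ (hK2J j.2))
    (fun g hg => by
      obtain ⟨p, hp, q, hq, e⟩ := factor L hι J K1 K2
        (Finset.disjoint_of_subset_right hK2 Finset.disjoint_sdiff) k6 hk6 hk6'.1 hk6'.2 hg
      exact ⟨p, Subgroup.mem_iInf.2 fun k => ⟨hp.1, stab_fix_mono (by simp) hp.2⟩,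
        q, Subgroup.mem_iInf.2 fun k => ⟨hq.1, stab_fix_mono (by simp) hq.2⟩, e⟩)
    (stab_sup L (by omega) (by omega)) (stab_sup L (by omega) (by omega))
  have h1 : ∀ k ∈ K1, ∀ x ∈ stabG L (J.erase k), ∀ y ∈ stabG L (J.erase k),
      c' x y = c (J.erase k) x y := by
    intro k hk x hx y hy
    have hle : stabG L (J.erase k) ≤ stabP L J {k} := by
      rw [← Finset.sdiff_singleton_eq_erase]; exact stabG_le_P L J {k}
    rw [hc'' ⟨k, hk⟩ x (hle hx) y (hle hy)]
    exact (hd k (hK1 hk)).2 x hx y hy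
  refine ⟨c', hc', fun k hk => ?_⟩
  by_cases hk1 : k ∈ K1
  · exact h1 k hk1
  · refine stab_uniq L (J := J.erase k) (K := K1)
      (fun a ha => Finset.mem_erase.2 ⟨fun e => hk1 (e ▸ ha), hK1 ha⟩)
      (by omega) (by rw [hc k hk]; omega) (hc'.mono (stabG_mono L (Finset.erase_subset _ _)))
      (h.can _ (hc k hk)) fun a ha x hx y hy => ?_
    have s1 : (J.erase k).erase a ⊆ J.erase a :=
      Finset.erase_subset_erase _ (Finset.erase_subset _ _)
    have s2 : (J.erase k).erase a ⊆ J.erase k := Finset.erase_subset _ _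
    rw [h1 a ha x (stabG_mono L s1 hx) y (stabG_mono L s1 hy)]
    exact h.agree _ _ (hc a (hK1 ha)) (hc k hk) x (stabG_mono L s1 hx) y (stabG_mono L s1 hy)
      (stabG_mono L s2 hx) (stabG_mono L s2 hy)

theorem stab_fam_succ (L : Loc R)
    {c0 : (Matrix (Fin 5) (Fin 5) R)ˣ → (Matrix (Fin 5) (Fin 5) R)ˣ → ℚ} {r : ℕ} (hr : 5 ≤ r)
    {c : Finset ι → (Matrix ι ι R)ˣ → (Matrix ι ι R)ˣ → ℚ} (h : StabFam L c0 r c) :
    ∃ c' : Finset ι → (Matrix ι ι R)ˣ → (Matrix ι ι R)ˣ → ℚ, StabFam L c0 (r + 1) c' := by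
  have hex : ∀ J : Finset ι, ∃ c' : (Matrix ι ι R)ˣ → (Matrix ι ι R)ˣ → ℚ, J.card = r + 1 →
      IsCan (stabG L J) c' ∧ ∀ k ∈ J, ∀ x ∈ stabG L (J.erase k), ∀ y ∈ stabG L (J.erase k),
        c' x y = c (J.erase k) x y := fun J => by
    by_cases hJ : J.card = r + 1
    · obtain ⟨c', hc'⟩ := stab_glue L hr h J hJ
      exact ⟨c', fun _ => hc'⟩
    · exact ⟨fun _ _ => 0, fun h => absurd h hJ⟩
  choose c' hc' using hex
  have hc : ∀ J : Finset ι, J.card = r + 1 → ∀ k ∈ J, (J.erase k).card = r := fun J hJ k hk => by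
    rw [Finset.card_erase_of_mem hk, hJ]; rfl
  refine ⟨c', fun J hJ => (hc' J hJ).1, ?_, ?_, ?_⟩
  · intro J J' hJ hJ' x hx y hy hx' hy'
    by_cases e : J = J'
    · rw [e]
    have hne : ∀ A B : Finset ι, A.card = B.card → A ≠ B → ∃ k ∈ A, A ∩ B ⊆ A.erase k := by
      intro A B hAB hne
      obtain ⟨k, hk, hk'⟩ := Finset.not_subset.1
        (fun hs : A ⊆ B => hne (Finset.eq_of_subset_of_card_le hs hAB.ge))
      exact ⟨k, hk, fun a ha => Finset.mem_erase.2
        ⟨fun e => hk' (e ▸ (Finset.mem_inter.1 ha).2), (Finset.mem_inter.1 ha).1⟩⟩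
    obtain ⟨k, hk, s1⟩ := hne J J' (hJ.trans hJ'.symm) e
    obtain ⟨k', hk', s2⟩ := hne J' J (hJ'.trans hJ.symm) (Ne.symm e)
    rw [Finset.inter_comm] at s2
    have x0 : x ∈ stabG L (J ∩ J') := ⟨hx.1, stab_supp_inter hx.2 hx'.2⟩
    have y0 : y ∈ stabG L (J ∩ J') := ⟨hy.1, stab_supp_inter hy.2 hy'.2⟩
    rw [(hc' J hJ).2 k hk x (stabG_mono L s1 x0) y (stabG_mono L s1 y0),
      (hc' J' hJ').2 k' hk' x (stabG_mono L s2 x0) y (stabG_mono L s2 y0)]
    exact h.agree _ _ (hc J hJ k hk) (hc J' hJ' k' hk') x (stabG_mono L s1 x0) y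
      (stabG_mono L s1 y0) (stabG_mono L s2 x0) (stabG_mono L s2 y0)
  · intro J hJ a ha b hb hab
    refine stab_uniq L (K := J \ {a, b}) Finset.sdiff_subset ?_ (by omega)
      ((hc' J hJ).1.comap (fun x => el a b 1 * x * (el a b 1)⁻¹)
        (fun x hx => stab_conj_G L hab ha hb hx) fun x _ y _ => by group) (hc' J hJ).1
      fun k hk x hx y hy => ?_
    · have := Finset.le_card_sdiff ({a, b} : Finset ι) J
      have := Finset.card_le_two (a := a) (b := b)
      omega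
    · simp only [Finset.mem_sdiff, Finset.mem_insert, Finset.mem_singleton, not_or] at hk
      have ha' : a ∈ J.erase k := Finset.mem_erase.2 ⟨Ne.symm hk.2.1, ha⟩
      have hb' : b ∈ J.erase k := Finset.mem_erase.2 ⟨Ne.symm hk.2.2, hb⟩
      rw [(hc' J hJ).2 k hk.1 _ (stab_conj_G L hab ha' hb' hx) _ (stab_conj_G L hab ha' hb' hy),
        (hc' J hJ).2 k hk.1 x hx y hy]
      exact h.inv _ (hc J hJ k hk.1) a ha' b hb' hab x hx y hy
  · intro J hJ e he x hx y hy
    obtain ⟨k, hk, hk'⟩ := Finset.exists_mem_notMem_of_card_lt_card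
      (show (Finset.univ.map e).card < J.card by simp; omega)
    have s1 : Finset.univ.map e ⊆ J.erase k := fun a ha =>
      Finset.mem_erase.2 ⟨fun e' => hk' (e' ▸ ha), he ha⟩
    have hG : ∀ z ∈ Gam L (Fin 5), extU e z ∈ stabG L (J.erase k) := fun z hz =>
      ⟨(ext_mem_iff L (by simp) e z).2 hz, stab_supp_mono s1 ((extU_supp e _).2 ⟨z, rfl⟩)⟩
    rw [(hc' J hJ).2 k hk _ (hG x hx) _ (hG y hy)]
    exact h.ext _ (hc J hJ k hk) e s1 x hx y hy

end aux

theorem stab (L : Loc R) (c0 : (Matrix (Fin 5) (Fin 5) R)ˣ → (Matrix (Fin 5) (Fin 5) R)ˣ → ℚ)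
    (h0 : IsCan (Gam L (Fin 5)) c0) (hi : ElInv L (Fin 5) c0) (ι : Type) [Fintype ι]
    [DecidableEq ι] (h5 : 5 ≤ Fintype.card ι) :
    ∃ c : (Matrix ι ι R)ˣ → (Matrix ι ι R)ˣ → ℚ, IsCan (Gam L ι) c ∧ ElInv L ι c ∧
      ∀ e : Fin 5 ↪ ι, ∀ x ∈ Gam L (Fin 5), ∀ y ∈ Gam L (Fin 5),
        c (extU e x) (extU e y) = c0 x y := by
  have key : ∀ r, 5 ≤ r → ∃ c : Finset ι → (Matrix ι ι R)ˣ → (Matrix ι ι R)ˣ → ℚ,
      StabFam L c0 r c := by
    intro r hr
    induction r, hr using Nat.le_induction with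
    | base => exact stab_fam_five L h0 hi h5
    | succ r hr ih => obtain ⟨c, hc⟩ := ih; exact stab_fam_succ L hr hc
  obtain ⟨c, hc⟩ := key _ h5
  have hle : Gam L ι ≤ stabG L Finset.univ := fun x hx => ⟨hx, fun i j hij => by simp at hij⟩
  exact ⟨c Finset.univ, (hc.can _ rfl).mono hle, fun a b hab x hx y hy =>
    hc.inv _ rfl a (Finset.mem_univ _) b (Finset.mem_univ _) hab x (hle hx) y (hle hy),
    fun e => hc.ext _ rfl e (Finset.subset_univ _)⟩

end Vale.Agent.P192
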