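import Mathlib

/-! Length preserving rewriting systems with zero, acting on intervals of `ℕ → X`. -/

namespace Vale.Agent.P192

/-- Unary and binary rules, unary and binary zero conditions. -/
structure Sys (X : Type) where
  s1 : X → X → Prop
  s2 : X → X → X → X → Prop
  z1 : X → Prop
  z2 : X → X → Prop

/-- Agreement on an interval. -/
def Agree {X : Type} (lo hi : ℕ) (f g : ℕ → X) : Prop := ∀ i, lo ≤ i → i < hi → f i = g i

/-- Exchange of the intervals `[p, p + l)` and `[q, q + l)`. -/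
def swapIdx (p q l : ℕ) (i : ℕ) : ℕ :=
  if p ≤ i ∧ i < p + l then i - p + q else if q ≤ i ∧ i < q + l then i - q + p else i

/-- Concatenation of a block of length `N` with a second word. -/
def cat {X : Type} (N : ℕ) (C D : ℕ → X) : ℕ → X := fun p => if p < N then C p else D (p - N)

namespace Sys

variable {X : Type} (S : Sys X)

/-- One rule application inside `[lo, hi)`. -/
def Step (lo hi : ℕ) (f g : ℕ → X) : Prop :=
  (∃ i, lo ≤ i ∧ i < hi ∧ S.s1 (f i) (g i) ∧ ∀ j, j ≠ i → g j = f j) ∨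
  (∃ i, lo ≤ i ∧ i + 1 < hi ∧ S.s2 (f i) (f (i + 1)) (g i) (g (i + 1)) ∧
    ∀ j, j ≠ i → j ≠ i + 1 → g j = f j)

/-- Equivalence generated by rule applications inside `[lo, hi)`. -/
def Eqv (lo hi : ℕ) : (ℕ → X) → (ℕ → X) → Prop := Relation.EqvGen (S.Step lo hi)

/-- A zero condition holds inside `[lo, hi)`. -/
def PZero (lo hi : ℕ) (f : ℕ → X) : Prop :=
  (∃ i, lo ≤ i ∧ i < hi ∧ S.z1 (f i)) ∨ (∃ i, lo ≤ i ∧ i + 1 < hi ∧ S.z2 (f i) (f (i + 1)))

/-- The word on `[lo, hi)` is zero. -/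
def Zero (lo hi : ℕ) (f : ℕ → X) : Prop := ∃ g, S.Eqv lo hi f g ∧ S.PZero lo hi g

/-- Equivalence of the words on `[lo, hi)`, ignoring the values outside. -/
def Sim (lo hi : ℕ) (f g : ℕ → X) : Prop := ∃ g', S.Eqv lo hi f g' ∧ Agree lo hi g' g

variable {S} {lo hi lo' hi' : ℕ} {f g h : ℕ → X}

theorem Eqv.refl (f : ℕ → X) : S.Eqv lo hi f f := Relation.EqvGen.refl f

theorem Eqv.symm (h : S.Eqv lo hi f g) : S.Eqv lo hi g f := Relation.EqvGen.symm _ _ h

theorem Eqv.trans (h1 : S.Eqv lo hi f g) (h2 : S.Eqv lo hi g h) : S.Eqv lo hi f h :=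
  Relation.EqvGen.trans _ _ _ h1 h2

theorem Step.eqv (h : S.Step lo hi f g) : S.Eqv lo hi f g := Relation.EqvGen.rel _ _ h

theorem Eqv.induct {Q : (ℕ → X) → Prop}
    (hQ : ∀ g g', Q g → (S.Step lo hi g g' ∨ S.Step lo hi g' g) → Q g') (h : S.Eqv lo hi f g) :
    Q f ↔ Q g := by
  induction h with
  | rel a b hab => exact ⟨fun h => hQ _ _ h (Or.inl hab), fun h => hQ _ _ h (Or.inr hab)⟩
  | refl => rfl
  | symm _ _ _ ih => exact ih.symm
  | trans _ _ _ _ _ ih1 ih2 => exact ih1.trans ih2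

theorem Step.mono (h : S.Step lo hi f g) (h1 : lo' ≤ lo) (h2 : hi ≤ hi') : S.Step lo' hi' f g := by
  rcases h with ⟨i, a, b, c⟩ | ⟨i, a, b, c⟩
  · exact Or.inl ⟨i, by omega, by omega, c⟩
  · exact Or.inr ⟨i, by omega, by omega, c⟩

theorem Eqv.mono (h : S.Eqv lo hi f g) (h1 : lo' ≤ lo) (h2 : hi ≤ hi') : S.Eqv lo' hi' f g := by
  induction h with
  | rel a b hab => exact (hab.mono h1 h2).eqv
  | refl => exact Eqv.refl _
  | symm _ _ _ ih => exact ih.symm
  | trans _ _ _ _ _ ih1 ih2 => exact ih1.trans ih2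

theorem PZero.mono (h : S.PZero lo hi f) (h1 : lo' ≤ lo) (h2 : hi ≤ hi') : S.PZero lo' hi' f := by
  rcases h with ⟨i, a, b, c⟩ | ⟨i, a, b, c⟩
  · exact Or.inl ⟨i, by omega, by omega, c⟩
  · exact Or.inr ⟨i, by omega, by omega, c⟩

theorem Zero.mono (h : S.Zero lo hi f) (h1 : lo' ≤ lo) (h2 : hi ≤ hi') : S.Zero lo' hi' f := by
  obtain ⟨g, a, b⟩ := h
  exact ⟨g, a.mono h1 h2, b.mono h1 h2⟩

theorem Step.frame (h : S.Step lo hi f g) {j : ℕ} (hj : j < lo ∨ hi ≤ j) : g j = f j := by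
  rcases h with ⟨i, a, b, _, c⟩ | ⟨i, a, b, _, c⟩
  · exact c j (by omega)
  · exact c j (by omega) (by omega)

theorem Eqv.frame (h : S.Eqv lo hi f g) {j : ℕ} (hj : j < lo ∨ hi ≤ j) : g j = f j := by
  induction h with
  | rel a b hab => exact hab.frame hj
  | refl => rfl
  | symm _ _ _ ih => exact ih.symm
  | trans _ _ _ _ _ ih1 ih2 => exact ih2.trans ih1

theorem PZero.zero (h : S.PZero lo hi f) : S.Zero lo hi f := ⟨f, Eqv.refl f, h⟩

theorem Zero.of_eqv (h : S.Eqv lo hi f g) (hz : S.Zero lo hi g) : S.Zero lo hi f := by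
  obtain ⟨k, a, b⟩ := hz
  exact ⟨k, h.trans a, b⟩

theorem zero1 {i : ℕ} (h1 : lo ≤ i) (h2 : i < hi) (h : S.z1 (f i)) : S.Zero lo hi f :=
  PZero.zero (Or.inl ⟨i, h1, h2, h⟩)

theorem zero2 {i : ℕ} (h1 : lo ≤ i) (h2 : i + 1 < hi) (h : S.z2 (f i) (f (i + 1))) :
    S.Zero lo hi f :=
  PZero.zero (Or.inr ⟨i, h1, h2, h⟩)

theorem step1 {i : ℕ} (h1 : lo ≤ i) (h2 : i < hi) {x : X} (h : S.s1 (f i) x) :
    S.Step lo hi f (Function.update f i x) :=
  Or.inl ⟨i, h1, h2, by simpa using h, fun j hj => by simp [hj]⟩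

theorem step1' {i : ℕ} (h1 : lo ≤ i) (h2 : i < hi) {x : X} (h : S.s1 x (f i)) :
    S.Step lo hi (Function.update f i x) f :=
  Or.inl ⟨i, h1, h2, by simpa using h, fun j hj => by simp [hj]⟩

theorem step2 {i : ℕ} (h1 : lo ≤ i) (h2 : i + 1 < hi) {x y : X}
    (h : S.s2 (f i) (f (i + 1)) x y) :
    S.Step lo hi f (Function.update (Function.update f i x) (i + 1) y) :=
  Or.inr ⟨i, h1, h2, by simpa using h, fun j hj hj' => by simp [hj, hj']⟩

theorem step2' {i : ℕ} (h1 : lo ≤ i) (h2 : i + 1 < hi) {x y : X}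
    (h : S.s2 x y (f i) (f (i + 1))) :
    S.Step lo hi (Function.update (Function.update f i x) (i + 1) y) f :=
  Or.inr ⟨i, h1, h2, by simpa using h, fun j hj hj' => by simp [hj, hj']⟩

/-- Replace the values outside the interval. -/
def patch (lo hi : ℕ) (g f : ℕ → X) : ℕ → X := fun i => if lo ≤ i ∧ i < hi then g i else f i

theorem Step.patch (h : S.Step lo hi f g) (k : ℕ → X) :
    S.Step lo hi (patch lo hi f k) (patch lo hi g k) := by
  rcases h with ⟨i, a, b, c, d⟩ | ⟨i, a, b, c, d⟩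
  · refine Or.inl ⟨i, a, b, by simpa [Sys.patch, a, b] using c, fun j hj => ?_⟩
    simp [Sys.patch, d j hj]
  · have e1 : lo ≤ i ∧ i < hi := ⟨a, by omega⟩
    have e2 : lo ≤ i + 1 ∧ i + 1 < hi := ⟨by omega, b⟩
    refine Or.inr ⟨i, a, b, by simpa [Sys.patch, e1, e2] using c, fun j hj hj' => ?_⟩
    simp [Sys.patch, d j hj hj']

theorem Eqv.patch (h : S.Eqv lo hi f g) (k : ℕ → X) :
    S.Eqv lo hi (patch lo hi f k) (patch lo hi g k) := by
  induction h with
  | rel a b hab => exact (hab.patch k).eqv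
  | refl => exact Eqv.refl _
  | symm _ _ _ ih => exact ih.symm
  | trans _ _ _ _ _ ih1 ih2 => exact ih1.trans ih2

theorem patch_eq (h : Agree lo hi f g) : patch lo hi f g = g := by
  funext i
  by_cases hi' : lo ≤ i ∧ i < hi
  · simp [patch, hi', h i hi'.1 hi'.2]
  · simp [patch, hi']

theorem patch_agree (f g : ℕ → X) : Agree lo hi (patch lo hi f g) f := by
  intro i a b; simp [patch, a, b]

theorem PZero.congr (h : S.PZero lo hi f) (hg : Agree lo hi f g) : S.PZero lo hi g := by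
  rcases h with ⟨i, a, b, c⟩ | ⟨i, a, b, c⟩
  · exact Or.inl ⟨i, a, b, hg i a b ▸ c⟩
  · exact Or.inr ⟨i, a, b, hg i a (by omega) ▸ hg (i + 1) (by omega) b ▸ c⟩

theorem Eqv.sim (h : S.Eqv lo hi f g) : S.Sim lo hi f g := ⟨g, h, fun _ _ _ => rfl⟩

theorem Sim.of_agree (h : Agree lo hi f g) : S.Sim lo hi f g := ⟨f, Eqv.refl f, h⟩

theorem Sim.refl (f : ℕ → X) : S.Sim lo hi f f := (Eqv.refl f).sim

theorem Sim.eqv_patch (h : S.Sim lo hi f g) : S.Eqv lo hi f (patch lo hi g f) := by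
  obtain ⟨g', a, b⟩ := h
  have := a.patch f
  rw [patch_eq (fun _ _ _ => rfl)] at this
  have e : patch lo hi g' f = patch lo hi g f := by
    funext i
    by_cases hi' : lo ≤ i ∧ i < hi
    · simp [patch, hi', b i hi'.1 hi'.2]
    · simp [patch, hi']
  rwa [e] at this

theorem Sim.eqv (h : S.Sim lo hi f g) (ho : ∀ j, (j < lo ∨ hi ≤ j) → g j = f j) :
    S.Eqv lo hi f g := by
  have := h.eqv_patch
  have e : patch lo hi g f = g := by
    funext i
    by_cases hi' : lo ≤ i ∧ i < hi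
    · simp [patch, hi']
    · simp only [patch, hi', if_false]; exact (ho i (by omega)).symm
  rwa [e] at this

theorem Sim.symm (h : S.Sim lo hi f g) : S.Sim lo hi g f := by
  obtain ⟨g', a, b⟩ := h
  have := (a.patch g).symm
  rw [patch_eq b] at this
  exact ⟨_, this, patch_agree _ _⟩

theorem Sim.trans (h1 : S.Sim lo hi f g) (h2 : S.Sim lo hi g h) : S.Sim lo hi f h := by
  obtain ⟨g', a, b⟩ := h1
  obtain ⟨h', c, d⟩ := h2
  have := c.patch g'
  rw [patch_eq (fun i x y => (b i x y).symm)] at this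
  exact ⟨_, a.trans this, fun i x y => (patch_agree _ _ i x y).trans (d i x y)⟩

theorem Sim.mono (h : S.Sim lo hi f g) (h1 : lo' ≤ lo) (h2 : hi ≤ hi')
    (ho : ∀ j, lo' ≤ j → j < hi' → (j < lo ∨ hi ≤ j) → g j = f j) : S.Sim lo' hi' f g := by
  refine ⟨_, h.eqv_patch.mono h1 h2, fun i a b => ?_⟩
  by_cases hi' : lo ≤ i ∧ i < hi
  · simp [patch, hi']
  · simp only [patch, hi', if_false]; exact (ho i a b (by omega)).symm

theorem Zero.of_sim (h : S.Sim lo hi f g) (hz : S.Zero lo hi g) : S.Zero lo hi f := by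
  obtain ⟨k, a, b⟩ := hz
  obtain ⟨k', c, d⟩ := h.trans a.sim
  exact ⟨k', c, b.congr (fun i x y => (d i x y).symm)⟩

theorem Zero.congr (hz : S.Zero lo hi f) (h : Agree lo hi f g) : S.Zero lo hi g :=
  Zero.of_sim (Sim.of_agree h).symm hz

theorem Step.unshift (s : ℕ) (h : S.Step (s + lo) (s + hi) f g) :
    S.Step lo hi (fun j => f (s + j)) (fun j => g (s + j)) := by
  rcases h with ⟨i, a, b, c, d⟩ | ⟨i, a, b, c, d⟩
  · obtain ⟨i, rfl⟩ : ∃ k, i = s + k := ⟨i - s, by omega⟩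
    exact Or.inl ⟨i, by omega, by omega, c, fun j hj => d _ (by omega)⟩
  · obtain ⟨i, rfl⟩ : ∃ k, i = s + k := ⟨i - s, by omega⟩
    exact Or.inr ⟨i, by omega, by omega, c, fun j hj hj' => d _ (by omega) (by omega)⟩

theorem Eqv.unshift (s : ℕ) (h : S.Eqv (s + lo) (s + hi) f g) :
    S.Eqv lo hi (fun j => f (s + j)) (fun j => g (s + j)) := by
  induction h with
  | rel a b hab => exact (hab.unshift s).eqv
  | refl => exact Eqv.refl _
  | symm _ _ _ ih => exact ih.symm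
  | trans _ _ _ _ _ ih1 ih2 => exact ih1.trans ih2

theorem Step.shift (s : ℕ) (k : ℕ → X) (h : S.Step lo hi f g) :
    S.Step (s + lo) (s + hi) (cat s k f) (cat s k g) := by
  rcases h with ⟨i, a, b, c, d⟩ | ⟨i, a, b, c, d⟩
  · refine Or.inl ⟨s + i, by omega, by omega, by simpa [cat] using c, fun j hj => ?_⟩
    by_cases hj' : j < s
    · simp [cat, hj']
    · simp only [cat, hj', if_false]; exact d _ (by omega)
  · refine Or.inr ⟨s + i, by omega, by omega, ?_, fun j hj hj2 => ?_⟩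
    · have e1 : ¬(s + i + 1 < s) := by omega
      have e2 : s + i + 1 - s = i + 1 := by omega
      simpa [cat, e1, e2] using c
    · by_cases hj' : j < s
      · simp [cat, hj']
      · simp only [cat, hj', if_false]; exact d _ (by omega) (by omega)

theorem Eqv.shift (s : ℕ) (k : ℕ → X) (h : S.Eqv lo hi f g) :
    S.Eqv (s + lo) (s + hi) (cat s k f) (cat s k g) := by
  induction h with
  | rel a b hab => exact (hab.shift s k).eqv
  | refl => exact Eqv.refl _
  | symm _ _ _ ih => exact ih.symm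
  | trans _ _ _ _ _ ih1 ih2 => exact ih1.trans ih2

theorem cat_self (s : ℕ) (f : ℕ → X) : cat s f (fun j => f (s + j)) = f := by
  funext p
  by_cases h : p < s
  · simp [cat, h]
  · simp only [cat, h, if_false]; congr 1; omega

theorem sim_shift (s : ℕ) :
    S.Sim (s + lo) (s + hi) f g ↔ S.Sim lo hi (fun j => f (s + j)) (fun j => g (s + j)) := by
  constructor
  · rintro ⟨g', a, b⟩
    exact ⟨_, a.unshift s, fun i x y => b _ (by omega) (by omega)⟩
  · rintro ⟨g', a, b⟩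
    have := a.shift s f
    rw [cat_self] at this
    refine ⟨_, this, fun i x y => ?_⟩
    have e : ¬ i < s := by omega
    simp only [cat, e, if_false]
    rw [b _ (by omega) (by omega)]
    have e' : s + (i - s) = i := by omega
    simp only [e']

theorem zero_shift (s : ℕ) :
    S.Zero (s + lo) (s + hi) f ↔ S.Zero lo hi (fun j => f (s + j)) := by
  constructor
  · rintro ⟨g, a, b⟩
    refine ⟨_, a.unshift s, ?_⟩
    rcases b with ⟨i, x, y, z⟩ | ⟨i, x, y, z⟩
    · obtain ⟨i, rfl⟩ : ∃ k, i = s + k := ⟨i - s, by omega⟩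
      exact Or.inl ⟨i, by omega, by omega, z⟩
    · obtain ⟨i, rfl⟩ : ∃ k, i = s + k := ⟨i - s, by omega⟩
      exact Or.inr ⟨i, by omega, by omega, z⟩
  · rintro ⟨g, a, b⟩
    have := a.shift s f
    rw [cat_self] at this
    refine ⟨_, this, ?_⟩
    rcases b with ⟨i, x, y, z⟩ | ⟨i, x, y, z⟩
    · exact Or.inl ⟨s + i, by omega, by omega, by simpa [cat] using z⟩
    · have e1 : ¬(s + i + 1 < s) := by omega
      have e2 : s + i + 1 - s = i + 1 := by omega
      exact Or.inr ⟨s + i, by omega, by omega, by simpa [cat, e1, e2] using z⟩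

end Sys

end Vale.Agent.P192
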