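import Vale.Agent.P192.Exch

/-! The tower of levels and the descent of an exchange. -/

namespace Vale.Agent.P192

open Sys

/-- Level sizes. -/
def Nl : ℕ → ℕ
  | 0 => 2
  | s + 1 => 2 ^ Nl s

theorem Nl_ge : ∀ s, 2 ≤ Nl s
  | 0 => le_rfl
  | s + 1 => by
    have := Nl_ge s
    calc 2 = 2 ^ 1 := rfl
      _ ≤ 2 ^ Nl s := Nat.pow_le_pow_right (by omega) (by omega)

/-- One level up. -/
noncomputable def up (s : ℕ) (x : Wd × ℕ) : Wd × ℕ :=
  (Phi (Nl s) (off x.1) x.1, upHi (Nl s) x.1 x.2)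

/-- Several levels up. -/
noncomputable def top : ℕ → ℕ → Wd × ℕ → Wd × ℕ
  | 0, _, x => x
  | h + 1, s, x => top h (s + 1) (up s x)

/-- All levels are nonzero and long. -/
def OK : ℕ → ℕ → Wd × ℕ → Prop
  | 0, s, x => ¬(sys (Nl s)).Zero 1 x.2 x.1
  | h + 1, s, x => ¬(sys (Nl s)).Zero 1 x.2 x.1 ∧ Nl s * 6 ≤ x.2 ∧ OK h (s + 1) (up s x)

/-- First descendant. -/
noncomputable def dL : ℕ → ℕ → Wd × ℕ → ℕ → ℕ
  | 0, _, _, e => e
  | h + 1, s, x, e => off x.1 + Nl s * dL h (s + 1) (up s x) e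

/-- Last descendant. -/
noncomputable def dR : ℕ → ℕ → Wd × ℕ → ℕ → ℕ
  | 0, _, _, e => e
  | h + 1, s, x, e => off x.1 + Nl s * dR h (s + 1) (up s x) e + (Nl s - 1)

/-- Length of the descendant block. -/
def len : ℕ → ℕ → ℕ → ℕ
  | 0, _, l => l
  | h + 1, s, l => Nl s * len h (s + 1) l

/-- Boundary types. -/
def Ty : ℕ → Type
  | 0 => Unit
  | h + 1 => (KF Pay × Core) × Ty h

/-- Left boundary type. -/
noncomputable def infoL : (h : ℕ) → ℕ → Wd × ℕ → ℕ → Ty h
  | 0, _, _, _ => ()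
  | h + 1, s, x, e => (ifc (cell (Nl s) (off x.1) x.1 (dL h (s + 1) (up s x) e)),
      infoL h (s + 1) (up s x) e)

/-- Right boundary type. -/
noncomputable def infoR : (h : ℕ) → ℕ → Wd × ℕ → ℕ → Ty h
  | 0, _, _, _ => ()
  | h + 1, s, x, e => (ifc (cell (Nl s) (off x.1) x.1 (dR h (s + 1) (up s x) e)),
      infoR h (s + 1) (up s x) e)

/-- No data link crosses the boundary at any level. -/
def Bd : ℕ → ℕ → Wd × ℕ → ℕ → Prop
  | 0, _, _, _ => True
  | h + 1, s, x, e => (keyOf (cell (Nl s) (off x.1) x.1 (dL h (s + 1) (up s x) e))).opent = none ∧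
      Bd h (s + 1) (up s x) e

theorem lev {h s : ℕ} {x : Wd × ℕ} (hx : OK (h + 1) s x) :
    (2 ≤ off x.1 ∧ off x.1 ≤ Nl s + 1 ∧ (x.1 (off x.1)).q.first = true ∧
      ∀ p, 1 < p → p < off x.1 → (x.1 p).q.first = false) ∧
    ∃ a b, a ≤ 1 ∧ (up s x).2 ≤ b ∧ off x.1 + Nl s * b < x.2 ∧
      Valid (Nl s) (off x.1) a b x.1 ∧ ¬(sys (2 ^ Nl s)).Zero a b (up s x).1 := by
  have := Nl_ge s
  exact ⟨off_spec hx.1 (by have := hx.2.1; omega),
    (up_auto (B := 2) (Nl_ge s) hx.1 hx.2.1 le_rfl).2⟩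

theorem dL_add : ∀ (h s : ℕ) (x : Wd × ℕ) (e l : ℕ), dL h s x (e + l) = dL h s x e + len h s l
  | 0, _, _, _, _ => rfl
  | h + 1, s, x, e, l => by
    simp only [dL, len]
    rw [dL_add h, Nat.mul_add, Nat.add_assoc]

theorem dR_succ : ∀ (h s : ℕ) (x : Wd × ℕ) (e : ℕ), dR h s x e + 1 = dL h s x (e + 1)
  | 0, _, _, _ => rfl
  | h + 1, s, x, e => by
    simp only [dL, dR]
    rw [← dR_succ h, Nat.mul_succ]
    have := Nl_ge s
    omega

theorem len_pos : ∀ (h s l : ℕ), 0 < l → 0 < len h s l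
  | 0, _, _, hl => hl
  | h + 1, s, l, hl => Nat.mul_pos (by have := Nl_ge s; omega) (len_pos h (s + 1) l hl)

theorem dL_lt (h s : ℕ) (x : Wd × ℕ) {e e' : ℕ} (he : e < e') : dL h s x e < dL h s x e' := by
  obtain ⟨d, rfl⟩ := Nat.exists_eq_add_of_lt he
  rw [Nat.add_assoc, dL_add]
  have := len_pos h s (d + 1) (by omega)
  omega

theorem dL_le (h s : ℕ) (x : Wd × ℕ) {e e' : ℕ} (he : e ≤ e') : dL h s x e ≤ dL h s x e' := by
  rcases Nat.eq_or_lt_of_le he with rfl | he
  · exact le_rfl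
  · exact (dL_lt h s x he).le

theorem le_dL : ∀ (h s : ℕ) (x : Wd × ℕ) (e : ℕ), e ≤ dL h s x e
  | 0, _, _, _ => le_rfl
  | h + 1, s, x, e => by
    simp only [dL]
    have h1 := le_dL h (s + 1) (up s x) e
    have h2 := Nat.mul_le_mul_right (dL h (s + 1) (up s x) e) (Nl_ge s)
    omega

theorem dL_le_dR (h s : ℕ) (x : Wd × ℕ) (e : ℕ) : dL h s x e ≤ dR h s x e := by
  have h1 := dR_succ h s x e
  have h2 := dL_lt h s x (Nat.lt_succ_self e)
  simp only [Nat.succ_eq_add_one] at h2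
  omega

theorem dR_lt : ∀ (h s : ℕ) (x : Wd × ℕ) (e : ℕ), OK h s x → e < (top h s x).2 → dR h s x e < x.2
  | 0, _, _, _, _, he => he
  | h + 1, s, x, e, hx, he => by
    obtain ⟨-, a, b, -, h2, h3, -⟩ := lev hx
    have h4 := dR_lt h (s + 1) (up s x) e hx.2.2 he
    have h5 := Nat.mul_le_mul_left (Nl s) (show dR h (s + 1) (up s x) e + 1 ≤ b by omega)
    rw [Nat.mul_succ] at h5
    simp only [dR]
    omega

theorem swap_dL : ∀ (h s : ℕ) (x : Wd × ℕ) (p q l e : ℕ),
    swapIdx (dL h s x p) (dL h s x q) (len h s l) (dL h s x e) = dL h s x (swapIdx p q l e)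
  | 0, _, _, _, _, _, _ => rfl
  | h + 1, s, x, p, q, l, e => by
    simp only [dL, len]
    rw [← swap_dL h]
    exact swapIdx_mul (j := 0) (by have := Nl_ge s; omega)

theorem swap_dR : ∀ (h s : ℕ) (x : Wd × ℕ) (p q l e : ℕ),
    swapIdx (dL h s x p) (dL h s x q) (len h s l) (dR h s x e) = dR h s x (swapIdx p q l e)
  | 0, _, _, _, _, _, _ => rfl
  | h + 1, s, x, p, q, l, e => by
    simp only [dL, dR, len]
    rw [← swap_dR h]
    exact swapIdx_mul (by have := Nl_ge s; omega)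

theorem tower_exch (p q l : ℕ) (hp : 2 ≤ p) (hl : 0 < l) (hpq : p + l < q) :
    ∀ (h s : ℕ) (x : Wd × ℕ) (f' : Wd), OK h s x → q + l < (top h s x).2 →
      infoL h s x p = infoL h s x q → infoR h s x (p + l - 1) = infoR h s x (q + l - 1) →
      Bd h s x p → Bd h s x (p + l) → Bd h s x (q + l) →
      Agree 1 x.2 f' (x.1 ∘ swapIdx (dL h s x p) (dL h s x q) (len h s l)) →
      dL h s (f', x.2) = dL h s x ∧ dR h s (f', x.2) = dR h s x ∧
      (top h s (f', x.2)).2 = (top h s x).2 ∧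
      Agree 1 (top h s x).2 (top h s (f', x.2)).1 ((top h s x).1 ∘ swapIdx p q l) ∧
      (∀ e, 1 ≤ e → e < (top h s x).2 →
        infoL h s (f', x.2) e = infoL h s x (swapIdx p q l e) ∧
        infoR h s (f', x.2) e = infoR h s x (swapIdx p q l e)) ∧
      ((sys (Nl (s + h))).Sim 1 (top h s x).2 (top h s x).1 ((top h s x).1 ∘ swapIdx p q l) →
        (sys (Nl s)).Sim 1 x.2 x.1 f') := by
  intro h
  induction h with
  | zero =>
    intro s x f' _ _ _ _ _ _ _ hf
    exact ⟨rfl, rfl, rfl, hf, fun _ _ _ => ⟨rfl, rfl⟩,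
      fun hs => hs.trans (Sim.of_agree hf).symm⟩
  | succ h ih =>
    intro s x f' hx hq e1 e2 b1 b2 b3 hf
    obtain ⟨⟨o1, o2, o3, o4⟩, a, b, ha, hb1, hb2, hv, hz⟩ := lev hx
    have hN := Nl_ge s
    simp only [top, dL, len, infoL, infoR, Bd] at hq e1 e2 b1 b2 b3 hf
    set y := up s x with hy
    set p' := dL h (s + 1) y p with hp'
    set q' := dL h (s + 1) y q with hq'
    set l' := len h (s + 1) l with hl'
    set N := Nl s with hNd
    set o := off x.1 with ho
    have r1 : 2 ≤ p' := hp.trans (le_dL _ _ _ _)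
    have r2 : p' + l' < q' := by rw [hp', hl', ← dL_add]; exact dL_lt _ _ _ hpq
    have r3 : q' + l' < y.2 := by
      rw [hq', hl', ← dL_add]
      exact (dL_le_dR _ _ _ _).trans_lt (dR_lt _ _ _ _ hx.2.2 hq)
    have r4 : 0 < l' := len_pos _ _ _ hl
    have m1 : N * 2 ≤ N * p' := Nat.mul_le_mul_left N r1
    have m2 : N * p' ≤ N * q' := Nat.mul_le_mul_left N (by omega)
    have m3 : N * (q' + l') ≤ N * b := Nat.mul_le_mul_left N (by omega)
    rw [Nat.mul_add] at m3
    have hlow : ∀ i, 1 ≤ i → i < x.2 → (i < o + N * p' ∨ o + N * q' + N * l' ≤ i) →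
        f' i = x.1 i := by
      intro i u v w
      have m4 : N * (p' + l') ≤ N * q' := Nat.mul_le_mul_left N (by omega)
      rw [Nat.mul_add] at m4
      rw [hf i u v, Function.comp, swapIdx_out (by omega) (by omega)]
    have hoff : off f' = o := by
      refine off_eq o1 ?_ fun i u v => ?_
      · rw [hlow o (by omega) (by omega) (by omega)]; exact o3
      · rw [hlow i (by omega) (by omega) (by omega)]; exact o4 i u v
    have d1 : dR h (s + 1) y (p + l - 1) = p' + l' - 1 := by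
      have := dR_succ h (s + 1) y (p + l - 1)
      rw [show p + l - 1 + 1 = p + l by omega, dL_add] at this
      omega
    have d2 : dR h (s + 1) y (q + l - 1) = q' + l' - 1 := by
      have := dR_succ h (s + 1) y (q + l - 1)
      rw [show q + l - 1 + 1 = q + l by omega, dL_add] at this
      omega
    have f1 := (Prod.ext_iff.1 e1).1
    have f2 := (Prod.ext_iff.1 e2).1
    simp only [d1, d2] at f1 f2
    obtain ⟨v1, v2, v3⟩ := exch (g := f') (p := p') (q := q') (l := l') hv (by omega) r4 r2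
      (by omega) f1 f2 b1.1 (by rw [hp', hl', ← dL_add]; exact b2.1)
      (by rw [hq', hl', ← dL_add]; exact b3.1) (by
        intro i u v j hj
        have m5 : N * (i + 1) ≤ N * b := Nat.mul_le_mul_left N (by omega)
        rw [Nat.mul_succ] at m5
        unfold cell
        rw [hf _ (by omega) (by omega), Function.comp, swapIdx_mul hj])
    have hup : up s (f', x.2) = (Phi N o f', y.2) := by
      simp only [up, hy, upHi, hoff, hNd, ho]
    obtain ⟨i1, i2, i3, i4, i5, i6⟩ := ih (s + 1) y (Phi N o f') hx.2.2 hq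
      (Prod.ext_iff.1 e1).2 (Prod.ext_iff.1 e2).2 b1.2 b2.2 b3.2
      (fun i u v => v2 i (by omega) (by omega))
    refine ⟨?_, ?_, ?_, ?_, ?_, ?_⟩
    · funext e; simp only [dL, hup, hoff, i1]; rfl
    · funext e; simp only [dR, hup, hoff, i2]; rfl
    · simp only [top, hup]; exact i3
    · simp only [top, hup]; exact i4
    · intro e u v
      simp only [top] at v
      have g1 := le_dL h (s + 1) y e
      have g2 := dL_le_dR h (s + 1) y e
      have g3 := dR_lt h (s + 1) y e hx.2.2 v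
      simp only [infoL, infoR, hup, hoff, i1, i2]
      rw [(i5 e u v).1, (i5 e u v).2, v3 _ (by omega) (by omega), v3 _ (by omega) (by omega),
        swap_dL, swap_dR]
      exact ⟨rfl, rfl⟩
    · intro hs
      simp only [top] at hs
      rw [show s + (h + 1) = s + 1 + h by omega] at hs
      have h1 : (sys (2 ^ N)).Sim a b (Phi N o x.1) (Phi N o f') := by
        refine (i6 hs).mono ha hb1 fun j u v w => ?_
        rw [v2 j u v, Function.comp, swapIdx_out (by omega) (by omega)]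
        rfl
      have m6 : N * a ≤ N * 1 := Nat.mul_le_mul_left N ha
      refine (down hN (by omega) hv v1 hz h1).mono (by omega) (by omega) fun j u v w => ?_
      exact hlow j u v (by omega)

/-- The deepest component of a boundary type. -/
def lastI : (h : ℕ) → Ty (h + 1) → KF Pay × Core
  | 0, z => z.1
  | h + 1, z => lastI h z.2

theorem lastI_infoL : ∀ (h s : ℕ) (x : Wd × ℕ) (e : ℕ), lastI h (infoL (h + 1) s x e) =
    ifc (cell (Nl (s + h)) (off (top h s x).1) (top h s x).1 e)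
  | 0, _, _, _ => rfl
  | h + 1, s, x, e => by
    have := lastI_infoL h (s + 1) (up s x) e
    rw [show s + 1 + h = s + (h + 1) by omega] at this
    exact this

theorem top_succ : ∀ (h s : ℕ) (x : Wd × ℕ), top (h + 1) s x = up (s + h) (top h s x)
  | 0, _, _ => rfl
  | h + 1, s, x => by
    have := top_succ h (s + 1) (up s x)
    rw [show s + 1 + h = s + (h + 1) by omega] at this
    exact this

theorem OK_top : ∀ (h k s : ℕ) (x : Wd × ℕ), OK (h + k) s x → OK k (s + h) (top h s x)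
  | 0, k, s, x, hx => by simpa [top] using hx
  | h + 1, k, s, x, hx => by
    rw [show h + 1 + k = h + k + 1 by omega] at hx
    have := OK_top h k (s + 1) (up s x) hx.2.2
    rw [show s + 1 + h = s + (h + 1) by omega] at this
    exact this

theorem bd_of_top (e : ℕ) (he : 2 ≤ e) : ∀ (h s : ℕ) (x : Wd × ℕ), OK (h + 1) s x →
    e < (top (h + 1) s x).2 → (lastI h (infoL (h + 1) s x e)).1.opent = none → Bd (h + 1) s x e
  | 0, _, _, _, _, ho => ⟨ho, trivial⟩
  | h + 1, s, x, hx, ht, ho => by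
    refine ⟨?_, bd_of_top e he h (s + 1) (up s x) hx.2.2 ht ho⟩
    obtain ⟨-, a, b, ha, hb1, -, hv, -⟩ := lev hx
    obtain ⟨⟨o1, -⟩, a', b', ha', hb1', -, hv', -⟩ := lev hx.2.2
    have g1 := le_dL h (s + 1 + 1) (up (s + 1) (up s x)) e
    have g2 := dL_le_dR h (s + 1 + 1) (up (s + 1) (up s x)) e
    have g3 := dR_lt h (s + 1 + 1) (up (s + 1) (up s x)) e hx.2.2.2.2 ht
    have g4 := dL_le_dR (h + 1) (s + 1) (up s x) e
    have g5 := dR_lt (h + 1) (s + 1) (up s x) e hx.2.2 ht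
    have hN := Nl_ge (s + 1)
    obtain ⟨e2, he2⟩ : ∃ e2, dL h (s + 1 + 1) (up (s + 1) (up s x)) e = e2 + 1 :=
      ⟨dL h (s + 1 + 1) (up (s + 1) (up s x)) e - 1, by omega⟩
    obtain ⟨e1, he1⟩ : ∃ e1, dL (h + 1) (s + 1) (up s x) e = e1 + 1 :=
      ⟨dL (h + 1) (s + 1) (up s x) e - 1, by simp only [dL]; omega⟩
    have he3 : e1 + 1 = off (up s x).1 + Nl (s + 1) * (e2 + 1) := by rw [← he1, ← he2]; rfl
    obtain ⟨t1, c1⟩ := hv'.cv (e2 + 1) (by omega) (by omega)
    obtain ⟨t2, c2⟩ := hv'.cv e2 (by omega) (by omega)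
    have k1 : ((up s x).1 (e1 + 1)).q.first = true := by
      have := c1.first 0 (by omega)
      rw [he3]; simpa [cell] using this
    have k2 : ((up s x).1 e1).q.last = true := by
      have := c2.last (Nl (s + 1) - 1) (by omega)
      have e4 : e1 = off (up s x).1 + Nl (s + 1) * e2 + (Nl (s + 1) - 1) := by
        rw [Nat.mul_succ] at he3; omega
      rw [e4]
      unfold cell at this
      rw [this]
      simp only [decide_eq_true_eq]
      omega
    rw [he1] at g4 ⊢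
    have g6 : 1 ≤ e1 := by omega
    obtain ⟨t3, c3⟩ := hv.cv e1 (by omega) (by omega)
    obtain ⟨t4, c4⟩ := hv.cv (e1 + 1) (by omega) (by omega)
    exact not_open c3.ca c4.ca (hv.pv e1 (by omega) (by omega)).1 k2 k1

theorem exists_OK : ∀ (h s B : ℕ), ∃ L0, ∀ x : Wd × ℕ, L0 ≤ x.2 →
    ¬(sys (Nl s)).Zero 1 x.2 x.1 → OK h s x ∧ B ≤ (top h s x).2
  | 0, _, B => ⟨B, fun _ h1 h2 => ⟨h2, h1⟩⟩
  | h + 1, s, B => by
    obtain ⟨L1, hL⟩ := exists_OK h (s + 1) B
    refine ⟨Nl s * (L1 + 2 + 4), fun x h1 h2 => ?_⟩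
    obtain ⟨u1, a, b, ha, hb, -, -, hz⟩ := up_auto (Nl_ge s) h2 h1 (by omega)
    obtain ⟨w1, w2⟩ := hL (up s x) (by simp only [up]; omega)
      (fun h' => hz (h'.mono ha hb))
    refine ⟨⟨h2, le_trans (Nat.mul_le_mul_left _ (by omega)) h1, w1⟩, w2⟩

end Vale.Agent.P192
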