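import Vale.Agent.P192.Fin

/-! Valid cells, valid pairs of cells and the decoding map. -/

namespace Vale.Agent.P192

namespace RegG
variable {P : Type} (q : RegG P)
@[simp] theorem setL_first (l v) : (q.setL l v).first = q.first := by cases l <;> rfl
@[simp] theorem setL_last (l v) : (q.setL l v).last = q.last := by cases l <;> rfl
@[simp] theorem setL_kf (l v) : (q.setL l v).kf = q.kf := by cases l <;> rfl
@[simp] theorem setL_tf (l v) : (q.setL l v).tf = q.tf := by cases l <;> rfl
@[simp] theorem setL_doom (l v) : (q.setL l v).doom = q.doom := by cases l <;> rfl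
@[simp] theorem lane_setL (l v) : (q.setL l v).lane l = v := by cases l <;> rfl
theorem lane_setL_ne {l l' : Lane} (h : l' ≠ l) (v) : (q.setL l v).lane l' = q.lane l' := by
  cases l <;> cases l' <;> first | rfl | exact absurd rfl h
@[simp] theorem setL_lane (l) : q.setL l (q.lane l) = q := by cases l <;> rfl
@[simp] theorem setL_setL (l v v') : (q.setL l v).setL l v' = q.setL l v' := by cases l <;> rfl
@[simp] theorem lane_d : q.lane .d = q.d := rfl
@[simp] theorem lane_b : q.lane .b = q.b := rfl
@[simp] theorem lane_u : q.lane .u = q.u := rfl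
@[simp] theorem setL_d_d (v) : (q.setL .d v).d = v := rfl
@[simp] theorem setL_d_b (v) : (q.setL .d v).b = q.b := rfl
@[simp] theorem setL_d_u (v) : (q.setL .d v).u = q.u := rfl
@[simp] theorem setL_b_d (v) : (q.setL .b v).d = q.d := rfl
@[simp] theorem setL_b_b (v) : (q.setL .b v).b = v := rfl
@[simp] theorem setL_b_u (v) : (q.setL .b v).u = q.u := rfl
@[simp] theorem setL_u_d (v) : (q.setL .u v).d = q.d := rfl
@[simp] theorem setL_u_b (v) : (q.setL .u v).b = q.b := rfl
@[simp] theorem setL_u_u (v) : (q.setL .u v).u = v := rfl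
@[simp] theorem setL_trk_u (t : Trk) (v) : (q.setL t.lane v).u = q.u := by cases t <;> rfl
@[simp] theorem setL_u_trk (t : Trk) (v) : (q.setL .u v).lane t.lane = q.lane t.lane := by
  cases t <;> rfl
@[simp] theorem key_first (t) : (q.key t).first = q.first := rfl
@[simp] theorem key_last (t) : (q.key t).last = q.last := rfl
@[simp] theorem key_kf (t) : (q.key t).kf = .sm t := rfl
@[simp] theorem key_tf (t) : (q.key t).tf = q.tf := rfl
@[simp] theorem key_d (t) : (q.key t).d = q.d := rfl
@[simp] theorem key_b (t) : (q.key t).b = q.b := rfl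
@[simp] theorem key_u (t) : (q.key t).u = q.u := rfl
@[simp] theorem key_doom (t) : (q.key t).doom = q.doom := rfl
@[simp] theorem key_lane (t l) : (q.key t).lane l = q.lane l := by cases l <;> rfl
@[simp] theorem full_first (t p) : (q.full t p).first = q.first := rfl
@[simp] theorem full_last (t p) : (q.full t p).last = q.last := rfl
@[simp] theorem full_kf (t p) : (q.full t p).kf = .fu t p := rfl
@[simp] theorem full_tf (t p) : (q.full t p).tf = q.tf := rfl
@[simp] theorem full_d (t p) : (q.full t p).d = q.d := rfl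
@[simp] theorem full_b (t p) : (q.full t p).b = q.b := rfl
@[simp] theorem full_u (t p) : (q.full t p).u = q.u := rfl
@[simp] theorem full_doom (t p) : (q.full t p).doom = q.doom := rfl
@[simp] theorem full_lane (t p l) : (q.full t p).lane l = q.lane l := by cases l <;> rfl
@[simp] theorem dm_first : q.dm.first = q.first := rfl
@[simp] theorem dm_last : q.dm.last = q.last := rfl
@[simp] theorem dm_doom : q.dm.doom = true := rfl
@[simp] theorem setT_first (t) : (q.setT t).first = q.first := rfl
@[simp] theorem setT_last (t) : (q.setT t).last = q.last := rfl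
@[simp] theorem setT_kf (t) : (q.setT t).kf = q.kf := rfl
@[simp] theorem setT_tf (t) : (q.setT t).tf = t := rfl
@[simp] theorem setT_d (t) : (q.setT t).d = q.d := rfl
@[simp] theorem setT_b (t) : (q.setT t).b = q.b := rfl
@[simp] theorem setT_u (t) : (q.setT t).u = q.u := rfl
@[simp] theorem setT_doom (t) : (q.setT t).doom = q.doom := rfl
@[simp] theorem setT_lane (t l) : (q.setT t).lane l = q.lane l := by cases l <;> rfl
@[simp] theorem swapU_first (t) : (q.swapU t).first = q.first := by cases t <;> rfl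
@[simp] theorem swapU_last (t) : (q.swapU t).last = q.last := by cases t <;> rfl
@[simp] theorem swapU_kf (t) : (q.swapU t).kf = q.kf := by cases t <;> rfl
@[simp] theorem swapU_tf (t) : (q.swapU t).tf = q.tf := by cases t <;> rfl
@[simp] theorem swapU_doom (t) : (q.swapU t).doom = q.doom := by cases t <;> rfl
@[simp] theorem swapU_u (t : Trk) : (q.swapU t).u = q.lane t.lane := by cases t <;> rfl
@[simp] theorem swapU_lane (t : Trk) : (q.swapU t).lane t.lane = q.u := by cases t <;> rfl
@[simp] theorem swapU_swapU (t : Trk) : (q.swapU t).swapU t = q := by cases t <;> rfl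
@[simp] theorem era_first : q.era.first = q.first := rfl
@[simp] theorem era_last : q.era.last = q.last := rfl
@[simp] theorem era_kf : q.era.kf = q.kf.era := rfl
@[simp] theorem era_tf : q.era.tf = q.tf := rfl
@[simp] theorem era_d : q.era.d = q.d := rfl
@[simp] theorem era_b : q.era.b = q.b := rfl
@[simp] theorem era_u : q.era.u = q.u := rfl
@[simp] theorem era_doom : q.era.doom = q.doom := rfl
end RegG

namespace KF
variable {P : Type} (k : KF P)
@[simp] theorem era_isKey : k.era.isKey ↔ k.isKey := by cases k <;> rfl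
@[simp] theorem era_eq_R : k.era = .R ↔ k = .R := by cases k <;> simp [era]
@[simp] theorem era_eq_L : k.era = .L ↔ k = .L := by cases k <;> simp [era]
@[simp] theorem era_eq_sm (t : Tag) : k.era = .sm t ↔ k = .sm t := by cases k <;> simp [era]
@[simp] theorem era_clsL : k.era.clsL = k.clsL := by
  cases k with
  | sm t => cases t <;> rfl
  | fu pt p => cases pt <;> rfl
  | _ => rfl
@[simp] theorem era_clsR : k.era.clsR = k.clsR := by
  cases k with
  | sm t => cases t <;> rfl
  | fu pt p => cases pt <;> rfl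
  | _ => rfl
theorem cls_zero : k.clsL = 0 ∨ k.clsR = 0 := by
  cases k with
  | sm t => cases t <;> simp [clsL, clsR]
  | fu pt p => cases pt <;> simp [clsL, clsR]
  | _ => simp [clsL]
theorem opent_of_clsR (h : k.clsR = 0) : k.opent = none := by
  cases k with
  | sm t => cases t <;> simp_all [opent, clsR]
  | _ => rfl
end KF

@[simp] theorem compatA_era {P : Type} (k : KF P) (c : Core) : compatA k.era c ↔ compatA k c := by
  cases k with
  | sm t => cases t <;> rfl
  | fu pt p => cases pt <;> rfl
  | _ => rfl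

@[simp] theorem src_first (t : Tag) (q : Reg) : (src t q).first = q.first := by
  unfold src; split <;> (try split_ifs) <;> simp

@[simp] theorem src_last (t : Tag) (q : Reg) : (src t q).last = q.last := by
  unfold src; split <;> (try split_ifs) <;> simp

@[simp] theorem unext_first (κ : Kind) (q : Reg) (p : Pay) : (unext κ q p).first = q.first := by
  unfold unext; split <;> (try split_ifs) <;> simp

@[simp] theorem unext_last (κ : Kind) (q : Reg) (p : Pay) : (unext κ q p).last = q.last := by
  unfold unext; split <;> (try split_ifs) <;> simp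

@[simp] theorem ins_first (κ : Kind) (q : Reg) (p : Pay) : (ins κ q p).first = q.first := by
  unfold ins; split <;> (try split_ifs) <;> simp

@[simp] theorem ins_last (κ : Kind) (q : Reg) (p : Pay) : (ins κ q p).last = q.last := by
  unfold ins; split <;> (try split_ifs) <;> simp

@[simp] theorem merge_first (ph o ro) (q : Reg) (p : Pay) :
    (merge ph o ro q p).first = q.first := by
  unfold merge; split <;> (try split_ifs) <;> simp

@[simp] theorem merge_last (ph o ro) (q : Reg) (p : Pay) :
    (merge ph o ro q p).last = q.last := by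
  unfold merge; split <;> (try split_ifs) <;> simp

/-- Value of a little endian list of bits. -/
def bval : List Bool → ℕ
  | [] => 0
  | β :: l => β.toNat + 2 * bval l

/-- A valid cell of size `N` with key at `k`, token at `t` and core `c`. -/
structure CV (N : ℕ) (C : Wd) (k t : ℕ) (c : Core) : Prop where
  hk : k < N
  ht : t < N
  doom : ∀ j < N, (C j).q.doom = false
  first : ∀ j < N, (C j).q.first = decide (j = 0)
  last : ∀ j < N, (C j).q.last = decide (j + 1 = N)
  kR : ∀ j < k, (C j).q.kf = .R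
  kL : ∀ j < N, k < j → (C j).q.kf = .L
  kK : (C k).q.kf.isKey
  tR : ∀ j < t, (C j).q.tf = .R
  tL : ∀ j < N, t < j → (C j).q.tf = .L
  tK : ((C t).q.tf = .A ∧ (C t).n = t) ∨ ((C t).q.tf = .B ∧ (C t).n = t + 1 ∧ t + 1 < N)
  n0 : ∀ j < N, j ≠ t → (C j).n = 0
  alt : ∀ j < N, (C j).a < N
  ainj : ∀ i < N, ∀ j < N, (C i).a = (C j).a → i = j
  ocm : ∀ j, 0 < j → j + 1 < N → (C j).oc = none
  oc0 : (C 0).oc = some c
  ca : compatA (C k).q.kf c
  uF : (C k).q.kf.isF → ∀ j < k, (C j).q.u ≠ none
  uE : (C k).q.kf = .sm .opnL → ∀ j < k, (C j).q.u = none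
  uO : ¬(C k).q.kf.isF → (C k).q.kf ≠ .sm .opnL → ∀ j < N, (C j).q.u = none
  uS : ∀ κ ph q, c = .LS κ ph .L q → κ.trk = none → ∀ j < N, (C j).q.u = none
  uQ : (C k).q.kf = .sm (.wrk .eq) → ∀ j < k, (C j).q.u = (C j).q.d
  hol : ∀ tr : Trk, (C k).q.kf.opent ≠ some tr → ∀ j < N, (C j).q.lane tr.lane ≠ none
  bC : ((C k).q.kf = .sm .car ∨ (C k).q.kf = .sm .ret) → ∀ j < k, (C j).q.b = some false

/-- The upper lane with the work already done undone. -/
def vu (C : Wd) (k j : ℕ) : Option Bool :=
  if j < k ∧ (C k).q.kf = .sm (.wrk (.sw .d)) then (C j).q.d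
  else if j < k ∧ (C k).q.kf = .sm (.wrk (.sw .b)) then (C j).q.b
  else (C j).q.u

/-- A track with the work already done undone. -/
def vt (C : Wd) (k : ℕ) (t : Trk) (j : ℕ) : Option Bool :=
  if j < k ∧ (C k).q.kf = .sm (.wrk (.sw t)) then (C j).q.u
  else if j < k ∧ (C k).q.kf = .sm .car ∧ t = .b then some true
  else (C j).q.lane t.lane

/-- Bits in the upper lane. -/
def Ul (N : ℕ) (C : Wd) (k : ℕ) : List Bool := (List.range N).filterMap (vu C k)

/-- Bits in a track. -/
def Tl (N : ℕ) (C : Wd) (k : ℕ) (t : Trk) : List Bool := (List.range N).filterMap (vt C k t)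

/-- Consistency of the keys and cores of two adjacent cells. -/
def PV (m : KF Pay) (c : Core) (m' : KF Pay) (c' : Core) : Prop :=
  (m.clsL = 0 ∧ m'.clsR = 0) ∨
  (∃ κ ph q, c = .LS κ ph .L q ∧ m = .sm .half ∧
    (m' = .sm (.got κ ph) ∨ ∃ r, m' = .sm (.acc κ.trk) ∧ c' = .LS κ ph .R r)) ∨
  (∃ κ ph q ph' r, c = .LS κ ph .L q ∧ c' = .LS κ ph' .R r ∧ m.clsL = 2 ∧ m'.clsR = 2 ∧
    ((¬m.isW ∧ ¬m'.isW ∧ ph = ph') ∨ (m.isW ∧ ¬m'.isW ∧ ph' = .A) ∨
      (¬m.isW ∧ m'.isW ∧ ph = .B ∧ (κ = .chk → ∀ p, m' = .fu .respR p → p = .era q.era))))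

/-- A valid pair of adjacent cells. -/
def PairV (N : ℕ) (C : Wd) (k : ℕ) (c : Core) (D : Wd) (k' : ℕ) (c' : Core) : Prop :=
  PV (C k).q.kf c (D k').q.kf c' ∧
    (Ul N C k).length + (Tl N D k' .d).length + (Tl N D k' .b).length = 2 * N

/-- The decoded register. -/
noncomputable def phiq : KF Pay → Core → Reg
  | .fu .respL p, .LS κ _ _ q => unext κ q p
  | .fu .respR p, .LS κ _ _ q => ins κ q p
  | .sm (.wrk _), .LS κ _ _ q => unext κ q .unit
  | .sm (.dresp _), .LS κ _ _ q => ins κ q .unit
  | _, .LS _ _ _ q => q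
  | .sm .ret, .LC q => q.setT .B
  | _, .LC q => q
  | .fu (.tr ph _) p, .LA1 o ro q => merge ph o ro q p
  | _, .LA1 _ _ q => q
  | _, .LA0 _ _ _ q => q
  | _, .free q => q

/-- The decoded letter; `U` is the upper lane of the left neighbour. -/
noncomputable def phi (N : ℕ) (U : List Bool) (C : Wd) (k : ℕ) (c : Core) : Ent :=
  ⟨phiq (C k).q.kf c,
   bval ((if (C k).q.kf.opent = some .d then U else []) ++ Tl N C k .d),
   bval ((if (C k).q.kf.opent = some .b then U else []) ++ Tl N C k .b),
   (C (N - 1)).oc⟩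

/-- The cell number `i` for offset `o`. -/
def cell (N o : ℕ) (f : Wd) (i : ℕ) : Wd := fun j => f (o + N * i + j)

/-- Position of the key. -/
noncomputable def kpos (C : Wd) : ℕ :=
  open Classical in if h : ∃ j, (C j).q.kf.isKey then Nat.find h else 0

/-- The key of a cell. -/
noncomputable def keyOf (C : Wd) : KF Pay := (C (kpos C)).q.kf

/-- The core of a cell. -/
def cor (C : Wd) : Core := (C 0).oc.getD (.free (C 0).q)

theorem kpos_eq {C : Wd} {k : ℕ} (hR : ∀ j < k, (C j).q.kf = .R) (hK : (C k).q.kf.isKey) :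
    kpos C = k := by
  classical
  have h : ∃ j, (C j).q.kf.isKey := ⟨k, hK⟩
  unfold kpos
  rw [dif_pos h, Nat.find_eq_iff]
  exact ⟨hK, fun j hj => by rw [hR j hj]; exact id⟩

theorem CV.kpos_eq {N : ℕ} {C : Wd} {k t : ℕ} {c : Core} (h : CV N C k t c) : kpos C = k :=
  P192.kpos_eq h.kR h.kK

theorem CV.cor_eq {N : ℕ} {C : Wd} {k t : ℕ} {c : Core} (h : CV N C k t c) : cor C = c := by
  simp [cor, h.oc0]

/-- The cells `i0 ≤ i < i1` form a valid region with quiet ends. -/
structure Valid (N o i0 i1 : ℕ) (f : Wd) : Prop where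
  cv : ∀ i, i0 ≤ i → i < i1 →
    ∃ t, CV N (cell N o f i) (kpos (cell N o f i)) t (cor (cell N o f i))
  pv : ∀ i, i0 ≤ i → i + 1 < i1 → PairV N (cell N o f i) (kpos (cell N o f i)) (cor (cell N o f i))
    (cell N o f (i + 1)) (kpos (cell N o f (i + 1))) (cor (cell N o f (i + 1)))
  ql : (keyOf (cell N o f i0)).clsR = 0
  qr : (keyOf (cell N o f (i1 - 1))).clsL = 0

/-- The decoded word. -/
noncomputable def Phi (N o : ℕ) (f : Wd) : Wd := fun i =>
  phi N (Ul N (cell N o f (i - 1)) (kpos (cell N o f (i - 1)))) (cell N o f i)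
    (kpos (cell N o f i)) (cor (cell N o f i))

/-- The effect of a step inside a cell. -/
structure InOut (N : ℕ) (C : Wd) (k : ℕ) (c : Core) (C' : Wd) (k' : ℕ) (c' : Core) : Prop where
  cL : (C' k').q.kf.clsL = (C k).q.kf.clsL
  cR : (C' k').q.kf.clsR = (C k).q.kf.clsR
  ul : Ul N C' k' = Ul N C k
  pvL : ∀ m c0, PV m c0 (C k).q.kf c → PV m c0 (C' k').q.kf c'
  pvR : ∀ m c0, PV (C k).q.kf c m c0 → PV (C' k').q.kf c' m c0
  len : ∀ t, (Tl N C' k' t).length = (Tl N C k t).length
  ph : ∀ U, phi N U C' k' c' = phi N U C k c ∨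
    Step1 (2 ^ N) (phi N U C k c) (phi N U C' k' c') ∨
    Step1 (2 ^ N) (phi N U C' k' c') (phi N U C k c)

/-- First and last flags of a cell starting at `s`. -/
def FL (s N : ℕ) (w : Wd) : Prop :=
  ∀ j < N, (w (s + j)).q.first = decide (j = 0) ∧ (w (s + j)).q.last = decide (j + 1 = N)

/-- The shape of a nonzero cell with key at `k`. -/
structure Shp (N : ℕ) (C : Wd) (k : ℕ) : Prop where
  hk : k < N
  fl : FL 0 N C
  kR : ∀ j < k, (C j).q.kf = .R
  kL : ∀ j < N, k < j → (C j).q.kf = .L
  kK : (C k).q.kf.isKey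

/-- Put the key `m` at position `k` of the cell starting at `s`. -/
def place (s N k : ℕ) (m : KF Pay) (w : Wd) : Wd := fun p =>
  if s ≤ p ∧ p < s + N then
    { w p with q := { (w p).q with kf := if p < s + k then .R else if p = s + k then m else .L } }
  else w p

/-- Overwrite the lane `l` on `[a, b)`. -/
def putL (l : Lane) (a b : ℕ) (w : Wd) (v : ℕ → Option Bool) : Wd := fun p =>
  if a ≤ p ∧ p < b then { w p with q := (w p).q.setL l (v p) } else w p

/-- Overwrite the joint lane of a pair of cells (upper lane on the left, track on the right). -/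
def putP (N : ℕ) (t : Trk) (w : Wd) (v : ℕ → Option Bool) : Wd :=
  putL t.lane N (2 * N) (putL .u 0 N w v) v

/-- The positions `s ≤ j ≤ e` are siblings. -/
def Sib (f : Wd) (s e : ℕ) : Prop :=
  ∀ j, s ≤ j → j < e → (f j).q.last = false ∧ (f (j + 1)).q.first = false

/-- The standard word representing a word of the next level. -/
def liftW (N o : ℕ) (V : Wd) : Wd := fun p => lift N (V ((p - o) / N)) ((p - o) % N)

end Vale.Agent.P192
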